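import Vale.Agent.P162T.Defs

/-!
# P162 [BAS] Basic facts about the operators  (pieces BAS1, BAS2)

All statements here are routine.  `n = card`.

BAS1: `lapOn`, `lap`, `Dop`, `avgOn`, `DL`, `DR`, `op`, `Top`, `Cube`.
BAS2: `EH`, `sec`, `lev` (Walsh analysis of `H = {flp A}`; `flp A * flp B = flp (A ∆ B)`).
-/

open Equiv Finset

set_option linter.unusedSectionVars false

namespace Vale.Agent.P162T

/-! ## BAS1 -/

section BAS1

variable {G : Type} [Group G] {V : Type} [NormedAddCommGroup V] [InnerProductSpace ℝ V]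

theorem ORep.norm_map (ρ : ORep G V) (g : G) (v : V) : ‖ρ.toHom g v‖ = ‖v‖ := by
  have h := ρ.isom g v v
  rw [real_inner_self_eq_norm_sq, real_inner_self_eq_norm_sq] at h
  exact (sq_eq_sq₀ (norm_nonneg _) (norm_nonneg _)).mp h

theorem ORep.map_mul_apply (ρ : ORep G V) (g h : G) (v : V) :
    ρ.toHom (g * h) v = ρ.toHom g (ρ.toHom h v) := by
  rw [map_mul]; rfl

theorem ORep.map_one_apply (ρ : ORep G V) (v : V) : ρ.toHom 1 v = v := by
  rw [map_one]; rfl

theorem ORep.inner_map_left (ρ : ORep G V) (g : G) (v w : V) :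
    inner ℝ (ρ.toHom g v) w = inner ℝ v (ρ.toHom g⁻¹ w) := by
  conv_lhs => rw [← ρ.map_one_apply w, ← mul_inv_cancel g, ρ.map_mul_apply]
  exact ρ.isom g v _

theorem ORep.op_apply [Fintype G] (ρ : ORep G V) (a : G → ℝ) (v : V) :
    ρ.op a v = ∑ g, a g • ρ.toHom g v := by
  simp [ORep.op, LinearMap.sum_apply]

theorem ORep.op_conv [Fintype G] [DecidableEq G] (ρ : ORep G V) (a b : G → ℝ) :
    ρ.op (conv a b) = ρ.op a * ρ.op b := by
  ext v
  rw [Module.End.mul_apply, ORep.op_apply, ORep.op_apply]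
  simp_rw [ORep.op_apply, conv, Finset.sum_smul]
  rw [Finset.sum_comm]
  refine Finset.sum_congr rfl fun h _ => ?_
  rw [map_sum, Finset.smul_sum, ← Equiv.sum_comp (Equiv.mulLeft h)]
  refine Finset.sum_congr rfl fun k _ => ?_
  simp only [Equiv.coe_mulLeft, inv_mul_cancel_left]
  rw [ρ.map_mul_apply, map_smul, smul_smul]

theorem ORep.op_dirac [Fintype G] [DecidableEq G] (ρ : ORep G V) :
    ρ.op (dirac : G → ℝ) = 1 := by
  ext v
  rw [ORep.op_apply]
  simp only [dirac, ite_smul, one_smul, zero_smul]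
  rw [Finset.sum_ite_eq' Finset.univ (1 : G) (fun g => ρ.toHom g v)]
  simp

/-- `op (adj a)` is the adjoint of `op a` -/
theorem ORep.inner_op_adj [Fintype G] (ρ : ORep G V) (a : G → ℝ) (v w : V) :
    inner ℝ (ρ.op (adj a) v) w = inner ℝ v (ρ.op a w) := by
  rw [ORep.op_apply, ORep.op_apply, sum_inner, inner_sum, ← Equiv.sum_comp (Equiv.inv G)]
  refine Finset.sum_congr rfl fun g _ => ?_
  simp only [Equiv.inv_apply, adj, inv_inv]
  rw [real_inner_smul_left, real_inner_smul_right, ρ.inner_map_left, inv_inv]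

variable {X : Type} [Fintype X] [DecidableEq X]

theorem lapOn_apply (ρ : ORep (Perm X) V) (W : Finset X) (v : V) :
    lapOn ρ W v = (1 / 2 : ℝ) • ∑ x ∈ W, ∑ y ∈ W, (v - ρ.toHom (swap x y) v) := by
  simp [lapOn, LinearMap.sum_apply]

theorem inner_swap (ρ : ORep (Perm X) V) (x y : X) (v w : V) :
    inner ℝ (ρ.toHom (swap x y) v) w = inner ℝ v (ρ.toHom (swap x y) w) := by
  rw [ρ.inner_map_left, swap_inv]

theorem lapOn_symm (ρ : ORep (Perm X) V) (W : Finset X) : (lapOn ρ W).IsSymmetric := by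
  intro v w
  rw [lapOn_apply, lapOn_apply, real_inner_smul_left, real_inner_smul_right, sum_inner, inner_sum]
  congr 1
  refine Finset.sum_congr rfl fun x _ => ?_
  rw [sum_inner, inner_sum]
  refine Finset.sum_congr rfl fun y _ => ?_
  rw [inner_sub_left, inner_sub_right, inner_swap]

/-- quadratic form `⟨lapOn v, v⟩ = (1/4) ∑ ‖v - t_{xy} v‖²` -/
theorem inner_lapOn (ρ : ORep (Perm X) V) (W : Finset X) (v : V) :
    inner ℝ (lapOn ρ W v) v =
      (1 / 4) * ∑ x ∈ W, ∑ y ∈ W, ‖v - ρ.toHom (swap x y) v‖ ^ 2 := by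
  rw [lapOn_apply, real_inner_smul_left, sum_inner]
  have h : ∀ x y : X, inner ℝ (v - ρ.toHom (swap x y) v) v =
      (1 / 2) * ‖v - ρ.toHom (swap x y) v‖ ^ 2 := by
    intro x y
    rw [norm_sub_sq_real, ρ.norm_map, inner_sub_left, real_inner_self_eq_norm_sq,
      real_inner_comm v (ρ.toHom (swap x y) v)]
    ring
  simp_rw [sum_inner, h, ← Finset.mul_sum]
  ring

theorem lapOn_nonneg (ρ : ORep (Perm X) V) (W : Finset X) (v : V) :
    0 ≤ inner ℝ (lapOn ρ W v) v := by
  rw [inner_lapOn]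
  exact mul_nonneg (by norm_num) (Finset.sum_nonneg fun x _ => Finset.sum_nonneg fun y _ =>
    sq_nonneg _)

theorem conj_swap_apply (ρ : ORep (Perm X) V) (g : Perm X) (x y : X) (v : V) :
    ρ.toHom g (ρ.toHom (swap x y) v) = ρ.toHom (swap (g x) (g y)) (ρ.toHom g v) := by
  rw [← ρ.map_mul_apply, ← ρ.map_mul_apply, mul_swap_eq_swap_mul]

/-- `lapOn W` commutes with every permutation preserving `W` -/
theorem lapOn_commute (ρ : ORep (Perm X) V) (W : Finset X) (g : Perm X)
    (hg : ∀ x, x ∈ W ↔ g x ∈ W) : Commute (ρ.toHom g) (lapOn ρ W) := by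
  change ρ.toHom g * lapOn ρ W = lapOn ρ W * ρ.toHom g
  ext v
  rw [Module.End.mul_apply, Module.End.mul_apply, lapOn_apply, lapOn_apply, map_smul, map_sum]
  congr 1
  refine Finset.sum_equiv g hg fun x _ => ?_
  rw [map_sum]
  refine Finset.sum_equiv g hg fun y _ => ?_
  rw [map_sub, conj_swap_apply]

theorem lap_commute (ρ : ORep (Perm X) V) (g : Perm X) : Commute (ρ.toHom g) (lap ρ) :=
  lapOn_commute ρ Finset.univ g fun x => by simp

theorem Dop_commute (ρ : ORep (Perm X) V) (g : Perm X) : Commute (ρ.toHom g) (Dop ρ) :=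
  (lap_commute ρ g).smul_right _

theorem isSymmetric_smul {A : V →ₗ[ℝ] V} (hA : A.IsSymmetric) (c : ℝ) :
    (c • A).IsSymmetric := by
  intro v w
  rw [LinearMap.smul_apply, LinearMap.smul_apply, real_inner_smul_left, real_inner_smul_right, hA v w]

theorem Dop_symm (ρ : ORep (Perm X) V) : (Dop ρ).IsSymmetric :=
  isSymmetric_smul (lapOn_symm ρ _) _

theorem Dop_nonneg (ρ : ORep (Perm X) V) (v : V) : 0 ≤ inner ℝ (Dop ρ v) v := by
  unfold Dop
  rw [LinearMap.smul_apply, real_inner_smul_left]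
  exact mul_nonneg (by positivity) (lapOn_nonneg ρ _ v)

/-- eigenvalues of `D` are in `[0, n)` -/
theorem Dop_eig_nonneg (ρ : ORep (Perm X) V) {v : V} (hv : v ≠ 0) {δ : ℝ}
    (h : Dop ρ v = δ • v) : 0 ≤ δ := by
  have h1 := Dop_nonneg ρ v
  rw [h, real_inner_smul_left, real_inner_self_eq_norm_sq] at h1
  have h2 : 0 < ‖v‖ ^ 2 := by have := norm_pos_iff.mpr hv; positivity
  exact nonneg_of_mul_nonneg_left h1 h2

theorem Dop_eig_lap (ρ : ORep (Perm X) V) [Nonempty X] {v : V} {δ : ℝ}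
    (h : Dop ρ v = δ • v) : lap ρ v = ((Fintype.card X : ℝ) * δ) • v := by
  have hn : (Fintype.card X : ℝ) ≠ 0 := by exact_mod_cast Fintype.card_ne_zero
  unfold Dop at h
  rw [LinearMap.smul_apply] at h
  rw [mul_smul, ← h, smul_smul, mul_one_div_cancel hn, one_smul]

theorem Dop_eig_lt (ρ : ORep (Perm X) V) [Nonempty X] {v : V} (hv : v ≠ 0) {δ : ℝ}
    (h : Dop ρ v = δ • v) : δ < Fintype.card X := by
  have hn : (0 : ℝ) < Fintype.card X := by exact_mod_cast Fintype.card_pos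
  have h0 := Dop_eig_lap ρ h
  have h1 := inner_lapOn ρ Finset.univ v
  change inner ℝ (lap ρ v) v = _ at h1
  rw [h0, real_inner_smul_left, real_inner_self_eq_norm_sq] at h1
  have h2 : ∀ x y : X, ‖v - ρ.toHom (swap x y) v‖ ^ 2 ≤ if x = y then 0 else 4 * ‖v‖ ^ 2 := by
    intro x y
    split_ifs with hxy
    · subst hxy
      rw [swap_self, show (Equiv.refl X : Perm X) = 1 from rfl, ρ.map_one_apply, sub_self,
        norm_zero]
      norm_num
    · have h3 := norm_sub_le v (ρ.toHom (swap x y) v)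
      rw [ρ.norm_map] at h3
      have h4 := norm_nonneg (v - ρ.toHom (swap x y) v)
      nlinarith
  have h3 : ∑ x : X, ∑ y : X, ‖v - ρ.toHom (swap x y) v‖ ^ 2 ≤
      ∑ x : X, ∑ y : X, (if x = y then 0 else 4 * ‖v‖ ^ 2) :=
    Finset.sum_le_sum fun x _ => Finset.sum_le_sum fun y _ => h2 x y
  have h4 : ∑ x : X, ∑ y : X, (if x = y then 0 else 4 * ‖v‖ ^ 2) =
      (Fintype.card X : ℝ) * ((Fintype.card X : ℝ) - 1) * (4 * ‖v‖ ^ 2) := by
    have h5 : ∀ x : X, ∑ y : X, (if x = y then 0 else 4 * ‖v‖ ^ 2) =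
        ((Fintype.card X : ℝ) - 1) * (4 * ‖v‖ ^ 2) := by
      intro x
      have h6 : ∀ y : X, (if x = y then 0 else 4 * ‖v‖ ^ 2) =
          4 * ‖v‖ ^ 2 - (if x = y then 4 * ‖v‖ ^ 2 else 0) := by
        intro y; split_ifs <;> simp
      simp_rw [h6]
      rw [Finset.sum_sub_distrib, Finset.sum_ite_eq, Finset.sum_const, Finset.card_univ,
        nsmul_eq_mul]
      simp only [Finset.mem_univ, if_true]
      ring
    simp_rw [h5]
    rw [Finset.sum_const, Finset.card_univ, nsmul_eq_mul]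
    ring
  rw [h4] at h3
  have h7 : 0 < ‖v‖ ^ 2 := by have := norm_pos_iff.mpr hv; positivity
  have h8 : (Fintype.card X : ℝ) * (δ * ‖v‖ ^ 2) ≤
      (Fintype.card X : ℝ) * (((Fintype.card X : ℝ) - 1) * ‖v‖ ^ 2) := by
    linarith
  have h9 := le_of_mul_le_mul_left h8 hn
  have h10 := le_of_mul_le_mul_right h9 h7
  linarith

/-- the permutations supported in `W` -/
def supW (W : Finset X) : Finset (Perm X) :=
  Finset.univ.filter (fun g : Perm X => ∀ x, x ∉ W → g x = x)

theorem mem_supW {W : Finset X} {g : Perm X} : g ∈ supW W ↔ ∀ x, x ∉ W → g x = x := by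
  simp [supW]

theorem one_mem_supW (W : Finset X) : (1 : Perm X) ∈ supW W := mem_supW.mpr fun _ _ => rfl

theorem mul_mem_supW {W : Finset X} {g h : Perm X} (hg : g ∈ supW W) (hh : h ∈ supW W) :
    g * h ∈ supW W :=
  mem_supW.mpr fun x hx => by
    rw [Perm.mul_apply, mem_supW.mp hh x hx, mem_supW.mp hg x hx]

theorem inv_mem_supW {W : Finset X} {g : Perm X} (hg : g ∈ supW W) : g⁻¹ ∈ supW W :=
  mem_supW.mpr fun x hx => by
    rw [Perm.inv_eq_iff_eq, mem_supW.mp hg x hx]

theorem card_supW_ne (W : Finset X) : ((supW W).card : ℝ) ≠ 0 := by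
  exact_mod_cast (Finset.card_pos.mpr ⟨1, one_mem_supW W⟩).ne'

theorem avgOn_eq (ρ : ORep (Perm X) V) (W : Finset X) :
    avgOn ρ W = (1 / ((supW W).card : ℝ)) • ∑ g ∈ supW W, ρ.toHom g := rfl

theorem avgOn_apply (ρ : ORep (Perm X) V) (W : Finset X) (v : V) :
    avgOn ρ W v = (1 / ((supW W).card : ℝ)) • ∑ g ∈ supW W, ρ.toHom g v := by
  rw [avgOn_eq]
  simp [LinearMap.sum_apply]

theorem mul_avgOn (ρ : ORep (Perm X) V) {W : Finset X} {h : Perm X} (hh : h ∈ supW W) :
    ρ.toHom h * avgOn ρ W = avgOn ρ W := by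
  rw [avgOn_eq, mul_smul_comm, Finset.mul_sum]
  congr 1
  refine Finset.sum_equiv (Equiv.mulLeft h) (fun g => ?_) fun g _ => ?_
  · constructor
    · intro hg
      exact mul_mem_supW hh hg
    · intro hg
      have := mul_mem_supW (inv_mem_supW hh) hg
      simpa using this
  · simp [map_mul]

theorem avgOn_mul (ρ : ORep (Perm X) V) {W : Finset X} {h : Perm X} (hh : h ∈ supW W) :
    avgOn ρ W * ρ.toHom h = avgOn ρ W := by
  rw [avgOn_eq, smul_mul_assoc, Finset.sum_mul]
  congr 1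
  refine Finset.sum_equiv (Equiv.mulRight h) (fun g => ?_) fun g _ => ?_
  · constructor
    · intro hg
      exact mul_mem_supW hg hh
    · intro hg
      have := mul_mem_supW hg (inv_mem_supW hh)
      simpa using this
  · simp [map_mul]

theorem avgOn_symm (ρ : ORep (Perm X) V) (W : Finset X) : (avgOn ρ W).IsSymmetric := by
  intro v w
  rw [avgOn_apply, avgOn_apply, real_inner_smul_left, real_inner_smul_right, sum_inner, inner_sum]
  congr 1
  refine Finset.sum_equiv (Equiv.inv (Perm X)) (fun g => ?_) fun g _ => ?_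
  · constructor
    · intro hg
      exact inv_mem_supW hg
    · intro hg
      have := inv_mem_supW hg
      simpa using this
  · rw [ρ.inner_map_left]; rfl

/-- `avgOn W` is idempotent; more generally it absorbs smaller averages -/
theorem avgOn_mul_avgOn (ρ : ORep (Perm X) V) {W W' : Finset X} (h : W ⊆ W') :
    avgOn ρ W' * avgOn ρ W = avgOn ρ W' ∧ avgOn ρ W * avgOn ρ W' = avgOn ρ W' := by
  have hsub : ∀ g ∈ supW W, g ∈ supW W' := fun g hg =>
    mem_supW.mpr fun x hx => mem_supW.mp hg x fun hxW => hx (h hxW)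
  have hc := card_supW_ne W
  constructor
  · conv_lhs => rw [avgOn_eq ρ W]
    rw [mul_smul_comm, Finset.mul_sum, Finset.sum_congr rfl fun g hg => avgOn_mul ρ (hsub g hg),
      Finset.sum_const, ← Nat.cast_smul_eq_nsmul ℝ, smul_smul, one_div_mul_cancel hc, one_smul]
  · conv_lhs => rw [avgOn_eq ρ W]
    rw [smul_mul_assoc, Finset.sum_mul, Finset.sum_congr rfl fun g hg => mul_avgOn ρ (hsub g hg),
      Finset.sum_const, ← Nat.cast_smul_eq_nsmul ℝ, smul_smul, one_div_mul_cancel hc, one_smul]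

theorem avgOn_fixed (ρ : ORep (Perm X) V) (W : Finset X) (v : V) (g : Perm X)
    (hg : ∀ x, x ∉ W → g x = x) : ρ.toHom g (avgOn ρ W v) = avgOn ρ W v := by
  rw [← Module.End.mul_apply, mul_avgOn ρ (mem_supW.mpr hg)]

theorem avgOn_eq_of_fixed (ρ : ORep (Perm X) V) (W : Finset X) (v : V)
    (h : ∀ g : Perm X, (∀ x, x ∉ W → g x = x) → ρ.toHom g v = v) : avgOn ρ W v = v := by
  rw [avgOn_apply, Finset.sum_congr rfl fun g hg => h g (mem_supW.mp hg), Finset.sum_const,
    ← Nat.cast_smul_eq_nsmul ℝ, smul_smul, one_div_mul_cancel (card_supW_ne W), one_smul]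

/-- conjugation -/
theorem avgOn_conj (ρ : ORep (Perm X) V) (W : Finset X) (g : Perm X) :
    ρ.toHom g * avgOn ρ W * ρ.toHom g⁻¹ = avgOn ρ (W.image g) := by
  have hmem : ∀ h : Perm X, h ∈ supW W ↔ (MulAut.conj g).toEquiv h ∈ supW (W.image g) := by
    intro h
    simp only [MulEquiv.toEquiv_eq_coe, MulEquiv.coe_toEquiv, MulAut.conj_apply]
    rw [mem_supW, mem_supW]
    constructor
    · intro hh x hx
      have h1 : g⁻¹ x ∉ W := by
        intro h2
        exact hx (Finset.mem_image.mpr ⟨g⁻¹ x, h2, by simp⟩)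
      rw [Perm.mul_apply, Perm.mul_apply, hh _ h1]
      simp
    · intro hh x hx
      have h1 : g x ∉ W.image g := by
        intro h2
        obtain ⟨y, hy, hyx⟩ := Finset.mem_image.mp h2
        rw [g.injective hyx] at hy
        exact hx hy
      have h2 := hh (g x) h1
      simpa [Perm.mul_apply] using h2
  have hcard : (supW W).card = (supW (W.image g)).card :=
    Finset.card_bij (fun h _ => (MulAut.conj g).toEquiv h) (fun h hh => (hmem h).mp hh)
      (fun a _ b _ hab => (MulAut.conj g).toEquiv.injective hab)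
      (fun b hb => ⟨(MulAut.conj g).toEquiv.symm b,
        (hmem _).mpr (by rw [Equiv.apply_symm_apply]; exact hb), Equiv.apply_symm_apply _ _⟩)
  rw [avgOn_eq, avgOn_eq, mul_smul_comm, smul_mul_assoc, Finset.mul_sum, Finset.sum_mul, hcard]
  congr 1
  refine Finset.sum_equiv (MulAut.conj g).toEquiv hmem fun h _ => ?_
  simp [map_mul]

/-- everything commuting with all `ρ g` commutes with `lapOn`, `Dop`, ... -/
theorem lapOn_commute_of (ρ : ORep (Perm X) V) (W : Finset X) (C : V →ₗ[ℝ] V)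
    (hC : ∀ g, Commute (ρ.toHom g) C) : Commute (lapOn ρ W) C := by
  unfold lapOn
  refine Commute.smul_left ?_ _
  refine Commute.sum_left _ _ _ fun x _ => Commute.sum_left _ _ _ fun y _ => ?_
  exact (Commute.one_left C).sub_left (hC _)

theorem Dop_commute_of (ρ : ORep (Perm X) V) (C : V →ₗ[ℝ] V)
    (hC : ∀ g, Commute (ρ.toHom g) C) : Commute (Dop ρ) C :=
  (lapOn_commute_of ρ Finset.univ C hC).smul_left _

theorem avgOn_commute_Dop (ρ : ORep (Perm X) V) (W : Finset X) :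
    Commute (avgOn ρ W) (Dop ρ) := by
  rw [avgOn_eq]
  exact (Commute.sum_left _ _ _ fun g _ => Dop_commute ρ g).smul_left _

/-- operators of `Perm X` commuting with all `ρ g` commute with `Dop` etc. -/
theorem Dop_commute_op (ρ : ORep (Perm X) V) (a : Perm X → ℝ) :
    Commute (ρ.op a) (Dop ρ) := by
  unfold ORep.op
  exact Commute.sum_left _ _ _ fun g _ => (Dop_commute ρ g).smul_left _

theorem DL_symm (ρ : ORep (Perm (X ⊕ X)) V) : (DL ρ).IsSymmetric := Dop_symm _

theorem DR_symm (ρ : ORep (Perm (X ⊕ X)) V) : (DR ρ).IsSymmetric := Dop_symm _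

theorem inL_mul_inR (a b : Perm X) : inL a * inR b = inR b * inL a := by
  ext z
  rcases z with x | x <;> simp [Perm.mul_apply]

theorem inL_commute_inR (ρ : ORep (Perm (X ⊕ X)) V) (a b : Perm X) :
    Commute (ρ.toHom (inL a)) (ρ.toHom (inR b)) := by
  change ρ.toHom (inL a) * ρ.toHom (inR b) = ρ.toHom (inR b) * ρ.toHom (inL a)
  rw [← map_mul, ← map_mul, inL_mul_inR]

theorem DL_commute_DR (ρ : ORep (Perm (X ⊕ X)) V) : Commute (DL ρ) (DR ρ) := by
  refine Dop_commute_of _ _ fun a => ?_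
  refine (Dop_commute_of _ _ fun b => ?_).symm
  exact (inL_commute_inR ρ a b).symm

theorem DL_commute_Dop (ρ : ORep (Perm (X ⊕ X)) V) : Commute (DL ρ) (Dop ρ) :=
  Dop_commute_of _ _ fun a => Dop_commute ρ (inL a)

theorem DR_commute_Dop (ρ : ORep (Perm (X ⊕ X)) V) : Commute (DR ρ) (Dop ρ) :=
  Dop_commute_of _ _ fun a => Dop_commute ρ (inR a)

end BAS1

section BAS1top

variable {V : Type} [NormedAddCommGroup V] [InnerProductSpace ℝ V]

/-- anything commuting with all `ρ g` commutes with the pass operator -/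
theorem Top_commute_of (d : ℕ) (ρ : ORep (Perm (Cube d)) V) (C : V →ₗ[ℝ] V)
    (hC : ∀ g, Commute (ρ.toHom g) C) : Commute (Top d ρ) C := by
  induction d with
  | zero => exact Commute.one_left C
  | succ d ih =>
    refine ((ih _ fun g => hC _).mul_left (ih _ fun g => hC _)).mul_left ?_
    unfold EH
    exact (Commute.sum_left _ _ _ fun A _ => hC _).smul_left _

section laws

variable {G : Type} [Group G] [Fintype G] [DecidableEq G]

theorem dirac_nonneg_bas (g : G) : 0 ≤ (dirac g : ℝ) := by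
  unfold dirac; split_ifs <;> norm_num

theorem sum_dirac_bas : ∑ g : G, (dirac g : ℝ) = 1 := by
  unfold dirac
  rw [Finset.sum_ite_eq' Finset.univ (1 : G) (fun _ => (1:ℝ))]
  simp

theorem conv_nonneg_bas {a b : G → ℝ} (ha : ∀ g, 0 ≤ a g) (hb : ∀ g, 0 ≤ b g) (g : G) :
    0 ≤ conv a b g :=
  Finset.sum_nonneg fun h _ => mul_nonneg (ha h) (hb _)

theorem sum_conv_bas (a b : G → ℝ) : ∑ g, conv a b g = (∑ g, a g) * ∑ g, b g := by
  unfold conv
  rw [Finset.sum_comm, Finset.sum_mul]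
  refine Finset.sum_congr rfl fun h _ => ?_
  rw [← Finset.mul_sum]
  congr 1
  exact Equiv.sum_comp (Equiv.mulLeft h⁻¹) b

end laws

section laws2

variable {X : Type} [Fintype X] [DecidableEq X]

theorem tens_nonneg_bas {μ ν : Perm X → ℝ} (hμ : ∀ g, 0 ≤ μ g) (hν : ∀ g, 0 ≤ ν g)
    (σ : Perm (X ⊕ X)) : 0 ≤ tens μ ν σ := by
  refine Finset.sum_nonneg fun a _ => Finset.sum_nonneg fun b _ => ?_
  split_ifs
  · exact mul_nonneg (hμ a) (hν b)
  · exact le_rfl

theorem sum_tens_bas (μ ν : Perm X → ℝ) : ∑ σ, tens μ ν σ = (∑ a, μ a) * ∑ b, ν b := by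
  unfold tens
  rw [Finset.sum_comm, Finset.sum_mul]
  refine Finset.sum_congr rfl fun a _ => ?_
  rw [Finset.sum_comm, Finset.mul_sum]
  refine Finset.sum_congr rfl fun b _ => ?_
  rw [Finset.sum_ite_eq Finset.univ (Perm.sumCongr a b) (fun _ => μ a * ν b)]
  simp

theorem hlaw_nonneg_bas (σ : Perm (X ⊕ X)) : 0 ≤ hlaw X σ := by
  unfold hlaw
  refine mul_nonneg (by positivity) (Finset.sum_nonneg fun A _ => ?_)
  split_ifs <;> norm_num

theorem sum_hlaw_bas : ∑ σ, hlaw X σ = 1 := by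
  unfold hlaw
  rw [← Finset.mul_sum, Finset.sum_comm]
  have h1 : ∀ A : Finset X, ∑ σ : Perm (X ⊕ X), (if flp A = σ then (1:ℝ) else 0) = 1 := by
    intro A
    rw [Finset.sum_ite_eq Finset.univ (flp A) (fun _ => (1:ℝ))]
    simp
  simp_rw [h1]
  rw [Finset.sum_const, Finset.card_univ, Fintype.card_finset, nsmul_eq_mul, mul_one]
  push_cast
  rw [one_div, inv_mul_cancel₀ (by positivity)]

theorem op_hlaw (ρ : ORep (Perm (X ⊕ X)) V) : ρ.op (hlaw X) = EH ρ := by
  ext v
  rw [ORep.op_apply]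
  unfold hlaw EH
  simp only [LinearMap.smul_apply, LinearMap.sum_apply, Finset.mul_sum, Finset.sum_smul,
    Finset.smul_sum]
  rw [Finset.sum_comm]
  refine Finset.sum_congr rfl fun A _ => ?_
  simp only [mul_ite, mul_one, mul_zero, ite_smul, zero_smul]
  rw [Finset.sum_ite_eq Finset.univ (flp A) (fun σ => (1 / (2:ℝ) ^ Fintype.card X) • ρ.toHom σ v)]
  simp

theorem sumCongr_eq (a b : Perm X) : Perm.sumCongr a b = inL a * inR b := by
  ext z
  rcases z with x | x <;> simp [Perm.mul_apply]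

theorem op_tens (ρ : ORep (Perm (X ⊕ X)) V) (μ ν : Perm X → ℝ) :
    ρ.op (tens μ ν) = (ρ.comp inL).op μ * (ρ.comp inR).op ν := by
  ext v
  rw [Module.End.mul_apply, ORep.op_apply, ORep.op_apply]
  unfold tens
  simp only [Finset.sum_smul]
  rw [Finset.sum_comm]
  refine Finset.sum_congr rfl fun a _ => ?_
  rw [Finset.sum_comm, ORep.op_apply, map_sum, Finset.smul_sum]
  refine Finset.sum_congr rfl fun b _ => ?_
  simp only [ite_smul, zero_smul]
  rw [Finset.sum_ite_eq Finset.univ (Perm.sumCongr a b) (fun σ => (μ a * ν b) • ρ.toHom σ v)]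
  simp only [Finset.mem_univ, if_true, ORep.comp_apply, map_smul, smul_smul]
  rw [sumCongr_eq, ρ.map_mul_apply]

end laws2

/-- the pass operator is the operator of the law `tlaw` -/
theorem Top_eq_op (d : ℕ) (ρ : ORep (Perm (Cube d)) V) : Top d ρ = ρ.op (tlaw d) := by
  induction d with
  | zero => exact (ORep.op_dirac ρ).symm
  | succ d ih =>
    change Top d (ORep.comp (G := Perm (Cube d ⊕ Cube d)) ρ inL) *
      Top d (ORep.comp (G := Perm (Cube d ⊕ Cube d)) ρ inR) * EH (X := Cube d) ρ = _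
    rw [ih, ih, ← op_tens (X := Cube d) ρ, ← op_hlaw (X := Cube d) ρ]
    exact (ORep.op_conv (G := Perm (Cube d ⊕ Cube d)) ρ _ _).symm

theorem tlaw_nonneg (d : ℕ) (g : Perm (Cube d)) : 0 ≤ tlaw d g := by
  induction d with
  | zero => exact dirac_nonneg_bas g
  | succ d ih =>
    exact conv_nonneg_bas (G := Perm (Cube d ⊕ Cube d)) (tens_nonneg_bas (X := Cube d) ih ih)
      (hlaw_nonneg_bas (X := Cube d)) g

theorem tlaw_sum (d : ℕ) : ∑ g, tlaw d g = 1 := by
  induction d with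
  | zero => exact sum_dirac_bas (G := Perm (Cube 0))
  | succ d ih =>
    have h := sum_conv_bas (G := Perm (Cube d ⊕ Cube d)) (tens (X := Cube d) (tlaw d) (tlaw d))
      (hlaw (Cube d))
    rw [sum_tens_bas, sum_hlaw_bas, ih, one_mul, one_mul] at h
    exact h

theorem norm_Top_le (d : ℕ) (ρ : ORep (Perm (Cube d)) V) (v : V) : ‖Top d ρ v‖ ≤ ‖v‖ := by
  rw [Top_eq_op, ORep.op_apply]
  calc ‖∑ g, tlaw d g • ρ.toHom g v‖ ≤ ∑ g, ‖tlaw d g • ρ.toHom g v‖ := norm_sum_le _ _
    _ = ∑ g, tlaw d g * ‖v‖ := by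
      refine Finset.sum_congr rfl fun g _ => ?_
      rw [norm_smul, ρ.norm_map, Real.norm_of_nonneg (tlaw_nonneg d g)]
    _ = ‖v‖ := by rw [← Finset.sum_mul, tlaw_sum, one_mul]

end BAS1top

/-! ## BAS2 -/

section BAS2

variable {X : Type} [Fintype X] [DecidableEq X] {V : Type} [NormedAddCommGroup V]
  [InnerProductSpace ℝ V]

theorem flp_mul_flp (A B : Finset X) : flp A * flp B = flp (symmDiff A B) := by
  ext z
  rw [Perm.mul_apply]
  rcases z with x | x <;> by_cases hA : x ∈ A <;> by_cases hB : x ∈ B <;>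
    simp [flp_apply_inl, flp_apply_inr, hA, hB, Finset.mem_symmDiff]

theorem flp_empty : flp (∅ : Finset X) = 1 := by
  ext z
  rcases z with x | x <;> simp [flp_apply_inl, flp_apply_inr]

theorem flp_inv (A : Finset X) : (flp A)⁻¹ = flp A := by
  rw [inv_eq_iff_mul_eq_one, flp_mul_flp, symmDiff_self]
  exact flp_empty

theorem flp_singleton (x : X) : flp ({x} : Finset X) = swap (Sum.inl x) (Sum.inr x) := by
  ext z
  rcases z with y | y
  · by_cases h : y = x
    · subst h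
      simp [flp_apply_inl]
    · rw [flp_apply_inl, if_neg (by simpa using h), swap_apply_of_ne_of_ne]
      · exact fun hc => h (Sum.inl.inj hc)
      · simp
  · by_cases h : y = x
    · subst h
      simp [flp_apply_inr]
    · rw [flp_apply_inr, if_neg (by simpa using h), swap_apply_of_ne_of_ne]
      · simp
      · exact fun hc => h (Sum.inr.inj hc)

/-! The characters `(-1)^{|A ∩ S|}`. -/

theorem chi_prod (A S : Finset X) :
    ((-1 : ℝ) ^ (A ∩ S).card) = ∏ x ∈ A, (if x ∈ S then (-1 : ℝ) else 1) := by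
  rw [Finset.prod_ite, Finset.prod_const, Finset.prod_const_one, mul_one, Finset.filter_mem_eq_inter]

theorem chi_comm (A S : Finset X) :
    ((-1 : ℝ) ^ (A ∩ S).card) = ((-1 : ℝ) ^ (S ∩ A).card) := by
  rw [Finset.inter_comm]

theorem chi_prod_univ (A S : Finset X) :
    ((-1 : ℝ) ^ (A ∩ S).card) = ∏ x : X, (if x ∈ A ∧ x ∈ S then (-1 : ℝ) else 1) := by
  rw [Finset.prod_ite, Finset.prod_const, Finset.prod_const_one, mul_one]
  congr 2
  ext x
  simp

theorem chi_symmDiff (A B S : Finset X) :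
    ((-1 : ℝ) ^ (symmDiff A B ∩ S).card) =
      ((-1 : ℝ) ^ (A ∩ S).card) * ((-1 : ℝ) ^ (B ∩ S).card) := by
  rw [chi_prod_univ, chi_prod_univ, chi_prod_univ, ← Finset.prod_mul_distrib]
  refine Finset.prod_congr rfl fun x _ => ?_
  by_cases hA : x ∈ A <;> by_cases hB : x ∈ B <;> by_cases hS : x ∈ S <;>
    simp [hA, hB, hS, Finset.mem_symmDiff]

theorem chi_symmDiff_right (A S T : Finset X) :
    ((-1 : ℝ) ^ (A ∩ symmDiff S T).card) =
      ((-1 : ℝ) ^ (A ∩ S).card) * ((-1 : ℝ) ^ (A ∩ T).card) := by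
  rw [chi_comm A, chi_symmDiff, chi_comm S, chi_comm T]

theorem chi_mul_self (A S : Finset X) :
    ((-1 : ℝ) ^ (A ∩ S).card) * ((-1 : ℝ) ^ (A ∩ S).card) = 1 := by
  rw [← pow_add, ← two_mul, pow_mul]
  norm_num

theorem chi_sum (S : Finset X) :
    ∑ A : Finset X, ((-1 : ℝ) ^ (A ∩ S).card) =
      if S = ∅ then (2 : ℝ) ^ Fintype.card X else 0 := by
  have h1 : ∑ A : Finset X, ((-1 : ℝ) ^ (A ∩ S).card)
      = ∏ x : X, (1 + (if x ∈ S then (-1 : ℝ) else 1)) := by
    rw [Finset.prod_one_add, Finset.powerset_univ]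
    exact Finset.sum_congr rfl fun A _ => chi_prod A S
  rw [h1]
  split_ifs with h
  · subst h
    simp only [Finset.notMem_empty, if_false]
    rw [Finset.prod_const, Finset.card_univ]
    norm_num
  · obtain ⟨x, hx⟩ := Finset.nonempty_of_ne_empty h
    exact Finset.prod_eq_zero (Finset.mem_univ x) (by simp [hx])

theorem toHom_flp_mul (ρ : ORep (Perm (X ⊕ X)) V) (A B : Finset X) :
    ρ.toHom (flp A) * ρ.toHom (flp B) = ρ.toHom (flp (symmDiff A B)) := by
  rw [← map_mul, flp_mul_flp]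

/-- `ρ(flp A) sec S = (-1)^{|A ∩ S|} sec S` -/
theorem flp_mul_sec (ρ : ORep (Perm (X ⊕ X)) V) (A S : Finset X) :
    ρ.toHom (flp A) * sec ρ S = ((-1 : ℝ) ^ (A ∩ S).card) • sec ρ S := by
  unfold sec
  rw [mul_smul_comm, Finset.mul_sum, smul_comm]
  congr 1
  rw [← Equiv.sum_comp (symmDiff_right_involutive A).toPerm, Finset.smul_sum]
  refine Finset.sum_congr rfl fun B _ => ?_
  rw [Function.Involutive.coe_toPerm, chi_symmDiff, mul_smul_comm, toHom_flp_mul,
    symmDiff_symmDiff_cancel_left, smul_smul]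

theorem sec_mul_flp (ρ : ORep (Perm (X ⊕ X)) V) (A S : Finset X) :
    sec ρ S * ρ.toHom (flp A) = ((-1 : ℝ) ^ (A ∩ S).card) • sec ρ S := by
  rw [← flp_mul_sec]
  unfold sec
  rw [mul_smul_comm, smul_mul_assoc, Finset.mul_sum, Finset.sum_mul]
  congr 1
  refine Finset.sum_congr rfl fun B _ => ?_
  rw [mul_smul_comm, smul_mul_assoc, toHom_flp_mul, toHom_flp_mul, symmDiff_comm]

theorem flp_insert {x : X} {A : Finset X} (hx : x ∉ A) :
    flp (insert x A) = flp {x} * flp A := by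
  rw [flp_mul_flp]
  congr 1
  ext y
  rw [Finset.mem_insert, Finset.mem_symmDiff, Finset.mem_singleton]
  by_cases h : y = x
  · subst h
    simp [hx]
  · simp [h]

theorem chi_singleton (x : X) (S : Finset X) :
    ((-1 : ℝ) ^ (({x} : Finset X) ∩ S).card) = if x ∈ S then (-1 : ℝ) else 1 := by
  rw [chi_prod, Finset.prod_singleton]

theorem chi_insert {x : X} {A : Finset X} (hx : x ∉ A) (S : Finset X) :
    ((-1 : ℝ) ^ ((insert x A) ∩ S).card) =
      (if x ∈ S then (-1 : ℝ) else 1) * ((-1 : ℝ) ^ (A ∩ S).card) := by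
  rw [chi_prod, chi_prod, Finset.prod_insert hx]

theorem two_pow_card_pos : (0 : ℝ) < (2 : ℝ) ^ Fintype.card X := by positivity

/-- recognise vectors of a sector by the generators `u_x = flp {x}` -/
theorem sec_eq_self_iff (ρ : ORep (Perm (X ⊕ X)) V) (S : Finset X) (v : V) :
    sec ρ S v = v ↔ ∀ x : X, ρ.toHom (flp {x}) v = (if x ∈ S then (-1 : ℝ) else 1) • v := by
  constructor
  · intro h x
    have h1 := congrArg (fun T : V →ₗ[ℝ] V => T v) (flp_mul_sec ρ {x} S)
    rw [chi_singleton] at h1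
    simp only [Module.End.mul_apply, LinearMap.smul_apply, h] at h1
    exact h1
  · intro h
    have h1 : ∀ A : Finset X, ρ.toHom (flp A) v = ((-1 : ℝ) ^ (A ∩ S).card) • v := by
      intro A
      induction A using Finset.induction_on with
      | empty => simp [flp_empty]
      | insert x A hx ih =>
        rw [flp_insert hx, map_mul, Module.End.mul_apply, ih, map_smul, h x, chi_insert hx,
          smul_smul, mul_comm]
    unfold sec
    rw [LinearMap.smul_apply, LinearMap.sum_apply]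
    have h2 : ∀ A ∈ (univ : Finset (Finset X)),
        (((-1 : ℝ) ^ (A ∩ S).card) • ρ.toHom (flp A)) v = v := by
      intro A _
      rw [LinearMap.smul_apply, h1, smul_smul, chi_mul_self, one_smul]
    rw [Finset.sum_congr rfl h2, Finset.sum_const, Finset.card_univ, Fintype.card_finset,
      ← Nat.cast_smul_eq_nsmul ℝ, smul_smul]
    push_cast
    rw [one_div, inv_mul_cancel₀ two_pow_card_pos.ne', one_smul]

theorem sec_mul_sec (ρ : ORep (Perm (X ⊕ X)) V) (S S' : Finset X) :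
    sec ρ S * sec ρ S' = if S = S' then sec ρ S else 0 := by
  have h1 : sec ρ S * sec ρ S' = ((1 / (2 : ℝ) ^ Fintype.card X) *
      ∑ A : Finset X, ((-1 : ℝ) ^ (A ∩ symmDiff S S').card)) • sec ρ S' := by
    conv_lhs => rw [sec]
    rw [smul_mul_assoc, Finset.sum_mul, mul_smul, Finset.sum_smul]
    congr 1
    refine Finset.sum_congr rfl fun A _ => ?_
    rw [smul_mul_assoc, flp_mul_sec, smul_smul, chi_symmDiff_right]
  rw [h1, chi_sum]
  by_cases h : S = S'
  · subst h
    rw [symmDiff_self, if_pos rfl, if_pos (by rfl), one_div,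
      inv_mul_cancel₀ two_pow_card_pos.ne', one_smul]
  · rw [if_neg h, if_neg, mul_zero, zero_smul]
    intro hc
    exact h (symmDiff_eq_bot.1 hc)

theorem flp_symm (ρ : ORep (Perm (X ⊕ X)) V) (A : Finset X) :
    (ρ.toHom (flp A)).IsSymmetric := by
  intro v w
  rw [ORep.inner_map_left, flp_inv]

theorem sum_isSymmetric {κ : Type} (s : Finset κ) (f : κ → V →ₗ[ℝ] V)
    (h : ∀ k ∈ s, (f k).IsSymmetric) : (∑ k ∈ s, f k).IsSymmetric := by
  intro v w
  rw [LinearMap.sum_apply, LinearMap.sum_apply, sum_inner, inner_sum]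
  exact Finset.sum_congr rfl fun k hk => h k hk v w

theorem smul_isSymmetric (c : ℝ) {f : V →ₗ[ℝ] V} (h : f.IsSymmetric) :
    (c • f).IsSymmetric := by
  intro v w
  rw [LinearMap.smul_apply, LinearMap.smul_apply, real_inner_smul_left, real_inner_smul_right, h]

theorem sec_symm (ρ : ORep (Perm (X ⊕ X)) V) (S : Finset X) : (sec ρ S).IsSymmetric :=
  smul_isSymmetric _ (sum_isSymmetric _ _ fun A _ => smul_isSymmetric _ (flp_symm ρ A))

theorem sum_sec (ρ : ORep (Perm (X ⊕ X)) V) : ∑ S : Finset X, sec ρ S = 1 := by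
  unfold sec
  rw [← Finset.smul_sum, Finset.sum_comm]
  have h1 : ∀ A ∈ (univ : Finset (Finset X)),
      ∑ S : Finset X, ((-1 : ℝ) ^ (A ∩ S).card) • ρ.toHom (flp A)
        = if A = ∅ then ((2 : ℝ) ^ Fintype.card X) • (1 : V →ₗ[ℝ] V) else 0 := by
    intro A _
    rw [← Finset.sum_smul]
    have h2 : ∑ S : Finset X, ((-1 : ℝ) ^ (A ∩ S).card)
        = ∑ S : Finset X, ((-1 : ℝ) ^ (S ∩ A).card) :=
      Finset.sum_congr rfl fun S _ => chi_comm A S
    rw [h2, chi_sum]
    by_cases h : A = ∅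
    · rw [if_pos h, if_pos h, h, flp_empty, map_one]
    · rw [if_neg h, if_neg h, zero_smul]
  rw [Finset.sum_congr rfl h1, Finset.sum_ite_eq' univ ∅, if_pos (mem_univ _), smul_smul, one_div,
    inv_mul_cancel₀ two_pow_card_pos.ne', one_smul]

/-- if `C` satisfies `u_A C u_A = (-1)^{|A ∩ B|} C` for all `A`, then `C sec S = sec (S ∆ B) C` -/
theorem sec_shift (ρ : ORep (Perm (X ⊕ X)) V) (C : V →ₗ[ℝ] V) (B : Finset X)
    (hC : ∀ x : X, ρ.toHom (flp {x}) * C =
      (if x ∈ B then (-1 : ℝ) else 1) • (C * ρ.toHom (flp {x}))) (S : Finset X) :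
    C * sec ρ S = sec ρ (symmDiff S B) * C := by
  have h1 : ∀ A : Finset X, ρ.toHom (flp A) * C
      = ((-1 : ℝ) ^ (A ∩ B).card) • (C * ρ.toHom (flp A)) := by
    intro A
    induction A using Finset.induction_on with
    | empty => simp [flp_empty]
    | insert x A hx ih =>
      rw [flp_insert hx, map_mul, mul_assoc, ih, mul_smul_comm, ← mul_assoc, hC, chi_insert hx,
        smul_mul_assoc, mul_assoc, smul_smul, mul_comm]
  unfold sec
  rw [mul_smul_comm, smul_mul_assoc, Finset.mul_sum, Finset.sum_mul]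
  congr 1
  refine Finset.sum_congr rfl fun A _ => ?_
  rw [mul_smul_comm, smul_mul_assoc, h1, smul_smul, chi_symmDiff_right, mul_assoc, chi_mul_self,
    mul_one]

theorem norm_sec_sq (ρ : ORep (Perm (X ⊕ X)) V) (S : Finset X) (v : V) :
    ‖sec ρ S v‖ ^ 2 = inner ℝ v (sec ρ S v) := by
  rw [← real_inner_self_eq_norm_sq, sec_symm ρ S v]
  have h1 := congrArg (fun T : V →ₗ[ℝ] V => T v) (sec_mul_sec ρ S S)
  rw [if_pos rfl] at h1
  simp only [Module.End.mul_apply] at h1
  rw [h1]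

theorem norm_sq_eq_sum_sec (ρ : ORep (Perm (X ⊕ X)) V) (v : V) :
    ‖v‖ ^ 2 = ∑ S : Finset X, ‖sec ρ S v‖ ^ 2 := by
  rw [Finset.sum_congr rfl fun S _ => norm_sec_sq ρ S v, ← inner_sum, ← LinearMap.sum_apply,
    sum_sec, Module.End.one_apply, real_inner_self_eq_norm_sq]

theorem lev_symm (ρ : ORep (Perm (X ⊕ X)) V) (m : ℕ) : (lev ρ m).IsSymmetric :=
  sum_isSymmetric _ _ fun S _ => sec_symm ρ S

theorem lev_mul_lev (ρ : ORep (Perm (X ⊕ X)) V) (m m' : ℕ) :
    lev ρ m * lev ρ m' = if m = m' then lev ρ m else 0 := by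
  unfold lev
  rw [Finset.sum_mul_sum]
  have h1 : ∀ S ∈ Finset.univ.filter (fun S : Finset X => S.card = m),
      ∑ S' ∈ Finset.univ.filter (fun S : Finset X => S.card = m'), sec ρ S * sec ρ S'
        = if m = m' then sec ρ S else 0 := by
    intro S hS
    have hS' : S.card = m := (Finset.mem_filter.1 hS).2
    rw [Finset.sum_congr rfl fun S' _ => sec_mul_sec ρ S S', Finset.sum_ite_eq]
    by_cases h : m = m'
    · rw [if_pos h, if_pos]
      simp [hS', h]
    · rw [if_neg h, if_neg]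
      intro hc
      exact h (hS'.symm.trans (Finset.mem_filter.1 hc).2)
  rw [Finset.sum_congr rfl h1]
  by_cases h : m = m'
  · simp [h]
  · simp [h]

theorem norm_lev_sq' (ρ : ORep (Perm (X ⊕ X)) V) (m : ℕ) (v : V) :
    ‖lev ρ m v‖ ^ 2 = inner ℝ v (lev ρ m v) := by
  rw [← real_inner_self_eq_norm_sq, lev_symm ρ m v]
  have h1 := congrArg (fun T : V →ₗ[ℝ] V => T v) (lev_mul_lev ρ m m)
  rw [if_pos rfl] at h1
  simp only [Module.End.mul_apply] at h1
  rw [h1]

theorem norm_lev_sq (ρ : ORep (Perm (X ⊕ X)) V) (m : ℕ) (v : V) :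
    ‖lev ρ m v‖ ^ 2 = ∑ S ∈ Finset.univ.filter (fun S : Finset X => S.card = m),
      ‖sec ρ S v‖ ^ 2 := by
  rw [norm_lev_sq', Finset.sum_congr rfl fun S _ => norm_sec_sq ρ S v, ← inner_sum,
    ← LinearMap.sum_apply, lev]

theorem lev_eq_zero (ρ : ORep (Perm (X ⊕ X)) V) (m : ℕ) (hm : Fintype.card X < m) :
    lev ρ m = 0 := by
  unfold lev
  rw [Finset.filter_false_of_mem, Finset.sum_empty]
  intro S _ hS
  have := Finset.card_le_univ S
  omega

theorem sum_lev (ρ : ORep (Perm (X ⊕ X)) V) :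
    ∑ m ∈ Finset.range (Fintype.card X + 1), lev ρ m = 1 := by
  unfold lev
  rw [← sum_sec ρ]
  exact Finset.sum_fiberwise_of_maps_to
    (fun S _ => Finset.mem_range.2 (Nat.lt_succ_of_le (Finset.card_le_univ S))) _

theorem norm_sq_eq_sum_lev (ρ : ORep (Perm (X ⊕ X)) V) (v : V) :
    ‖v‖ ^ 2 = ∑ m ∈ Finset.range (Fintype.card X + 1), ‖lev ρ m v‖ ^ 2 := by
  rw [Finset.sum_congr rfl fun m _ => norm_lev_sq' ρ m v, ← inner_sum, ← LinearMap.sum_apply,
    sum_lev, Module.End.one_apply, real_inner_self_eq_norm_sq]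

theorem sec_empty (ρ : ORep (Perm (X ⊕ X)) V) : sec ρ ∅ = EH ρ := by
  unfold sec EH
  simp

theorem lev_zero (ρ : ORep (Perm (X ⊕ X)) V) : lev ρ 0 = EH ρ := by
  rw [← sec_empty]
  unfold lev
  have : Finset.univ.filter (fun S : Finset X => S.card = 0) = {∅} := by
    ext S
    simp
  rw [this, Finset.sum_singleton]

theorem norm_lev_le (ρ : ORep (Perm (X ⊕ X)) V) (m : ℕ) (v : V) : ‖lev ρ m v‖ ≤ ‖v‖ := by
  have h1 : ‖lev ρ m v‖ ^ 2 ≤ ‖v‖ * ‖lev ρ m v‖ := by
    rw [norm_lev_sq']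
    exact real_inner_le_norm _ _
  rcases (norm_nonneg (lev ρ m v)).eq_or_lt with h0 | h0
  · rw [← h0]; exact norm_nonneg _
  · nlinarith

theorem EH_idem (ρ : ORep (Perm (X ⊕ X)) V) : EH ρ * EH ρ = EH ρ := by
  rw [← sec_empty, sec_mul_sec, if_pos rfl]

theorem EH_symm (ρ : ORep (Perm (X ⊕ X)) V) : (EH ρ).IsSymmetric := by
  rw [← sec_empty]
  exact sec_symm ρ ∅

theorem norm_EH_le (ρ : ORep (Perm (X ⊕ X)) V) (v : V) : ‖EH ρ v‖ ≤ ‖v‖ := by
  rw [← lev_zero]
  exact norm_lev_le ρ 0 v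

/-- a vector fixed by `E_H` is fixed by every `flp A` -/
theorem flp_of_EH (ρ : ORep (Perm (X ⊕ X)) V) {v : V} (hv : EH ρ v = v) (A : Finset X) :
    ρ.toHom (flp A) v = v := by
  have h1 := congrArg (fun T : V →ₗ[ℝ] V => T v) (flp_mul_sec ρ A ∅)
  rw [sec_empty] at h1
  simpa [hv] using h1

/-- everything commuting with all `ρ g` commutes with `sec`, `lev`, `EH` -/
theorem sec_commute_of (ρ : ORep (Perm (X ⊕ X)) V) (C : V →ₗ[ℝ] V)
    (hC : ∀ g, Commute (ρ.toHom g) C) (S : Finset X) : Commute (sec ρ S) C := by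
  unfold sec
  exact (Commute.sum_left _ _ _ fun A _ => (hC _).smul_left _).smul_left _

theorem lev_commute_of (ρ : ORep (Perm (X ⊕ X)) V) (C : V →ₗ[ℝ] V)
    (hC : ∀ g, Commute (ρ.toHom g) C) (m : ℕ) : Commute (lev ρ m) C := by
  unfold lev
  exact Commute.sum_left _ _ _ fun S _ => sec_commute_of ρ C hC S

theorem EH_commute_of (ρ : ORep (Perm (X ⊕ X)) V) (C : V →ₗ[ℝ] V)
    (hC : ∀ g, Commute (ρ.toHom g) C) : Commute (EH ρ) C := by
  rw [← sec_empty]
  exact sec_commute_of ρ C hC ∅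

end BAS2

end Vale.Agent.P162T
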