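import Vale.Agent.P162T.Defs
import Vale.Agent.ThorpA.Bridge

/-!
# P162: bridge between the Thorp law of the problem and the pass law `tlaw d` on `Perm (Cube d)`
-/

open Equiv Finset

namespace Vale.Agent.P162T

open Vale.Agent.ThorpA (thorpLaw thorpPow tvDist tmix half layer pass posn word opG reg)

/-! ### Numbering the cube -/

/-- Number of a point of the cube. -/
def idx : (d : ℕ) → Cube d → ℕ
  | 0, _ => 0
  | _ + 1, Sum.inl x => idx _ x
  | d + 1, Sum.inr x => idx d x + 2 ^ d

theorem idx_inl (d : ℕ) (x : Cube d) :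
    idx (d + 1) (Sum.inl x : Cube d ⊕ Cube d) = idx d x := rfl

theorem idx_inr (d : ℕ) (x : Cube d) :
    idx (d + 1) (Sum.inr x : Cube d ⊕ Cube d) = idx d x + 2 ^ d := rfl

theorem idx_lt : ∀ (d : ℕ) (x : Cube d), idx d x < 2 ^ d
  | 0, _ => by simp [idx]
  | d + 1, Sum.inl x => by
    have h := idx_lt d x
    have h2 : idx (d + 1) (Sum.inl x : Cube d ⊕ Cube d) = idx d x := rfl
    have : 2 ^ (d + 1) = 2 ^ d + 2 ^ d := by rw [pow_succ]; ring
    omega
  | d + 1, Sum.inr x => by
    have h := idx_lt d x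
    have h2 : idx (d + 1) (Sum.inr x : Cube d ⊕ Cube d) = idx d x + 2 ^ d := rfl
    have : 2 ^ (d + 1) = 2 ^ d + 2 ^ d := by rw [pow_succ]; ring
    omega

theorem idx_inj : ∀ (d : ℕ) (x y : Cube d), idx d x = idx d y → x = y
  | 0, x, y, _ => by
    change Unit at x y
    rfl
  | d + 1, Sum.inl x, Sum.inl y, h => by
    have : x = y := idx_inj d x y h
    rw [this]
  | d + 1, Sum.inl x, Sum.inr y, h => by
    exfalso
    have h1 := idx_lt d x
    have h2 : idx d x = idx d y + 2 ^ d := h
    omega
  | d + 1, Sum.inr x, Sum.inl y, h => by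
    exfalso
    have h1 := idx_lt d y
    have h2 : idx d x + 2 ^ d = idx d y := h
    omega
  | d + 1, Sum.inr x, Sum.inr y, h => by
    have h2 : idx d x + 2 ^ d = idx d y + 2 ^ d := h
    have : x = y := idx_inj d x y (by omega)
    rw [this]

/-- The numbering as a function to `Fin (2^d)`. -/
def idxFin (d : ℕ) (x : Cube d) : Fin (2 ^ d) := ⟨idx d x, idx_lt d x⟩

theorem idxFin_bij (d : ℕ) : Function.Bijective (idxFin d) := by
  rw [Fintype.bijective_iff_injective_and_card]
  refine ⟨fun x y h => idx_inj d x y (congrArg Fin.val h), ?_⟩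
  rw [card_cube, Fintype.card_fin]

/-- The numbering. -/
noncomputable def cubeEquiv (d : ℕ) : Cube d ≃ Fin (2 ^ d) := Equiv.ofBijective _ (idxFin_bij d)

theorem cubeEquiv_val (d : ℕ) (x : Cube d) : ((cubeEquiv d x : Fin (2 ^ d)) : ℕ) = idx d x := rfl

theorem posn_idx (d : ℕ) (x : Cube d) : posn (2 ^ d) (idx d x) = cubeEquiv d x := by
  apply Fin.ext
  rw [ThorpA.posn_val (idx_lt d x), cubeEquiv_val]

/-! ### Operators of measures -/

section Ops

variable {G : Type} [Group G] [Fintype G] [DecidableEq G] {A : Type*} [Ring A] [Algebra ℝ A]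

/-- Operator of a function on the group under a homomorphism to an algebra. -/
noncomputable def opH (R : G →* A) (μ : G → ℝ) : A := ∑ g, μ g • R g

theorem opH_conv (R : G →* A) (μ ν : G → ℝ) : opH R (conv μ ν) = opH R μ * opH R ν := by
  unfold opH conv
  rw [Finset.sum_mul]
  have h1 : ∀ h : G, (μ h • R h) * ∑ σ, ν σ • R σ = ∑ g, (μ h * ν (h⁻¹ * g)) • R g := by
    intro h
    rw [Finset.mul_sum]
    rw [← Equiv.sum_comp (Equiv.mulLeft h) (fun g => (μ h * ν (h⁻¹ * g)) • R g)]
    refine Finset.sum_congr rfl fun σ _ => ?_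
    rw [Equiv.coe_mulLeft, smul_mul_smul_comm, ← map_mul, inv_mul_cancel_left]
  rw [Finset.sum_congr rfl fun h _ => h1 h, Finset.sum_comm]
  refine Finset.sum_congr rfl fun g _ => ?_
  rw [Finset.sum_smul]

theorem opH_dirac (R : G →* A) : opH R dirac = 1 := by
  unfold opH dirac
  have : ∀ σ : G, (if σ = 1 then (1 : ℝ) else 0) • R σ = if σ = 1 then R σ else 0 := by
    intro σ
    split_ifs <;> simp
  rw [Finset.sum_congr rfl fun σ _ => this σ, Finset.sum_ite_eq' univ 1 (fun σ => R σ)]
  simp

theorem opH_cpow (R : G →* A) (μ : G → ℝ) (k : ℕ) : opH R (cpow μ k) = opH R μ ^ k := by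
  induction k with
  | zero => rw [pow_zero]; exact opH_dirac R
  | succ k ih =>
    have h : cpow μ (k + 1) = conv μ (cpow μ k) := rfl
    rw [h, opH_conv, ih, pow_succ']

end Ops

section PermOps

variable {X : Type} [Fintype X] [DecidableEq X] {A : Type*} [Ring A] [Algebra ℝ A]

theorem opH_tens (R : Perm (X ⊕ X) →* A) (μ ν : Perm X → ℝ) :
    opH R (tens μ ν) = opH (R.comp inL) μ * opH (R.comp inR) ν := by
  unfold opH tens
  have h1 : ∀ σ : Perm (X ⊕ X), (∑ a : Perm X, ∑ b : Perm X,
      if Perm.sumCongr a b = σ then μ a * ν b else 0) • R σ =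
      ∑ a : Perm X, ∑ b : Perm X, if Perm.sumCongr a b = σ then (μ a * ν b) • R σ else 0 := by
    intro σ
    rw [Finset.sum_smul]
    refine Finset.sum_congr rfl fun a _ => ?_
    rw [Finset.sum_smul]
    refine Finset.sum_congr rfl fun b _ => ?_
    split_ifs <;> simp
  rw [Finset.sum_congr rfl fun σ _ => h1 σ, Finset.sum_comm, Finset.sum_mul]
  refine Finset.sum_congr rfl fun a _ => ?_
  rw [Finset.sum_comm, Finset.mul_sum]
  refine Finset.sum_congr rfl fun b _ => ?_
  rw [Finset.sum_ite_eq univ (Perm.sumCongr a b) (fun σ => (μ a * ν b) • R σ), if_pos (mem_univ _),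
    smul_mul_smul_comm]
  congr 1
  have h2 : Perm.sumCongr a b = inL a * inR b := by
    apply Equiv.ext
    intro z
    rcases z with z | z <;> simp [Perm.mul_apply]
  rw [h2, map_mul]
  rfl

theorem opH_hlaw (R : Perm (X ⊕ X) →* A) :
    opH R (hlaw X) = ((1 / (2 : ℝ)) ^ Fintype.card X) • ∑ B : Finset X, R (flp B) := by
  unfold opH hlaw
  have h1 : ∀ σ : Perm (X ⊕ X), ((1 / (2 : ℝ) ^ Fintype.card X) *
      ∑ A : Finset X, if flp A = σ then 1 else 0) • R σ =
      ((1 / (2 : ℝ)) ^ Fintype.card X) • ∑ A : Finset X, if flp A = σ then R σ else 0 := by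
    intro σ
    rw [mul_smul, Finset.sum_smul, one_div_pow]
    congr 1
    refine Finset.sum_congr rfl fun a _ => ?_
    split_ifs <;> simp
  rw [Finset.sum_congr rfl fun σ _ => h1 σ, ← Finset.smul_sum, Finset.sum_comm]
  congr 1
  refine Finset.sum_congr rfl fun B _ => ?_
  rw [Finset.sum_ite_eq univ (flp B) (fun σ => R σ), if_pos (mem_univ _)]

theorem flp_insert_br {B : Finset X} {x : X} (hx : x ∉ B) :
    flp (insert x B) = flp B * swap (Sum.inl x) (Sum.inr x) := by
  apply Equiv.ext
  intro z
  rw [Perm.mul_apply]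
  rcases z with z | z
  · by_cases hz : z = x
    · subst hz
      rw [swap_apply_left, flp_apply_inl, flp_apply_inr, if_pos (mem_insert_self _ _), if_neg hx]
    · rw [swap_apply_of_ne_of_ne (by simpa using hz) (by simp), flp_apply_inl, flp_apply_inl]
      simp [hz]
  · by_cases hz : z = x
    · subst hz
      rw [swap_apply_right, flp_apply_inl, flp_apply_inr, if_pos (mem_insert_self _ _), if_neg hx]
    · rw [swap_apply_of_ne_of_ne (by simp) (by simpa using hz), flp_apply_inr, flp_apply_inr]
      simp [hz]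

theorem flp_empty_br : flp (∅ : Finset X) = 1 := by
  apply Equiv.ext
  intro z
  rcases z with z | z <;> simp [flp_apply_inl, flp_apply_inr]

theorem inL_swap (x y : X) : (inL (swap x y) : Perm (X ⊕ X)) = swap (Sum.inl x) (Sum.inl y) := by
  apply Equiv.ext
  intro z
  rcases z with z | z
  · rw [inL_apply_inl, swap_apply_def, swap_apply_def]
    simp only [Sum.inl.injEq]
    split_ifs <;> rfl
  · rw [inL_apply_inr, swap_apply_of_ne_of_ne (by simp) (by simp)]

theorem inR_swap (x y : X) : (inR (swap x y) : Perm (X ⊕ X)) = swap (Sum.inr x) (Sum.inr y) := by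
  apply Equiv.ext
  intro z
  rcases z with z | z
  · rw [inR_apply_inl, swap_apply_of_ne_of_ne (by simp) (by simp)]
  · rw [inR_apply_inr, swap_apply_def, swap_apply_def]
    simp only [Sum.inr.injEq]
    split_ifs <;> rfl

end PermOps

/-! ### The layer -/

section Layer

variable {α : Type*} [DecidableEq α]

theorem word_eq_flp (d : ℕ) (b : ℕ → α) (φ : Perm (Cube d ⊕ Cube d) →* Perm α)
    (hφ : ∀ x : Cube d, φ (swap (Sum.inl x) (Sum.inr x)) =
      swap (b (idx d x)) (b (idx d x + 2 ^ d))) (c : ℕ → Bool) (k : ℕ) (hk : k ≤ 2 ^ d) :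
    word (fun i => swap (b i) (b (i + 2 ^ d))) c k =
      φ (flp (univ.filter (fun x : Cube d => idx d x < k ∧ c (idx d x) = true))) := by
  induction k with
  | zero =>
    have : univ.filter (fun x : Cube d => idx d x < 0 ∧ c (idx d x) = true) = ∅ := by
      ext x; simp
    rw [this, flp_empty_br, map_one]
    rfl
  | succ k ih =>
    have hw : word (fun i => swap (b i) (b (i + 2 ^ d))) c (k + 1) =
        word (fun i => swap (b i) (b (i + 2 ^ d))) c k *
          (if c k then swap (b k) (b (k + 2 ^ d)) else 1) := rfl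
    rw [hw, ih (by omega)]
    set x := (cubeEquiv d).symm ⟨k, by omega⟩ with hx
    have hxk : idx d x = k := by
      rw [← cubeEquiv_val, hx, Equiv.apply_symm_apply]
    cases hc : c k with
    | false =>
      simp only [Bool.false_eq_true, if_false, mul_one]
      congr 2
      ext y
      simp only [mem_filter, mem_univ, true_and]
      constructor
      · rintro ⟨h1, h2⟩; exact ⟨by omega, h2⟩
      · rintro ⟨h1, h2⟩
        refine ⟨?_, h2⟩
        have : idx d y ≠ k := by
          intro h
          rw [h, hc] at h2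
          exact absurd h2 (by decide)
        omega
    | true =>
      simp only [if_true]
      have hins : univ.filter (fun y : Cube d => idx d y < k + 1 ∧ c (idx d y) = true) =
          insert x (univ.filter (fun y : Cube d => idx d y < k ∧ c (idx d y) = true)) := by
        ext y
        simp only [mem_filter, mem_univ, true_and, mem_insert]
        constructor
        · rintro ⟨h1, h2⟩
          by_cases h : idx d y = k
          · left
            exact idx_inj d y x (by rw [h, hxk])
          · right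
            exact ⟨by omega, h2⟩
        · rintro (rfl | ⟨h1, h2⟩)
          · rw [hxk]; exact ⟨by omega, hc⟩
          · exact ⟨by omega, h2⟩
      rw [hins, flp_insert_br (by simp [hxk]), map_mul, hφ x, hxk]

variable {E : Type*} [NormedAddCommGroup E] [InnerProductSpace ℝ E]

theorem layer_eq_hlaw (d : ℕ) (b : ℕ → α) (φ : Perm (Cube d ⊕ Cube d) →* Perm α)
    (hφ : ∀ x : Cube d, φ (swap (Sum.inl x) (Sum.inr x)) =
      swap (b (idx d x)) (b (idx d x + 2 ^ d))) (ρ : Perm α →* (E →L[ℝ] E)) :
    layer ρ (2 ^ d) b = opH (ρ.comp φ) (hlaw (Cube d)) := by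
  rw [opH_hlaw, card_cube]
  have h := ThorpA.half_prod ρ (fun i => swap (b i) (b (i + 2 ^ d))) (2 ^ d)
  have h2 : layer ρ (2 ^ d) b = ((List.range (2 ^ d)).map (fun i => (1 / 2 : ℝ) •
      (1 + ρ ((fun i => swap (b i) (b (i + 2 ^ d))) i)))).prod := rfl
  rw [h2, h]
  congr 1
  refine Fintype.sum_bijective
    (fun c : Fin (2 ^ d) → Bool => univ.filter (fun x : Cube d => c (cubeEquiv d x) = true))
    ?_ _ _ ?_
  · constructor
    · intro c c' h
      funext i
      have := Finset.ext_iff.mp h ((cubeEquiv d).symm i)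
      simp only [mem_filter, mem_univ, true_and, Equiv.apply_symm_apply] at this
      cases h1 : c i <;> cases h2 : c' i <;> simp_all
    · intro B
      refine ⟨fun i => decide ((cubeEquiv d).symm i ∈ B), ?_⟩
      ext x
      simp
  · intro c
    rw [word_eq_flp d b φ hφ _ _ le_rfl]
    have : univ.filter (fun x : Cube d => idx d x < 2 ^ d ∧ ThorpA.ext c (idx d x) = true) =
        univ.filter (fun x : Cube d => c (cubeEquiv d x) = true) := by
      ext x
      simp only [mem_filter, mem_univ, true_and]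
      have hl := idx_lt d x
      have he : ThorpA.ext c (idx d x) = c (cubeEquiv d x) := by
        unfold ThorpA.ext
        rw [dif_pos hl]
        rfl
      rw [he]
      exact ⟨fun h => h.2, fun h => ⟨hl, h⟩⟩
    rw [this]
    rfl

/-- The pass through a block is the operator of `tlaw d`. -/
theorem pass_eq_tlaw (d : ℕ) (b : ℕ → α) (φ : Perm (Cube d) →* Perm α)
    (hφ : ∀ x y : Cube d, φ (swap x y) = swap (b (idx d x)) (b (idx d y)))
    (ρ : Perm α →* (E →L[ℝ] E)) :
    pass ρ d b = opH (ρ.comp φ) (tlaw d) := by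
  induction d generalizing b with
  | zero =>
    have : (tlaw 0 : Perm (Cube 0) → ℝ) = dirac := rfl
    rw [this, opH_dirac]
    rfl
  | succ d ih =>
    have h0 : pass ρ (d + 1) b =
        pass ρ d b * pass ρ d (fun i => b (i + 2 ^ d)) * layer ρ (2 ^ d) b := rfl
    let φ' : Perm (Cube d ⊕ Cube d) →* Perm α := φ
    have hφ' : ∀ x y : Cube d ⊕ Cube d, φ' (swap x y) =
        swap (b (idx (d + 1) x)) (b (idx (d + 1) y)) := hφ
    have hL : pass ρ d b = opH (ρ.comp (φ'.comp inL)) (tlaw d) := by
      apply ih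
      intro x y
      change φ' (inL (swap x y)) = _
      rw [inL_swap]
      exact hφ' (Sum.inl x) (Sum.inl y)
    have hR : pass ρ d (fun i => b (i + 2 ^ d)) =
        opH (ρ.comp (φ'.comp inR)) (tlaw d) := by
      apply ih
      intro x y
      change φ' (inR (swap x y)) = _
      rw [inR_swap]
      exact hφ' (Sum.inr x) (Sum.inr y)
    have hlay : layer ρ (2 ^ d) b = opH (ρ.comp φ') (hlaw (Cube d)) := by
      apply layer_eq_hlaw
      intro x
      exact hφ' (Sum.inl x) (Sum.inr x)
    rw [h0, hL, hR, hlay]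
    have h3 := opH_conv (ρ.comp φ') (tens (tlaw d) (tlaw d)) (hlaw (Cube d))
    rw [opH_tens] at h3
    exact h3.symm

end Layer

/-! ### Comparison of laws through the regular representation -/

theorem opG_inj {n : ℕ} {μ ν : Perm (Fin n) → ℝ} (h : opG (reg n) μ = opG (reg n) ν) : μ = ν := by
  have key : ∀ (μ : Perm (Fin n) → ℝ) (g : Perm (Fin n)),
      (opG (reg n) μ (EuclideanSpace.single 1 1)) g = μ g := by
    intro μ g
    unfold opG
    rw [ContinuousLinearMap.sum_apply]
    have e : ∀ σ : Perm (Fin n), ((μ σ • reg n σ) (EuclideanSpace.single 1 1)) g =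
        if σ = g then μ σ else 0 := by
      intro σ
      have e1 : ((μ σ • reg n σ) (EuclideanSpace.single 1 1)) g =
          μ σ * (EuclideanSpace.single (1 : Perm (Fin n)) (1 : ℝ)) (σ⁻¹ * g) := rfl
      rw [e1]
      by_cases hs : σ = g
      · subst hs
        simp
      · have : σ⁻¹ * g ≠ 1 := by
          intro h
          exact hs (inv_mul_eq_one.mp h)
        simp [hs, this]
    have e2 : (∑ σ : Perm (Fin n), (μ σ • reg n σ) (EuclideanSpace.single 1 1)) g =
        ∑ σ : Perm (Fin n), ((μ σ • reg n σ) (EuclideanSpace.single 1 1)) g := by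
      simp
    rw [e2, Finset.sum_congr rfl fun σ _ => e σ, Finset.sum_ite_eq' univ g μ,
      if_pos (mem_univ _)]
  funext g
  rw [← key μ g, h, key ν g]

theorem permCongrHom_swap {X Y : Type*} [DecidableEq X] [DecidableEq Y] (e : X ≃ Y) (x y : X) :
    e.permCongrHom (swap x y) = swap (e x) (e y) := by
  apply Equiv.ext
  intro z
  change e ((swap x y) (e.symm z)) = _
  rw [swap_apply_def, swap_apply_def]
  by_cases h1 : e.symm z = x
  · have : z = e x := by rw [← h1, Equiv.apply_symm_apply]
    rw [if_pos h1, if_pos this]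
  · have h1' : z ≠ e x := by rintro rfl; exact h1 (e.symm_apply_apply x)
    rw [if_neg h1, if_neg h1']
    by_cases h2 : e.symm z = y
    · have : z = e y := by rw [← h2, Equiv.apply_symm_apply]
      rw [if_pos h2, if_pos this]
    · have h2' : z ≠ e y := by rintro rfl; exact h2 (e.symm_apply_apply y)
      rw [if_neg h2, if_neg h2', Equiv.apply_symm_apply]

theorem opH_perm_eq (d : ℕ) (μ : Perm (Cube d) → ℝ) :
    opH ((reg (2 ^ d)).comp ((cubeEquiv d).permCongrHom : Perm (Cube d) →* Perm (Fin (2 ^ d)))) μ =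
      opG (reg (2 ^ d)) (fun σ => μ ((cubeEquiv d).permCongr.symm σ)) := by
  unfold opH opG
  rw [← Equiv.sum_comp (cubeEquiv d).permCongr
    (fun σ => μ ((cubeEquiv d).permCongr.symm σ) • reg (2 ^ d) σ)]
  refine Finset.sum_congr rfl fun τ _ => ?_
  rw [Equiv.symm_apply_apply]
  rfl

theorem thorp_cpow (d K : ℕ) (hd : 1 ≤ d) :
    thorpPow (2 ^ d) (d * K) =
      fun σ => cpow (tlaw d) K ((cubeEquiv d).permCongr.symm σ) := by
  apply opG_inj
  rw [ThorpA.opG_thorpPow, pow_mul, ThorpA.opG_thorp d hd, ← opH_perm_eq, opH_cpow]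
  congr 1
  apply pass_eq_tlaw
  intro x y
  rw [posn_idx, posn_idx]
  exact permCongrHom_swap (cubeEquiv d) x y

/-- `d` Thorp shuffles of `2^d` cards have the law `tlaw d`, in suitable coordinates. -/
theorem thorp_bridge (d : ℕ) (hd : 1 ≤ d) : ∃ e : Cube d ≃ Fin (2 ^ d),
    (∀ τ : Perm (Cube d), thorpPow (2 ^ d) d (e.permCongr τ) = tlaw d τ) ∧
    (∀ (K : ℕ) (τ : Perm (Cube d)),
      thorpPow (2 ^ d) (d * K) (e.permCongr τ) = cpow (tlaw d) K τ) := by
  refine ⟨cubeEquiv d, ?_, ?_⟩
  · intro τ
    have h := congrFun (thorp_cpow d 1 hd) ((cubeEquiv d).permCongr τ)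
    rw [mul_one] at h
    rw [h, Equiv.symm_apply_apply]
    have h1 : cpow (tlaw d) 1 = conv (tlaw d) dirac := rfl
    rw [h1]
    unfold conv dirac
    have : ∀ h : Perm (Cube d), tlaw d h * (if h⁻¹ * τ = 1 then (1 : ℝ) else 0) =
        if h = τ then tlaw d h else 0 := by
      intro h
      by_cases hh : h = τ
      · subst hh; simp
      · have : h⁻¹ * τ ≠ 1 := fun h2 => hh (inv_mul_eq_one.mp h2)
        simp [hh, this]
    rw [Finset.sum_congr rfl fun h _ => this h, Finset.sum_ite_eq' univ τ (tlaw d),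
      if_pos (mem_univ _)]
  · intro K τ
    rw [congrFun (thorp_cpow d K hd) ((cubeEquiv d).permCongr τ), Equiv.symm_apply_apply]

theorem tv_bridge (d K : ℕ) (hd : 1 ≤ d) :
    tvDist (2 ^ d) (d * K) = tvUnif (cpow (tlaw d) K) := by
  unfold tvDist tvUnif
  congr 1
  rw [← Equiv.sum_comp (cubeEquiv d).permCongr (fun g => |thorpPow (2 ^ d) (d * K) g -
    1 / (((2 ^ d : ℕ).factorial : ℕ) : ℝ)|)]
  refine Finset.sum_congr rfl fun τ _ => ?_
  rw [congrFun (thorp_cpow d K hd) ((cubeEquiv d).permCongr τ), Equiv.symm_apply_apply,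
    Fintype.card_perm, card_cube]

end Vale.Agent.P162T
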