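import Vale.Agent.P162T.HS

/-!
# P162 [BLD] The families of laws on the `Perm (Cube j)`

`build j0 f step`: equals `f j` for `j ≤ j0` and then follows the recursion `step`.
* `wten θ ψ`: `ψ ⊗ ψ` with the weight `2^{θ numCyc(b⁻¹ a)}`;  `lift θ ψ = h * wten θ ψ * h`, `h = hlaw`.
* `psi i0 θ`: uniform law up to level `i0`, then `lift (θ j)`.   `psi i0 0 = ` law of `B = T* U T`.
* `tw j0`: top layers: `dirac` up to level `j0`, then `ext`.
* `th j0 f`: `f j0` up to level `j0`.., then `tens φ φ` (block-diagonal).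
* `fr j0 f`: free evolution (`lift 0`) from level `j0`.
Structure theorem (`fr_eq`), by induction on `j ≥ j0` with `tens_conv`, `tens_adj`, `adj_conv`, `adj_hlaw`:
`fr j0 f j = adj (tw j0 j) * th j0 f j * tw j0 j`, and `tlaw j = th j0 tlaw j * tw j0 j`.
-/

open Equiv Finset

set_option linter.unusedSectionVars false

namespace Vale.Agent.P162T

section

variable {X : Type} [Fintype X] [DecidableEq X]

/-- weighted tensor square -/
noncomputable def wten (θ : ℝ) (ψ : Perm X → ℝ) : Perm (X ⊕ X) → ℝ :=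
  fun σ => ∑ a : Perm X, ∑ b : Perm X,
    if Perm.sumCongr a b = σ then ψ a * ψ b * (2 : ℝ) ^ (θ * (numCyc (b⁻¹ * a) : ℝ)) else 0

/-- weighted lift -/
noncomputable def lift (θ : ℝ) (ψ : Perm X → ℝ) : Perm (X ⊕ X) → ℝ :=
  conv (hlaw X) (conv (wten θ ψ) (hlaw X))

theorem wten_zero (ψ : Perm X → ℝ) : wten 0 ψ = tens ψ ψ := by
  funext σ
  unfold wten tens
  refine Finset.sum_congr rfl fun a _ => Finset.sum_congr rfl fun b _ => ?_
  simp

theorem wten_nonneg (θ : ℝ) {ψ : Perm X → ℝ} (hψ : ∀ g, 0 ≤ ψ g) (σ : Perm (X ⊕ X)) :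
    0 ≤ wten θ ψ σ := by
  unfold wten
  refine Finset.sum_nonneg fun a _ => Finset.sum_nonneg fun b _ => ?_
  split_ifs
  · have := hψ a
    have := hψ b
    positivity
  · exact le_refl _

theorem lift_nonneg (θ : ℝ) {ψ : Perm X → ℝ} (hψ : ∀ g, 0 ≤ ψ g) (σ : Perm (X ⊕ X)) :
    0 ≤ lift θ ψ σ := by
  unfold lift
  exact conv_nonneg (fun g => hlaw_nonneg g)
    (fun g => conv_nonneg (fun g => wten_nonneg θ hψ g) (fun g => hlaw_nonneg g) g) σ

theorem mass_wten (θ : ℝ) (ψ : Perm X → ℝ) :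
    mass (wten θ ψ) = ∑ a, ∑ b, ψ a * ψ b * (2 : ℝ) ^ (θ * (numCyc (b⁻¹ * a) : ℝ)) := by
  unfold mass wten
  rw [Finset.sum_comm]
  refine Finset.sum_congr rfl fun a _ => ?_
  rw [Finset.sum_comm]
  refine Finset.sum_congr rfl fun b _ => ?_
  rw [Finset.sum_ite_eq]
  simp

theorem mass_lift (θ : ℝ) (ψ : Perm X → ℝ) :
    mass (lift θ ψ) = ∑ a, ∑ b, ψ a * ψ b * (2 : ℝ) ^ (θ * (numCyc (b⁻¹ * a) : ℝ)) := by
  unfold lift
  rw [mass_conv, mass_conv, mass_hlaw, one_mul, mul_one, mass_wten]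

theorem mass_lift_zero (ψ : Perm X → ℝ) : mass (lift 0 ψ) = mass ψ ^ 2 := by
  unfold lift
  rw [mass_conv, mass_conv, mass_hlaw, one_mul, mul_one, wten_zero, mass_tens, sq]

/-- mass of a weighted lift is bounded by `hs R`, `R ≥ 2^θ` -/
theorem mass_lift_le (θ : ℝ) (R : ℕ) (hR : (2 : ℝ) ^ θ ≤ R) {ψ : Perm X → ℝ}
    (hψ : ∀ g, 0 ≤ ψ g) : mass (lift θ ψ) ≤ hs R ψ := by
  rw [mass_lift]
  unfold hs
  rw [Finset.sum_comm]
  refine Finset.sum_le_sum fun b _ => Finset.sum_le_sum fun a _ => ?_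
  have h1 : (2 : ℝ) ^ (θ * (numCyc (b⁻¹ * a) : ℝ)) ≤ (R : ℝ) ^ numCyc (b⁻¹ * a) := by
    rw [Real.rpow_mul (by norm_num), Real.rpow_natCast]
    exact pow_le_pow_left₀ (by positivity) hR _
  calc ψ a * ψ b * (2 : ℝ) ^ (θ * (numCyc (b⁻¹ * a) : ℝ))
      ≤ ψ a * ψ b * (R : ℝ) ^ numCyc (b⁻¹ * a) :=
        mul_le_mul_of_nonneg_left h1 (mul_nonneg (hψ a) (hψ b))
    _ = ψ b * ψ a * (R : ℝ) ^ numCyc (b⁻¹ * a) := by ring

end

/-- recursion from level `j0` -/
noncomputable def build (j0 : ℕ) (f : (j : ℕ) → Perm (Cube j) → ℝ)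
    (step : (j : ℕ) → (Perm (Cube j) → ℝ) → (Perm (Cube (j + 1)) → ℝ)) :
    (j : ℕ) → Perm (Cube j) → ℝ
  | 0 => f 0
  | j + 1 => if j < j0 then f (j + 1) else step j (build j0 f step j)

theorem build_of_le {j0 : ℕ} {f : (j : ℕ) → Perm (Cube j) → ℝ}
    {step : (j : ℕ) → (Perm (Cube j) → ℝ) → (Perm (Cube (j + 1)) → ℝ)} {j : ℕ} (h : j ≤ j0) :
    build j0 f step j = f j := by
  cases j with
  | zero => rfl
  | succ j =>
    have : j < j0 := h
    simp [build, this]

theorem build_succ {j0 : ℕ} {f : (j : ℕ) → Perm (Cube j) → ℝ}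
    {step : (j : ℕ) → (Perm (Cube j) → ℝ) → (Perm (Cube (j + 1)) → ℝ)} {j : ℕ} (h : j0 ≤ j) :
    build j0 f step (j + 1) = step j (build j0 f step j) := by
  have : ¬ j < j0 := by omega
  simp [build, this]

/-- induction principle for properties of `build` -/
theorem build_ind {j0 : ℕ} {f : (j : ℕ) → Perm (Cube j) → ℝ}
    {step : (j : ℕ) → (Perm (Cube j) → ℝ) → (Perm (Cube (j + 1)) → ℝ)}
    (P : (j : ℕ) → (Perm (Cube j) → ℝ) → Prop) (h0 : ∀ j, j ≤ j0 → P j (f j))
    (h1 : ∀ j φ, j0 ≤ j → P j φ → P (j + 1) (step j φ)) (j : ℕ) : P j (build j0 f step j) := by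
  induction j with
  | zero => exact h0 0 (Nat.zero_le _)
  | succ j ih =>
    by_cases h : j < j0
    · rw [build_of_le (show j + 1 ≤ j0 from h)]
      exact h0 _ h
    · rw [build_succ (by omega)]
      exact h1 j _ (by omega) ih

/-- uniform law -/
noncomputable def unifC (j : ℕ) : Perm (Cube j) → ℝ :=
  fun _ => 1 / ((Fintype.card (Cube j)).factorial : ℝ)

noncomputable def psi (i0 : ℕ) (θ : ℕ → ℝ) : (j : ℕ) → Perm (Cube j) → ℝ :=
  build i0 unifC (fun j φ => lift (X := Cube j) (θ j) φ)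

noncomputable def tw (j0 : ℕ) : (j : ℕ) → Perm (Cube j) → ℝ :=
  build j0 (fun _ => dirac) (fun j φ => ext (X := Cube j) φ)

noncomputable def th (j0 : ℕ) (f : (j : ℕ) → Perm (Cube j) → ℝ) : (j : ℕ) → Perm (Cube j) → ℝ :=
  build j0 f (fun j φ => tens (X := Cube j) φ φ)

noncomputable def fr (j0 : ℕ) (f : (j : ℕ) → Perm (Cube j) → ℝ) : (j : ℕ) → Perm (Cube j) → ℝ :=
  build j0 f (fun j φ => lift (X := Cube j) 0 φ)

theorem th_base {j0 j : ℕ} (h : j ≤ j0) (f : (j : ℕ) → Perm (Cube j) → ℝ) :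
    th j0 f j = f j := build_of_le h
theorem tw_base {j0 j : ℕ} (h : j ≤ j0) : tw j0 j = dirac := build_of_le h
theorem fr_base {j0 j : ℕ} (h : j ≤ j0) (f : (j : ℕ) → Perm (Cube j) → ℝ) :
    fr j0 f j = f j := build_of_le h
theorem psi_base {i0 j : ℕ} (h : j ≤ i0) (θ : ℕ → ℝ) : psi i0 θ j = unifC j := build_of_le h
theorem th_succ {j0 j : ℕ} (h : j0 ≤ j) (f : (j : ℕ) → Perm (Cube j) → ℝ) :
    th j0 f (j + 1) = tens (X := Cube j) (th j0 f j) (th j0 f j) := build_succ h
theorem tw_succ {j0 j : ℕ} (h : j0 ≤ j) :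
    tw j0 (j + 1) = ext (X := Cube j) (tw j0 j) := build_succ h
theorem fr_succ {j0 j : ℕ} (h : j0 ≤ j) (f : (j : ℕ) → Perm (Cube j) → ℝ) :
    fr j0 f (j + 1) = lift (X := Cube j) 0 (fr j0 f j) := build_succ h
theorem psi_succ {i0 j : ℕ} (h : i0 ≤ j) (θ : ℕ → ℝ) :
    psi i0 θ (j + 1) = lift (X := Cube j) (θ j) (psi i0 θ j) := build_succ h

theorem psi_nonneg (i0 : ℕ) (θ : ℕ → ℝ) (j : ℕ) (g : Perm (Cube j)) : 0 ≤ psi i0 θ j g := by
  refine build_ind (j0 := i0) (f := unifC) (step := fun j φ => lift (X := Cube j) (θ j) φ)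
    (fun j φ => ∀ g : Perm (Cube j), 0 ≤ φ g) ?_ ?_ j g
  · intro j _ g
    unfold unifC
    positivity
  · intro j φ _ h g
    exact lift_nonneg (X := Cube j) (θ j) h g

theorem tw_nonneg (j0 j : ℕ) (g : Perm (Cube j)) : 0 ≤ tw j0 j g := by
  refine build_ind (j0 := j0) (f := fun _ => dirac) (step := fun j φ => ext (X := Cube j) φ)
    (fun j φ => ∀ g : Perm (Cube j), 0 ≤ φ g) ?_ ?_ j g
  · intro j _ g
    unfold dirac
    split_ifs <;> norm_num
  · intro j φ _ h g
    exact ext_nonneg (X := Cube j) h g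

theorem mass_tw (j0 j : ℕ) : mass (tw j0 j) = 1 := by
  refine build_ind (j0 := j0) (f := fun _ => dirac) (step := fun j φ => ext (X := Cube j) φ)
    (fun j φ => mass φ = 1) ?_ ?_ j
  · intro j _
    exact mass_dirac
  · intro j φ _ h
    have := mass_ext (X := Cube j) φ
    rw [h, one_pow] at this
    exact this

theorem mass_th {j0 : ℕ} (f : (j : ℕ) → Perm (Cube j) → ℝ) {j : ℕ} (h : j0 ≤ j) :
    mass (th j0 f j) = mass (f j0) ^ (2 ^ (j - j0)) := by
  induction j, h using Nat.le_induction with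
  | base =>
    rw [th_base le_rfl]
    simp
  | succ j hj ih =>
    have h1 := th_succ hj f
    have h2 : mass (th j0 f (j + 1)) = mass (th j0 f j) * mass (th j0 f j) := by
      rw [h1]
      exact mass_tens (X := Cube j) _ _
    rw [h2, ih, ← pow_add, show j + 1 - j0 = (j - j0) + 1 by omega, pow_succ]
    congr 1
    ring

theorem mass_unifC (j : ℕ) : mass (unifC j) = 1 := by
  unfold mass unifC
  rw [Finset.sum_const, Finset.card_univ, Fintype.card_perm, nsmul_eq_mul]
  have : ((Fintype.card (Cube j)).factorial : ℝ) ≠ 0 := by positivity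
  field_simp

theorem mass_psi_zero (i0 j : ℕ) : mass (psi i0 (fun _ => 0) j) = 1 := by
  refine build_ind (j0 := i0) (f := unifC)
    (step := fun j φ => lift (X := Cube j) ((fun _ => (0 : ℝ)) j) φ)
    (fun j φ => mass φ = 1) ?_ ?_ j
  · intro j _
    exact mass_unifC j
  · intro j φ _ h
    have := mass_lift_zero (X := Cube j) φ
    rw [h, one_pow] at this
    exact this

theorem lift_zero_struct {X : Type} [Fintype X] [DecidableEq X] (t Θ : Perm X → ℝ) :
    lift 0 (conv (adj t) (conv Θ t)) =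
      conv (adj (ext t)) (conv (tens Θ Θ) (ext t)) := by
  unfold lift ext
  rw [wten_zero, tens_conv, tens_conv, tens_adj, adj_conv, adj_hlaw]
  simp only [conv_assoc]

/-- structure of the free evolution -/
theorem fr_eq {j0 j : ℕ} (h : j0 ≤ j) (f : (j : ℕ) → Perm (Cube j) → ℝ) :
    fr j0 f j = conv (adj (tw j0 j)) (conv (th j0 f j) (tw j0 j)) := by
  induction j, h using Nat.le_induction with
  | base =>
    rw [fr_base le_rfl, tw_base le_rfl, th_base le_rfl, adj_dirac, conv_dirac,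
      dirac_conv]
  | succ j hj ih =>
    have h1 := fr_succ hj f
    have h2 := th_succ hj f
    have h3 := tw_succ hj
    rw [h1, h2, h3, ih]
    exact lift_zero_struct (X := Cube j) (tw j0 j) (th j0 f j)

theorem tlaw_eq {j0 j : ℕ} (h : j0 ≤ j) : tlaw j = conv (th j0 tlaw j) (tw j0 j) := by
  induction j, h using Nat.le_induction with
  | base =>
    rw [th_base le_rfl, tw_base le_rfl, conv_dirac]
  | succ j hj ih =>
    have h2 := th_succ hj tlaw
    have h3 := tw_succ hj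
    have h4 : tlaw (j + 1) = ext (X := Cube j) (tlaw j) := rfl
    have h5 : ext (X := Cube j) (conv (th j0 tlaw j) (tw j0 j)) =
        conv (tens (X := Cube j) (th j0 tlaw j) (th j0 tlaw j)) (ext (X := Cube j) (tw j0 j)) := by
      unfold ext
      rw [tens_conv, conv_assoc]
    rw [← ih] at h5
    rw [h2, h3, h4]
    exact h5

theorem tlaw_nonneg_bld (j : ℕ) (g : Perm (Cube j)) : 0 ≤ tlaw j g := by
  induction j with
  | zero =>
    unfold tlaw dirac
    split_ifs <;> norm_num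
  | succ j ih => exact ext_nonneg (X := Cube j) ih g

theorem mass_tlaw_bld (j : ℕ) : mass (tlaw j) = 1 := by
  induction j with
  | zero => exact mass_dirac
  | succ j ih =>
    have := mass_ext (X := Cube j) (tlaw j)
    rw [ih, one_pow] at this
    exact this

/-- the uniform law absorbs every law of mass one -/
theorem unif_absorb {G : Type} [Group G] [Fintype G] [DecidableEq G] (c : ℝ) (a : G → ℝ) :
    conv (fun _ => c) a = fun _ => c * mass a := by
  funext g
  unfold conv mass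
  rw [← Finset.mul_sum]
  congr 1
  exact Fintype.sum_equiv ((Equiv.inv G).trans (Equiv.mulRight g)) _ _ (fun h => by simp)

theorem absorb_unif {G : Type} [Group G] [Fintype G] [DecidableEq G] (c : ℝ) (a : G → ℝ) :
    conv a (fun _ => c) = fun _ => mass a * c := by
  funext g
  unfold conv mass
  rw [Finset.sum_mul]

/-- `th` of uniform absorbs `th` of the pass law on both sides -/
theorem th_absorb {j0 j : ℕ} (h : j0 ≤ j) :
    conv (adj (th j0 tlaw j)) (conv (th j0 unifC j) (th j0 tlaw j)) = th j0 unifC j := by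
  induction j, h using Nat.le_induction with
  | base =>
    rw [th_base le_rfl, th_base le_rfl]
    unfold unifC
    rw [unif_absorb, absorb_unif, mass_adj, mass_tlaw_bld]
    simp
  | succ j hj ih =>
    have h2 := th_succ hj tlaw
    have h3 := th_succ hj unifC
    rw [h2, h3]
    have h5 := tens_adj (X := Cube j) (th j0 tlaw j) (th j0 tlaw j)
    have h6 : conv (adj (tens (X := Cube j) (th j0 tlaw j) (th j0 tlaw j)))
        (conv (tens (X := Cube j) (th j0 unifC j) (th j0 unifC j))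
          (tens (X := Cube j) (th j0 tlaw j) (th j0 tlaw j))) =
        tens (X := Cube j) (conv (adj (th j0 tlaw j)) (conv (th j0 unifC j) (th j0 tlaw j)))
          (conv (adj (th j0 tlaw j)) (conv (th j0 unifC j) (th j0 tlaw j))) := by
      rw [tens_conv, tens_conv, tens_adj]
    rw [ih] at h6
    exact h6

/-- `B = T* U T` -/
theorem psi_zero_eq {i0 j : ℕ} (h : i0 ≤ j) :
    psi i0 (fun _ => 0) j = conv (adj (tlaw j)) (conv (th i0 unifC j) (tlaw j)) := by
  have h1 : psi i0 (fun _ => 0) j = fr i0 unifC j := rfl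
  rw [h1, fr_eq h, tlaw_eq h, adj_conv]
  have h2 := th_absorb h
  calc conv (adj (tw i0 j)) (conv (th i0 unifC j) (tw i0 j))
      = conv (adj (tw i0 j)) (conv (conv (adj (th i0 tlaw j))
          (conv (th i0 unifC j) (th i0 tlaw j))) (tw i0 j)) := by rw [h2]
    _ = _ := by simp only [conv_assoc]

/-- if `θ` vanishes on `[j0, j)`, `psi` is the free evolution from `j0` -/
theorem psi_eq_fr {i0 j0 j : ℕ} (h0 : i0 ≤ j0) (h : j0 ≤ j) (θ : ℕ → ℝ)
    (hθ : ∀ i, j0 ≤ i → i < j → θ i = 0) : psi i0 θ j = fr j0 (psi i0 θ) j := by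
  induction j, h using Nat.le_induction with
  | base =>
    rw [fr_base le_rfl]
  | succ j hj ih =>
    have h1 := fr_succ hj (psi i0 θ)
    have h2 := psi_succ (h0.trans hj) θ
    rw [h1, h2, hθ j hj (Nat.lt_succ_self j), ih (fun i hi hij => hθ i hi (by omega))]

/-- [BLD] window bound: with `fr_eq`, `hs_conv_left`, `hs_conv_right`, `mass_tw`, `mass_th` -/
theorem hs_fr_le (R : ℕ) {j0 j : ℕ} (h : j0 ≤ j) {f : (j : ℕ) → Perm (Cube j) → ℝ}
    (hf : ∀ g, 0 ≤ f j0 g) :
    hs R (fr j0 f j) ≤ (mass (f j0) ^ (2 ^ (j - j0))) ^ 2 * hs R (tw j0 j) := by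
  have hth : ∀ g, 0 ≤ th j0 f j g := by
    have hP : ∀ j, j0 ≤ j → ∀ g, 0 ≤ th j0 f j g := by
      intro j hj
      induction j, hj using Nat.le_induction with
      | base =>
        intro g
        rw [th_base le_rfl]
        exact hf g
      | succ j hj ih =>
        have h2 := th_succ hj f
        intro g
        rw [h2]
        exact tens_nonneg (X := Cube j) ih ih g
    exact hP j h
  have hadj : ∀ g, 0 ≤ adj (tw j0 j) g := fun g => tw_nonneg j0 j g⁻¹
  rw [fr_eq h]
  calc hs R (conv (adj (tw j0 j)) (conv (th j0 f j) (tw j0 j)))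
      ≤ mass (adj (tw j0 j)) ^ 2 * hs R (conv (th j0 f j) (tw j0 j)) :=
        hs_conv_left R hadj _
    _ = hs R (conv (th j0 f j) (tw j0 j)) := by rw [mass_adj, mass_tw]; ring
    _ ≤ mass (th j0 f j) ^ 2 * hs R (tw j0 j) := hs_conv_left R hth _
    _ = _ := by rw [mass_th f h]

end Vale.Agent.P162T
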