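import Vale.Agent.P162T.Defs

/-!
# P162 [GF] Algebra of functions on a finite group, and of `tens`, `hlaw`, `ext`

GF1: `conv` is associative, unital, etc.  GF2: `tens`, `hlaw`.
`tens μ ν` is the push-forward of `μ × ν` under the injective hom `(a,b) ↦ sumCongr a b`.
-/

open Equiv Finset

set_option linter.unusedSectionVars false

namespace Vale.Agent.P162T

section GF1

variable {G : Type} [Group G] [Fintype G] [DecidableEq G]

/-- total mass -/
def mass (a : G → ℝ) : ℝ := ∑ g, a g

theorem conv_assoc (a b c : G → ℝ) : conv (conv a b) c = conv a (conv b c) := by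
  funext g
  unfold conv
  simp only [Finset.sum_mul, Finset.mul_sum]
  rw [Finset.sum_comm]
  apply Finset.sum_congr rfl
  intro x _
  rw [← Equiv.sum_comp (Equiv.mulLeft x)]
  apply Finset.sum_congr rfl
  intro y _
  simp only [Equiv.coe_mulLeft, inv_mul_cancel_left, mul_inv_rev, mul_assoc]

theorem conv_dirac (a : G → ℝ) : conv a dirac = a := by
  funext g
  unfold conv dirac
  rw [Finset.sum_eq_single g]
  · simp
  · intro h _ hne
    have : h⁻¹ * g ≠ 1 := by
      intro h1
      apply hne
      exact (inv_mul_eq_one.mp h1)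
    simp [this]
  · intro h; exact absurd (Finset.mem_univ g) h

theorem dirac_conv (a : G → ℝ) : conv dirac a = a := by
  funext g
  unfold conv dirac
  rw [Finset.sum_eq_single 1]
  · simp
  · intro h _ hne
    simp [hne]
  · intro h; exact absurd (Finset.mem_univ _) h

theorem conv_apply' (a b : G → ℝ) (g : G) : conv a b g = ∑ h, a (g * h⁻¹) * b h := by
  unfold conv
  apply Fintype.sum_equiv ((Equiv.inv G).trans (Equiv.mulRight g))
  intro x
  simp

theorem adj_conv (a b : G → ℝ) : adj (conv a b) = conv (adj b) (adj a) := by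
  funext g
  rw [conv_apply' (adj b) (adj a)]
  unfold adj conv
  rw [← Equiv.sum_comp (Equiv.inv G)]
  apply Finset.sum_congr rfl
  intro x _
  simp only [Equiv.inv_apply, inv_inv, mul_inv_rev]
  rw [mul_comm]

theorem adj_adj (a : G → ℝ) : adj (adj a) = a := by
  funext g
  simp [adj]

theorem adj_dirac : adj (dirac : G → ℝ) = dirac := by
  funext g
  simp [adj, dirac]

/-- trace property -/
theorem conv_one_comm (a b : G → ℝ) : conv a b 1 = conv b a 1 := by
  rw [conv_apply' b a]
  unfold conv
  apply Finset.sum_congr rfl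
  intro x _
  rw [mul_one, one_mul, mul_comm]

theorem conv_adj_one (a b : G → ℝ) : conv (adj a) b 1 = ∑ g, a g * b g := by
  rw [conv_apply']
  unfold adj
  apply Finset.sum_congr rfl
  intro x _
  simp

theorem mass_conv (a b : G → ℝ) : mass (conv a b) = mass a * mass b := by
  unfold mass conv
  rw [Finset.sum_comm, Finset.sum_mul]
  apply Finset.sum_congr rfl
  intro x _
  rw [← Finset.mul_sum]
  congr 1
  exact Equiv.sum_comp (Equiv.mulLeft x⁻¹) b

theorem mass_adj (a : G → ℝ) : mass (adj a) = mass a := by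
  unfold mass adj
  exact Equiv.sum_comp (Equiv.inv G) a

theorem mass_dirac : mass (dirac : G → ℝ) = 1 := by
  unfold mass dirac
  simp

theorem conv_nonneg {a b : G → ℝ} (ha : ∀ g, 0 ≤ a g) (hb : ∀ g, 0 ≤ b g) (g : G) :
    0 ≤ conv a b g :=
  Finset.sum_nonneg (fun h _ => mul_nonneg (ha h) (hb _))

theorem dirac_nonneg (g : G) : 0 ≤ (dirac : G → ℝ) g := by
  unfold dirac
  split_ifs <;> norm_num

theorem cpow_nonneg {a : G → ℝ} (ha : ∀ g, 0 ≤ a g) (k : ℕ) (g : G) : 0 ≤ cpow a k g := by
  induction k generalizing g with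
  | zero => exact dirac_nonneg g
  | succ k ih => exact conv_nonneg ha ih g

theorem cpow_one (a : G → ℝ) : cpow a 1 = a := by
  show conv a dirac = a
  exact conv_dirac a

theorem cpow_add (a : G → ℝ) (k l : ℕ) : cpow a (k + l) = conv (cpow a k) (cpow a l) := by
  induction k with
  | zero =>
    rw [Nat.zero_add]
    exact (dirac_conv _).symm
  | succ k ih =>
    rw [Nat.succ_add]
    show conv a (cpow a (k + l)) = conv (conv a (cpow a k)) (cpow a l)
    rw [ih, conv_assoc]

theorem cpow_mul (a : G → ℝ) (k l : ℕ) : cpow a (k * l) = cpow (cpow a k) l := by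
  induction l with
  | zero => rfl
  | succ l ih =>
    rw [Nat.mul_succ, Nat.add_comm, cpow_add, ih]
    rfl

theorem adj_cpow (a : G → ℝ) (k : ℕ) : adj (cpow a k) = cpow (adj a) k := by
  induction k with
  | zero => exact adj_dirac
  | succ k ih =>
    have h1 : cpow a (k + 1) = conv (cpow a k) (cpow a 1) := cpow_add a k 1
    rw [h1, adj_conv, ih, cpow_one]
    rfl

theorem mass_cpow (a : G → ℝ) (k : ℕ) : mass (cpow a k) = mass a ^ k := by
  induction k with
  | zero =>
    show mass (dirac : G → ℝ) = _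
    rw [mass_dirac, pow_zero]
  | succ k ih =>
    show mass (conv a (cpow a k)) = _
    rw [mass_conv, ih, pow_succ, mul_comm]

/-- a function of the form `f* f` is maximal at `1` -/
theorem adj_conv_self_le (f : G → ℝ) (g : G) : conv (adj f) f g ≤ conv (adj f) f 1 := by
  rw [conv_adj_one]
  have h1 : conv (adj f) f g = ∑ h, f h * f (h * g) := by
    unfold conv adj
    rw [← Equiv.sum_comp (Equiv.inv G)]
    apply Finset.sum_congr rfl
    intro x _
    simp
  rw [h1]
  have h2 : ∑ h, f h * f (h * g) ≤ ∑ h, (f h ^ 2 + f (h * g) ^ 2) / 2 := by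
    apply Finset.sum_le_sum
    intro x _
    nlinarith [sq_nonneg (f x - f (x * g))]
  have h3 : ∑ h, f (h * g) ^ 2 = ∑ h, f h ^ 2 :=
    Equiv.sum_comp (Equiv.mulRight g) (fun h => f h ^ 2)
  rw [← Finset.sum_div, Finset.sum_add_distrib, h3] at h2
  have h4 : ∑ h, f h * f h = ∑ h, f h ^ 2 := Finset.sum_congr rfl (fun x _ => (sq _).symm)
  rw [h4]
  linarith

/-- functions with the same sums against all test functions are equal -/
theorem eq_of_sum {a b : G → ℝ} (h : ∀ f : G → ℝ, ∑ g, a g * f g = ∑ g, b g * f g) : a = b := by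
  funext x
  have := h (fun g => if g = x then 1 else 0)
  simpa using this

/-- sums against a convolution -/
theorem sum_conv (a b f : G → ℝ) : ∑ g, conv a b g * f g = ∑ x, ∑ y, a x * b y * f (x * y) := by
  unfold conv
  simp only [Finset.sum_mul]
  rw [Finset.sum_comm]
  apply Finset.sum_congr rfl
  intro x _
  rw [← Equiv.sum_comp (Equiv.mulLeft x)]
  apply Finset.sum_congr rfl
  intro y _
  simp

theorem sum_adj (a f : G → ℝ) : ∑ g, adj a g * f g = ∑ g, a g * f g⁻¹ := by
  unfold adj
  rw [← Equiv.sum_comp (Equiv.inv G)]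
  simp

theorem sum_dirac (f : G → ℝ) : ∑ g, dirac g * f g = f 1 := by
  unfold dirac
  simp

end GF1

section GF2

variable {X : Type} [Fintype X] [DecidableEq X]

theorem sumCongr_inj {a b a' b' : Perm X} (h : Perm.sumCongr a b = Perm.sumCongr a' b') :
    a = a' ∧ b = b' := by
  constructor
  · ext x
    have := congrArg (fun e : Perm (X ⊕ X) => e (Sum.inl x)) h
    simpa using this
  · ext x
    have := congrArg (fun e : Perm (X ⊕ X) => e (Sum.inr x)) h
    simpa using this

theorem tens_apply_sumCongr (μ ν : Perm X → ℝ) (a b : Perm X) :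
    tens μ ν (Perm.sumCongr a b) = μ a * ν b := by
  unfold tens
  rw [Finset.sum_eq_single a, Finset.sum_eq_single b]
  · simp
  · intro y _ hy
    rw [if_neg]
    intro h
    exact hy (sumCongr_inj h).2
  · intro h; exact absurd (Finset.mem_univ _) h
  · intro x _ hx
    apply Finset.sum_eq_zero
    intro y _
    rw [if_neg]
    intro h
    exact hx (sumCongr_inj h).1
  · intro h; exact absurd (Finset.mem_univ _) h

theorem tens_nonneg {μ ν : Perm X → ℝ} (hμ : ∀ g, 0 ≤ μ g) (hν : ∀ g, 0 ≤ ν g)
    (g : Perm (X ⊕ X)) : 0 ≤ tens μ ν g := by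
  unfold tens
  apply Finset.sum_nonneg
  intro a _
  apply Finset.sum_nonneg
  intro b _
  split_ifs
  · exact mul_nonneg (hμ a) (hν b)
  · exact le_refl _

/-- sums against `tens` -/
theorem sum_tens (μ ν : Perm X → ℝ) (f : Perm (X ⊕ X) → ℝ) :
    ∑ σ, tens μ ν σ * f σ = ∑ a, ∑ b, μ a * ν b * f (Perm.sumCongr a b) := by
  unfold tens
  simp only [Finset.sum_mul]
  rw [Finset.sum_comm]
  apply Finset.sum_congr rfl
  intro a _
  rw [Finset.sum_comm]
  apply Finset.sum_congr rfl
  intro b _
  rw [Finset.sum_eq_single (Perm.sumCongr a b)]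
  · rw [if_pos rfl]
  · intro σ _ hσ
    rw [if_neg (Ne.symm hσ), zero_mul]
  · intro h; exact absurd (Finset.mem_univ _) h

theorem mass_tens (μ ν : Perm X → ℝ) : mass (tens μ ν) = mass μ * mass ν := by
  have h := sum_tens μ ν (fun _ => 1)
  simp only [mul_one] at h
  unfold mass
  rw [h, Finset.sum_mul_sum]

theorem tens_conv (a b c e : Perm X → ℝ) :
    tens (conv a b) (conv c e) = conv (tens a c) (tens b e) := by
  apply eq_of_sum
  intro f
  rw [sum_tens, sum_conv]
  have h1 : ∀ x : Perm (X ⊕ X), ∑ y, tens a c x * tens b e y * f (x * y) =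
      tens a c x * ∑ y, tens b e y * f (x * y) := by
    intro x
    rw [Finset.mul_sum]
    exact Finset.sum_congr rfl (fun y _ => mul_assoc _ _ _)
  simp only [h1]
  rw [sum_tens]
  simp only [sum_tens]
  have h2 : ∀ x : Perm X, ∑ y, conv a b x * conv c e y * f (Perm.sumCongr x y) =
      conv a b x * ∑ y, conv c e y * f (Perm.sumCongr x y) := by
    intro x
    rw [Finset.mul_sum]
    exact Finset.sum_congr rfl (fun y _ => mul_assoc _ _ _)
  simp only [h2, sum_conv]
  have h3 : ∀ x y u v : Perm X, Perm.sumCongr (x * u) (y * v) =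
      Perm.sumCongr x y * Perm.sumCongr u v := fun x y u v => (Perm.sumCongr_mul x y u v).symm
  simp only [h3, Finset.mul_sum]
  apply Finset.sum_congr rfl
  intro x _
  rw [Finset.sum_comm]
  apply Finset.sum_congr rfl
  intro y _
  apply Finset.sum_congr rfl
  intro u _
  apply Finset.sum_congr rfl
  intro v _
  ring

theorem tens_adj (a b : Perm X → ℝ) : tens (adj a) (adj b) = adj (tens a b) := by
  apply eq_of_sum
  intro f
  rw [sum_tens, sum_adj, sum_tens]
  have h2 : ∀ x : Perm X, ∑ y, adj a x * adj b y * f (Perm.sumCongr x y) =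
      adj a x * ∑ y, adj b y * f (Perm.sumCongr x y) := by
    intro x
    rw [Finset.mul_sum]
    exact Finset.sum_congr rfl (fun y _ => mul_assoc _ _ _)
  simp only [h2, sum_adj]
  apply Finset.sum_congr rfl
  intro x _
  rw [Finset.mul_sum]
  apply Finset.sum_congr rfl
  intro y _
  rw [mul_assoc, ← Perm.sumCongr_inv]

theorem tens_dirac : tens (dirac : Perm X → ℝ) dirac = dirac := by
  apply eq_of_sum
  intro f
  rw [sum_tens, sum_dirac]
  have h2 : ∀ x : Perm X, ∑ y, dirac x * dirac y * f (Perm.sumCongr x y) =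
      dirac x * ∑ y, dirac y * f (Perm.sumCongr x y) := by
    intro x
    rw [Finset.mul_sum]
    exact Finset.sum_congr rfl (fun y _ => mul_assoc _ _ _)
  simp only [h2, sum_dirac]
  rw [Perm.sumCongr_one]

theorem hlaw_nonneg (g : Perm (X ⊕ X)) : 0 ≤ hlaw X g := by
  unfold hlaw
  apply mul_nonneg (by positivity)
  apply Finset.sum_nonneg
  intro A _
  split_ifs <;> norm_num

/-- sums against `hlaw` -/
theorem sum_hlaw' (f : Perm (X ⊕ X) → ℝ) :
    ∑ σ, hlaw X σ * f σ = (1 / (2 : ℝ) ^ Fintype.card X) * ∑ A : Finset X, f (flp A) := by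
  unfold hlaw
  simp only [mul_assoc]
  rw [← Finset.mul_sum]
  congr 1
  simp only [Finset.sum_mul]
  rw [Finset.sum_comm]
  apply Finset.sum_congr rfl
  intro A _
  simp

theorem flp_inv_gf (A : Finset X) : (flp A)⁻¹ = flp A := by
  ext z
  rfl

theorem flp_mul (A B : Finset X) : flp A * flp B = flp (symmDiff A B) := by
  apply Equiv.ext
  intro z
  show flpFun A (flpFun B z) = flpFun (symmDiff A B) z
  rcases z with x | x <;> by_cases hA : x ∈ A <;> by_cases hB : x ∈ B <;>
    simp [flpFun, Finset.mem_symmDiff, hA, hB]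

theorem mass_hlaw : mass (hlaw X) = 1 := by
  have h := sum_hlaw' (X := X) (fun _ => 1)
  simp only [mul_one, Finset.sum_const, Finset.card_univ, Fintype.card_finset, nsmul_eq_mul] at h
  unfold mass
  rw [h]
  push_cast
  have : (2 : ℝ) ^ Fintype.card X ≠ 0 := by positivity
  field_simp

theorem adj_hlaw : adj (hlaw X) = hlaw X := by
  apply eq_of_sum
  intro f
  rw [sum_adj, sum_hlaw', sum_hlaw']
  simp only [flp_inv_gf]

theorem hlaw_conv_hlaw : conv (hlaw X) (hlaw X) = hlaw X := by
  apply eq_of_sum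
  intro f
  rw [sum_conv, sum_hlaw']
  have h1 : ∀ x : Perm (X ⊕ X), ∑ y, hlaw X x * hlaw X y * f (x * y) =
      hlaw X x * ∑ y, hlaw X y * f (x * y) := by
    intro x
    rw [Finset.mul_sum]
    exact Finset.sum_congr rfl (fun y _ => mul_assoc _ _ _)
  simp only [h1]
  rw [sum_hlaw']
  simp only [sum_hlaw', flp_mul]
  have h2 : ∀ A : Finset X, ∑ B : Finset X, f (flp (symmDiff A B)) = ∑ B : Finset X, f (flp B) := by
    intro A
    exact Fintype.sum_equiv (Function.Involutive.toPerm (fun B => symmDiff A B)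
      (fun B => symmDiff_symmDiff_cancel_left A B)) _ _ (fun B => rfl)
  simp only [h2, Finset.sum_const, Finset.card_univ, Fintype.card_finset, nsmul_eq_mul]
  push_cast
  have : (2 : ℝ) ^ Fintype.card X ≠ 0 := by positivity
  field_simp

/-- sums against `hlaw` -/
theorem sum_hlaw (f : Perm (X ⊕ X) → ℝ) :
    ∑ σ, hlaw X σ * f σ = (1 / (2 : ℝ) ^ Fintype.card X) * ∑ A : Finset X, f (flp A) :=
  sum_hlaw' f

theorem ext_nonneg {μ : Perm X → ℝ} (hμ : ∀ g, 0 ≤ μ g) (g : Perm (X ⊕ X)) : 0 ≤ ext μ g :=
  conv_nonneg (tens_nonneg hμ hμ) hlaw_nonneg g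

theorem mass_ext (μ : Perm X → ℝ) : mass (ext μ) = mass μ ^ 2 := by
  unfold ext
  rw [mass_conv, mass_tens, mass_hlaw, mul_one, sq]

end GF2

end Vale.Agent.P162T
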