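import Vale.Agent.P162T.Basic

/-!
# P162 [JD] Joint spectral decompositions, and the one-step inequality for the pass

`JD A B v` (file `Defs`): `v = ∑ vec i`, joint eigenvectors.  Existence from Mathlib
`LinearMap.IsSymmetric.directSum_isInternal_of_commute` (joint eigenspaces), or by taking
the orthogonal projections of `v` on the joint eigenspaces `eigenspace A a ⊓ eigenspace B b`,
`(a,b)` in the finite set of pairs of eigenvalues, and dropping the zero ones.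
-/

open Equiv Finset

set_option linter.unusedSectionVars false

namespace Vale.Agent.P162T

section JD1

variable {V : Type} [NormedAddCommGroup V] [InnerProductSpace ℝ V]

/-- eigenvectors of a symmetric operator for different eigenvalues are orthogonal -/
theorem inner_eq_zero_of_eig {A : V →ₗ[ℝ] V} (hA : A.IsSymmetric) {x y : V} {a b : ℝ}
    (hx : A x = a • x) (hy : A y = b • y) (hab : a ≠ b) : inner ℝ x y = 0 := by
  have h := hA x y
  rw [hx, hy, real_inner_smul_left, real_inner_smul_right] at h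
  have h2 : (a - b) * inner ℝ x y = 0 := by linarith
  rcases mul_eq_zero.1 h2 with h3 | h3
  · exact absurd (sub_eq_zero.1 h3) hab
  · exact h3

theorem inner_eq_zero_of_joint {A B : V →ₗ[ℝ] V} (hA : A.IsSymmetric) (hB : B.IsSymmetric)
    {x y : V} {a b a' b' : ℝ} (hx : A x = a • x) (hx' : B x = b • x)
    (hy : A y = a' • y) (hy' : B y = b' • y) (h : a ≠ a' ∨ b ≠ b') : inner ℝ x y = 0 := by
  rcases h with h | h
  · exact inner_eq_zero_of_eig hA hx hy h
  · exact inner_eq_zero_of_eig hB hx' hy' h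

/-- [JD] existence -/
theorem JD_exists [FiniteDimensional ℝ V] {A B : V →ₗ[ℝ] V} (hA : A.IsSymmetric)
    (hB : B.IsSymmetric) (hAB : Commute A B) (v : V) : Nonempty (JD A B v) := by
  have h1 := (LinearMap.IsSymmetric.directSum_isInternal_of_commute hA hB hAB).submodule_iSup_eq_top
  have h2 : v ∈ ⨆ i : ℝ × ℝ, (Module.End.eigenspace A i.2 ⊓ Module.End.eigenspace B i.1) := by
    rw [h1]; trivial
  obtain ⟨f, hf, hsum⟩ := (Submodule.mem_iSup_iff_exists_finsupp _ _).1 h2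
  let e := f.support.equivFin
  have hfA : ∀ i, A (f i) = i.2 • f i := fun i =>
    Module.End.mem_eigenspace_iff.1 (hf i).1
  have hfB : ∀ i, B (f i) = i.1 • f i := fun i =>
    Module.End.mem_eigenspace_iff.1 (hf i).2
  have hd : ∀ i j : Fin f.support.card, i ≠ j →
      (e.symm i).1.2 ≠ (e.symm j).1.2 ∨ (e.symm i).1.1 ≠ (e.symm j).1.1 := by
    intro i j hij
    by_contra hc
    rw [not_or, not_not, not_not] at hc
    apply hij
    apply e.symm.injective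
    exact Subtype.ext (Prod.ext hc.2 hc.1)
  refine ⟨⟨f.support.card, fun i => f (e.symm i).1, fun i => (e.symm i).1.2,
    fun i => (e.symm i).1.1, fun i => hfA _, fun i => hfB _, fun i => ?_, hd, ?_, ?_⟩⟩
  · exact Finsupp.mem_support_iff.1 (e.symm i).2
  · intro i j hij
    exact inner_eq_zero_of_joint hA hB (hfA _) (hfB _) (hfA _) (hfB _) (hd i j hij)
  · rw [Equiv.sum_comp e.symm (fun x : f.support => f x.1)]
    rw [← hsum, Finsupp.sum]
    exact Finset.sum_coe_sort f.support (fun x => f x)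

theorem norm_sq_sum_of_orth {n : ℕ} (w : Fin n → V)
    (h : ∀ i j, i ≠ j → inner ℝ (w i) (w j) = 0) : ‖∑ i, w i‖ ^ 2 = ∑ i, ‖w i‖ ^ 2 := by
  rw [← real_inner_self_eq_norm_sq, sum_inner]
  refine Finset.sum_congr rfl fun i _ => ?_
  rw [inner_sum, Finset.sum_eq_single i, real_inner_self_eq_norm_sq]
  · intro j _ hj
    exact h i j hj.symm
  · intro hi
    exact absurd (mem_univ i) hi

variable {A B : V →ₗ[ℝ] V} {v : V}

theorem JD.norm_sq (J : JD A B v) : ∑ i, ‖J.vec i‖ ^ 2 = ‖v‖ ^ 2 := by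
  rw [← norm_sq_sum_of_orth J.vec J.orth, J.sum]

theorem JD.map_A (J : JD A B v) {P : V →ₗ[ℝ] V} (hPA : Commute P A) (i : Fin J.m) :
    A (P (J.vec i)) = J.a i • P (J.vec i) := by
  have h := congrArg (fun T : V →ₗ[ℝ] V => T (J.vec i)) hPA.eq
  simp only [Module.End.mul_apply] at h
  rw [← h, J.hA, map_smul]

theorem JD.map_B (J : JD A B v) {P : V →ₗ[ℝ] V} (hPB : Commute P B) (i : Fin J.m) :
    B (P (J.vec i)) = J.b i • P (J.vec i) := by
  have h := congrArg (fun T : V →ₗ[ℝ] V => T (J.vec i)) hPB.eq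
  simp only [Module.End.mul_apply] at h
  rw [← h, J.hB, map_smul]

/-- images of the `vec i` under an operator commuting with `A` and `B` are orthogonal -/
theorem JD.orth_map (J : JD A B v) (hA : A.IsSymmetric) (hB : B.IsSymmetric)
    {P : V →ₗ[ℝ] V} (hPA : Commute P A) (hPB : Commute P B) {i j : Fin J.m} (hij : i ≠ j) :
    inner ℝ (P (J.vec i)) (P (J.vec j)) = 0 :=
  inner_eq_zero_of_joint hA hB (J.map_A hPA i) (J.map_B hPB i) (J.map_A hPA j) (J.map_B hPB j)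
    (J.dist i j hij)

theorem JD.norm_sq_map (J : JD A B v) (hA : A.IsSymmetric) (hB : B.IsSymmetric)
    {P : V →ₗ[ℝ] V} (hPA : Commute P A) (hPB : Commute P B) :
    ‖P v‖ ^ 2 = ∑ i, ‖P (J.vec i)‖ ^ 2 := by
  rw [← norm_sq_sum_of_orth (fun i => P (J.vec i)) fun i j hij => J.orth_map hA hB hPA hPB hij,
    ← map_sum, J.sum]

/-- if `D` commutes with `A`, `B` (symmetric) and `D v = δ v` then `D (vec i) = δ vec i` -/
theorem JD.eig (J : JD A B v) (hA : A.IsSymmetric) (hB : B.IsSymmetric)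
    {D : V →ₗ[ℝ] V} (hDA : Commute D A) (hDB : Commute D B) {δ : ℝ} (hv : D v = δ • v)
    (i : Fin J.m) : D (J.vec i) = δ • J.vec i := by
  have h1 : Commute (D - δ • (1 : V →ₗ[ℝ] V)) A :=
    hDA.sub_left ((Commute.one_left A).smul_left δ)
  have h2 : Commute (D - δ • (1 : V →ₗ[ℝ] V)) B :=
    hDB.sub_left ((Commute.one_left B).smul_left δ)
  have h3 := J.norm_sq_map hA hB h1 h2
  have h4 : (D - δ • (1 : V →ₗ[ℝ] V)) v = 0 := by
    simp [hv]
  rw [h4, norm_zero] at h3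
  have h5 : ∀ j ∈ (univ : Finset (Fin J.m)), ‖(D - δ • (1 : V →ₗ[ℝ] V)) (J.vec j)‖ ^ 2 = 0 :=
    (Finset.sum_eq_zero_iff_of_nonneg fun j _ => sq_nonneg _).1 (by rw [← h3]; norm_num)
  have h6 := h5 i (mem_univ i)
  have h7 : (D - δ • (1 : V →ₗ[ℝ] V)) (J.vec i) = 0 := by
    rw [← norm_eq_zero]
    exact pow_eq_zero_iff (two_ne_zero) |>.1 h6
  have h8 : D (J.vec i) - δ • J.vec i = 0 := by simpa using h7
  exact sub_eq_zero.1 h8

theorem pow_eig {C : V →ₗ[ℝ] V} {x : V} {c : ℝ} (h : C x = c • x) (r : ℕ) :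
    (C ^ r) x = c ^ r • x := by
  induction r with
  | zero => simp
  | succ r ih => rw [pow_succ, Module.End.mul_apply, h, map_smul, ih, smul_smul, pow_succ, mul_comm]

/-- a real linear combination `C` of `D, A, B` acts by the scalar `c i` on `vec i`;
then `⟨C^r v, v⟩ = ∑ ‖vec i‖² (c i)^r` -/
theorem JD.inner_pow (J : JD A B v) {C : V →ₗ[ℝ] V} {c : Fin J.m → ℝ}
    (hC : ∀ i, C (J.vec i) = c i • J.vec i) (r : ℕ) :
    inner ℝ ((C ^ r) v) v = ∑ i, ‖J.vec i‖ ^ 2 * (c i) ^ r := by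
  have h1 : (C ^ r) v = ∑ i, (c i) ^ r • J.vec i := by
    conv_lhs => rw [← J.sum]
    rw [map_sum]
    exact Finset.sum_congr rfl fun i _ => pow_eig (hC i) r
  rw [h1, sum_inner]
  refine Finset.sum_congr rfl fun i _ => ?_
  rw [real_inner_smul_left]
  have h2 : inner ℝ (J.vec i) v = ‖J.vec i‖ ^ 2 := by
    have h3 : inner ℝ (J.vec i) v = inner ℝ (J.vec i) (∑ j, J.vec j) := by rw [J.sum]
    rw [h3, inner_sum, Finset.sum_eq_single i, real_inner_self_eq_norm_sq]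
    · intro j _ hj
      exact J.orth i j hj.symm
    · intro hi
      exact absurd (mem_univ i) hi
  rw [h2, mul_comm]

theorem JD.norm_pow_sq (J : JD A B v) {C : V →ₗ[ℝ] V} {c : Fin J.m → ℝ}
    (hC : ∀ i, C (J.vec i) = c i • J.vec i) (r : ℕ) :
    ‖(C ^ r) v‖ ^ 2 = ∑ i, ‖J.vec i‖ ^ 2 * (c i) ^ (2 * r) := by
  have h1 : (C ^ r) v = ∑ i, (c i) ^ r • J.vec i := by
    conv_lhs => rw [← J.sum]
    rw [map_sum]
    exact Finset.sum_congr rfl fun i _ => pow_eig (hC i) r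
  rw [h1, norm_sq_sum_of_orth]
  · refine Finset.sum_congr rfl fun i _ => ?_
    rw [norm_smul, mul_pow, Real.norm_eq_abs, sq_abs]
    ring
  · intro i j hij
    rw [real_inner_smul_left, real_inner_smul_right, J.orth i j hij]
    ring

end JD1

section JD2

variable {X : Type} [Fintype X] [DecidableEq X] {V : Type} [NormedAddCommGroup V]
  [InnerProductSpace ℝ V]

theorem JD.a_nonneg [Nonempty X] (ρ : ORep (Perm (X ⊕ X)) V) {v : V}
    (J : JD (DL ρ) (DR ρ) v) (i : Fin J.m) : 0 ≤ J.a i :=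
  Dop_eig_nonneg (ρ.comp inL) (J.ne i) (J.hA i)

theorem JD.b_nonneg [Nonempty X] (ρ : ORep (Perm (X ⊕ X)) V) {v : V}
    (J : JD (DL ρ) (DR ρ) v) (i : Fin J.m) : 0 ≤ J.b i :=
  Dop_eig_nonneg (ρ.comp inR) (J.ne i) (J.hB i)

/-- `Y vec i = (δ - a i - b i) vec i` -/
theorem JD.Yop_vec (ρ : ORep (Perm (X ⊕ X)) V) {v : V} {δ : ℝ} (hv : Dop ρ v = δ • v)
    (J : JD (DL ρ) (DR ρ) v) (i : Fin J.m) :
    Yop ρ (J.vec i) = (δ - J.a i - J.b i) • J.vec i := by
  have h := J.eig (DL_symm ρ) (DR_symm ρ) (DL_commute_Dop ρ).symm (DR_commute_Dop ρ).symm hv i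
  rw [Yop, LinearMap.sub_apply, LinearMap.sub_apply, h, J.hA, J.hB, sub_smul, sub_smul]

theorem JD.Zop_vec (ρ : ORep (Perm (X ⊕ X)) V) {v : V}
    (J : JD (DL ρ) (DR ρ) v) (i : Fin J.m) :
    Zop ρ (J.vec i) = (J.a i - J.b i) • J.vec i := by
  rw [Zop, LinearMap.sub_apply, J.hA, J.hB, sub_smul]

theorem Dop_commute_ofR (ρ : ORep (Perm X) V) (C : V →ₗ[ℝ] V)
    (hC : ∀ g, Commute C (ρ.toHom g)) : Commute C (Dop ρ) := by
  unfold Dop lap lapOn
  refine Commute.smul_right (Commute.smul_right ?_ _) _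
  refine Commute.sum_right _ _ _ fun x _ => Commute.sum_right _ _ _ fun y _ => ?_
  exact (Commute.one_right C).sub_right (hC _)

theorem inL_commute_DR (ρ : ORep (Perm (X ⊕ X)) V) (g : Perm X) :
    Commute (ρ.toHom (inL g)) (DR ρ) :=
  Dop_commute_ofR (ρ.comp inR) _ fun h => inL_commute_inR ρ g h

theorem inR_commute_DL (ρ : ORep (Perm (X ⊕ X)) V) (g : Perm X) :
    Commute (ρ.toHom (inR g)) (DL ρ) :=
  Dop_commute_ofR (ρ.comp inL) _ fun h => (inL_commute_inR ρ h g).symm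

theorem inL_commute_DL (ρ : ORep (Perm (X ⊕ X)) V) (g : Perm X) :
    Commute (ρ.toHom (inL g)) (DL ρ) :=
  Dop_commute (ρ.comp inL) g

theorem inR_commute_DR (ρ : ORep (Perm (X ⊕ X)) V) (g : Perm X) :
    Commute (ρ.toHom (inR g)) (DR ρ) :=
  Dop_commute (ρ.comp inR) g

end JD2

/-- [JD] one-step inequality.  `T_{d+1} v = T_L T_R v` for `E_H v = v`; `T_L T_R` commutes with
`D_L`, `D_R`; `‖T_L (T_R vec i)‖² ≤ q(a i) ‖T_R vec i‖² ≤ q(a i) q(b i) ‖vec i‖²`
(`D_L (T_R vec i) = a i T_R vec i`; if `T_R vec i = 0` trivial). -/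
theorem top_step {d : ℕ} {q : ℝ → ℝ} (hq : Rate d q) (hq0 : ∀ x, 0 ≤ q x)
    {V : Type} [NormedAddCommGroup V] [InnerProductSpace ℝ V] [FiniteDimensional ℝ V]
    (ρ : ORep (Perm (Cube d ⊕ Cube d)) V) {v : V} (hv : EH ρ v = v)
    (J : JD (DL ρ) (DR ρ) v) :
    ‖Top (d + 1) ρ v‖ ^ 2 ≤ ∑ i, ‖J.vec i‖ ^ 2 * (q (J.a i) * q (J.b i)) := by
  set TL : V →ₗ[ℝ] V := Top d (ρ.comp inL) with hTL
  set TR : V →ₗ[ℝ] V := Top d (ρ.comp inR) with hTR
  have hT : Top (d + 1) ρ v = (TL * TR) v := by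
    have : Top (d + 1) ρ = TL * TR * EH ρ := rfl
    rw [this, Module.End.mul_apply, hv]
  have c1 : Commute TL (DL ρ) := Top_commute_of d (ρ.comp inL) _ fun g => inL_commute_DL ρ g
  have c2 : Commute TL (DR ρ) := Top_commute_of d (ρ.comp inL) _ fun g => inL_commute_DR ρ g
  have c3 : Commute TR (DL ρ) := Top_commute_of d (ρ.comp inR) _ fun g => inR_commute_DL ρ g
  have c4 : Commute TR (DR ρ) := Top_commute_of d (ρ.comp inR) _ fun g => inR_commute_DR ρ g
  rw [hT, J.norm_sq_map (DL_symm ρ) (DR_symm ρ) (c1.mul_left c3) (c2.mul_left c4)]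
  refine Finset.sum_le_sum fun i _ => ?_
  rw [Module.End.mul_apply]
  have h1 : ‖TR (J.vec i)‖ ^ 2 ≤ q (J.b i) * ‖J.vec i‖ ^ 2 :=
    hq V (ρ.comp inR) (J.vec i) (J.b i) (J.hB i) (J.ne i)
  have h2 : ‖TL (TR (J.vec i))‖ ^ 2 ≤ q (J.a i) * ‖TR (J.vec i)‖ ^ 2 := by
    by_cases h0 : TR (J.vec i) = 0
    · rw [h0, map_zero, norm_zero]
      simp
    · exact hq V (ρ.comp inL) (TR (J.vec i)) (J.a i) (J.map_A c3 i) h0
  calc ‖TL (TR (J.vec i))‖ ^ 2 ≤ q (J.a i) * ‖TR (J.vec i)‖ ^ 2 := h2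
    _ ≤ q (J.a i) * (q (J.b i) * ‖J.vec i‖ ^ 2) := mul_le_mul_of_nonneg_left h1 (hq0 _)
    _ = _ := by ring

/-- [JD] reduction of `Rate (d+1)` to vectors fixed by `E_H`. -/
theorem rate_succ_of {d : ℕ} {q' : ℝ → ℝ} (hq' : ∀ x, 0 ≤ q' x)
    (h : ∀ (V : Type) [NormedAddCommGroup V] [InnerProductSpace ℝ V] [FiniteDimensional ℝ V]
      (ρ : ORep (Perm (Cube d ⊕ Cube d)) V) (v : V) (δ : ℝ), Dop ρ v = δ • v →
      v ≠ 0 → EH ρ v = v → ‖Top (d + 1) ρ v‖ ^ 2 ≤ q' δ * ‖v‖ ^ 2) : Rate (d + 1) q' := by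
  intro V _ _ _ ρ v δ hD hv
  have hmain : ∀ (ρ : ORep (Perm (Cube d ⊕ Cube d)) V), Dop ρ v = δ • v →
      ‖Top (d + 1) ρ v‖ ^ 2 ≤ q' δ * ‖v‖ ^ 2 := by
    intro ρ hD
    have hc := EH_commute_of ρ (Dop ρ) (fun g => Dop_commute ρ g)
    have hw : Dop ρ (EH ρ v) = δ • EH ρ v := by
      have h1 := congrArg (fun T : V →ₗ[ℝ] V => T v) hc.eq
      simp only [Module.End.mul_apply] at h1
      rw [← h1, hD, map_smul]
    have hE : EH ρ (EH ρ v) = EH ρ v := by
      have h1 := congrArg (fun T : V →ₗ[ℝ] V => T v) (EH_idem ρ)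
      simpa using h1
    have hT : Top (d + 1) ρ v = Top (d + 1) ρ (EH ρ v) := by
      have e : Top (d + 1) ρ = Top d (ρ.comp inL) * Top d (ρ.comp inR) * EH ρ := rfl
      rw [e]
      simp only [Module.End.mul_apply, hE]
    have hle : ‖EH ρ v‖ ^ 2 ≤ ‖v‖ ^ 2 :=
      pow_le_pow_left₀ (norm_nonneg _) (norm_EH_le ρ v) 2
    rw [hT]
    by_cases h0 : EH ρ v = 0
    · rw [h0, map_zero, norm_zero]
      have := mul_nonneg (hq' δ) (sq_nonneg ‖v‖)
      simpa using this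
    · exact (h V ρ (EH ρ v) δ hw h0 hE).trans (mul_le_mul_of_nonneg_left hle (hq' δ))
  exact hmain ρ hD

end Vale.Agent.P162T
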