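import Vale.Agent.P162T.GroupFun

/-!
# P162 [SCH] A Schatten norm inequality in the group algebra

`τ(a) = a 1`, `τ(a*b) = τ(b*a)`, `τ(a* a) = ∑ a²`, `|τ(a* b)| ≤ √τ(a* a) √τ(b* b)`.
Claim: `τ(u*^8 u^8) ≤ τ((u* u)^8)`, i.e. `∑_g (u^{*8} g)² ≤ ((adj u * u)^{*8})(1)`.
-/

open Equiv Finset

set_option linter.unusedSectionVars false

namespace Vale.Agent.P162T

section Abstract

variable {M : Type} [Monoid M]

/-- abstract tracial `*`-monoid data used in the Schatten inequality -/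
structure TrData (st : M → M) (τ : M → ℝ) : Prop where
  st_mul : ∀ a b, st (a * b) = st b * st a
  st_st : ∀ a, st (st a) = a
  comm : ∀ a b, τ (a * b) = τ (b * a)
  nonneg : ∀ a, 0 ≤ τ (a * st a)
  cs : ∀ a b, τ (a * b) ^ 2 ≤ τ (a * st a) * τ (b * st b)

variable {st : M → M} {τ : M → ℝ}

theorem pow_cyc (a b : M) (n : ℕ) : (a * b) ^ (n + 1) = a * ((b * a) ^ n * b) := by
  induction n with
  | zero => simp
  | succ n ih =>
    rw [pow_succ (a * b) (n + 1), ih, pow_succ (b * a) n]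
    simp only [mul_assoc]

theorem TrData.cyc (h : TrData st τ) (a b : M) (n : ℕ) :
    τ ((a * b) ^ (n + 1)) = τ ((b * a) ^ (n + 1)) := by
  rw [pow_cyc, h.comm, mul_assoc, ← pow_succ]

theorem TrData.le_of_eq (h : TrData st τ) {a b : M} {K : ℝ} (hK : 0 ≤ K)
    (ha : τ (a * st a) = K) (hb : τ (b * st b) = K) : τ (a * b) ≤ K := by
  have h1 := h.cs a b
  rw [ha, hb, ← sq] at h1
  exact le_of_abs_le (abs_le_of_sq_le_sq h1 hK)

/-- `τ(x²) ≤ τ(x x*)` -/
theorem TrData.sq_le (h : TrData st τ) (x : M) : τ (x ^ 2) ≤ τ (x * st x) := by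
  rw [sq]
  exact h.le_of_eq (h.nonneg x) rfl rfl

/-- `τ(x⁴) ≤ τ((x x*)²)` -/
theorem TrData.four_le (h : TrData st τ) (x : M) : τ (x ^ 4) ≤ τ ((x * st x) ^ 2) := by
  have h1 : τ (x ^ 4) ≤ τ (x ^ 2 * st (x ^ 2)) := by
    have : x ^ 4 = x ^ 2 * x ^ 2 := by rw [← pow_add]
    rw [this]
    exact h.le_of_eq (h.nonneg _) rfl rfl
  refine h1.trans ?_
  have h2 : τ (x ^ 2 * st (x ^ 2)) = τ ((st x * x) * (x * st x)) := by
    rw [sq, h.st_mul]
    rw [show x * x * (st x * st x) = (x * x * st x) * st x by simp only [mul_assoc], h.comm]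
    simp only [mul_assoc]
  rw [h2]
  apply h.le_of_eq
  · have := h.nonneg (x * st x)
    rw [h.st_mul, h.st_st] at this
    rwa [sq]
  · rw [h.st_mul, h.st_st, ← sq]
    exact h.cyc (st x) x 1
  · rw [h.st_mul, h.st_st, ← sq]

theorem TrData.st_pow (h : TrData st τ) {P : M} (hP : st P = P) (n : ℕ) :
    st (P ^ (n + 1)) = P ^ (n + 1) := by
  induction n with
  | zero => simpa using hP
  | succ n ih =>
    calc st (P ^ (n + 1 + 1)) = st (P ^ (n + 1) * P) := by rw [← pow_succ]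
      _ = P * P ^ (n + 1) := by rw [h.st_mul, ih, hP]
      _ = P ^ (n + 1 + 1) := (pow_succ' P (n + 1)).symm

/-- first product inequality -/
theorem TrData.two_prod (h : TrData st τ) {P Q : M} (hP : st P = P) (hQ : st Q = Q)
    (he : τ (P ^ 4) = τ (Q ^ 4)) : τ ((P * Q) ^ 2) ≤ τ (Q ^ 4) := by
  refine (h.sq_le (P * Q)).trans ?_
  have h1 : τ (P * Q * st (P * Q)) = τ (P ^ 2 * Q ^ 2) := by
    rw [h.st_mul, hP, hQ, show P * Q * (Q * P) = (P * (Q * Q)) * P by simp only [mul_assoc],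
      h.comm, sq, sq]
    simp only [mul_assoc]
  rw [h1]
  have e : ∀ R : M, st R = R → R ^ 2 * st (R ^ 2) = R ^ 4 := by
    intro R hR
    rw [h.st_pow hR 1, ← pow_add]
  apply h.le_of_eq
  · rw [← e Q hQ]; exact h.nonneg _
  · rw [e P hP, he]
  · rw [e Q hQ]

/-- second product inequality -/
theorem TrData.four_prod (h : TrData st τ) {P Q : M} (hP : st P = P) (hQ : st Q = Q)
    (he : τ (P ^ 8) = τ (Q ^ 8)) : τ ((P * Q) ^ 4) ≤ τ (Q ^ 8) := by
  refine (h.four_le (P * Q)).trans ?_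
  have h1 : τ ((P * Q * st (P * Q)) ^ 2) = τ ((P ^ 2 * Q ^ 2) ^ 2) := by
    rw [h.st_mul, hP, hQ, show P * Q * (Q * P) = (P * (Q * Q)) * P by simp only [mul_assoc],
      h.cyc _ _ 1, sq P, sq Q]
    simp only [mul_assoc]
  rw [h1]
  have e : ∀ R : M, (R ^ 2) ^ 4 = R ^ 8 := fun R => by rw [← pow_mul]
  have h2 := h.two_prod (P := P ^ 2) (Q := Q ^ 2) (h.st_pow hP 1) (h.st_pow hQ 1)
    (by rw [e, e, he])
  rwa [e] at h2

theorem TrData.main (h : TrData st τ) (u : M) :
    τ (st (u ^ 8) * u ^ 8) ≤ τ ((st u * u) ^ 8) := by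
  have hs : ∀ (x : M) (n : ℕ), st (x ^ (n + 1)) = st x ^ (n + 1) := by
    intro x n
    induction n with
    | zero => simp
    | succ n ih => rw [pow_succ, h.st_mul, ih, ← pow_succ']
  have sa1 : ∀ x : M, st (x * st x) = x * st x := fun x => by rw [h.st_mul, h.st_st]
  have sa2 : ∀ x : M, st (st x * x) = st x * x := fun x => by rw [h.st_mul, h.st_st]
  -- step 1
  have h1 : τ (st (u ^ 8) * u ^ 8) ≤ τ ((st (u ^ 4) * u ^ 4) ^ 2) := by
    have e1 : τ (st (u ^ 8) * u ^ 8) = τ ((u ^ 4 * st (u ^ 4)) * (st (u ^ 4) * u ^ 4)) := by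
      have : u ^ 8 = u ^ 4 * u ^ 4 := by rw [← pow_add]
      rw [this, h.st_mul]
      rw [show st (u ^ 4) * st (u ^ 4) * (u ^ 4 * u ^ 4) =
        (st (u ^ 4) * st (u ^ 4) * u ^ 4) * u ^ 4 by simp only [mul_assoc], h.comm]
      simp only [mul_assoc]
    rw [e1]
    apply h.le_of_eq
    · have := h.nonneg (st (u ^ 4) * u ^ 4)
      rwa [sa2, ← sq] at this
    · rw [sa1, ← sq]; exact h.cyc _ _ 1
    · rw [sa2, ← sq]
  -- step 2
  have h2 : τ ((st (u ^ 4) * u ^ 4) ^ 2) ≤ τ ((st (u ^ 2) * u ^ 2) ^ 4) := by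
    have e1 : st (u ^ 4) * u ^ 4 = st (u ^ 2) * ((st (u ^ 2) * u ^ 2) * u ^ 2) := by
      have : u ^ 4 = u ^ 2 * u ^ 2 := by rw [← pow_add]
      rw [this, h.st_mul]
      simp only [mul_assoc]
    have e2 : τ ((st (u ^ 4) * u ^ 4) ^ 2) =
        τ (((u ^ 2 * st (u ^ 2)) * (st (u ^ 2) * u ^ 2)) ^ 2) := by
      rw [e1, show st (u ^ 2) * ((st (u ^ 2) * u ^ 2) * u ^ 2) =
        (st (u ^ 2) * (st (u ^ 2) * u ^ 2)) * u ^ 2 by simp only [mul_assoc], h.cyc _ _ 1]
      simp only [mul_assoc]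
    rw [e2]
    apply h.two_prod (sa1 _) (sa2 _)
    exact h.cyc _ _ 3
  -- step 3
  have h3 : τ ((st (u ^ 2) * u ^ 2) ^ 4) ≤ τ ((st u * u) ^ 8) := by
    have e1 : st (u ^ 2) * u ^ 2 = (st u * (st u * u)) * u := by
      rw [sq, h.st_mul]
      simp only [mul_assoc]
    have e2 : τ ((st (u ^ 2) * u ^ 2) ^ 4) = τ (((u * st u) * (st u * u)) ^ 4) := by
      rw [e1, h.cyc _ _ 3]
      simp only [mul_assoc]
    rw [e2]
    apply h.four_prod (sa1 _) (sa2 _)
    exact h.cyc _ _ 7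
  exact h1.trans (h2.trans h3)

end Abstract

variable {G : Type} [Group G] [Fintype G] [DecidableEq G]

/-- wrapper for functions on `G`, with convolution as multiplication -/
structure GFun (G : Type) where
  val : G → ℝ

noncomputable instance instMonoidGFun : Monoid (GFun G) where
  mul a b := ⟨conv a.val b.val⟩
  one := ⟨dirac⟩
  mul_assoc a b c := congrArg GFun.mk (conv_assoc a.val b.val c.val)
  one_mul a := congrArg GFun.mk (dirac_conv a.val)
  mul_one a := congrArg GFun.mk (conv_dirac a.val)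

theorem GFun.mul_val (a b : GFun G) : (a * b).val = conv a.val b.val := rfl

theorem GFun.pow_val (u : GFun G) (k : ℕ) : (u ^ k).val = cpow u.val k := by
  induction k with
  | zero => rfl
  | succ k ih =>
    rw [pow_succ', GFun.mul_val, ih]
    rfl

/-- the involution -/
def GFun.st (a : GFun G) : GFun G := ⟨adj a.val⟩

theorem GFun.st_val (a : GFun G) : a.st.val = adj a.val := rfl

/-- the trace -/
def GFun.tr (a : GFun G) : ℝ := a.val 1

theorem GFun.trData : TrData (M := GFun G) GFun.st GFun.tr where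
  st_mul a b := congrArg GFun.mk (adj_conv a.val b.val)
  st_st a := congrArg GFun.mk (adj_adj a.val)
  comm a b := conv_one_comm a.val b.val
  nonneg a := by
    unfold GFun.tr
    rw [GFun.mul_val, GFun.st_val, conv_one_comm, conv_adj_one]
    exact Finset.sum_nonneg (fun g _ => mul_self_nonneg _)
  cs a b := by
    unfold GFun.tr
    rw [GFun.mul_val, GFun.mul_val, GFun.mul_val, GFun.st_val, GFun.st_val]
    have h1 : conv a.val b.val 1 = ∑ g, (adj a.val) g * b.val g := by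
      rw [← conv_adj_one, adj_adj]
    have h2 : conv a.val (adj a.val) 1 = ∑ g, (adj a.val) g ^ 2 := by
      have := conv_adj_one (adj a.val) (adj a.val)
      rw [adj_adj] at this
      rw [this]
      exact Finset.sum_congr rfl (fun g _ => (sq _).symm)
    have h3 : conv b.val (adj b.val) 1 = ∑ g, b.val g ^ 2 := by
      rw [conv_one_comm, conv_adj_one]
      exact Finset.sum_congr rfl (fun g _ => (sq _).symm)
    rw [h1, h2, h3]
    exact Finset.sum_mul_sq_le_sq_mul_sq _ _ _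

/-- [SCH] -/
theorem schatten8 (u : G → ℝ) :
    ∑ g, cpow u 8 g ^ 2 ≤ cpow (conv (adj u) u) 8 1 := by
  have h := GFun.trData.main (⟨u⟩ : GFun G)
  unfold GFun.tr at h
  rw [GFun.mul_val, GFun.st_val, GFun.pow_val, conv_adj_one, GFun.pow_val, GFun.mul_val,
    GFun.st_val] at h
  refine le_trans (le_of_eq ?_) h
  exact Finset.sum_congr rfl (fun g _ => sq _)

end Vale.Agent.P162T
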