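import Vale.Agent.P162T.Kill
import Vale.Agent.P162T.Joint
import Vale.Agent.P162T.GroupFun
import Vale.Agent.P162T.Schatten

/-!
# P162 [REG] [CEN] [CEN2] Regular representation and central decomposition
(proof plan: see the header of `Central.lean`).
-/

open Equiv Finset

set_option linter.unusedSectionVars false

namespace Vale.Agent.P162T

variable (X : Type) [Fintype X] [DecidableEq X]

/-- the group algebra element of `D` -/
noncomputable def dfun : Perm X → ℝ := fun g =>
  (1 / (Fintype.card X : ℝ)) * ((1 / 2) * ∑ x : X, ∑ y : X,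
    ((if g = 1 then 1 else 0) - (if g = swap x y then 1 else 0)))

variable {X}

/-- [REG] -/
theorem op_dfun {V : Type} [NormedAddCommGroup V] [InnerProductSpace ℝ V]
    (ρ : ORep (Perm X) V) : ρ.op (dfun X) = Dop ρ := by
  ext v
  rw [ORep.op_apply]
  unfold Dop lap
  rw [LinearMap.smul_apply, lapOn_apply]
  unfold dfun
  simp only [mul_smul, Finset.sum_smul, sub_smul]
  rw [← Finset.smul_sum, ← Finset.smul_sum, Finset.sum_comm]
  congr 2
  refine Finset.sum_congr rfl fun x _ => ?_
  rw [Finset.sum_comm]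
  refine Finset.sum_congr rfl fun y _ => ?_
  rw [Finset.sum_sub_distrib]
  congr 1
  · simp
  · simp

theorem dfun_conj (h k : Perm X) : dfun X (h⁻¹ * k * h) = dfun X k := by
  unfold dfun
  congr 2
  rw [← Equiv.sum_comp h (fun x => ∑ y : X, ((if k = 1 then (1 : ℝ) else 0) -
    (if k = swap x y then 1 else 0)))]
  refine Finset.sum_congr rfl fun x _ => ?_
  rw [← Equiv.sum_comp h (fun y => ((if k = 1 then (1 : ℝ) else 0) -
    (if k = swap (h x) y then 1 else 0)))]
  refine Finset.sum_congr rfl fun y _ => ?_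
  have e1 : h⁻¹ * k * h = 1 ↔ k = 1 := by
    constructor
    · intro e
      have : k = h * (h⁻¹ * k * h) * h⁻¹ := by group
      rw [this, e]; group
    · rintro rfl; group
  have e2 : h⁻¹ * k * h = swap x y ↔ k = swap (h x) (h y) := by
    have hs : swap (h x) (h y) = h * swap x y * h⁻¹ := by
      rw [mul_swap_eq_swap_mul, mul_assoc, mul_inv_cancel, mul_one]
    rw [hs]
    constructor
    · intro e
      rw [← e]; group
    · rintro rfl; group
  simp only [e1, e2]

/-- [REG] -/
theorem dfun_central (a : Perm X → ℝ) : conv (dfun X) a = conv a (dfun X) := by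
  funext g
  rw [conv_apply']
  unfold conv
  refine Finset.sum_congr rfl fun h _ => ?_
  have : dfun X (g * h⁻¹) = dfun X (h⁻¹ * g) := by
    rw [← dfun_conj h (g * h⁻¹)]
    congr 1
    group
  rw [this, mul_comm]

theorem adj_dfun : adj (dfun X) = dfun X := by
  funext g
  unfold adj dfun
  congr 2
  refine Finset.sum_congr rfl fun x _ => Finset.sum_congr rfl fun y _ => ?_
  have e1 : g⁻¹ = 1 ↔ g = 1 := inv_eq_one
  have e2 : g⁻¹ = swap x y ↔ g = swap x y := by
    rw [inv_eq_iff_eq_inv, swap_inv]
  simp only [e1, e2]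

/-- left translation -/
noncomputable def ltr (g : Perm X) :
    EuclideanSpace ℝ (Perm X) →ₗ[ℝ] EuclideanSpace ℝ (Perm X) where
  toFun f := WithLp.toLp 2 (fun h => f (g⁻¹ * h))
  map_add' f f' := by ext h; simp
  map_smul' c f := by ext h; simp

theorem ltr_apply (g : Perm X) (f : EuclideanSpace ℝ (Perm X)) (h : Perm X) :
    ltr g f h = f (g⁻¹ * h) := rfl

/-- the regular representation -/
noncomputable def regRep (X : Type) [Fintype X] [DecidableEq X] :
    ORep (Perm X) (EuclideanSpace ℝ (Perm X)) where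
  toHom :=
    { toFun := ltr
      map_one' := by
        ext f h
        rw [ltr_apply, inv_one, one_mul]; rfl
      map_mul' := by
        intro g g'
        ext f h
        rw [Module.End.mul_apply, ltr_apply, ltr_apply, ltr_apply, mul_inv_rev, mul_assoc] }
  isom g v w := by
    change inner ℝ (ltr g v) (ltr g w) = _
    simp only [PiLp.inner_apply, ltr_apply]
    exact Equiv.sum_comp (Equiv.mulLeft g⁻¹) (fun h => inner ℝ (v h) (w h))

theorem regRep_op (a b : Perm X → ℝ) :
    (regRep X).op a (WithLp.toLp 2 b) = WithLp.toLp 2 (conv a b) := by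
  rw [ORep.op_apply]
  ext h
  have : (∑ g, a g • (regRep X).toHom g (WithLp.toLp 2 b)) h =
      ∑ g, a g * b (g⁻¹ * h) := by
    rw [WithLp.ofLp_sum, Finset.sum_apply]
    rfl
  rw [this]
  rfl

/-- [REG] the regular representation exists -/
theorem exists_reg (X : Type) [Fintype X] [DecidableEq X] :
    ∃ reg : ORep (Perm X) (EuclideanSpace ℝ (Perm X)),
      ∀ a b : Perm X → ℝ, reg.op a (WithLp.toLp 2 b) = WithLp.toLp 2 (conv a b) :=
  ⟨regRep X, regRep_op⟩

/-- central spectral decomposition of `D` in the group algebra -/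
structure CDec (X : Type) [Fintype X] [DecidableEq X] where
  m : ℕ
  δ : Fin m → ℝ
  z : Fin m → Perm X → ℝ
  inj : ∀ i j, i ≠ j → δ i ≠ δ j
  ne : ∀ i, z i ≠ 0
  sum : ∀ g, ∑ i, z i g = dirac g
  idem : ∀ i, conv (z i) (z i) = z i
  orth : ∀ i j, i ≠ j → conv (z i) (z j) = 0
  self : ∀ i, adj (z i) = z i
  central : ∀ i a, conv (z i) a = conv a (z i)
  eig : ∀ i, conv (dfun X) (z i) = δ i • z i

theorem dop_reg (b : Perm X → ℝ) :
    Dop (regRep X) (WithLp.toLp 2 b) = WithLp.toLp 2 (conv (dfun X) b) := by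
  rw [← op_dfun, regRep_op]

/-- eigenfunctions for distinct eigenvalues with sum zero vanish -/
theorem eig_sum_zero {m : ℕ} {δ : Fin m → ℝ} (hδ : ∀ i j, i ≠ j → δ i ≠ δ j)
    {u : Fin m → Perm X → ℝ} (hu : ∀ i, conv (dfun X) (u i) = δ i • u i)
    (hs : ∀ g, ∑ i, u i g = 0) (i : Fin m) : u i = 0 := by
  let U : Fin m → EuclideanSpace ℝ (Perm X) := fun i => WithLp.toLp 2 (u i)
  have hU : ∀ i, Dop (regRep X) (U i) = δ i • U i := by
    intro i
    change Dop (regRep X) (WithLp.toLp 2 (u i)) = _
    rw [dop_reg, hu]; rfl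
  have hsum : ∑ i, U i = 0 := by
    ext g
    rw [WithLp.ofLp_sum, Finset.sum_apply]
    exact hs g
  have h1 : inner ℝ (U i) (∑ j, U j) = ‖U i‖ ^ 2 := by
    rw [inner_sum, Finset.sum_eq_single i, real_inner_self_eq_norm_sq]
    · intro j _ hj
      exact inner_eq_zero_of_eig (Dop_symm _) (hU i) (hU j) (hδ i j hj.symm)
    · intro h; exact absurd (mem_univ i) h
  rw [hsum, inner_zero_right] at h1
  have h2 : U i = 0 := by
    rw [← norm_eq_zero]
    exact pow_eq_zero_iff (two_ne_zero) |>.1 h1.symm
  funext g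
  exact congrArg (fun w : EuclideanSpace ℝ (Perm X) => w g) h2

theorem conv_sub_right (a b c : Perm X → ℝ) : conv a (b - c) = conv a b - conv a c := by
  funext g
  simp only [conv, Pi.sub_apply, mul_sub, Finset.sum_sub_distrib]

theorem conv_smul_left (r : ℝ) (a b : Perm X → ℝ) : conv (r • a) b = r • conv a b := by
  funext g
  simp only [conv, Pi.smul_apply, smul_eq_mul, mul_assoc, Finset.mul_sum]

theorem conv_smul_right (r : ℝ) (a b : Perm X → ℝ) : conv a (r • b) = r • conv a b := by
  funext g
  simp only [conv, Pi.smul_apply, smul_eq_mul, Finset.mul_sum]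
  exact Finset.sum_congr rfl fun _ _ => by ring

theorem eig_unique {m : ℕ} {δ : Fin m → ℝ} (hδ : ∀ i j, i ≠ j → δ i ≠ δ j)
    {u w : Fin m → Perm X → ℝ} (hu : ∀ i, conv (dfun X) (u i) = δ i • u i)
    (hw : ∀ i, conv (dfun X) (w i) = δ i • w i)
    (hs : ∀ g, ∑ i, u i g = ∑ i, w i g) (i : Fin m) : u i = w i := by
  have := eig_sum_zero hδ (u := fun i => u i - w i) (fun i => by
    rw [conv_sub_right, hu, hw, smul_sub]) (fun g => by
      simp only [Pi.sub_apply, Finset.sum_sub_distrib, hs, sub_self]) i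
  exact sub_eq_zero.1 this

theorem sum_conv_left {m : ℕ} (z : Fin m → Perm X → ℝ) (a : Perm X → ℝ) (g : Perm X) :
    ∑ i, conv (z i) a g = conv (fun h => ∑ i, z i h) a g := by
  simp only [conv, Finset.sum_mul]
  rw [Finset.sum_comm]

theorem sum_conv_right {m : ℕ} (z : Fin m → Perm X → ℝ) (a : Perm X → ℝ) (g : Perm X) :
    ∑ i, conv a (z i) g = conv a (fun h => ∑ i, z i h) g := by
  simp only [conv, Finset.mul_sum]
  rw [Finset.sum_comm]

/-- [CEN] -/
theorem exists_cdec (X : Type) [Fintype X] [DecidableEq X] : Nonempty (CDec X) := by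
  obtain ⟨J⟩ := JD_exists (Dop_symm (regRep X)) (Dop_symm (regRep X))
    (Commute.refl (Dop (regRep X))) (WithLp.toLp 2 (dirac : Perm X → ℝ))
  let z : Fin J.m → Perm X → ℝ := fun i g => J.vec i g
  have hzv : ∀ i, WithLp.toLp 2 (z i) = J.vec i := fun i => rfl
  have hab : ∀ i, J.b i = J.a i := by
    intro i
    have h1 := J.hA i
    rw [J.hB i] at h1
    have h2 : (J.b i - J.a i) • J.vec i = 0 := by rw [sub_smul, h1, sub_self]
    rcases smul_eq_zero.1 h2 with h3 | h3
    · exact sub_eq_zero.1 h3
    · exact absurd h3 (J.ne i)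
  have inj : ∀ i j, i ≠ j → J.a i ≠ J.a j := by
    intro i j hij
    rcases J.dist i j hij with h | h
    · exact h
    · rwa [hab, hab] at h
  have eig : ∀ i, conv (dfun X) (z i) = J.a i • z i := by
    intro i
    have h1 := dop_reg (z i)
    rw [hzv, J.hA i] at h1
    funext g
    have h2 := congrArg (fun w : EuclideanSpace ℝ (Perm X) => w g) h1
    exact h2.symm
  have sum : ∀ g, ∑ i, z i g = dirac g := by
    intro g
    have h1 := congrArg (fun w : EuclideanSpace ℝ (Perm X) => w g) J.sum
    simp only at h1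
    rw [WithLp.ofLp_sum, Finset.sum_apply] at h1
    exact h1
  have sumf : (fun h => ∑ i, z i h) = (dirac : Perm X → ℝ) := funext sum
  have central : ∀ i a, conv (z i) a = conv a (z i) := by
    intro i a
    refine eig_unique inj (u := fun i => conv (z i) a) (w := fun i => conv a (z i)) ?_ ?_ ?_ i
    · intro i
      rw [← conv_assoc, eig, conv_smul_left]
    · intro i
      rw [← conv_assoc, dfun_central, conv_assoc, eig, conv_smul_right]
    · intro g
      rw [sum_conv_left, sum_conv_right, sumf, conv_dirac, dirac_conv]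
  have orth : ∀ i j, i ≠ j → conv (z i) (z j) = 0 := by
    intro i j hij
    have h1 : conv (dfun X) (conv (z i) (z j)) = J.a i • conv (z i) (z j) := by
      rw [← conv_assoc, eig, conv_smul_left]
    have h2 : conv (dfun X) (conv (z i) (z j)) = J.a j • conv (z i) (z j) := by
      rw [central i (z j), ← conv_assoc, eig, conv_smul_left]
    have h3 : (J.a i - J.a j) • conv (z i) (z j) = 0 := by
      rw [sub_smul, ← h1, ← h2, sub_self]
    rcases smul_eq_zero.1 h3 with h4 | h4
    · exact absurd (sub_eq_zero.1 h4) (inj i j hij)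
    · exact h4
  refine ⟨⟨J.m, J.a, z, inj, ?_, sum, ?_, orth, ?_, central, eig⟩⟩
  · intro i h0
    apply J.ne i
    rw [← hzv, h0]; rfl
  · intro i
    have h1 : conv (z i) dirac = z i := conv_dirac _
    rw [← sumf] at h1
    funext g
    have h2 := congrArg (fun w : Perm X → ℝ => w g) h1
    simp only at h2
    rw [← sum_conv_right, Finset.sum_eq_single i] at h2
    · exact h2
    · intro j _ hj
      rw [orth i j hj.symm]; rfl
    · intro h; exact absurd (mem_univ i) h
  · intro i
    refine eig_unique inj (u := fun i => adj (z i)) (w := z) ?_ eig ?_ i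
    · intro i
      have h1 : conv (dfun X) (adj (z i)) = adj (conv (z i) (dfun X)) := by
        rw [adj_conv, adj_dfun]
      rw [h1, central, eig]
      rfl
    · intro g
      rw [sum g]
      have : ∑ i, adj (z i) g = ∑ i, z i g⁻¹ := rfl
      rw [this, sum]
      have h2 := congrArg (fun w : Perm X → ℝ => w g) (adj_dirac (G := Perm X))
      exact h2

/-- [CEN2] eigenvalues are `0` or `≥ 1` (gap with `k = 1`) -/
theorem CDec.zero_or [Nonempty X] (c : CDec X) (i : Fin c.m) : c.δ i = 0 ∨ 1 ≤ c.δ i := by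
  by_cases h0 : c.δ i = 0
  · exact Or.inl h0
  right
  have hn : (0 : ℝ) < Fintype.card X := by exact_mod_cast Fintype.card_pos
  set v : EuclideanSpace ℝ (Perm X) := WithLp.toLp 2 (c.z i) with hv
  have hD : Dop (regRep X) v = c.δ i • v := by
    rw [hv, dop_reg, c.eig]; rfl
  have hv0 : v ≠ 0 := by
    intro h
    apply c.ne i
    funext g
    exact congrArg (fun w : EuclideanSpace ℝ (Perm X) => w g) h
  have hz : avgOn (regRep X) Finset.univ v = 0 := by
    have e1 := Dop_avgOn_univ (regRep X) v
    have e2 := congrArg (fun T : EuclideanSpace ℝ (Perm X) →ₗ[ℝ] EuclideanSpace ℝ (Perm X) => T v)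
      (avgOn_commute_Dop (regRep X) Finset.univ).eq
    simp only [Module.End.mul_apply] at e2
    rw [← e2, hD, map_smul] at e1
    exact (smul_eq_zero.1 e1).resolve_left h0
  have hg := gap (regRep X) 1 le_rfl Finset.univ (by
    rw [Finset.card_univ]
    have : 0 < Fintype.card X := Fintype.card_pos
    omega) v (by
    intro Y _ hY
    have : Y = ∅ := by
      rw [← Finset.card_eq_zero, hY]
    rw [this, Finset.sdiff_empty, hz])
  change _ ≤ inner ℝ (lap (regRep X) v) v at hg
  rw [Dop_eig_lap _ hD, real_inner_smul_left, real_inner_self_eq_norm_sq, Finset.card_univ] at hg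
  have hvp : 0 < ‖v‖ ^ 2 := by have := norm_pos_iff.mpr hv0; positivity
  push_cast at hg
  have h2 : (Fintype.card X : ℝ) * ‖v‖ ^ 2 * 1 ≤ (Fintype.card X : ℝ) * ‖v‖ ^ 2 * c.δ i := by
    nlinarith
  exact le_of_mul_le_mul_left h2 (by positivity)

/-- a function killed by `D` is constant -/
theorem const_of_dfun {f : Perm X → ℝ} (hf : conv (dfun X) f = 0) [Nonempty X] (g : Perm X) :
    f g = f 1 := by
  set v : EuclideanSpace ℝ (Perm X) := WithLp.toLp 2 f with hv
  have hD : Dop (regRep X) v = (0 : ℝ) • v := by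
    rw [hv, dop_reg, hf, zero_smul]; rfl
  have h1 := Dop_eig_lap _ hD
  rw [mul_zero, zero_smul] at h1
  have h2 := inner_lapOn (regRep X) Finset.univ v
  change inner ℝ (lap (regRep X) v) v = _ at h2
  rw [h1, inner_zero_left] at h2
  have h3 : ∑ x : X, ∑ y : X, ‖v - (regRep X).toHom (swap x y) v‖ ^ 2 = 0 := by linarith
  have h4 : ∀ x y : X, (regRep X).toHom (swap x y) v = v := by
    intro x y
    have h5 := (Finset.sum_eq_zero_iff_of_nonneg (fun x _ => Finset.sum_nonneg
      fun y _ => sq_nonneg _)).1 h3 x (mem_univ x)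
    have h6 := (Finset.sum_eq_zero_iff_of_nonneg (fun y _ => sq_nonneg _)).1 h5 y (mem_univ y)
    have h7 : v - (regRep X).toHom (swap x y) v = 0 := by
      rw [← norm_eq_zero]
      exact pow_eq_zero_iff (two_ne_zero) |>.1 h6
    exact (sub_eq_zero.1 h7).symm
  have h5 : ∀ g : Perm X, (regRep X).toHom g v = v := by
    intro g
    induction g using Perm.swap_induction_on with
    | one => exact ORep.map_one_apply _ v
    | swap_mul f x y _ ih => rw [ORep.map_mul_apply, ih, h4]
  have h6 := congrArg (fun w : EuclideanSpace ℝ (Perm X) => w g) (h5 g)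
  have h7 : ((regRep X).toHom g v) g = f (g⁻¹ * g) := rfl
  simp only at h6
  rw [h7, inv_mul_cancel] at h6
  exact h6.symm

theorem card_perm_pos : (0 : ℝ) < ((Fintype.card X).factorial : ℝ) := by
  exact_mod_cast Nat.factorial_pos _

/-- [CEN2] the component of eigenvalue 0 is the uniform law -/
theorem CDec.z_zero [Nonempty X] (c : CDec X) (i : Fin c.m) (hi : c.δ i = 0) (g : Perm X) :
    c.z i g = 1 / ((Fintype.card X).factorial : ℝ) := by
  have h0 : conv (dfun X) (c.z i) = 0 := by rw [c.eig, hi, zero_smul]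
  have hc := const_of_dfun h0
  have hN := card_perm_pos (X := X)
  set r : ℝ := c.z i 1 with hr
  have hr0 : r ≠ 0 := by
    intro h
    apply c.ne i
    funext g
    rw [hc g, h]; rfl
  have h1 := congrArg (fun w : Perm X → ℝ => w 1) (c.idem i)
  simp only [conv] at h1
  have h2 : ∑ h : Perm X, c.z i h * c.z i (h⁻¹ * 1) = ((Fintype.card X).factorial : ℝ) * (r * r) := by
    rw [Finset.sum_congr rfl fun h _ => by rw [hc h, hc (h⁻¹ * 1)], Finset.sum_const,
      Finset.card_univ, Fintype.card_perm, nsmul_eq_mul]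
  rw [h2, ← hr] at h1
  rw [hc g, eq_div_iff hN.ne']
  have h3 : r * (((Fintype.card X).factorial : ℝ) * r) = r * 1 := by rw [mul_one]; linarith
  have h4 := mul_left_cancel₀ hr0 h3
  linarith

/-- [CEN2] it exists -/
theorem CDec.exists_zero [Nonempty X] (c : CDec X) : ∃ i, c.δ i = 0 := by
  by_contra hcon
  push Not at hcon
  let u : Perm X → ℝ := fun _ => 1
  have hDu : conv (dfun X) u = 0 := by
    funext g
    have h1 : conv (dfun X) u g = ∑ h, dfun X h := by
      simp [conv, u]
    rw [h1]
    unfold dfun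
    rw [← Finset.mul_sum, ← Finset.mul_sum, Finset.sum_comm]
    have : ∀ x ∈ (univ : Finset X), ∑ h : Perm X, ∑ y : X,
        ((if h = 1 then (1 : ℝ) else 0) - (if h = swap x y then 1 else 0)) = 0 := by
      intro x _
      rw [Finset.sum_comm]
      refine Finset.sum_eq_zero fun y _ => ?_
      rw [Finset.sum_sub_distrib]
      simp
    rw [Finset.sum_congr rfl this]
    simp
  have hz : ∀ i, conv (c.z i) u = 0 := by
    intro i
    have h1 : conv (dfun X) (conv (c.z i) u) = c.δ i • conv (c.z i) u := by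
      rw [← conv_assoc, c.eig, conv_smul_left]
    have h2 : conv (dfun X) (conv (c.z i) u) = 0 := by
      rw [c.central, ← conv_assoc, hDu]
      funext g
      simp [conv]
    rw [h2] at h1
    rcases smul_eq_zero.1 h1.symm with h3 | h3
    · exact absurd h3 (hcon i)
    · exact h3
  have h1 : ∑ i, conv (c.z i) u 1 = u 1 := by
    rw [sum_conv_left]
    have : (fun h => ∑ i, c.z i h) = (dirac : Perm X → ℝ) := funext c.sum
    rw [this, dirac_conv]
  rw [Finset.sum_congr rfl fun i _ => by rw [hz i]] at h1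
  simp [u] at h1

end Vale.Agent.P162T
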