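import Vale.Agent.P162T.Degree
import Vale.Agent.P162T.GroupFun
import Vale.Agent.P162T.Schatten
import Vale.Agent.P162T.Cdec

/-!
# P162 [WSUM] the weights `w_i = (z_i * A^8)(1)`
-/

open Equiv Finset

set_option linter.unusedSectionVars false

namespace Vale.Agent.P162T

variable {X : Type} [Fintype X] [DecidableEq X]

/-- the weight `w_i = (z_i * A^8)(1)` -/
noncomputable def CDec.w (c : CDec X) (A : Perm X → ℝ) (i : Fin c.m) : ℝ :=
  conv (c.z i) (cpow A 8) 1

/-- linearity of the convolution in the left factor -/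
theorem conv_sum_leftW {G : Type} [Group G] [Fintype G] [DecidableEq G] {ι : Type*}
    (s : Finset ι) (f : ι → G → ℝ) (b : G → ℝ) (g : G) :
    ∑ i ∈ s, conv (f i) b g = conv (fun h => ∑ i ∈ s, f i h) b g := by
  unfold conv
  rw [Finset.sum_comm]
  refine Finset.sum_congr rfl fun h _ => ?_
  rw [Finset.sum_mul]

theorem conv_smul_rightW {G : Type} [Group G] [Fintype G] [DecidableEq G]
    (a b : G → ℝ) (r : ℝ) : conv a (r • b) = r • conv a b := by
  funext g
  unfold conv
  simp only [Pi.smul_apply, smul_eq_mul, Finset.mul_sum]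
  exact Finset.sum_congr rfl fun h _ => by ring

/-- the vector `A^4 * z_i` -/
noncomputable def CDec.vv (c : CDec X) (A : Perm X → ℝ) (i : Fin c.m) : Perm X → ℝ :=
  conv (cpow A 4) (c.z i)

theorem CDec.adj_vv (c : CDec X) {A : Perm X → ℝ} (hA : adj A = A) (i : Fin c.m) :
    adj (c.vv A i) = conv (c.z i) (cpow A 4) := by
  unfold CDec.vv
  rw [adj_conv, c.self, adj_cpow, hA]

theorem cpow_eight (A : Perm X → ℝ) : cpow A 8 = conv (cpow A 4) (cpow A 4) := by
  rw [← cpow_add]

/-- `(v_i* u v_i)(1) = (z_i * A^4 * u * A^4)(1)` -/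
theorem CDec.vv_form (c : CDec X) {A : Perm X → ℝ} (hA : adj A = A) (i : Fin c.m)
    (u : Perm X → ℝ) : conv (adj (c.vv A i)) (conv u (c.vv A i)) 1 =
      conv (c.z i) (conv (cpow A 4) (conv u (cpow A 4))) 1 := by
  rw [c.adj_vv hA]
  unfold CDec.vv
  have e1 : conv (conv (c.z i) (cpow A 4)) (conv u (conv (cpow A 4) (c.z i))) =
      conv (conv (c.z i) (conv (cpow A 4) (conv u (cpow A 4)))) (c.z i) := by
    simp only [conv_assoc]
  rw [e1, conv_one_comm, ← conv_assoc, c.idem]

theorem CDec.w_eq (c : CDec X) {A : Perm X → ℝ} (hA : adj A = A) (i : Fin c.m) :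
    c.w A i = ∑ g, c.vv A i g * c.vv A i g := by
  have h := c.vv_form hA i dirac
  rw [dirac_conv, dirac_conv, conv_adj_one, ← cpow_eight] at h
  rw [h]
  rfl

/-- [WSUM] -/
theorem CDec.w_nonneg' (c : CDec X) {A : Perm X → ℝ} (hA : adj A = A) (i : Fin c.m) :
    0 ≤ c.w A i := by
  rw [c.w_eq hA]
  exact Finset.sum_nonneg fun g _ => mul_self_nonneg _

/-- [WSUM] -/
theorem CDec.sum_w' (c : CDec X) (A : Perm X → ℝ) : ∑ i, c.w A i = cpow A 8 1 := by
  unfold CDec.w
  rw [conv_sum_leftW]
  have h : (fun h => ∑ i, c.z i h) = (dirac : Perm X → ℝ) := by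
    funext g; exact c.sum g
  rw [h, dirac_conv]

/-- permutations fixing `Y` pointwise -/
def fixY (Y : Finset X) : Finset (Perm X) :=
  Finset.univ.filter (fun g : Perm X => ∀ y ∈ Y, g y = y)

theorem card_fixY (Y : Finset X) : (fixY Y).card = (Fintype.card X - Y.card).factorial := by
  have h1 : (fixY Y).card = Fintype.card {f : Perm X // ∀ a, ¬ (a ∉ Y) → f a = a} := by
    rw [Fintype.card_subtype]
    unfold fixY
    congr 1
    ext g
    simp only [mem_filter, mem_univ, true_and, not_not]
  rw [h1, ← Fintype.card_congr (Equiv.Perm.subtypeEquivSubtypePerm (fun a : X => a ∉ Y)),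
    Fintype.card_perm]
  congr 1
  rw [Fintype.card_subtype_compl]
  simp

/-- uniform law on `fixY Y` -/
noncomputable def uY (Y : Finset X) : Perm X → ℝ := fun g =>
  if g ∈ fixY Y then 1 / ((Fintype.card X - Y.card).factorial : ℝ) else 0

theorem filter_compl_eq (Y : Finset X) :
    (Finset.univ.filter (fun g : Perm X => ∀ x, x ∉ Yᶜ → g x = x)) = fixY Y := by
  unfold fixY
  ext g
  simp only [mem_filter, mem_univ, true_and, mem_compl, not_not]

theorem avgOn_eq_op {V : Type} [NormedAddCommGroup V] [InnerProductSpace ℝ V]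
    (ρ : ORep (Perm X) V) (Y : Finset X) : avgOn ρ Yᶜ = ρ.op (uY Y) := by
  unfold avgOn ORep.op uY
  rw [filter_compl_eq, card_fixY, Finset.smul_sum]
  simp only [ite_smul, zero_smul]
  rw [Finset.sum_ite_mem, Finset.univ_inter]

theorem conv_uY_one (Y : Finset X) (a : Perm X → ℝ) :
    conv (uY Y) a 1 = (1 / ((Fintype.card X - Y.card).factorial : ℝ)) *
      ∑ g ∈ fixY Y, a g := by
  unfold conv uY
  simp only [ite_mul, zero_mul, mul_one]
  rw [Finset.sum_ite_mem, Finset.univ_inter, Finset.mul_sum]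
  refine Finset.sum_bij' (fun g _ => g⁻¹) (fun g _ => g⁻¹) ?_ ?_ ?_ ?_ ?_
  · intro g hg
    simp only [fixY, mem_filter, mem_univ, true_and] at hg ⊢
    intro y hy
    rw [Equiv.Perm.inv_eq_iff_eq]
    exact (hg y hy).symm
  · intro g hg
    simp only [fixY, mem_filter, mem_univ, true_and] at hg ⊢
    intro y hy
    rw [Equiv.Perm.inv_eq_iff_eq]
    exact (hg y hy).symm
  · intro g _; exact inv_inv g
  · intro g _; exact inv_inv g
  · intro g _; rfl

/-- [WSUM] -/
theorem CDec.sum_w_le' (c : CDec X) {A : Perm X → ℝ} (hA : adj A = A) (k : ℕ)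
    (hk : 2 * (k + 1) ≤ Fintype.card X + 1) (M : ℝ)
    (hM : ∀ Y : Finset X, Y.card = k →
      (∑ g ∈ Finset.univ.filter (fun g : Perm X => ∀ y ∈ Y, g y = y), cpow A 8 g) *
        ((Fintype.card X).descFactorial k : ℝ) ≤ M) :
    ((Fintype.card X).factorial : ℝ) * ∑ i ∈ Finset.univ.filter
      (fun i => c.δ i < (k + 1 : ℝ) * ((Fintype.card X : ℝ) - k) / Fintype.card X), c.w A i ≤
      ((Fintype.card X).choose k : ℝ) * M := by
  obtain ⟨reg, hreg⟩ := exists_reg X
  set W : Fin c.m → EuclideanSpace ℝ (Perm X) := fun i => WithLp.toLp 2 (c.vv A i) with hW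
  -- eigenvector
  have heig : ∀ i, Dop reg (W i) = c.δ i • W i := by
    intro i
    rw [← op_dfun reg, hW, hreg]
    unfold CDec.vv
    rw [← conv_assoc, dfun_central, conv_assoc, c.eig, conv_smul_rightW]
    rfl
  have hinner : ∀ a b : Perm X → ℝ, inner ℝ (WithLp.toLp 2 a : EuclideanSpace ℝ (Perm X))
      (WithLp.toLp 2 b) = ∑ g, a g * b g := by
    intro a b
    rw [PiLp.inner_apply]
    refine Finset.sum_congr rfl fun g _ => ?_
    simp [mul_comm]
  have hnorm : ∀ i, ‖W i‖ ^ 2 = c.w A i := by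
    intro i
    rw [← real_inner_self_eq_norm_sq, hW, hinner, c.w_eq hA]
  have hWk : ∀ i, inner ℝ (Wk reg k (W i)) (W i) =
      ∑ Y ∈ Finset.univ.filter (fun Y : Finset X => Y.card = k),
        conv (c.z i) (conv (cpow A 4) (conv (uY Y) (cpow A 4))) 1 := by
    intro i
    unfold Wk
    rw [LinearMap.sum_apply, sum_inner]
    refine Finset.sum_congr rfl fun Y _ => ?_
    rw [avgOn_eq_op, hW, hreg, real_inner_comm, hinner, ← conv_adj_one, c.vv_form hA]
  have hsmall : ∑ i ∈ Finset.univ.filter
      (fun i => c.δ i < (k + 1 : ℝ) * ((Fintype.card X : ℝ) - k) / Fintype.card X), c.w A i ≤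
      ∑ i, inner ℝ (Wk reg k (W i)) (W i) := by
    calc ∑ i ∈ Finset.univ.filter
          (fun i => c.δ i < (k + 1 : ℝ) * ((Fintype.card X : ℝ) - k) / Fintype.card X), c.w A i
        ≤ ∑ i ∈ Finset.univ.filter
          (fun i => c.δ i < (k + 1 : ℝ) * ((Fintype.card X : ℝ) - k) / Fintype.card X),
          inner ℝ (Wk reg k (W i)) (W i) := by
          refine Finset.sum_le_sum fun i hi => ?_
          rw [mem_filter] at hi
          rw [← hnorm i]
          exact Wk_ge reg k (mem_Vdeg_of_lt reg k hk (heig i) hi.2)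
      _ ≤ ∑ i, inner ℝ (Wk reg k (W i)) (W i) :=
          Finset.sum_le_sum_of_subset_of_nonneg (Finset.filter_subset _ _)
            fun i _ _ => Wk_nonneg reg k (W i)
  have htot : ∑ i, inner ℝ (Wk reg k (W i)) (W i) =
      ∑ Y ∈ Finset.univ.filter (fun Y : Finset X => Y.card = k),
        (1 / ((Fintype.card X - Y.card).factorial : ℝ)) * ∑ g ∈ fixY Y, cpow A 8 g := by
    rw [Finset.sum_congr rfl fun i _ => hWk i, Finset.sum_comm]
    refine Finset.sum_congr rfl fun Y _ => ?_
    have h : (fun h => ∑ i, c.z i h) = (dirac : Perm X → ℝ) := by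
      funext g; exact c.sum g
    rw [conv_sum_leftW, h, dirac_conv, conv_one_comm, conv_assoc, ← cpow_eight, conv_uY_one]
  have hkX : k ≤ Fintype.card X := by omega
  have hfac : ((Fintype.card X).factorial : ℝ) =
      ((Fintype.card X - k).factorial : ℝ) * ((Fintype.card X).descFactorial k : ℝ) := by
    exact_mod_cast (Nat.factorial_mul_descFactorial hkX).symm
  calc ((Fintype.card X).factorial : ℝ) * ∑ i ∈ Finset.univ.filter
        (fun i => c.δ i < (k + 1 : ℝ) * ((Fintype.card X : ℝ) - k) / Fintype.card X), c.w A i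
      ≤ ((Fintype.card X).factorial : ℝ) *
        ∑ Y ∈ Finset.univ.filter (fun Y : Finset X => Y.card = k),
          (1 / ((Fintype.card X - Y.card).factorial : ℝ)) * ∑ g ∈ fixY Y, cpow A 8 g := by
        rw [← htot]
        exact mul_le_mul_of_nonneg_left hsmall (by positivity)
    _ = ∑ Y ∈ Finset.univ.filter (fun Y : Finset X => Y.card = k),
          (∑ g ∈ fixY Y, cpow A 8 g) * ((Fintype.card X).descFactorial k : ℝ) := by
        rw [Finset.mul_sum]
        refine Finset.sum_congr rfl fun Y hY => ?_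
        rw [mem_filter] at hY
        rw [hY.2, hfac]
        have : ((Fintype.card X - k).factorial : ℝ) ≠ 0 := by positivity
        field_simp
    _ ≤ ∑ _Y ∈ Finset.univ.filter (fun Y : Finset X => Y.card = k), M := by
        refine Finset.sum_le_sum fun Y hY => ?_
        rw [mem_filter] at hY
        exact hM Y hY.2
    _ = ((Fintype.card X).choose k : ℝ) * M := by
        rw [Finset.sum_const, nsmul_eq_mul]
        congr 2
        have : (Finset.univ.filter (fun Y : Finset X => Y.card = k)) =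
            Finset.powersetCard k (Finset.univ : Finset X) := by
          ext Y
          simp [Finset.mem_powersetCard]
        rw [this, Finset.card_powersetCard, Finset.card_univ]

end Vale.Agent.P162T
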