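import Vale.Agent.P162T.Degree
import Vale.Agent.P162T.GroupFun
import Vale.Agent.P162T.Schatten
import Vale.Agent.P162T.Cdec
import Vale.Agent.P162T.Wsum

/-!
# P162 [REG] [CEN] [WSUM] Regular representation and central decomposition

REG: regular representation on `EuclideanSpace ℝ (Perm X)`, `(reg g f) h = f (g⁻¹ h)`, so that
 `(reg X).op a b = conv a b`; `‖b‖² = ∑ b²`.
 `dfun X = (1/n) · ½ ∑_{x,y} (dirac - δ_{swap x y})` represents `D`: `ρ.op (dfun X) = Dop ρ`.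
CEN (`exists_central_decomp`): let `P_i` be the orthogonal projections on the eigenspaces of `Dop (reg X)`, `z_i := P_i e_1`
 (drop the zero ones).  `D` commutes with left and right translations, so does `P_i`; hence
 `conv (δ_g) z_i = P_i e_g = conv z_i δ_g`: `z_i` is central, `conv z_i b = P_i b`; so `z_i * z_i = z_i`, `z_i * z_j = 0`,
 `adj z_i = z_i` (`P_i` symmetric), `∑ z_i = e_1 = dirac`, `dfun * z_i = δ_i z_i`.
WSUM: `A = adj A`, `w_i := (z_i * A^8)(1) = ∑ (A^4 * z_i)²`.  `v_i := A^4 * z_i` satisfies `D v_i = δ_i v_i`, so if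
 `δ_i < (k+1)(n-k)/n` then `v_i ∈ Vdeg k` and `w_i = ‖v_i‖² ≤ ⟨W_k v_i, v_i⟩` (`mem_Vdeg_of_lt`, `Wk_ge`).  `avgOn reg Yᶜ = conv u_Y`,
 `u_Y = (1/(n-k)!) 1[g fixes Y]`, `⟨u_Y * v_i, v_i⟩ = (z_i * A^4 * u_Y * A^4)(1)` and summing over ALL `i` (terms `≥ 0`, `Wk_nonneg`):
 `∑_{i: δ_i small} w_i ≤ ∑_Y (A^4 * u_Y * A^4)(1) = ∑_Y (u_Y * A^8)(1) = ∑_{|Y|=k} pfix (A^8) Y /(n-k)!`.
-/

open Equiv Finset

set_option linter.unusedSectionVars false

namespace Vale.Agent.P162T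

variable {X : Type} [Fintype X] [DecidableEq X]

/-- [WSUM] -/
theorem CDec.w_nonneg (c : CDec X) {A : Perm X → ℝ} (hA : adj A = A) (i : Fin c.m) :
    0 ≤ c.w A i := c.w_nonneg' hA i

/-- [WSUM] -/
theorem CDec.sum_w (c : CDec X) (A : Perm X → ℝ) : ∑ i, c.w A i = cpow A 8 1 := c.sum_w' A

/-- [WSUM] -/
theorem CDec.sum_w_le (c : CDec X) {A : Perm X → ℝ} (hA : adj A = A) (k : ℕ)
    (hk : 2 * (k + 1) ≤ Fintype.card X + 1) (M : ℝ)
    (hM : ∀ Y : Finset X, Y.card = k →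
      (∑ g ∈ Finset.univ.filter (fun g : Perm X => ∀ y ∈ Y, g y = y), cpow A 8 g) *
        ((Fintype.card X).descFactorial k : ℝ) ≤ M) :
    ((Fintype.card X).factorial : ℝ) * ∑ i ∈ Finset.univ.filter
      (fun i => c.δ i < (k + 1 : ℝ) * ((Fintype.card X : ℝ) - k) / Fintype.card X), c.w A i ≤
      ((Fintype.card X).choose k : ℝ) * M := c.sum_w_le' hA k hk M hM

end Vale.Agent.P162T
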