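import Vale.Agent.P162T.Build

/-!
# P162 [CMP] Comparison of `A = T* T` with `B = T* U T` on few cards, and positivity

`pfix a Y = ∑_{g fixes Y pointwise} a g`.  For `y z : Fin k → X` let `pr a y z = ∑_{g : ∀ i, g (y i) = z i} a g`;
`pr (conv a b) y z = ∑_{u : Fin k → X} pr b y u * pr a u z` (for `y` injective only injective `u` contribute, but all
formulas hold for all `y,z`).  So if `a,b,a',b' ≥ 0`, `pr a y z ≥ c pr a' y z` and `pr b y z ≥ c' pr b' y z` for all
injective `y,z` then `pr (a*b) ≥ c c' pr (a'*b')` on injective tuples.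
* `U := th i0 unifC j` (`j ≥ i0`) satisfies `pfix U Y ≥ m^{-|Y|}`, `m = 2^{i0}`: induction on `j`: base:
  `(m-k)!/m! ≥ m^{-k}`; step: `pfix (tens φ φ) Y = pfix φ Y_L · pfix φ Y_R`.  So `pr U y y ≥ m^{-k}` and
  `pr (U * b) ≥ m^{-k} pr b`.
* `B = adj t * (U * t)`, `A = adj t * t`, so `pr B ≥ m^{-k} pr A` and `pr (B^8) ≥ m^{-8k} pr (A^8)`; take `y = z`
  an enumeration of `Y`.
* `pfix (B^8) Y ≤ (n-k)! B^8(1)`: `B^8 = adj f * f`, `f = B^4` (`adj B = B`), `adj_conv_self_le`; number of `g` fixing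
  `Y` pointwise is `(n-k)!`.
-/

open Equiv Finset

set_option linter.unusedSectionVars false

namespace Vale.Agent.P162T

section

variable {X : Type} [Fintype X] [DecidableEq X]

/-- mass of the permutations fixing `Y` pointwise -/
noncomputable def pfix (a : Perm X → ℝ) (Y : Finset X) : ℝ :=
  ∑ g ∈ Finset.univ.filter (fun g : Perm X => ∀ y ∈ Y, g y = y), a g

theorem pfix_eq_ite (a : Perm X → ℝ) (Y : Finset X) :
    pfix a Y = ∑ g : Perm X, a g * (if ∀ y ∈ Y, g y = y then 1 else 0) := by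
  unfold pfix
  rw [Finset.sum_filter]
  refine Finset.sum_congr rfl fun g _ => ?_
  split_ifs <;> simp

/-- [CMP] -/
theorem pfix_tens (φ : Perm X → ℝ) (Y : Finset (X ⊕ X)) :
    pfix (tens φ φ) Y = pfix φ (Finset.univ.filter (fun x => Sum.inl x ∈ Y)) *
      pfix φ (Finset.univ.filter (fun x => Sum.inr x ∈ Y)) := by
  rw [pfix_eq_ite, sum_tens, pfix_eq_ite, pfix_eq_ite, Finset.sum_mul_sum]
  refine Finset.sum_congr rfl fun a _ => Finset.sum_congr rfl fun b _ => ?_
  have h : (∀ y ∈ Y, (Perm.sumCongr a b) y = y) ↔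
      ((∀ x ∈ Finset.univ.filter (fun x => Sum.inl x ∈ Y), a x = x) ∧
        ∀ x ∈ Finset.univ.filter (fun x => Sum.inr x ∈ Y), b x = x) := by
    constructor
    · intro h
      refine ⟨fun x hx => ?_, fun x hx => ?_⟩
      · have h1 := h _ (Finset.mem_filter.1 hx).2
        rw [Perm.sumCongr_apply, Sum.map_inl] at h1
        exact Sum.inl.inj h1
      · have h1 := h _ (Finset.mem_filter.1 hx).2
        rw [Perm.sumCongr_apply, Sum.map_inr] at h1
        exact Sum.inr.inj h1
    · rintro ⟨h1, h2⟩ y hy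
      rcases y with x | x
      · rw [Perm.sumCongr_apply, Sum.map_inl, h1 x (Finset.mem_filter.2 ⟨mem_univ x, hy⟩)]
      · rw [Perm.sumCongr_apply, Sum.map_inr, h2 x (Finset.mem_filter.2 ⟨mem_univ x, hy⟩)]
  by_cases h1 : ∀ x ∈ Finset.univ.filter (fun x => Sum.inl x ∈ Y), a x = x
  · by_cases h2 : ∀ x ∈ Finset.univ.filter (fun x => Sum.inr x ∈ Y), b x = x
    · rw [if_pos (h.2 ⟨h1, h2⟩), if_pos h1, if_pos h2]
      ring
    · rw [if_neg (fun hc => h2 (h.1 hc).2), if_neg h2]
      ring
  · rw [if_neg (fun hc => h1 (h.1 hc).1), if_neg h1]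
    ring

theorem card_sum_split (Y : Finset (X ⊕ X)) :
    Y.card = (Finset.univ.filter (fun x => Sum.inl x ∈ Y)).card
      + (Finset.univ.filter (fun x => Sum.inr x ∈ Y)).card := by
  have h4 : Y.card = ∑ z : X ⊕ X, if z ∈ Y then 1 else 0 := by
    rw [Finset.sum_ite_mem, Finset.univ_inter, Finset.card_eq_sum_ones]
  rw [h4, Fintype.sum_sum_type, Finset.card_filter, Finset.card_filter]

/-- transition weights on tuples -/
noncomputable def pr {k : ℕ} (a : Perm X → ℝ) (y z : Fin k → X) : ℝ :=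
  ∑ g : Perm X, if (fun i => g (y i)) = z then a g else 0

theorem pr_nonneg {k : ℕ} {a : Perm X → ℝ} (ha : ∀ g, 0 ≤ a g) (y z : Fin k → X) :
    0 ≤ pr a y z :=
  Finset.sum_nonneg fun g _ => by
    split_ifs
    · exact ha g
    · exact le_rfl

theorem pr_conv {k : ℕ} (a b : Perm X → ℝ) (y z : Fin k → X) :
    pr (conv a b) y z = ∑ u : Fin k → X, pr b y u * pr a u z := by
  have h1 : ∀ u : Fin k → X, pr b y u * pr a u z
      = ∑ g' : Perm X, ∑ h : Perm X, if (fun i => g' (y i)) = u then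
        (if (fun i => h (u i)) = z then a h * b g' else 0) else 0 := by
    intro u
    unfold pr
    rw [Finset.sum_mul_sum]
    refine Finset.sum_congr rfl fun g' _ => Finset.sum_congr rfl fun h _ => ?_
    split_ifs <;> ring
  rw [Finset.sum_congr rfl fun u _ => h1 u, Finset.sum_comm]
  have h2 : ∀ g' : Perm X, ∑ u : Fin k → X, ∑ h : Perm X,
      (if (fun i => g' (y i)) = u then
        (if (fun i => h (u i)) = z then a h * b g' else 0) else 0)
      = ∑ h : Perm X, if (fun i => (h * g') (y i)) = z then a h * b g' else 0 := by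
    intro g'
    rw [Finset.sum_comm]
    refine Finset.sum_congr rfl fun h _ => ?_
    rw [Finset.sum_ite_eq univ (fun i => g' (y i)), if_pos (mem_univ _)]
    rfl
  rw [Finset.sum_congr rfl fun g' _ => h2 g', Finset.sum_comm]
  unfold pr conv
  have h3 : ∀ g : Perm X, (if (fun i => g (y i)) = z then ∑ h, a h * b (h⁻¹ * g) else 0)
      = ∑ h, if (fun i => g (y i)) = z then a h * b (h⁻¹ * g) else 0 := by
    intro g
    split_ifs
    · rfl
    · simp
  rw [Finset.sum_congr rfl fun g _ => h3 g, Finset.sum_comm]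
  refine Finset.sum_congr rfl fun h _ => ?_
  rw [← Equiv.sum_comp (Equiv.mulLeft h)]
  refine Finset.sum_congr rfl fun g' _ => ?_
  rw [Equiv.coe_mulLeft, inv_mul_cancel_left]

theorem pr_eq_zero {k : ℕ} (a : Perm X → ℝ) {y u : Fin k → X} (hy : Function.Injective y)
    (hu : ¬ Function.Injective u) : pr a y u = 0 := by
  refine Finset.sum_eq_zero fun g _ => if_neg ?_
  intro hc
  apply hu
  rw [← hc]
  exact g.injective.comp hy

theorem pr_self {k : ℕ} (a : Perm X → ℝ) (y : Fin k → X) :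
    pr a y y = pfix a (Finset.univ.image y) := by
  unfold pr pfix
  rw [Finset.sum_filter]
  refine Finset.sum_congr rfl fun g _ => ?_
  have h : ((fun i => g (y i)) = y) ↔ ∀ x ∈ Finset.univ.image y, g x = x := by
    constructor
    · intro h x hx
      obtain ⟨i, _, rfl⟩ := Finset.mem_image.1 hx
      exact congrFun h i
    · intro h
      funext i
      exact h _ (Finset.mem_image_of_mem y (mem_univ i))
  by_cases h1 : (fun i => g (y i)) = y
  · rw [if_pos h1, if_pos (h.1 h1)]
  · rw [if_neg h1, if_neg fun hc => h1 (h.2 hc)]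

/-- domination on injective tuples -/
def PDom (k : ℕ) (c : ℝ) (a a' : Perm X → ℝ) : Prop :=
  ∀ y z : Fin k → X, Function.Injective y → Function.Injective z → c * pr a y z ≤ pr a' y z

theorem pdom_conv {k : ℕ} {c c' : ℝ} (hc : 0 ≤ c) (_ : 0 ≤ c') {a a' b b' : Perm X → ℝ}
    (ha : ∀ g, 0 ≤ a g) (hb' : ∀ g, 0 ≤ b' g)
    (h : PDom k c a a') (h' : PDom k c' b b') : PDom k (c * c') (conv a b) (conv a' b') := by
  intro y z hy hz
  rw [pr_conv, pr_conv, Finset.mul_sum]
  refine Finset.sum_le_sum fun u _ => ?_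
  by_cases hu : Function.Injective u
  · calc c * c' * (pr b y u * pr a u z) = (c' * pr b y u) * (c * pr a u z) := by ring
      _ ≤ pr b' y u * pr a' u z :=
        mul_le_mul (h' y u hy hu) (h u z hu hz) (mul_nonneg hc (pr_nonneg ha _ _))
          (pr_nonneg hb' _ _)
  · rw [pr_eq_zero b hy hu, pr_eq_zero b' hy hu]
    simp

theorem pdom_refl (k : ℕ) (a : Perm X → ℝ) : PDom k 1 a a := by
  intro y z _ _
  rw [one_mul]

theorem pdom_left {k : ℕ} {c : ℝ} {U t : Perm X → ℝ} (ht : ∀ g, 0 ≤ t g)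
    (hU : ∀ g, 0 ≤ U g) (h : ∀ Y : Finset X, Y.card = k → c ≤ pfix U Y) :
    PDom k c t (conv U t) := by
  intro y z _ hz
  rw [pr_conv]
  have h1 : c ≤ pr U z z := by
    rw [pr_self]
    refine h _ ?_
    rw [Finset.card_image_of_injective _ hz, Finset.card_univ, Fintype.card_fin]
  calc c * pr t y z = pr t y z * c := mul_comm _ _
    _ ≤ pr t y z * pr U z z := mul_le_mul_of_nonneg_left h1 (pr_nonneg ht _ _)
    _ ≤ ∑ u, pr t y u * pr U u z :=
      Finset.single_le_sum (f := fun u => pr t y u * pr U u z)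
        (fun u _ => mul_nonneg (pr_nonneg ht _ _) (pr_nonneg hU _ _)) (mem_univ z)

theorem adj_nonneg {t : Perm X → ℝ} (ht : ∀ g, 0 ≤ t g) (g : Perm X) : 0 ≤ adj t g := ht _

theorem pdom_cpow {k : ℕ} {c : ℝ} (hc : 0 ≤ c) {a a' : Perm X → ℝ}
    (ha : ∀ g, 0 ≤ a g) (ha' : ∀ g, 0 ≤ a' g) (h : PDom k c a a') (m : ℕ) :
    PDom k (c ^ m) (cpow a m) (cpow a' m) := by
  induction m with
  | zero =>
    rw [pow_zero]
    exact pdom_refl k _
  | succ m ih =>
    rw [pow_succ']
    exact pdom_conv hc (pow_nonneg hc m) ha (cpow_nonneg ha' m) h ih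

/-- [CMP] general comparison: if `U ≥ 0` fixes every `k`-set with mass `≥ c` then -/
theorem pfix_cpow_le {t U : Perm X → ℝ} (ht : ∀ g, 0 ≤ t g) (hU : ∀ g, 0 ≤ U g) {c : ℝ}
    (hc : 0 ≤ c) (k : ℕ) (h : ∀ Y : Finset X, Y.card = k → c ≤ pfix U Y) (m : ℕ)
    (Y : Finset X) (hY : Y.card = k) :
    c ^ m * pfix (cpow (conv (adj t) t) m) Y ≤
      pfix (cpow (conv (adj t) (conv U t)) m) Y := by
  have h1 : PDom k c (conv (adj t) t) (conv (adj t) (conv U t)) := by
    have h2 := pdom_conv zero_le_one hc (adj_nonneg ht) (conv_nonneg hU ht)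
      (pdom_refl k (adj t)) (pdom_left ht hU h)
    rwa [one_mul] at h2
  have h3 := pdom_cpow hc (conv_nonneg (adj_nonneg ht) ht)
    (conv_nonneg (adj_nonneg ht) (conv_nonneg hU ht)) h1 m
  subst hY
  let e := Y.equivFin.symm
  have hinj : Function.Injective (fun i => (e i : X)) :=
    Subtype.val_injective.comp e.injective
  have himg : Finset.univ.image (fun i => (e i : X)) = Y := by
    ext x
    constructor
    · intro hx
      obtain ⟨i, _, rfl⟩ := Finset.mem_image.1 hx
      exact (e i).2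
    · intro hx
      exact Finset.mem_image.2 ⟨e.symm ⟨x, hx⟩, mem_univ _, by simp⟩
  have h4 := h3 (fun i => (e i : X)) (fun i => (e i : X)) hinj hinj
  rw [pr_self, pr_self, himg] at h4
  exact h4

theorem card_fix (Y : Finset X) :
    (Finset.univ.filter (fun g : Perm X => ∀ y ∈ Y, g y = y)).card
      = (Fintype.card X - Y.card).factorial := by
  rw [← Fintype.card_subtype]
  have e : Perm {x // x ∉ Y} ≃ {g : Perm X // ∀ a, ¬ (a ∉ Y) → g a = a} :=
    Equiv.Perm.subtypeEquivSubtypePerm (fun x => x ∉ Y)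
  have e2 : {g : Perm X // ∀ a, ¬ (a ∉ Y) → g a = a} ≃ {g : Perm X // ∀ y ∈ Y, g y = y} :=
    Equiv.subtypeEquivRight fun g => by simp
  rw [← Fintype.card_congr (e.trans e2), Fintype.card_perm]
  congr 1
  rw [Fintype.card_subtype_compl, Fintype.card_coe]

/-- [CMP] -/
theorem pfix_even_le {B : Perm X → ℝ} (hB : adj B = B) (Y : Finset X) :
    pfix (cpow B 8) Y ≤ ((Fintype.card X - Y.card).factorial : ℝ) * cpow B 8 1 := by
  have h1 : cpow B 8 = conv (adj (cpow B 4)) (cpow B 4) := by
    rw [adj_cpow, hB, ← cpow_add]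
  unfold pfix
  rw [h1]
  refine (Finset.sum_le_sum fun g _ => adj_conv_self_le (cpow B 4) g).trans ?_
  rw [Finset.sum_const, card_fix, nsmul_eq_mul]

end

theorem th_nonneg (i0 j : ℕ) (g : Perm (Cube j)) : 0 ≤ th i0 unifC j g := by
  have hu : ∀ j (g : Perm (Cube j)), 0 ≤ unifC j g := by
    intro j g
    unfold unifC
    positivity
  induction j with
  | zero =>
    have h := build_of_le (f := unifC)
      (step := fun j φ => tens (X := Cube j) φ φ) (Nat.zero_le i0)
    unfold th
    rw [h]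
    exact hu 0 g
  | succ j ih =>
    rcases Nat.lt_or_ge j i0 with h | h
    · have h1 := build_of_le (f := unifC)
        (step := fun j φ => tens (X := Cube j) φ φ) (Nat.succ_le_of_lt h)
      unfold th
      rw [h1]
      exact hu _ g
    · have h1 := build_succ (f := unifC) (step := fun j φ => tens (X := Cube j) φ φ) h
      unfold th
      rw [h1]
      exact tens_nonneg (X := Cube j) ih ih g

theorem adj_th (i0 j : ℕ) : adj (th i0 unifC j) = th i0 unifC j := by
  have hu : ∀ j, adj (unifC j) = unifC j := by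
    intro j
    rfl
  induction j with
  | zero =>
    have h := build_of_le (f := unifC)
      (step := fun j φ => tens (X := Cube j) φ φ) (Nat.zero_le i0)
    unfold th
    rw [h]
    exact hu 0
  | succ j ih =>
    rcases Nat.lt_or_ge j i0 with h | h
    · have h1 := build_of_le (f := unifC)
        (step := fun j φ => tens (X := Cube j) φ φ) (Nat.succ_le_of_lt h)
      unfold th
      rw [h1]
      exact hu _
    · have h1 := build_succ (f := unifC) (step := fun j φ => tens (X := Cube j) φ φ) h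
      unfold th at ih ⊢
      rw [h1]
      have h2 := tens_adj (X := Cube j) (build i0 unifC (fun j φ => tens (X := Cube j) φ φ) j)
        (build i0 unifC (fun j φ => tens (X := Cube j) φ φ) j)
      rw [ih] at h2
      exact h2.symm

/-- [CMP] -/
theorem pfix_th_ge {i0 j : ℕ} (h : i0 ≤ j) (Y : Finset (Cube j)) :
    (1 / (2 : ℝ) ^ i0) ^ Y.card ≤ pfix (th i0 unifC j) Y := by
  induction j, h using Nat.le_induction with
  | base =>
    have h1 : th i0 unifC i0 = unifC i0 := build_of_le le_rfl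
    rw [h1]
    unfold pfix unifC
    rw [Finset.sum_const, card_fix, nsmul_eq_mul, card_cube]
    have hY : Y.card ≤ 2 ^ i0 := by
      have := Finset.card_le_univ Y
      rwa [card_cube] at this
    have h2 := Nat.factorial_mul_descFactorial hY
    have h3 := Nat.descFactorial_le_pow (2 ^ i0) Y.card
    have h4 : ((2 ^ i0).factorial : ℝ) ≤ ((2 ^ i0 - Y.card).factorial : ℝ) * (2 ^ i0) ^ Y.card := by
      rw [← h2]
      push_cast
      apply mul_le_mul_of_nonneg_left _ (by positivity)
      exact_mod_cast h3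
    rw [mul_one_div, le_div_iff₀ (by positivity), one_div, inv_pow, inv_mul_le_iff₀ (by positivity)]
    linarith
  | succ j hj ih =>
    have h1 : th i0 unifC (j + 1) = tens (X := Cube j) (th i0 unifC j) (th i0 unifC j) :=
      build_succ hj
    rw [h1]
    have h2 := pfix_tens (X := Cube j) (th i0 unifC j) Y
    have h3 := card_sum_split (X := Cube j) Y
    refine le_trans ?_ (le_of_eq h2.symm)
    refine le_trans (le_of_eq (congrArg (fun m => (1 / (2 : ℝ) ^ i0) ^ m) h3)) ?_
    simp only [pow_add]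
    exact mul_le_mul (ih _) (ih _) (by positivity) (le_trans (by positivity) (ih _))

/-- the symmetrised pass `A = T* T` -/
noncomputable def AA (d : ℕ) : Perm (Cube d) → ℝ := conv (adj (tlaw d)) (tlaw d)

theorem tlaw_nonneg' (d : ℕ) : ∀ g : Perm (Cube d), 0 ≤ tlaw d g := by
  induction d with
  | zero =>
    intro g
    change 0 ≤ dirac g
    unfold dirac
    split_ifs <;> norm_num
  | succ d ih => exact fun g => ext_nonneg (X := Cube d) ih g

/-- [CMP] conclusion -/
theorem pfix_AA_le {i0 d : ℕ} (h : i0 ≤ d) (Y : Finset (Cube d)) :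
    pfix (cpow (AA d) 8) Y ≤ (2 : ℝ) ^ (8 * i0 * Y.card) *
      (((2 ^ d - Y.card).factorial : ℝ) * cpow (psi i0 (fun _ => 0) d) 8 1) := by
  have h1 := pfix_cpow_le (t := tlaw d) (U := th i0 unifC d) (tlaw_nonneg' d) (th_nonneg i0 d)
    (c := (1 / (2 : ℝ) ^ i0) ^ Y.card) (by positivity) Y.card
    (fun Y' hY' => by rw [← hY']; exact pfix_th_ge h Y') 8 Y rfl
  rw [← psi_zero_eq h] at h1
  have hB : adj (psi i0 (fun _ => 0) d) = psi i0 (fun _ => 0) d := by
    rw [psi_zero_eq h, adj_conv, adj_conv, adj_adj, adj_th, conv_assoc]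
  have h2 := pfix_even_le hB Y
  rw [card_cube] at h2
  have h3 := h1.trans h2
  have h4 : ((1 / (2 : ℝ) ^ i0) ^ Y.card) ^ 8 * (2 : ℝ) ^ (8 * i0 * Y.card) = 1 := by
    rw [one_div, inv_pow, inv_pow, ← pow_mul, ← pow_mul,
      show i0 * (Y.card * 8) = 8 * i0 * Y.card by ring]
    exact inv_mul_cancel₀ (by positivity)
  have h5 : pfix (cpow (AA d) 8) Y = (2 : ℝ) ^ (8 * i0 * Y.card) *
      (((1 / (2 : ℝ) ^ i0) ^ Y.card) ^ 8 * pfix (cpow (AA d) 8) Y) := by
    rw [← mul_assoc, mul_comm ((2 : ℝ) ^ (8 * i0 * Y.card)), h4, one_mul]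
  rw [h5]
  exact mul_le_mul_of_nonneg_left h3 (by positivity)

end Vale.Agent.P162T
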