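import Vale.Agent.P162T.MomentY

/-!
# P162 [RA] Basic rate: `‖T v‖² ≤ e^{-δ/10} ‖v‖²`

Let `c d = 1/10 + 1/(5·2^d)`.  Claim: `Rate d (fun δ => exp (-(c d) δ))` for `d ≥ 1`.
* `d = 1`: `X = Unit`, `D = (1 - u)/2`, `T = E_H = (1+u)/2`: for `v ≠ 0`, `D v = δ v` gives `u v = (1-2δ) v`,
  `u² = 1` so `δ ∈ {0,1}`; `δ = 1` gives `T v = 0`; `δ = 0` trivial.
* step `d → d+1`, `d ≥ 1`, `N = 2^d`, by `rate_succ_of`, `top_step`:
  `‖Tv‖² ≤ ∑ ‖vec i‖² e^{-c(a_i+b_i)} = e^{-cδ} ∑ ‖vec i‖² e^{c(δ-a_i-b_i)}` with `c = c d ≤ 1/5`, and `mgfY` with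
  `s = c`: allowed since `δ < 2N` (`Dop_eig_lt`) so `2√(δ/2N)(e^{2c}-1) ≤ 2(e^{0.4}-1) ≤ 1` (e^{0.4} < 1.4919).
  Get `‖Tv‖² ≤ exp(-cδ + (δ/N)(e^{2c}-1-2c))‖v‖²` and
  `c - (e^{2c}-1-2c)/N ≥ c - (1/10)/N = c (d+1)` because `e^{2c}-1-2c ≤ e^{0.4}-1.4 ≤ 0.0919` (monotone in c ≥ 0).
For `d = 0`: `D = 0`, so `δ = 0`, and `T = 1`.
-/

open Equiv Finset

set_option linter.unusedSectionVars false

namespace Vale.Agent.P162T

theorem exp_two_fifths_le : Real.exp (2 / 5) ≤ 3 / 2 := by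
  by_contra h
  push Not at h
  have h1 : (3 / 2 : ℝ) ^ 5 < Real.exp (2 / 5) ^ 5 := pow_lt_pow_left₀ h (by norm_num) (by norm_num)
  have h2 : Real.exp (2 / 5) ^ 5 = Real.exp 1 ^ 2 := by
    rw [← Real.exp_nat_mul, ← Real.exp_nat_mul]
    norm_num
  have h3 := Real.exp_one_lt_d9
  have h4 : Real.exp 1 ^ 2 < 2.7182818286 ^ 2 :=
    pow_lt_pow_left₀ h3 (Real.exp_pos 1).le (by norm_num)
  rw [h2] at h1
  have h5 := h1.trans h4
  norm_num at h5

theorem exp_sub_le {x : ℝ} (hx : x ≤ 2 / 5) :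
    Real.exp x - 1 - x ≤ 1 / 10 ∨ x < 0 := by
  rcases lt_or_ge x 0 with h | h
  · exact Or.inr h
  · left
    have h1 : Real.exp x * Real.exp (2 / 5 - x) = Real.exp (2 / 5) := by
      rw [← Real.exp_add]
      congr 1
      ring
    have h2 : (2 / 5 - x) + 1 ≤ Real.exp (2 / 5 - x) := Real.add_one_le_exp _
    have h3 : 1 ≤ Real.exp x := Real.one_le_exp h
    have h4 : Real.exp x * ((2 / 5 - x) + 1) ≤ Real.exp (2 / 5) := by
      rw [← h1]
      exact mul_le_mul_of_nonneg_left h2 (Real.exp_pos x).le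
    have h5 := exp_two_fifths_le
    nlinarith

/-- base case: vectors fixed by `H` are killed by `D` on `Perm (Unit ⊕ Unit)` -/
theorem Dop_zero_of_EH {V : Type} [NormedAddCommGroup V] [InnerProductSpace ℝ V]
    (ρ : ORep (Perm (Cube 0 ⊕ Cube 0)) V) {v : V} (hv : EH ρ v = v) : Dop ρ v = 0 := by
  have h1 : ∀ x y : Cube 0 ⊕ Cube 0, v - ρ.toHom (swap x y) v = 0 := by
    have hu : ∀ x y : Cube 0, x = y := fun _ _ => rfl
    intro x y
    rw [sub_eq_zero, eq_comm]
    rcases x with x | x <;> rcases y with y | y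
    · rw [hu x y, swap_self]
      exact ρ.map_one_apply v
    · rw [hu x y, ← flp_singleton]
      exact flp_of_EH ρ hv _
    · rw [hu x y, swap_comm, ← flp_singleton]
      exact flp_of_EH ρ hv _
    · rw [hu x y, swap_self]
      exact ρ.map_one_apply v
  unfold Dop lap
  rw [LinearMap.smul_apply, lapOn_apply]
  simp [h1]

instance instNonemptyCube : (d : ℕ) → Nonempty (Cube d)
  | 0 => inferInstanceAs (Nonempty Unit)
  | d + 1 =>
    letI := instNonemptyCube d
    inferInstanceAs (Nonempty (Cube d ⊕ Cube d))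

/-- [RA] -/
theorem rateA_strong (d : ℕ) :
    Rate (d + 1) (fun δ => Real.exp (-(1 / 10 + 1 / (5 * 2 ^ (d + 1))) * δ)) := by
  induction d with
  | zero =>
    refine rate_succ_of (fun x => (Real.exp_pos _).le) ?_
    intro V _ _ _ ρ v δ hD hv0 hv
    have h1 := Dop_zero_of_EH ρ hv
    have h2 : δ = 0 := by
      rw [hD] at h1
      exact (smul_eq_zero.mp h1).resolve_right hv0
    rw [h2, mul_zero, Real.exp_zero, one_mul]
    exact pow_le_pow_left₀ (norm_nonneg _) (norm_Top_le (0 + 1) ρ v) 2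
  | succ d ih =>
    refine rate_succ_of (fun x => (Real.exp_pos _).le) ?_
    intro V _ _ _ ρ v δ hD hv0 hv
    obtain ⟨J⟩ := JD_exists (DL_symm ρ) (DR_symm ρ) (DL_commute_DR ρ) v
    have h1 := top_step ih (fun x => (Real.exp_pos _).le) ρ hv J
    refine h1.trans ?_
    set c : ℝ := 1 / 10 + 1 / (5 * 2 ^ (d + 1)) with hc
    have hcard : (Fintype.card (Cube (d + 1)) : ℝ) = 2 ^ (d + 1) := by
      rw [card_cube]
      push_cast
      ring
    have hNpos : (0 : ℝ) < 2 ^ (d + 1) := by positivity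
    have hN2 : (2 : ℝ) ≤ 2 ^ (d + 1) := by
      have : (2 : ℝ) ^ 1 ≤ 2 ^ (d + 1) := pow_le_pow_right₀ (by norm_num) (by omega)
      simpa using this
    have hc0 : 0 ≤ c := by positivity
    have hc1 : c ≤ 1 / 5 := by
      have : 1 / (5 * 2 ^ (d + 1) : ℝ) ≤ 1 / 10 := by
        apply one_div_le_one_div_of_le (by norm_num)
        linarith
      rw [hc]
      linarith
    have hδ0 : 0 ≤ δ := Dop_eig_nonneg ρ hv0 hD
    have hδ1 : δ < 2 * 2 ^ (d + 1) := by
      have := Dop_eig_lt ρ hv0 hD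
      rw [Fintype.card_sum] at this
      push_cast at this
      rw [hcard] at this
      linarith
    have he : Real.exp (2 * c) ≤ 3 / 2 :=
      (Real.exp_le_exp.mpr (by linarith)).trans exp_two_fifths_le
    have he1 : 1 ≤ Real.exp (2 * c) := Real.one_le_exp (by positivity)
    have hs1 : 2 * Real.sqrt (δ / (2 * Fintype.card (Cube (d + 1)))) * (Real.exp (2 * c) - 1)
        ≤ 1 := by
      rw [hcard]
      have h2 : Real.sqrt (δ / (2 * 2 ^ (d + 1))) ≤ 1 := by
        rw [Real.sqrt_le_left (by norm_num)]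
        rw [one_pow, div_le_one (by positivity)]
        exact hδ1.le
      have h3 := Real.sqrt_nonneg (δ / (2 * 2 ^ (d + 1)))
      nlinarith
    have h2 := mgfY ρ hδ0 hv hD J hc0 hs1 (ε := 1) (Or.inl rfl)
    have h3 : ∑ i, ‖J.vec i‖ ^ 2 * (Real.exp (-c * J.a i) * Real.exp (-c * J.b i))
        = Real.exp (-c * δ) * ∑ i, ‖J.vec i‖ ^ 2 * Real.exp (1 * c * (δ - J.a i - J.b i)) := by
      rw [Finset.mul_sum]
      refine Finset.sum_congr rfl fun i _ => ?_
      rw [← Real.exp_add, mul_left_comm, ← Real.exp_add]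
      congr 2
      ring
    rw [h3]
    refine (mul_le_mul_of_nonneg_left h2 (Real.exp_pos _).le).trans ?_
    rw [← mul_assoc, ← Real.exp_add]
    refine mul_le_mul_of_nonneg_right ?_ (by positivity)
    rw [Real.exp_le_exp, hcard]
    have h4 : Real.exp (2 * c) - 1 - 2 * c ≤ 1 / 10 := by
      rcases exp_sub_le (x := 2 * c) (by linarith) with h | h
      · exact h
      · linarith
    have h5 : 2 * (δ / (2 * 2 ^ (d + 1))) * (Real.exp (2 * c) - 1 - 2 * c)
        ≤ 2 * (δ / (2 * 2 ^ (d + 1))) * (1 / 10) :=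
      mul_le_mul_of_nonneg_left h4 (by positivity)
    have h6 : -c * δ + 2 * (δ / (2 * 2 ^ (d + 1))) * (1 / 10)
        = -(1 / 10 + 1 / (5 * 2 ^ (d + 1 + 1))) * δ := by
      rw [hc, pow_succ 2 (d + 1)]
      field_simp
      ring
    linarith

/-- [RA] -/
theorem rateA (d : ℕ) : Rate d (fun δ => Real.exp (-(δ / 10))) := by
  rcases d with _ | d
  · intro V _ _ _ ρ v δ hD hv0
    have h1 : ∀ x y : Cube 0, v - ρ.toHom (swap x y) v = 0 := by
      have hu : ∀ x y : Cube 0, x = y := fun _ _ => rfl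
      intro x y
      rw [sub_eq_zero, eq_comm, hu x y, swap_self]
      exact ρ.map_one_apply v
    have h2 : Dop ρ v = 0 := by
      unfold Dop lap
      rw [LinearMap.smul_apply, lapOn_apply]
      simp [h1]
    have h3 : δ = 0 := by
      rw [hD] at h2
      exact (smul_eq_zero.mp h2).resolve_right hv0
    rw [h3]
    simp [Top]
  · intro V _ _ _ ρ v δ hD hv0
    refine (rateA_strong d V ρ v δ hD hv0).trans ?_
    refine mul_le_mul_of_nonneg_right ?_ (by positivity)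
    have hδ0 : 0 ≤ δ := Dop_eig_nonneg ρ hv0 hD
    rw [Real.exp_le_exp]
    have : 0 ≤ 1 / (5 * 2 ^ (d + 1) : ℝ) * δ := by positivity
    linarith

end Vale.Agent.P162T
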