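import Vale.Agent.P162T.Central
import Vale.Agent.P162T.Compare
import Vale.Agent.P162T.RateA

/-!
# P162 [CHI] The L² distance after `K` passes

`t = tlaw d`, `μ = t^{*K}`, `u = ` uniform, `c : CDec (Cube d)`, `A = AA d = adj t * t`, `w_i = c.w A i`.
`μ = ∑_i z_i * μ` (orthogonal in `ℓ²`: `∑_g (z_i*a)(g)(z_j*a)(g) = (adj a * z_i * z_j * a)(1) = 0`), the component with
`δ_i = 0` is `u * μ = u` (mass of `μ` is 1).  So `∑ (μ - u)² = ∑_{δ_i ≠ 0} ‖z_i*μ‖²`.
`z_i * μ = t^{K-8} * (t^8 * z_i)`; every `t^j * (t^8 * z_i)` is a `D`-eigenvector with eigenvalue `δ_i`, so by `Rate d q` in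
the regular representation (`exists_reg`, `Top_eq_op`), `‖z_i*μ‖² ≤ q(δ_i)^{K-8} ‖t^8*z_i‖²`  (zero vectors: trivial).
`t^8 * z_i = u_i^{*8}` with `u_i = z_i * t`, and `schatten8`: `‖u_i^8‖² ≤ ((adj u_i * u_i)^8)(1) = ((z_i * A)^8)(1) = (z_i * A^8)(1) = w_i`.

`chi_le_simple`: the same without `schatten8`: `‖z_i * μ‖² ≤ e^{-K δ_i/10} ‖z_i‖² ≤ e^{-K/10}‖z_i‖²` (`rateA`, `δ_i ≥ 1`), `∑ ‖z_i‖² = ‖dirac‖² = 1`.
`tv_le`: Cauchy-Schwarz: `tvUnif μ ≤ ½ √(n! ∑ (μ-u)²)`.
-/

open Equiv Finset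

set_option linter.unusedSectionVars false

namespace Vale.Agent.P162T

section Gen

variable {G : Type} [Group G] [Fintype G] [DecidableEq G]

theorem conv_sum_left (s : Finset ℕ) (f : ℕ → G → ℝ) (b : G → ℝ) (g : G) :
    ∑ i ∈ s, conv (f i) b g = conv (fun h => ∑ i ∈ s, f i h) b g := by
  unfold conv
  rw [Finset.sum_comm]
  refine Finset.sum_congr rfl fun h _ => ?_
  rw [Finset.sum_mul]

theorem conv_sum_leftι {ι : Type*} (s : Finset ι) (f : ι → G → ℝ) (b : G → ℝ) (g : G) :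
    ∑ i ∈ s, conv (f i) b g = conv (fun h => ∑ i ∈ s, f i h) b g := by
  unfold conv
  rw [Finset.sum_comm]
  refine Finset.sum_congr rfl fun h _ => ?_
  rw [Finset.sum_mul]

theorem conv_smul_right' (a b : G → ℝ) (r : ℝ) : conv a (r • b) = r • conv a b := by
  funext g
  unfold conv
  simp only [Pi.smul_apply, smul_eq_mul, Finset.mul_sum]
  exact Finset.sum_congr rfl fun h _ => by ring

theorem conv_zero_right' (a : G → ℝ) : conv a (0 : G → ℝ) = 0 := by
  funext g
  unfold conv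
  simp

theorem conv_zero_left' (a : G → ℝ) : conv (0 : G → ℝ) a = 0 := by
  funext g
  unfold conv
  simp

/-- pairwise orthogonal sums -/
theorem sum_sq_orth {ι : Type*} [DecidableEq ι] (s : Finset ι) (f : ι → G → ℝ)
    (h : ∀ i ∈ s, ∀ j ∈ s, i ≠ j → ∑ g, f i g * f j g = 0) :
    ∑ g, (∑ i ∈ s, f i g) ^ 2 = ∑ i ∈ s, ∑ g, f i g ^ 2 := by
  calc ∑ g, (∑ i ∈ s, f i g) ^ 2 = ∑ g, ∑ i ∈ s, ∑ j ∈ s, f i g * f j g := by
        refine Finset.sum_congr rfl fun g _ => ?_
        rw [sq, Finset.sum_mul_sum]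
    _ = ∑ i ∈ s, ∑ j ∈ s, ∑ g, f i g * f j g := by
        rw [Finset.sum_comm]
        refine Finset.sum_congr rfl fun i _ => ?_
        rw [Finset.sum_comm]
    _ = ∑ i ∈ s, ∑ g, f i g ^ 2 := by
        refine Finset.sum_congr rfl fun i hi => ?_
        rw [Finset.sum_eq_single i (fun j hj hne => h i hi j hj (Ne.symm hne))
          (fun hn => absurd hi hn)]
        exact Finset.sum_congr rfl fun g _ => (sq _).symm

end Gen

section Z

variable {X : Type} [Fintype X] [DecidableEq X]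

theorem CDec.conv_orth (c : CDec X) (a b : Perm X → ℝ) {i j : Fin c.m} (hij : i ≠ j) :
    ∑ g, conv (c.z i) a g * conv (c.z j) b g = 0 := by
  rw [← conv_adj_one, adj_conv, c.self]
  have e : conv (conv (adj a) (c.z i)) (conv (c.z j) b) =
      conv (adj a) (conv (conv (c.z i) (c.z j)) b) := by
    simp only [conv_assoc]
  rw [e, c.orth i j hij, conv_zero_left', conv_zero_right']
  rfl

/-- `(z t)^n = z t^n` -/
theorem CDec.cpow_z (c : CDec X) (t : Perm X → ℝ) (i : Fin c.m) (n : ℕ) :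
    cpow (conv (c.z i) t) (n + 1) = conv (c.z i) (cpow t (n + 1)) := by
  induction n with
  | zero => rw [cpow_one, cpow_one]
  | succ n ih =>
    have e1 : cpow (conv (c.z i) t) (n + 1 + 1) =
        conv (conv (c.z i) t) (cpow (conv (c.z i) t) (n + 1)) := rfl
    have e2 : cpow t (n + 1 + 1) = conv t (cpow t (n + 1)) := rfl
    rw [e1, e2, ih]
    calc conv (conv (c.z i) t) (conv (c.z i) (cpow t (n + 1)))
        = conv (c.z i) (conv (conv t (c.z i)) (cpow t (n + 1))) := by simp only [conv_assoc]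
      _ = conv (c.z i) (conv (conv (c.z i) t) (cpow t (n + 1))) := by rw [← c.central]
      _ = conv (conv (c.z i) (c.z i)) (conv t (cpow t (n + 1))) := by simp only [conv_assoc]
      _ = conv (c.z i) (conv t (cpow t (n + 1))) := by rw [c.idem]

/-- the sum of squares is controlled by the rate -/
theorem sum_sq_conv_le {d : ℕ} {q : ℝ → ℝ} (hq : Rate d q) (hq0 : ∀ x, 0 ≤ q x)
    {f : Perm (Cube d) → ℝ} {δ : ℝ} (hf : conv (dfun (Cube d)) f = δ • f) (K : ℕ) :
    ∑ g, conv (cpow (tlaw d) K) f g ^ 2 ≤ q δ ^ K * ∑ g, f g ^ 2 := by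
  obtain ⟨reg, hreg⟩ := exists_reg (Cube d)
  have hnorm : ∀ a : Perm (Cube d) → ℝ,
      ‖(WithLp.toLp 2 a : EuclideanSpace ℝ (Perm (Cube d)))‖ ^ 2 = ∑ g, a g ^ 2 := by
    intro a
    rw [EuclideanSpace.norm_sq_eq]
    refine Finset.sum_congr rfl fun g _ => ?_
    simp
  induction K with
  | zero =>
    have e : cpow (tlaw d) 0 = dirac := rfl
    rw [e, dirac_conv, pow_zero, one_mul]
  | succ K ih =>
    set fK := conv (cpow (tlaw d) K) f with hfK
    have e1 : conv (cpow (tlaw d) (K + 1)) f = conv (tlaw d) fK := by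
      have e : cpow (tlaw d) (K + 1) = conv (tlaw d) (cpow (tlaw d) K) := rfl
      rw [e, conv_assoc]
    have heig : conv (dfun (Cube d)) fK = δ • fK := by
      rw [hfK, ← conv_assoc, dfun_central, conv_assoc, hf, conv_smul_right']
    have hstep : ∑ g, conv (tlaw d) fK g ^ 2 ≤ q δ * ∑ g, fK g ^ 2 := by
      by_cases h0 : fK = 0
      · rw [h0, conv_zero_right']
        simp
      · have hv : (WithLp.toLp 2 fK : EuclideanSpace ℝ (Perm (Cube d))) ≠ 0 := by
          intro h1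
          apply h0
          funext g
          have h2 := congrArg (fun v : EuclideanSpace ℝ (Perm (Cube d)) => v g) h1
          simpa using h2
        have hD : Dop reg (WithLp.toLp 2 fK) =
            δ • (WithLp.toLp 2 fK : EuclideanSpace ℝ (Perm (Cube d))) := by
          rw [← op_dfun reg, hreg, heig]
          rfl
        have h1 := hq _ reg (WithLp.toLp 2 fK) δ hD hv
        rw [Top_eq_op, hreg, hnorm, hnorm] at h1
        exact h1
    rw [e1]
    calc ∑ g, conv (tlaw d) fK g ^ 2 ≤ q δ * ∑ g, fK g ^ 2 := hstep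
      _ ≤ q δ * (q δ ^ K * ∑ g, f g ^ 2) := mul_le_mul_of_nonneg_left ih (hq0 δ)
      _ = q δ ^ (K + 1) * ∑ g, f g ^ 2 := by ring

theorem CDec.eig' (c : CDec X) (a : Perm X → ℝ) (i : Fin c.m) :
    conv (dfun X) (conv a (c.z i)) = c.δ i • conv a (c.z i) := by
  rw [← conv_assoc, dfun_central, conv_assoc, c.eig, conv_smul_right']

/-- decomposition of the distance to uniform -/
theorem CDec.dist_eq [Nonempty X] (c : CDec X) {μ : Perm X → ℝ} (hμ : ∑ g, μ g = 1) :
    ∑ g, (μ g - 1 / ((Fintype.card X).factorial : ℝ)) ^ 2 =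
      ∑ i ∈ Finset.univ.filter (fun i => c.δ i ≠ 0), ∑ g, conv (c.z i) μ g ^ 2 := by
  obtain ⟨i0, hi0⟩ := c.exists_zero
  have hz : conv (c.z i0) μ = fun _ => 1 / ((Fintype.card X).factorial : ℝ) := by
    funext g
    unfold conv
    have h1 : ∀ h, c.z i0 h * μ (h⁻¹ * g) =
        (1 / ((Fintype.card X).factorial : ℝ)) * μ (h⁻¹ * g) := fun h => by
      rw [c.z_zero i0 hi0 h]
    rw [Finset.sum_congr rfl fun h _ => h1 h, ← Finset.mul_sum]
    have h2 : ∑ h : Perm X, μ (h⁻¹ * g) = ∑ h, μ h := by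
      refine Fintype.sum_equiv ((Equiv.inv (Perm X)).trans (Equiv.mulRight g)) _ _ fun h => ?_
      simp
    rw [h2, hμ, mul_one]
  have hfil : Finset.univ.filter (fun i => c.δ i ≠ 0) = Finset.univ.erase i0 := by
    ext i
    simp only [mem_filter, mem_univ, true_and, mem_erase, and_true]
    constructor
    · intro h h1
      rw [h1] at h
      exact h hi0
    · intro h h1
      exact c.inj i i0 h (by rw [h1, hi0])
  have hsum : ∀ g, μ g - 1 / ((Fintype.card X).factorial : ℝ) =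
      ∑ i ∈ Finset.univ.filter (fun i => c.δ i ≠ 0), conv (c.z i) μ g := by
    intro g
    have h1 : ∑ i, conv (c.z i) μ g = μ g := by
      rw [conv_sum_leftι]
      have h : (fun h => ∑ i, c.z i h) = (dirac : Perm X → ℝ) := by
        funext g; exact c.sum g
      rw [h, dirac_conv]
    rw [hfil, ← h1, ← Finset.add_sum_erase Finset.univ _ (mem_univ i0), hz]
    ring
  rw [Finset.sum_congr rfl fun g _ => by rw [hsum g]]
  exact sum_sq_orth _ (fun i => conv (c.z i) μ) fun i _ j _ hij => c.conv_orth μ μ hij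

end Z

theorem mass_cpow_tlaw (d K : ℕ) : ∑ g, cpow (tlaw d) K g = 1 := by
  have h := mass_cpow (tlaw d) K
  have h1 : mass (tlaw d) = 1 := tlaw_sum d
  rw [h1, one_pow] at h
  exact h

/-- [CHI] -/
theorem chi_le (d K : ℕ) (q : ℝ → ℝ) (hq : Rate d q) (hq0 : ∀ x, 0 ≤ q x)
    (c : CDec (Cube d)) :
    ∑ g, (cpow (tlaw d) (K + 8) g - 1 / ((Fintype.card (Cube d)).factorial : ℝ)) ^ 2 ≤
      ∑ i ∈ Finset.univ.filter (fun i => c.δ i ≠ 0), q (c.δ i) ^ K * c.w (AA d) i := by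
  rw [c.dist_eq (mass_cpow_tlaw d (K + 8))]
  refine Finset.sum_le_sum fun i _ => ?_
  set t := tlaw d with ht
  have e1 : conv (c.z i) (cpow t (K + 8)) = conv (cpow t K) (conv (cpow t 8) (c.z i)) := by
    rw [c.central, cpow_add, conv_assoc]
  have h1 := sum_sq_conv_le hq hq0 (c.eig' (cpow t 8) i) K
  rw [e1]
  refine h1.trans (mul_le_mul_of_nonneg_left ?_ (pow_nonneg (hq0 _) K))
  have e2 : conv (cpow t 8) (c.z i) = cpow (conv (c.z i) t) 8 := by
    rw [← c.central]
    exact (c.cpow_z t i 7).symm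
  rw [e2]
  refine (schatten8 (conv (c.z i) t)).trans (le_of_eq ?_)
  have e3 : conv (adj (conv (c.z i) t)) (conv (c.z i) t) = conv (c.z i) (AA d) := by
    unfold AA
    rw [adj_conv, c.self]
    calc conv (conv (adj t) (c.z i)) (conv (c.z i) t)
        = conv (conv (adj t) (conv (c.z i) (c.z i))) t := by simp only [conv_assoc]
      _ = conv (conv (c.z i) (adj t)) t := by rw [c.idem, c.central]
      _ = conv (c.z i) (conv (adj (tlaw d)) (tlaw d)) := by rw [conv_assoc]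
  rw [e3]
  unfold CDec.w
  rw [show (8 : ℕ) = 7 + 1 by norm_num, c.cpow_z]

/-- [CHI2] -/
theorem chi_le_simple (d K : ℕ) :
    ∑ g, (cpow (tlaw d) K g - 1 / ((Fintype.card (Cube d)).factorial : ℝ)) ^ 2 ≤
      Real.exp (-(K / 10 : ℝ)) := by
  obtain ⟨c⟩ := exists_cdec (Cube d)
  rw [c.dist_eq (mass_cpow_tlaw d K)]
  have h1 : ∀ i ∈ Finset.univ.filter (fun i => c.δ i ≠ 0),
      ∑ g, conv (c.z i) (cpow (tlaw d) K) g ^ 2 ≤
        Real.exp (-(K / 10 : ℝ)) * ∑ g, c.z i g ^ 2 := by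
    intro i hi
    rw [mem_filter] at hi
    have hge : 1 ≤ c.δ i := (c.zero_or i).resolve_left hi.2
    have h2 := sum_sq_conv_le (rateA d) (fun x => (Real.exp_pos _).le) (f := c.z i) (c.eig i) K
    rw [c.central]
    refine h2.trans (mul_le_mul_of_nonneg_right ?_ (Finset.sum_nonneg fun g _ => sq_nonneg _))
    rw [← Real.exp_nat_mul]
    rw [Real.exp_le_exp]
    have hK : (0 : ℝ) ≤ K := Nat.cast_nonneg K
    nlinarith
  have h2 : ∑ i, ∑ g, c.z i g ^ 2 = 1 := by
    have h3 := sum_sq_orth (Finset.univ) (fun i => c.z i) (fun i _ j _ hij => by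
      have := c.conv_orth dirac dirac hij
      simpa only [conv_dirac] using this)
    rw [← h3]
    have h4 : ∀ g, (∑ i, c.z i g) ^ 2 = (dirac g : ℝ) * dirac g := fun g => by
      rw [c.sum g, sq]
    rw [Finset.sum_congr rfl fun g _ => h4 g, sum_dirac]
    unfold dirac
    simp
  calc ∑ i ∈ Finset.univ.filter (fun i => c.δ i ≠ 0),
        ∑ g, conv (c.z i) (cpow (tlaw d) K) g ^ 2
      ≤ ∑ i ∈ Finset.univ.filter (fun i => c.δ i ≠ 0),
        Real.exp (-(K / 10 : ℝ)) * ∑ g, c.z i g ^ 2 := Finset.sum_le_sum h1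
    _ ≤ ∑ i, Real.exp (-(K / 10 : ℝ)) * ∑ g, c.z i g ^ 2 :=
        Finset.sum_le_sum_of_subset_of_nonneg (Finset.filter_subset _ _) fun i _ _ =>
          mul_nonneg (Real.exp_pos _).le (Finset.sum_nonneg fun g _ => sq_nonneg _)
    _ = Real.exp (-(K / 10 : ℝ)) := by rw [← Finset.mul_sum, h2, mul_one]

/-- [CHI2] -/
theorem tv_le {G : Type} [Group G] [Fintype G] [DecidableEq G] (μ : G → ℝ) :
    tvUnif μ ≤ (1 / 2) * Real.sqrt ((Fintype.card G : ℝ) *
      ∑ g, (μ g - 1 / (Fintype.card G : ℝ)) ^ 2) := by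
  unfold tvUnif
  refine mul_le_mul_of_nonneg_left ?_ (by norm_num)
  apply Real.le_sqrt_of_sq_le
  have h := sq_sum_le_card_mul_sum_sq (s := (Finset.univ : Finset G))
    (f := fun g => |μ g - 1 / (Fintype.card G : ℝ)|)
  simp only [sq_abs, Finset.card_univ] at h
  exact h

end Vale.Agent.P162T
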