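import Vale.Agent.P162T.MassDefs

/-!
# P162 [CVX] log-convexity of the mass of `psi` and binary splitting of the levels
-/

open Equiv Finset

set_option linter.unusedSectionVars false

namespace Vale.Agent.P162T

theorem psi_of_le_cvx {i0 : ℕ} (θ : ℕ → ℝ) {j : ℕ} (h : j ≤ i0) : psi i0 θ j = unifC j :=
  build_of_le h

theorem psi_succ_eq {i0 : ℕ} (θ : ℕ → ℝ) {j : ℕ} (h : i0 ≤ j) :
    psi i0 θ (j + 1) = lift (X := Cube j) (θ j) (psi i0 θ j) :=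
  build_succ h

/-- [CVX] only the values `θ i`, `i < j`, matter -/
theorem psi_congr (i0 : ℕ) {θ θ' : ℕ → ℝ} {j : ℕ} (h : ∀ i, i < j → θ i = θ' i) :
    psi i0 θ j = psi i0 θ' j := by
  induction j with
  | zero => rw [psi_of_le_cvx θ (Nat.zero_le i0), psi_of_le_cvx θ' (Nat.zero_le i0)]
  | succ j ih =>
    rcases lt_or_ge j i0 with hj | hj
    · rw [psi_of_le_cvx θ (show j + 1 ≤ i0 by omega), psi_of_le_cvx θ' (show j + 1 ≤ i0 by omega)]
    · rw [psi_succ_eq θ hj, psi_succ_eq θ' hj, ih fun i hi => h i (by omega), h j (by omega)]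

/-! ### domination by geometric means -/

/-- `f ≤ √(f₁ f₂)`, all nonnegative -/
structure GM {ι : Type*} (f f₁ f₂ : ι → ℝ) : Prop where
  nn : ∀ i, 0 ≤ f i
  nn1 : ∀ i, 0 ≤ f₁ i
  nn2 : ∀ i, 0 ≤ f₂ i
  le : ∀ i, f i ≤ Real.sqrt (f₁ i * f₂ i)

theorem GM.sum {ι : Type*} {f f₁ f₂ : ι → ℝ} (h : GM f f₁ f₂) (s : Finset ι) :
    ∑ i ∈ s, f i ≤ Real.sqrt ((∑ i ∈ s, f₁ i) * ∑ i ∈ s, f₂ i) := by
  calc ∑ i ∈ s, f i ≤ ∑ i ∈ s, Real.sqrt (f₁ i) * Real.sqrt (f₂ i) :=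
        Finset.sum_le_sum fun i _ => (h.le i).trans (le_of_eq (Real.sqrt_mul (h.nn1 i) _))
    _ ≤ Real.sqrt (∑ i ∈ s, f₁ i) * Real.sqrt (∑ i ∈ s, f₂ i) :=
        Real.sum_sqrt_mul_sqrt_le s h.nn1 h.nn2
    _ = Real.sqrt ((∑ i ∈ s, f₁ i) * ∑ i ∈ s, f₂ i) :=
        (Real.sqrt_mul (Finset.sum_nonneg fun i _ => h.nn1 i) _).symm

theorem GM.sumf {ι κ : Type*} {F F₁ F₂ : κ → ι → ℝ} (s : Finset ι)
    (h : ∀ k, GM (F k) (F₁ k) (F₂ k)) :
    GM (fun k => ∑ i ∈ s, F k i) (fun k => ∑ i ∈ s, F₁ k i) (fun k => ∑ i ∈ s, F₂ k i) where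
  nn k := Finset.sum_nonneg fun i _ => (h k).nn i
  nn1 k := Finset.sum_nonneg fun i _ => (h k).nn1 i
  nn2 k := Finset.sum_nonneg fun i _ => (h k).nn2 i
  le k := (h k).sum s

theorem GM.const_mul {ι : Type*} {f f₁ f₂ : ι → ℝ} (h : GM f f₁ f₂) {c : ι → ℝ}
    (hc : ∀ i, 0 ≤ c i) :
    GM (fun i => c i * f i) (fun i => c i * f₁ i) (fun i => c i * f₂ i) where
  nn i := mul_nonneg (hc i) (h.nn i)
  nn1 i := mul_nonneg (hc i) (h.nn1 i)
  nn2 i := mul_nonneg (hc i) (h.nn2 i)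
  le i := by
    have e : c i * f₁ i * (c i * f₂ i) = (c i) ^ 2 * (f₁ i * f₂ i) := by ring
    rw [e, Real.sqrt_mul (sq_nonneg _), Real.sqrt_sq (hc i)]
    exact mul_le_mul_of_nonneg_left (h.le i) (hc i)

theorem GM.mul {ι : Type*} {f f₁ f₂ g g₁ g₂ : ι → ℝ} (h : GM f f₁ f₂) (h' : GM g g₁ g₂) :
    GM (fun i => f i * g i) (fun i => f₁ i * g₁ i) (fun i => f₂ i * g₂ i) where
  nn i := mul_nonneg (h.nn i) (h'.nn i)
  nn1 i := mul_nonneg (h.nn1 i) (h'.nn1 i)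
  nn2 i := mul_nonneg (h.nn2 i) (h'.nn2 i)
  le i := by
    have e : f₁ i * g₁ i * (f₂ i * g₂ i) = (f₁ i * f₂ i) * (g₁ i * g₂ i) := by ring
    rw [e, Real.sqrt_mul (mul_nonneg (h.nn1 i) (h.nn2 i))]
    exact mul_le_mul (h.le i) (h'.le i) (h'.nn i) (Real.sqrt_nonneg _)

theorem GM.comp {ι κ : Type*} {f f₁ f₂ : ι → ℝ} (h : GM f f₁ f₂) (u : κ → ι) :
    GM (fun k => f (u k)) (fun k => f₁ (u k)) (fun k => f₂ (u k)) :=
  ⟨fun _ => h.nn _, fun _ => h.nn1 _, fun _ => h.nn2 _, fun _ => h.le _⟩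

section

variable {X : Type} [Fintype X] [DecidableEq X]

theorem GM.conv_left {G : Type} [Group G] [Fintype G] [DecidableEq G] {f f₁ f₂ : G → ℝ}
    (h : GM f f₁ f₂) {w : G → ℝ} (hw : ∀ g, 0 ≤ w g) :
    GM (conv w f) (conv w f₁) (conv w f₂) := by
  unfold conv
  exact GM.sumf univ fun g => (h.comp fun x => x⁻¹ * g).const_mul hw

theorem GM.conv_right {G : Type} [Group G] [Fintype G] [DecidableEq G] {f f₁ f₂ : G → ℝ}
    (h : GM f f₁ f₂) {w : G → ℝ} (hw : ∀ g, 0 ≤ w g) :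
    GM (conv f w) (conv f₁ w) (conv f₂ w) := by
  unfold conv
  refine GM.sumf univ fun g => ?_
  have h2 := h.const_mul (c := fun x => w (x⁻¹ * g)) fun x => hw _
  simpa only [mul_comm] using h2

theorem GM.wten_mid {f f₁ f₂ : Perm X → ℝ} (h : GM f f₁ f₂) (a b : ℝ) :
    GM (wten ((a + b) / 2) f) (wten a f₁) (wten b f₂) := by
  unfold wten
  refine GM.sumf univ fun σ => ?_
  refine GM.sumf (κ := Perm X) univ (F := fun x y => if Perm.sumCongr x y = σ then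
    f x * f y * (2 : ℝ) ^ ((a + b) / 2 * (numCyc (y⁻¹ * x) : ℝ)) else 0)
    (F₁ := fun x y => if Perm.sumCongr x y = σ then
    f₁ x * f₁ y * (2 : ℝ) ^ (a * (numCyc (y⁻¹ * x) : ℝ)) else 0)
    (F₂ := fun x y => if Perm.sumCongr x y = σ then
    f₂ x * f₂ y * (2 : ℝ) ^ (b * (numCyc (y⁻¹ * x) : ℝ)) else 0) fun x => ?_
  have hpow : ∀ n : ℝ, (2 : ℝ) ^ ((a + b) / 2 * n) ≤
      Real.sqrt ((2 : ℝ) ^ (a * n) * (2 : ℝ) ^ (b * n)) := by
    intro n
    rw [← Real.rpow_add (by norm_num : (0 : ℝ) < 2)]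
    apply Real.le_sqrt_of_sq_le
    rw [← Real.rpow_natCast, ← Real.rpow_mul (by norm_num : (0 : ℝ) ≤ 2)]
    apply le_of_eq
    congr 1
    push_cast
    ring
  have hp : ∀ n : ℝ, (0 : ℝ) ≤ (2 : ℝ) ^ n := fun n => (Real.rpow_pos_of_pos (by norm_num) n).le
  constructor
  · intro y
    split_ifs
    · exact mul_nonneg (mul_nonneg (h.nn x) (h.nn y)) (hp _)
    · exact le_refl _
  · intro y
    split_ifs
    · exact mul_nonneg (mul_nonneg (h.nn1 x) (h.nn1 y)) (hp _)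
    · exact le_refl _
  · intro y
    split_ifs
    · exact mul_nonneg (mul_nonneg (h.nn2 x) (h.nn2 y)) (hp _)
    · exact le_refl _
  · intro y
    split_ifs
    · have e : f₁ x * f₁ y * (2 : ℝ) ^ (a * (numCyc (y⁻¹ * x) : ℝ)) *
          (f₂ x * f₂ y * (2 : ℝ) ^ (b * (numCyc (y⁻¹ * x) : ℝ))) =
          (f₁ x * f₂ x) * ((f₁ y * f₂ y) * ((2 : ℝ) ^ (a * (numCyc (y⁻¹ * x) : ℝ)) *
            (2 : ℝ) ^ (b * (numCyc (y⁻¹ * x) : ℝ)))) := by ring
      rw [e, Real.sqrt_mul (mul_nonneg (h.nn1 x) (h.nn2 x)),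
        Real.sqrt_mul (mul_nonneg (h.nn1 y) (h.nn2 y)), ← mul_assoc]
      exact mul_le_mul (mul_le_mul (h.le x) (h.le y) (h.nn y) (Real.sqrt_nonneg _)) (hpow _)
        (hp _) (mul_nonneg (Real.sqrt_nonneg _) (Real.sqrt_nonneg _))
    · simp

theorem GM.lift_mid {f f₁ f₂ : Perm X → ℝ} (h : GM f f₁ f₂) (a b : ℝ) :
    GM (lift ((a + b) / 2) f) (lift a f₁) (lift b f₂) := by
  unfold lift
  exact ((h.wten_mid a b).conv_right hlaw_nonneg).conv_left hlaw_nonneg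

end

theorem psi_mid (i0 : ℕ) (θ θ' : ℕ → ℝ) (j : ℕ) :
    GM (psi i0 (fun i => (θ i + θ' i) / 2) j) (psi i0 θ j) (psi i0 θ' j) := by
  have hu : ∀ j, GM (unifC j) (unifC j) (unifC j) := by
    intro j
    have h0 : ∀ g, 0 ≤ unifC j g := fun g => by unfold unifC; positivity
    exact ⟨h0, h0, h0, fun g => by rw [Real.sqrt_mul_self (h0 g)]⟩
  induction j with
  | zero =>
    rw [psi_of_le_cvx _ (Nat.zero_le i0), psi_of_le_cvx _ (Nat.zero_le i0), psi_of_le_cvx _ (Nat.zero_le i0)]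
    exact hu 0
  | succ j ih =>
    rcases lt_or_ge j i0 with hj | hj
    · have hj' : j + 1 ≤ i0 := by omega
      rw [psi_of_le_cvx _ hj', psi_of_le_cvx _ hj', psi_of_le_cvx _ hj']
      exact hu (j + 1)
    · rw [psi_succ_eq _ hj, psi_succ_eq _ hj, psi_succ_eq _ hj]
      exact ih.lift_mid (θ j) (θ' j)

/-- [CVX] -/
theorem mass_psi_mid (i0 : ℕ) (θ θ' : ℕ → ℝ) (j : ℕ) :
    mass (psi i0 (fun i => (θ i + θ' i) / 2) j) ≤
      Real.sqrt (mass (psi i0 θ j) * mass (psi i0 θ' j)) :=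
  (psi_mid i0 θ θ' j).sum univ

/-! ### binary splitting -/

/-- intermediate classes -/
noncomputable def θq (q t : ℕ) (i : ℕ) : ℝ :=
  if i ≡ t [MOD 2 ^ min (Nat.log 2 i) q] then (2 : ℝ) ^ min (Nat.log 2 i) q / 7 else 0

theorem θq_zero (t i : ℕ) : θq 0 t i = 1 / 7 := by
  unfold θq
  rw [Nat.min_zero, pow_zero, pow_zero, if_pos (Nat.modEq_one)]

theorem θq_large {q t i : ℕ} (h : i < q) : θq q t i = θt t i := by
  have h1 : min (Nat.log 2 i) q = Nat.log 2 i :=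
    min_eq_left ((Nat.log_le_self 2 i).trans h.le)
  unfold θq θt rr
  rw [h1]
  push_cast
  rfl

theorem θq_split (q t i : ℕ) : θq q t i = (θq (q + 1) t i + θq (q + 1) (t + 2 ^ q) i) / 2 := by
  unfold θq
  rcases le_or_gt (Nat.log 2 i) q with h | h
  · rw [min_eq_left h, min_eq_left (h.trans (Nat.le_succ q))]
    have h1 : (i ≡ t + 2 ^ q [MOD 2 ^ Nat.log 2 i]) ↔ (i ≡ t [MOD 2 ^ Nat.log 2 i]) := by
      have h2 : t + 2 ^ q ≡ t [MOD 2 ^ Nat.log 2 i] := by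
        have h3 : 2 ^ q ≡ 0 [MOD 2 ^ Nat.log 2 i] :=
          (Nat.modEq_zero_iff_dvd).2 (pow_dvd_pow 2 h)
        simpa using (Nat.ModEq.refl t).add h3
      exact ⟨fun h3 => h3.trans h2, fun h3 => h3.trans h2.symm⟩
    simp only [h1]
    split_ifs <;> ring
  · rw [min_eq_right h.le, min_eq_right (Nat.succ_le_of_lt h)]
    have hA : (i ≡ t [MOD 2 ^ (q + 1)]) → (i ≡ t [MOD 2 ^ q]) := fun h1 =>
      h1.of_dvd (pow_dvd_pow 2 (Nat.le_succ q))
    have hB : (i ≡ t + 2 ^ q [MOD 2 ^ (q + 1)]) → (i ≡ t [MOD 2 ^ q]) := fun h1 => by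
      have h2 : i ≡ t + 2 ^ q [MOD 2 ^ q] := h1.of_dvd (pow_dvd_pow 2 (Nat.le_succ q))
      refine h2.trans ?_
      have h3 : 2 ^ q ≡ 0 [MOD 2 ^ q] := (Nat.modEq_zero_iff_dvd).2 dvd_rfl
      simpa using (Nat.ModEq.refl t).add h3
    have hC : (i ≡ t [MOD 2 ^ (q + 1)]) → ¬ (i ≡ t + 2 ^ q [MOD 2 ^ (q + 1)]) := by
      intro h1 h2
      have h3 : t ≡ t + 2 ^ q [MOD 2 ^ (q + 1)] := h1.symm.trans h2
      have h4 : 0 ≡ 2 ^ q [MOD 2 ^ (q + 1)] :=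
        Nat.ModEq.add_left_cancel' t (by simpa using h3)
      have h5 : 2 ^ (q + 1) ∣ 2 ^ q := (Nat.modEq_zero_iff_dvd).1 h4.symm
      have h6 := Nat.le_of_dvd (by positivity) h5
      have h7 : 2 ^ q < 2 ^ (q + 1) := Nat.pow_lt_pow_right (by norm_num) (Nat.lt_succ_self q)
      omega
    have hD : (i ≡ t [MOD 2 ^ q]) → (i ≡ t [MOD 2 ^ (q + 1)]) ∨
        (i ≡ t + 2 ^ q [MOD 2 ^ (q + 1)]) := by
      intro h1
      unfold Nat.ModEq at h1 ⊢
      have hpos : 0 < 2 ^ q := by positivity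
      have e1 := Nat.div_add_mod i (2 ^ q)
      have e2 := Nat.div_add_mod t (2 ^ q)
      rw [pow_succ]
      rcases Nat.even_or_odd' (i / 2 ^ q) with ⟨a, ha | ha⟩ <;>
        rcases Nat.even_or_odd' (t / 2 ^ q) with ⟨b, hb | hb⟩
      · left
        rw [← e1, ← e2, h1, ha, hb,
          show 2 ^ q * (2 * a) + t % 2 ^ q = t % 2 ^ q + 2 ^ q * 2 * a by ring,
          show 2 ^ q * (2 * b) + t % 2 ^ q = t % 2 ^ q + 2 ^ q * 2 * b by ring,
          Nat.add_mul_mod_self_left, Nat.add_mul_mod_self_left]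
      · right
        rw [← e1, ← e2, h1, ha, hb,
          show 2 ^ q * (2 * a) + t % 2 ^ q = t % 2 ^ q + 2 ^ q * 2 * a by ring,
          show 2 ^ q * (2 * b + 1) + t % 2 ^ q + 2 ^ q = t % 2 ^ q + 2 ^ q * 2 * (b + 1) by ring,
          Nat.add_mul_mod_self_left, Nat.add_mul_mod_self_left]
      · right
        rw [← e1, ← e2, h1, ha, hb,
          show 2 ^ q * (2 * a + 1) + t % 2 ^ q = t % 2 ^ q + 2 ^ q + 2 ^ q * 2 * a by ring,
          show 2 ^ q * (2 * b) + t % 2 ^ q + 2 ^ q = t % 2 ^ q + 2 ^ q + 2 ^ q * 2 * b by ring,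
          Nat.add_mul_mod_self_left, Nat.add_mul_mod_self_left]
      · left
        rw [← e1, ← e2, h1, ha, hb,
          show 2 ^ q * (2 * a + 1) + t % 2 ^ q = t % 2 ^ q + 2 ^ q + 2 ^ q * 2 * a by ring,
          show 2 ^ q * (2 * b + 1) + t % 2 ^ q = t % 2 ^ q + 2 ^ q + 2 ^ q * 2 * b by ring,
          Nat.add_mul_mod_self_left, Nat.add_mul_mod_self_left]
    by_cases c1 : i ≡ t [MOD 2 ^ (q + 1)]
    · rw [if_pos (hA c1), if_pos c1, if_neg (hC c1), pow_succ]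
      ring
    · by_cases c2 : i ≡ t + 2 ^ q [MOD 2 ^ (q + 1)]
      · rw [if_pos (hB c2), if_neg c1, if_pos c2, pow_succ]
        ring
      · have c3 : ¬ (i ≡ t [MOD 2 ^ q]) := fun h1 => (hD h1).elim c1 c2
        rw [if_neg c3, if_neg c1, if_neg c2]
        ring

/-- [SPLIT] -/
theorem mass_psi_le_of_classes (i0 j : ℕ) (M : ℝ) (h : ∀ t, mass (psi i0 (θt t) j) ≤ M) :
    mass (psi i0 (fun _ => 1 / 7) j) ≤ M := by
  have hM : 0 ≤ M := le_trans (Finset.sum_nonneg fun g _ => psi_nonneg i0 (θt 0) j g) (h 0)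
  have key : ∀ n q : ℕ, (∀ t, mass (psi i0 (θq (q + n) t) j) ≤ M) →
      ∀ t, mass (psi i0 (θq q t) j) ≤ M := by
    intro n
    induction n with
    | zero => intro q hq; exact hq
    | succ n ih =>
      intro q hq t
      have h1 : ∀ t, mass (psi i0 (θq (q + 1) t) j) ≤ M :=
        ih (q + 1) (by rw [show q + 1 + n = q + (n + 1) by ring]; exact hq)
      have h2 : θq q t = fun i => (θq (q + 1) t i + θq (q + 1) (t + 2 ^ q) i) / 2 := by
        funext i; exact θq_split q t i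
      rw [h2]
      refine (mass_psi_mid i0 _ _ j).trans ?_
      have h3 : 0 ≤ mass (psi i0 (θq (q + 1) (t + 2 ^ q)) j) :=
        Finset.sum_nonneg fun g _ => psi_nonneg _ _ _ _
      calc Real.sqrt (mass (psi i0 (θq (q + 1) t) j) * mass (psi i0 (θq (q + 1) (t + 2 ^ q)) j))
          ≤ Real.sqrt (M * M) := Real.sqrt_le_sqrt (mul_le_mul (h1 t) (h1 _) h3 hM)
        _ = M := Real.sqrt_mul_self hM
  have h0 : ∀ t, mass (psi i0 (θq (0 + j) t) j) ≤ M := by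
    intro t
    have h1 : psi i0 (θq (0 + j) t) j = psi i0 (θt t) j :=
      psi_congr i0 fun i hi => θq_large (by omega)
    rw [h1]
    exact h t
  have h2 := key j 0 h0 0
  have h3 : θq 0 0 = fun _ => (1 : ℝ) / 7 := by
    funext i; exact θq_zero 0 i
  rwa [h3] at h2

end Vale.Agent.P162T
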