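import Vale.Agent.P162T.GroupFun

/-!
# P162 [CYC] Number of cycles, fixed colourings

`numCyc σ` = number of orbits of `σ` (fixed points included); `fixN R σ` = number of colourings
`c : X → Fin R` with `c ∘ σ = c`.  `fixN R σ = R ^ numCyc σ` (a fixed colouring is a function on orbits).
-/

open Equiv Finset

set_option linter.unusedSectionVars false

namespace Vale.Agent.P162T

variable {X : Type} [Fintype X] [DecidableEq X]

/-- number of orbits -/
noncomputable def numCyc (σ : Perm X) : ℕ := Nat.card (Quotient (Perm.SameCycle.setoid σ))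

/-- number of `R`-colourings fixed by `σ` -/
def fixN (R : ℕ) (σ : Perm X) : ℕ :=
  (Finset.univ.filter (fun c : X → Fin R => ∀ x, c (σ x) = c x)).card

/-- invariance under one step gives invariance under the group generated -/
theorem inv_zpow {Y : Type*} (σ : Perm X) (c : X → Y) (h : ∀ x, c (σ x) = c x) (i : ℤ) (x : X) :
    c ((σ ^ i) x) = c x := by
  have hn : ∀ (n : ℕ) (x : X), c ((σ ^ n) x) = c x := by
    intro n
    induction n with
    | zero => intro x; simp
    | succ n ih =>
      intro x
      rw [pow_succ', Perm.mul_apply, h, ih]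
  cases i with
  | ofNat n => simpa using hn n x
  | negSucc n =>
    have h2 := hn (n + 1) ((σ ^ (Int.negSucc n)) x)
    rw [zpow_negSucc] at h2 ⊢
    rw [← h2, ← Perm.mul_apply, mul_inv_cancel, Perm.one_apply]

/-- colourings fixed by `σ` are functions on the orbits -/
def fixEquiv {Y : Type*} (σ : Perm X) :
    {c : X → Y // ∀ x, c (σ x) = c x} ≃ (Quotient (Perm.SameCycle.setoid σ) → Y) where
  toFun c := Quotient.lift c.1 (by
    rintro x y ⟨i, hi⟩
    rw [← hi]
    exact (inv_zpow σ c.1 c.2 i x).symm)
  invFun f := ⟨fun x => f (Quotient.mk _ x), fun x => by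
    refine congrArg f (Quotient.sound (s := Perm.SameCycle.setoid σ) ?_)
    exact ⟨-1, by simp⟩⟩
  left_inv c := by
    ext x
    rfl
  right_inv f := by
    ext q
    induction q using Quotient.inductionOn
    rfl

/-- [CYC] -/
theorem fixN_eq (R : ℕ) (σ : Perm X) : fixN R σ = R ^ numCyc σ := by
  unfold fixN numCyc
  rw [← Fintype.card_subtype, ← Nat.card_eq_fintype_card, Nat.card_congr (fixEquiv σ), Nat.card_fun,
    Nat.card_eq_fintype_card, Fintype.card_fin]

theorem numCyc_eq_of_fixN {Y : Type} [Fintype Y] [DecidableEq Y] {σ : Perm X} {τ : Perm Y}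
    (h : fixN 2 σ = fixN 2 τ) : numCyc σ = numCyc τ := by
  rw [fixN_eq, fixN_eq] at h
  exact Nat.pow_right_injective le_rfl h

/-- [CYC] -/
theorem numCyc_inv (σ : Perm X) : numCyc σ⁻¹ = numCyc σ := by
  apply numCyc_eq_of_fixN
  unfold fixN
  congr 1
  ext c
  simp only [mem_filter, mem_univ, true_and]
  constructor
  · intro h x
    have := h (σ x)
    simpa using this.symm
  · intro h x
    have := h (σ⁻¹ x)
    simpa using this.symm

/-- [CYC] -/
theorem numCyc_conj (σ g : Perm X) : numCyc (g * σ * g⁻¹) = numCyc σ := by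
  apply numCyc_eq_of_fixN
  unfold fixN
  apply Finset.card_equiv (Equiv.arrowCongr g.symm (Equiv.refl (Fin 2)))
  intro c
  simp only [mem_filter, mem_univ, true_and, Equiv.arrowCongr_apply, Function.comp_apply,
    Equiv.symm_symm, Equiv.refl_apply]
  constructor
  · intro h x
    have := h (g x)
    simpa using this
  · intro h x
    have := h (g⁻¹ x)
    simpa using this

/-- [CYC] -/
theorem numCyc_mul_comm (σ g : Perm X) : numCyc (g * σ) = numCyc (σ * g) := by
  have := numCyc_conj (σ * g) g
  rw [← this]
  congr 1
  group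

/-- [CYC] -/
theorem numCyc_one : numCyc (1 : Perm X) = Fintype.card X := by
  have h : fixN 2 (1 : Perm X) = 2 ^ Fintype.card X := by
    unfold fixN
    simp
  rw [fixN_eq] at h
  exact Nat.pow_right_injective le_rfl h

/-- [CYC] -/
theorem numCyc_sumCongr (a b : Perm X) :
    numCyc (Perm.sumCongr a b) = numCyc a + numCyc b := by
  have h : fixN 2 (Perm.sumCongr a b) = fixN 2 a * fixN 2 b := by
    unfold fixN
    rw [← Finset.card_product]
    apply Finset.card_equiv (Equiv.sumArrowEquivProdArrow X X (Fin 2))
    intro c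
    simp only [mem_filter, mem_univ, true_and, mem_product]
    constructor
    · intro h
      exact ⟨fun x => h (Sum.inl x), fun x => h (Sum.inr x)⟩
    · rintro ⟨h1, h2⟩ (x | x)
      · exact h1 x
      · exact h2 x
  rw [fixN_eq, fixN_eq, fixN_eq, ← pow_add] at h
  exact Nat.pow_right_injective le_rfl h

/-- [CYC] number of subsets `A` of `X` invariant under `σ` -/
theorem card_invariant_subsets (σ : Perm X) :
    (Finset.univ.filter (fun A : Finset X => ∀ x, σ x ∈ A ↔ x ∈ A)).card = 2 ^ numCyc σ := by
  rw [← fixN_eq]
  unfold fixN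
  apply Finset.card_bij (fun (A : Finset X) _ => fun x => if x ∈ A then (1 : Fin 2) else 0)
  · intro A hA
    simp only [mem_filter, mem_univ, true_and] at hA ⊢
    intro x
    simp only [hA]
  · intro A _ B _ h
    ext x
    have := congrFun h x
    by_cases h1 : x ∈ A <;> by_cases h2 : x ∈ B <;> simp_all
  · intro c hc
    simp only [mem_filter, mem_univ, true_and] at hc
    refine ⟨univ.filter (fun x => c x = 1), ?_, ?_⟩
    · simp only [mem_filter, mem_univ, true_and]
      intro x
      rw [hc]
    · ext x
      simp only [mem_filter, mem_univ, true_and]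
      generalize c x = y
      fin_cases y <;> simp

end Vale.Agent.P162T
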