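import Mathlib

/-!
# P162 (Thorp shuffle): definitions

Positions of a deck of `2^d` cards: `Cube d`, with `Cube (d+1) = Cube d ⊕ Cube d`
(outermost summand = top bit).  Everything about representations is stated for real
orthogonal representations `ORep G V`.
-/

open Equiv Finset

set_option linter.unusedSectionVars false

namespace Vale.Agent.P162T

/-! ## Positions -/

/-- `Cube 0` is a point, `Cube (d+1) = Cube d ⊕ Cube d`. -/
def Cube : ℕ → Type
  | 0 => Unit
  | d + 1 => Cube d ⊕ Cube d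

instance instFintypeCube : (d : ℕ) → Fintype (Cube d)
  | 0 => inferInstanceAs (Fintype Unit)
  | d + 1 =>
    letI := instFintypeCube d
    inferInstanceAs (Fintype (Cube d ⊕ Cube d))

instance instDecidableEqCube : (d : ℕ) → DecidableEq (Cube d)
  | 0 => inferInstanceAs (DecidableEq Unit)
  | d + 1 =>
    letI := instDecidableEqCube d
    inferInstanceAs (DecidableEq (Cube d ⊕ Cube d))

theorem card_cube (d : ℕ) : Fintype.card (Cube d) = 2 ^ d := by
  induction d with
  | zero => rfl
  | succ d ih =>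
    have : Fintype.card (Cube (d + 1)) = Fintype.card (Cube d) + Fintype.card (Cube d) :=
      Fintype.card_sum
    rw [this, ih]; ring

/-! ## Permutations of `X ⊕ X` -/

section Perms

variable {X : Type} [Fintype X] [DecidableEq X]

/-- act on the left copy -/
def inL : Perm X →* Perm (X ⊕ X) := (Perm.sumCongrHom X X).comp (MonoidHom.inl _ _)

/-- act on the right copy -/
def inR : Perm X →* Perm (X ⊕ X) := (Perm.sumCongrHom X X).comp (MonoidHom.inr _ _)

/-- the function underlying `flp A`: exchange `inl x` and `inr x` for `x ∈ A` -/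
def flpFun (A : Finset X) : X ⊕ X → X ⊕ X
  | Sum.inl x => if x ∈ A then Sum.inr x else Sum.inl x
  | Sum.inr x => if x ∈ A then Sum.inl x else Sum.inr x

theorem flpFun_invol (A : Finset X) (z : X ⊕ X) : flpFun A (flpFun A z) = z := by
  rcases z with x | x <;> by_cases h : x ∈ A <;> simp [flpFun, h]

/-- `flp A` exchanges `inl x` and `inr x` for `x ∈ A` and fixes everything else. -/
def flp (A : Finset X) : Perm (X ⊕ X) where
  toFun := flpFun A
  invFun := flpFun A
  left_inv := flpFun_invol A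
  right_inv := flpFun_invol A

@[simp] theorem inL_apply_inl (a : Perm X) (x : X) : inL a (Sum.inl x) = Sum.inl (a x) := rfl
@[simp] theorem inL_apply_inr (a : Perm X) (x : X) : inL a (Sum.inr x) = Sum.inr x := rfl
@[simp] theorem inR_apply_inl (a : Perm X) (x : X) : inR a (Sum.inl x) = Sum.inl x := rfl
@[simp] theorem inR_apply_inr (a : Perm X) (x : X) : inR a (Sum.inr x) = Sum.inr (a x) := rfl
theorem flp_apply_inl (A : Finset X) (x : X) :
    flp A (Sum.inl x) = if x ∈ A then Sum.inr x else Sum.inl x := rfl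
theorem flp_apply_inr (A : Finset X) (x : X) :
    flp A (Sum.inr x) = if x ∈ A then Sum.inl x else Sum.inr x := rfl

end Perms

/-! ## Orthogonal representations -/

/-- A real orthogonal representation of `G` on `V`. -/
structure ORep (G : Type) [Group G] (V : Type) [NormedAddCommGroup V]
    [InnerProductSpace ℝ V] where
  toHom : G →* (V →ₗ[ℝ] V)
  isom : ∀ (g : G) (v w : V), inner ℝ (toHom g v) (toHom g w) = inner ℝ v w

namespace ORep

variable {G H : Type} [Group G] [Group H] {V : Type} [NormedAddCommGroup V]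
  [InnerProductSpace ℝ V]

/-- restriction along a homomorphism -/
def comp (ρ : ORep G V) (φ : H →* G) : ORep H V where
  toHom := ρ.toHom.comp φ
  isom g v w := ρ.isom (φ g) v w

@[simp] theorem comp_apply (ρ : ORep G V) (φ : H →* G) (h : H) :
    (ρ.comp φ).toHom h = ρ.toHom (φ h) := rfl

/-- the operator of a function on the group -/
noncomputable def op [Fintype G] (ρ : ORep G V) (a : G → ℝ) : V →ₗ[ℝ] V :=
  ∑ g, a g • ρ.toHom g

end ORep

section Ops

variable {X : Type} [Fintype X] [DecidableEq X] {V : Type} [NormedAddCommGroup V]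
  [InnerProductSpace ℝ V]

/-- Laplacian of the transpositions inside a finite set `W` of points:
`∑_{{x,y} ⊆ W} (1 - (x y))`. -/
noncomputable def lapOn (ρ : ORep (Perm X) V) (W : Finset X) : V →ₗ[ℝ] V :=
  (1 / 2 : ℝ) • ∑ x ∈ W, ∑ y ∈ W, (1 - ρ.toHom (swap x y))

/-- The Laplacian `∑_{{x,y}} (1 - (x y))`. -/
noncomputable def lap (ρ : ORep (Perm X) V) : V →ₗ[ℝ] V := lapOn ρ Finset.univ

/-- `D = (1/n) ∑_{{x,y}} (1 - (x y))`, `n = card X`. -/
noncomputable def Dop (ρ : ORep (Perm X) V) : V →ₗ[ℝ] V :=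
  (1 / (Fintype.card X : ℝ)) • lap ρ

/-- average over the permutations supported in `W` (those fixing every point outside `W`). -/
noncomputable def avgOn (ρ : ORep (Perm X) V) (W : Finset X) : V →ₗ[ℝ] V :=
  (1 / ((Finset.univ.filter (fun g : Perm X => ∀ x, x ∉ W → g x = x)).card : ℝ)) •
    ∑ g ∈ Finset.univ.filter (fun g : Perm X => ∀ x, x ∉ W → g x = x), ρ.toHom g

/-- `D` of the left copy -/
noncomputable def DL (ρ : ORep (Perm (X ⊕ X)) V) : V →ₗ[ℝ] V := Dop (ρ.comp inL)
/-- `D` of the right copy -/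
noncomputable def DR (ρ : ORep (Perm (X ⊕ X)) V) : V →ₗ[ℝ] V := Dop (ρ.comp inR)
/-- `Y = D - D_L - D_R` -/
noncomputable def Yop (ρ : ORep (Perm (X ⊕ X)) V) : V →ₗ[ℝ] V := Dop ρ - DL ρ - DR ρ
/-- `Z = D_L - D_R` -/
noncomputable def Zop (ρ : ORep (Perm (X ⊕ X)) V) : V →ₗ[ℝ] V := DL ρ - DR ρ

/-- Walsh projection onto the sector `S` of the swap group `H = {flp A}`:
`u_x := flp {x}` acts as `-1` for `x ∈ S`, as `+1` for `x ∉ S`. -/
noncomputable def sec (ρ : ORep (Perm (X ⊕ X)) V) (S : Finset X) : V →ₗ[ℝ] V :=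
  (1 / (2 : ℝ) ^ Fintype.card X) • ∑ A : Finset X, ((-1 : ℝ) ^ (A ∩ S).card) • ρ.toHom (flp A)

/-- `E_H`: average over `H`. -/
noncomputable def EH (ρ : ORep (Perm (X ⊕ X)) V) : V →ₗ[ℝ] V :=
  (1 / (2 : ℝ) ^ Fintype.card X) • ∑ A : Finset X, ρ.toHom (flp A)

/-- level projection: all sectors `S` with `|S| = m`. -/
noncomputable def lev (ρ : ORep (Perm (X ⊕ X)) V) (m : ℕ) : V →ₗ[ℝ] V :=
  ∑ S ∈ Finset.univ.filter (fun S : Finset X => S.card = m), sec ρ S

end Ops

/-- The pass operator `T_d`: `T_0 = 1`, `T_{d+1} = T_d^L T_d^R E_H`. -/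
noncomputable def Top {V : Type} [NormedAddCommGroup V] [InnerProductSpace ℝ V] :
    (d : ℕ) → ORep (Perm (Cube d)) V → (V →ₗ[ℝ] V)
  | 0, _ => 1
  | d + 1, ρ =>
    Top d (ORep.comp (G := Perm (Cube d ⊕ Cube d)) ρ inL) *
      Top d (ORep.comp (G := Perm (Cube d ⊕ Cube d)) ρ inR) *
      EH (X := Cube d) ρ

/-- `q` is a rate function for the pass on `2^d` cards: `‖T v‖² ≤ q(δ) ‖v‖²` whenever
`D v = δ v`, in every finite-dimensional real orthogonal representation. -/
def Rate (d : ℕ) (q : ℝ → ℝ) : Prop :=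
  ∀ (V : Type) [NormedAddCommGroup V] [InnerProductSpace ℝ V] [FiniteDimensional ℝ V]
    (ρ : ORep (Perm (Cube d)) V) (v : V) (δ : ℝ), Dop ρ v = δ • v →
    v ≠ 0 → ‖Top d ρ v‖ ^ 2 ≤ q δ * ‖v‖ ^ 2

/-! ## Joint spectral decomposition of a vector -/

/-- `v = ∑ vec i`, with `vec i ≠ 0` pairwise orthogonal joint eigenvectors of `A`, `B`
with pairwise different pairs of eigenvalues. -/
structure JD {V : Type} [NormedAddCommGroup V] [InnerProductSpace ℝ V]
    (A B : V →ₗ[ℝ] V) (v : V) where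
  m : ℕ
  vec : Fin m → V
  a : Fin m → ℝ
  b : Fin m → ℝ
  hA : ∀ i, A (vec i) = a i • vec i
  hB : ∀ i, B (vec i) = b i • vec i
  ne : ∀ i, vec i ≠ 0
  dist : ∀ i j, i ≠ j → a i ≠ a j ∨ b i ≠ b j
  orth : ∀ i j, i ≠ j → inner ℝ (vec i) (vec j) = 0
  sum : ∑ i, vec i = v

/-! ## Functions on groups -/

section GroupFun

variable {G : Type} [Group G] [Fintype G] [DecidableEq G]

/-- convolution: law of `x * y` with `x ~ a`, `y ~ b` independent -/
noncomputable def conv (a b : G → ℝ) : G → ℝ := fun g => ∑ h, a h * b (h⁻¹ * g)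

/-- adjoint `a*(g) = a(g⁻¹)` -/
def adj (a : G → ℝ) : G → ℝ := fun g => a g⁻¹

/-- point mass at `1` -/
def dirac : G → ℝ := fun g => if g = 1 then 1 else 0

/-- convolution powers -/
noncomputable def cpow (a : G → ℝ) : ℕ → G → ℝ
  | 0 => dirac
  | k + 1 => conv a (cpow a k)

end GroupFun

section PermFun

variable {X : Type} [Fintype X] [DecidableEq X]

/-- law of `sumCongr a b`, with `a ~ μ`, `b ~ ν` (for functions: push-forward of the product) -/
noncomputable def tens (μ ν : Perm X → ℝ) : Perm (X ⊕ X) → ℝ :=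
  fun σ => ∑ a : Perm X, ∑ b : Perm X, if Perm.sumCongr a b = σ then μ a * ν b else 0

/-- uniform law on `H = {flp A}` -/
noncomputable def hlaw (X : Type) [Fintype X] [DecidableEq X] : Perm (X ⊕ X) → ℝ :=
  fun σ => (1 / (2 : ℝ) ^ Fintype.card X) * ∑ A : Finset X, if flp A = σ then 1 else 0

/-- law of the next pass: `(μ ⊗ μ) * u_H` -/
noncomputable def ext (μ : Perm X → ℝ) : Perm (X ⊕ X) → ℝ := conv (tens μ μ) (hlaw X)

end PermFun

/-- law of `T_d` on `Perm (Cube d)` -/
noncomputable def tlaw : (d : ℕ) → Perm (Cube d) → ℝ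
  | 0 => dirac
  | d + 1 => ext (X := Cube d) (tlaw d)

/-- total variation distance from the uniform law, for a function on a finite group -/
noncomputable def tvUnif {G : Type} [Fintype G] (μ : G → ℝ) : ℝ :=
  (1 / 2) * ∑ g, |μ g - 1 / (Fintype.card G : ℝ)|

end Vale.Agent.P162T
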