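import Vale.Agent.P162T.Gap

/-!
# P162 [DEG] The degree filtration `V_k` and central operators

`Vdeg ρ k = span of ⋃_{|Y|=k} range (avgOn ρ Yᶜ)` (vectors fixed by `Sym(Yᶜ)`).

* `central_on_deg`: `C` symmetric commuting with all `ρ g`.  If `⟨C w,w⟩ ≥ c‖w‖²` for all `w` fixed by some
  `Sym(Yᶜ)`, `|Y| = k`, then `⟨C v, v⟩ ≥ c ‖v‖²` for all `v ∈ Vdeg ρ k`.
  Proof: `Vdeg ρ k` is `C`-invariant; the restriction of `C` is symmetric, so take an orthonormal
  eigenbasis of `C` on `Vdeg ρ k`; for an eigenvector `e ∈ Vdeg`, `C e = λ e`, some `w := avgOn Yᶜ e ≠ 0`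
  (otherwise `e ⟂` all generators of `Vdeg`, so `e = 0`), `C w = λ w`, so `λ‖w‖² ≥ c‖w‖²`.
* `mem_Vdeg_of_lt`: `D v = δ v`, `2(k+1) ≤ n+1`, `δ < (k+1)(n-k)/n` imply `v ∈ Vdeg ρ k`.
  Proof: `v = v₁ + v₂`, `v₁` = orthogonal projection on `Vdeg ρ k`.  `D` preserves `Vdeg` and is
  symmetric so `D v₂ = δ v₂`; `v₂ ⟂ range (avgOn Yᶜ)` so `avgOn Yᶜ v₂ = 0` for `|Y| = k`; by `gap` with
  `k+1`, `W = univ`: `(k+1)(n-k)‖v₂‖² ≤ n δ ‖v₂‖²`, so `v₂ = 0`.
* `Wk_ge`: `𝒲_k = ∑_{|Y|=k} avgOn Yᶜ` satisfies `⟨𝒲_k v,v⟩ ≥ ‖v‖²` on `Vdeg ρ k` (`central_on_deg`, `c = 1`: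
  for `w` fixed by `Sym(Y₀ᶜ)` the term `Y₀` gives `‖w‖²`, the others are `≥ 0` (projections)).
  Centrality by `avgOn_conj`.
-/

open Equiv Finset

set_option linter.unusedSectionVars false

namespace Vale.Agent.P162T

variable {X : Type} [Fintype X] [DecidableEq X] {V : Type} [NormedAddCommGroup V]
  [InnerProductSpace ℝ V]

/-- degree `≤ k` part -/
noncomputable def Vdeg (ρ : ORep (Perm X) V) (k : ℕ) : Submodule ℝ V :=
  ⨆ Y : {Y : Finset X // Y.card = k}, LinearMap.range (avgOn ρ (Y.1)ᶜ)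

/-- `𝒲_k = ∑_{|Y|=k} avgOn Yᶜ` -/
noncomputable def Wk (ρ : ORep (Perm X) V) (k : ℕ) : V →ₗ[ℝ] V :=
  ∑ Y ∈ Finset.univ.filter (fun Y : Finset X => Y.card = k), avgOn ρ Yᶜ

theorem avgOn_idem (ρ : ORep (Perm X) V) (W : Finset X) (v : V) :
    avgOn ρ W (avgOn ρ W v) = avgOn ρ W v := by
  have h := LinearMap.congr_fun (avgOn_mul_avgOn ρ (Finset.Subset.refl W)).1 v
  simpa using h

theorem avgOn_commute_of (ρ : ORep (Perm X) V) (W : Finset X) (C : V →ₗ[ℝ] V)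
    (hC : ∀ g, Commute (ρ.toHom g) C) : Commute (avgOn ρ W) C := by
  unfold avgOn
  exact (Commute.sum_left _ _ _ fun g _ => hC g).smul_left _

theorem inner_avgOn_self (ρ : ORep (Perm X) V) (W : Finset X) (v : V) :
    inner ℝ (avgOn ρ W v) v = ‖avgOn ρ W v‖ ^ 2 := by
  rw [← real_inner_self_eq_norm_sq, ← avgOn_symm ρ W (avgOn ρ W v) v, avgOn_idem]

theorem avgOn_mem_Vdeg (ρ : ORep (Perm X) V) (k : ℕ) {Y : Finset X} (hY : Y.card = k) (z : V) :
    avgOn ρ Yᶜ z ∈ Vdeg ρ k := by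
  unfold Vdeg
  refine Submodule.mem_iSup_of_mem (⟨Y, hY⟩ : {Y : Finset X // Y.card = k}) ?_
  exact LinearMap.mem_range_self _ z

/-- a central symmetric operator preserves the degree filtration -/
theorem Vdeg_invariant (ρ : ORep (Perm X) V) (k : ℕ) (C : V →ₗ[ℝ] V)
    (hC' : ∀ g, Commute (ρ.toHom g) C) {v : V} (hv : v ∈ Vdeg ρ k) : C v ∈ Vdeg ρ k := by
  unfold Vdeg at hv
  induction hv using Submodule.iSup_induction' with
  | mem Y x hx =>
    obtain ⟨z, rfl⟩ := hx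
    have h := LinearMap.congr_fun (avgOn_commute_of ρ (Y.1)ᶜ C hC') z
    simp only [Module.End.mul_apply] at h
    rw [← h]
    exact avgOn_mem_Vdeg ρ k Y.2 _
  | zero => simp
  | add x y _ _ hx hy =>
    rw [map_add]
    exact Submodule.add_mem _ hx hy

/-- a vector orthogonal to all the generators is orthogonal to `Vdeg` -/
theorem inner_Vdeg_eq_zero (ρ : ORep (Perm X) V) (k : ℕ) {e : V}
    (he : ∀ Y : Finset X, Y.card = k → avgOn ρ Yᶜ e = 0) {u : V} (hu : u ∈ Vdeg ρ k) :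
    inner ℝ u e = 0 := by
  unfold Vdeg at hu
  induction hu using Submodule.iSup_induction' with
  | mem Y x hx =>
    obtain ⟨z, rfl⟩ := hx
    rw [avgOn_symm ρ _ z e, he Y.1 Y.2, inner_zero_right]
  | zero => simp
  | add x y _ _ hx hy => rw [inner_add_left, hx, hy, add_zero]

theorem exists_avgOn_ne_zero (ρ : ORep (Perm X) V) (k : ℕ) {e : V} (he : e ∈ Vdeg ρ k)
    (h0 : e ≠ 0) : ∃ Y : Finset X, Y.card = k ∧ avgOn ρ Yᶜ e ≠ 0 := by
  by_contra h
  push Not at h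
  have h1 := inner_Vdeg_eq_zero ρ k h he
  exact h0 (inner_self_eq_zero.mp h1)

/-- [DEG] -/
theorem central_on_deg [FiniteDimensional ℝ V] (ρ : ORep (Perm X) V) (k : ℕ)
    (C : V →ₗ[ℝ] V) (hC : C.IsSymmetric) (hC' : ∀ g, Commute (ρ.toHom g) C) (c : ℝ)
    (h : ∀ Y : Finset X, Y.card = k → ∀ w : V, avgOn ρ Yᶜ w = w →
      c * ‖w‖ ^ 2 ≤ inner ℝ (C w) w) {v : V} (hv : v ∈ Vdeg ρ k) :
    c * ‖v‖ ^ 2 ≤ inner ℝ (C v) v := by
  have hinv : ∀ u ∈ Vdeg ρ k, C u ∈ Vdeg ρ k := fun u hu => Vdeg_invariant ρ k C hC' hu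
  have hT : (C.restrict hinv).IsSymmetric := hC.restrict_invariant hinv
  let b := hT.eigenvectorBasis rfl
  -- the eigenvalues are at least `c`
  have hev : ∀ i, c ≤ hT.eigenvalues rfl i := by
    intro i
    have h1 := hT.apply_eigenvectorBasis rfl i
    have h2 : C (b i : V) = (hT.eigenvalues rfl i : ℝ) • (b i : V) := by
      exact congrArg (Subtype.val) h1
    have h3 : (b i : V) ≠ 0 := by
      intro h0
      have h4 : ‖b i‖ = 1 := b.orthonormal.1 i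
      have h5 : b i = 0 := Subtype.ext h0
      rw [h5, norm_zero] at h4
      exact zero_ne_one h4
    obtain ⟨Y, hY, hw⟩ := exists_avgOn_ne_zero ρ k (b i).2 h3
    set w := avgOn ρ Yᶜ (b i : V) with hwdef
    have h6 : C w = (hT.eigenvalues rfl i : ℝ) • w := by
      have h7 := LinearMap.congr_fun (avgOn_commute_of ρ Yᶜ C hC') (b i : V)
      simp only [Module.End.mul_apply] at h7
      rw [hwdef, ← h7, h2, map_smul]
    have h8 := h Y hY w (avgOn_idem ρ _ _)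
    rw [h6, inner_smul_left, real_inner_self_eq_norm_sq] at h8
    have h9 : 0 < ‖w‖ ^ 2 := by positivity
    simp only [conj_trivial] at h8
    exact le_of_mul_le_mul_right h8 h9
  -- expansion
  let v' : Vdeg ρ k := ⟨v, hv⟩
  have h1 : inner ℝ (C v) v = inner ℝ (C.restrict hinv v') v' := rfl
  have h2 : ‖v‖ ^ 2 = ∑ i, (inner ℝ (b i) v') ^ 2 := by
    have := b.sum_sq_norm_inner_right v'
    simp only [Real.norm_eq_abs, sq_abs] at this
    rw [this]
    rfl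
  have h3 : inner ℝ (C.restrict hinv v') v'
      = ∑ i, hT.eigenvalues rfl i * (inner ℝ (b i) v') ^ 2 := by
    rw [← b.sum_inner_mul_inner]
    refine Finset.sum_congr rfl fun i _ => ?_
    rw [hT v' (b i), hT.apply_eigenvectorBasis rfl i, inner_smul_right]
    rw [real_inner_comm]
    have : (hT.eigenvectorBasis rfl) i = b i := rfl
    rw [this]
    simp
    ring
  rw [h1, h2, h3, Finset.mul_sum]
  exact Finset.sum_le_sum fun i _ => mul_le_mul_of_nonneg_right (hev i) (sq_nonneg _)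

/-- [DEG] -/
theorem mem_Vdeg_of_lt [FiniteDimensional ℝ V] (ρ : ORep (Perm X) V) (k : ℕ)
    (hk : 2 * (k + 1) ≤ Fintype.card X + 1) {v : V} {δ : ℝ} (hv : Dop ρ v = δ • v)
    (hδ : δ < (k + 1 : ℝ) * ((Fintype.card X : ℝ) - k) / Fintype.card X) :
    v ∈ Vdeg ρ k := by
  have hX : 0 < Fintype.card X := by omega
  have : Nonempty X := Fintype.card_pos_iff.mp hX
  have hXr : (0 : ℝ) < Fintype.card X := by exact_mod_cast hX
  obtain ⟨v₁, hv₁, v₂, hv₂, hsum⟩ := (Vdeg ρ k).exists_add_mem_mem_orthogonal v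
  have hD : ∀ g, Commute (ρ.toHom g) (Dop ρ) := Dop_commute ρ
  have h1 : Dop ρ v₁ ∈ Vdeg ρ k := Vdeg_invariant ρ k _ hD hv₁
  have h2 : Dop ρ v₂ ∈ (Vdeg ρ k)ᗮ := by
    rw [Submodule.mem_orthogonal] at hv₂ ⊢
    intro u hu
    rw [← Dop_symm ρ u v₂]
    exact hv₂ _ (Vdeg_invariant ρ k _ hD hu)
  have h3 : Dop ρ v₂ = δ • v₂ := by
    have h4 : Dop ρ v₂ - δ • v₂ = -(Dop ρ v₁ - δ • v₁) := by
      rw [hsum, map_add, smul_add] at hv
      rw [neg_sub, sub_eq_sub_iff_add_eq_add]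
      rw [add_comm, hv, add_comm]
    have h5 : Dop ρ v₂ - δ • v₂ ∈ (Vdeg ρ k)ᗮ :=
      Submodule.sub_mem _ h2 (Submodule.smul_mem _ _ hv₂)
    have h6 : Dop ρ v₂ - δ • v₂ ∈ Vdeg ρ k := by
      rw [h4]
      exact Submodule.neg_mem _ (Submodule.sub_mem _ h1 (Submodule.smul_mem _ _ hv₁))
    have h7 : inner ℝ (Dop ρ v₂ - δ • v₂) (Dop ρ v₂ - δ • v₂) = 0 :=
      (Submodule.mem_orthogonal _ _).mp h5 _ h6
    exact sub_eq_zero.mp (inner_self_eq_zero.mp h7)
  have h4 : ∀ Y : Finset X, Y ⊆ Finset.univ → Y.card = (k + 1) - 1 →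
      avgOn ρ (Finset.univ \ Y) v₂ = 0 := by
    intro Y _ hY
    rw [← Finset.compl_eq_univ_sdiff]
    have h5 : inner ℝ (avgOn ρ Yᶜ v₂) (avgOn ρ Yᶜ v₂) = 0 := by
      rw [← avgOn_symm ρ Yᶜ (avgOn ρ Yᶜ v₂) v₂, avgOn_idem]
      exact (Submodule.mem_orthogonal _ _).mp hv₂ _
        (avgOn_mem_Vdeg ρ k (by simpa using hY) v₂)
    exact inner_self_eq_zero.mp h5
  have h5 := gap ρ (k + 1) (by omega) Finset.univ (by rw [Finset.card_univ]; exact hk) v₂ h4
  have h6 : lapOn ρ Finset.univ v₂ = ((Fintype.card X : ℝ) * δ) • v₂ := Dop_eig_lap ρ h3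
  rw [h6, inner_smul_left, real_inner_self_eq_norm_sq, Finset.card_univ] at h5
  simp only [conj_trivial] at h5
  push_cast at h5
  rw [lt_div_iff₀ hXr] at hδ
  have h7 : v₂ = 0 := by
    by_contra hne
    have h8 : 0 < ‖v₂‖ ^ 2 := by positivity
    have h9 := le_of_mul_le_mul_right h5 h8
    have h10 : ((k : ℝ) + 1) * ((Fintype.card X : ℝ) - (k + 1) + 1)
        = (k + 1) * ((Fintype.card X : ℝ) - k) := by ring
    rw [h10] at h9
    linarith [mul_comm δ (Fintype.card X : ℝ)]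
  rw [hsum, h7, add_zero]
  exact hv₁

/-- [DEG] -/
theorem Wk_commute (ρ : ORep (Perm X) V) (k : ℕ) (g : Perm X) :
    Commute (ρ.toHom g) (Wk ρ k) := by
  have h1 : ∀ W : Finset X, ρ.toHom g * avgOn ρ W = avgOn ρ (W.image g) * ρ.toHom g := by
    intro W
    rw [← avgOn_conj ρ W g, mul_assoc, ← map_mul, inv_mul_cancel, map_one, mul_one]
  show ρ.toHom g * Wk ρ k = Wk ρ k * ρ.toHom g
  unfold Wk
  rw [Finset.mul_sum, Finset.sum_mul]
  refine Finset.sum_bij (fun Y _ => Y.image g) ?_ ?_ ?_ ?_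
  · intro Y hY
    simp only [Finset.mem_filter, Finset.mem_univ, true_and] at hY ⊢
    rw [Finset.card_image_of_injective _ g.injective, hY]
  · intro Y _ Y' _ h
    exact Finset.image_injective g.injective h
  · intro Y hY
    simp only [Finset.mem_filter, Finset.mem_univ, true_and] at hY
    refine ⟨Y.image g.symm, ?_, ?_⟩
    · simp only [Finset.mem_filter, Finset.mem_univ, true_and]
      rw [Finset.card_image_of_injective _ g.symm.injective, hY]
    · rw [Finset.image_image]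
      simp
  · intro Y _
    rw [h1]
    congr 2
    ext x
    simp only [Finset.mem_image, Finset.mem_compl, not_exists, not_and]
    constructor
    · rintro ⟨y, hy, rfl⟩ z hz hzy
      exact hy (g.injective hzy ▸ hz)
    · intro hx
      exact ⟨g.symm x, fun hy => hx _ hy (g.apply_symm_apply x), g.apply_symm_apply x⟩

/-- [DEG] -/
theorem Wk_symm (ρ : ORep (Perm X) V) (k : ℕ) : (Wk ρ k).IsSymmetric := by
  intro v w
  unfold Wk
  simp only [LinearMap.sum_apply, sum_inner, inner_sum]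
  exact Finset.sum_congr rfl fun Y _ => avgOn_symm ρ _ v w

/-- [DEG] -/
theorem Wk_nonneg (ρ : ORep (Perm X) V) (k : ℕ) (v : V) : 0 ≤ inner ℝ (Wk ρ k v) v := by
  unfold Wk
  simp only [LinearMap.sum_apply, sum_inner]
  refine Finset.sum_nonneg fun Y _ => ?_
  rw [inner_avgOn_self]
  positivity

/-- [DEG] -/
theorem Wk_ge [FiniteDimensional ℝ V] (ρ : ORep (Perm X) V) (k : ℕ) {v : V}
    (hv : v ∈ Vdeg ρ k) : ‖v‖ ^ 2 ≤ inner ℝ (Wk ρ k v) v := by
  have h := central_on_deg ρ k (Wk ρ k) (Wk_symm ρ k) (Wk_commute ρ k) 1 ?_ hv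
  · simpa using h
  · intro Y hY w hw
    unfold Wk
    simp only [LinearMap.sum_apply, sum_inner]
    have h1 : (1 : ℝ) * ‖w‖ ^ 2 = inner ℝ (avgOn ρ Yᶜ w) w := by
      rw [inner_avgOn_self, hw, one_mul]
    rw [h1]
    refine Finset.single_le_sum (f := fun Y : Finset X => inner ℝ (avgOn ρ Yᶜ w) w)
      (fun Y' _ => ?_) ?_
    · change 0 ≤ inner ℝ (avgOn ρ Y'ᶜ w) w
      rw [inner_avgOn_self]
      positivity
    · simpa using hY

end Vale.Agent.P162T
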