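import Vale.Agent.P162T.Build

/-!
# P162 [DOM] Power domination: `b^{1+s} (n!)^s ≤ psi_s`

`b = psi i0 0` (law of `B = T* U T`), `ψ = psi i0 s`, `n = 2^j`.  Claim (all `s ≥ 0`): for all `σ`,
`(b j σ)^{1+s} · (n!)^s ≤ ψ j σ`.

DOM1 (`card_pairs`): for `τ = sumCongr a b` the number of pairs `(A,A')` of subsets of `X` with
`flp A' * τ * flp A` block preserving (`∈ range sumCongr`) is `2^{numCyc(b⁻¹ a)}`.
Proof: `flp A' * τ * flp A` maps `inl x` to side `[x∈A] + [τ_e x ∈ A']` where `e` = side after `flp A`; block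
preserving iff for all `x`: `x ∈ A ↔ a x ∈ A'` and `x ∈ A ↔ b x ∈ A'` (from `inl`/`inr`, `x ∈ A` or not).  So `A = a⁻¹ A'` and
`A'` is invariant under `b a⁻¹`; count = number of `b a⁻¹`-invariant subsets = `2^{numCyc(b a⁻¹)}`
(`card_invariant_subsets`), and `numCyc (b a⁻¹) = numCyc (a b⁻¹) = numCyc (b⁻¹ a)`.

DOM2 (`lift_dom`, general `X`, `N = card X`, `b, ψ : Perm X → ℝ`, `b ≥ 0`, `b^{1+s} (N!)^s ≤ ψ`):
`(lift 0 b σ)^{1+s} ((2N)!)^s ≤ lift s ψ σ`.
Proof: `lift θ φ σ = 2^{-2N} ∑_{(A,A')} wten θ φ (flp A' * σ * flp A)` (hlaw sums; `flp A` involutive), and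
`wten θ φ (sumCongr a b) = φ a φ b 2^{θ numCyc(b⁻¹a)}`, `wten = 0` off the range.  Let `𝒢` be the set of `(A,A')` with
`flp A' σ flp A = sumCongr a b`.  If `𝒢 = ∅` both sides are 0.  For each `(A,A') ∈ 𝒢`, `|𝒢| = M := 2^{numCyc(b⁻¹ a)}`
by DOM1 (applied to `τ = flp A' σ flp A`: `(A₁,A₁') ↦ (A ∆ A₁, A' ∆ A₁')`).  Power mean:
`(∑_𝒢 w)^{1+s} ≤ M^s ∑_𝒢 w^{1+s}` (`Real.inner_le_nnorm_mul_nnorm`-free: use
`Real.rpow_sum_le_const_mul_sum_rpow` : `(∑ f)^p ≤ card^(p-1) ∑ f^p`).  So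
`(lift 0 b σ)^{1+s} ((2N)!)^s ≤ 2^{-2N} [2^{-2N} (2N)!/(N!)²]^s ∑_𝒢 M^s (b(a)^{1+s} N!^s)(b(b)^{1+s} N!^s)`
and `(2N)!/(N!)² = C(2N,N) ≤ 4^N = 2^{2N}`.
-/

open Equiv Finset

set_option linter.unusedSectionVars false

namespace Vale.Agent.P162T

variable {X : Type} [Fintype X] [DecidableEq X]

/-- `τ` is block preserving iff it maps the left block to the left block -/
theorem block_iff_left (τ : Perm (X ⊕ X)) : (∃ a' b' : Perm X, τ = Perm.sumCongr a' b') ↔
    ∀ x, (τ (Sum.inl x)).isLeft = true := by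
  constructor
  · rintro ⟨a', b', rfl⟩ x
    simp
  · intro h
    have : τ ∈ (Perm.sumCongrHom X X).range := by
      apply Perm.mem_sumCongrHom_range_of_perm_mapsTo_inl
      rintro _ ⟨x, rfl⟩
      have := h x
      rw [Sum.isLeft_iff] at this
      obtain ⟨y, hy⟩ := this
      exact ⟨y, hy.symm⟩
    obtain ⟨⟨a', b'⟩, h2⟩ := this
    exact ⟨a', b', h2.symm⟩

theorem apply_inl (a b : Perm X) (A A' : Finset X) (x : X) :
    (flp A' * Perm.sumCongr a b * flp A) (Sum.inl x) =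
      if x ∈ A then (if b x ∈ A' then Sum.inl (b x) else Sum.inr (b x))
      else (if a x ∈ A' then Sum.inr (a x) else Sum.inl (a x)) := by
  rw [Perm.mul_apply, Perm.mul_apply, flp_apply_inl]
  by_cases h : x ∈ A
  · rw [if_pos h, if_pos h]
    exact flp_apply_inr A' (b x)
  · rw [if_neg h, if_neg h]
    exact flp_apply_inl A' (a x)

theorem apply_inr (a b : Perm X) (A A' : Finset X) (x : X) :
    (flp A' * Perm.sumCongr a b * flp A) (Sum.inr x) =
      if x ∈ A then (if a x ∈ A' then Sum.inr (a x) else Sum.inl (a x))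
      else (if b x ∈ A' then Sum.inl (b x) else Sum.inr (b x)) := by
  rw [Perm.mul_apply, Perm.mul_apply, flp_apply_inr]
  by_cases h : x ∈ A
  · rw [if_pos h, if_pos h]
    exact flp_apply_inl A' (a x)
  · rw [if_neg h, if_neg h]
    exact flp_apply_inr A' (b x)

/-- `flp A' * sumCongr a b * flp A` is block preserving iff `x ∈ A ↔ a x ∈ A'` and
`x ∈ A ↔ b x ∈ A'`. -/
theorem block_iff (a b : Perm X) (A A' : Finset X) :
    (∃ a' b' : Perm X, flp A' * Perm.sumCongr a b * flp A = Perm.sumCongr a' b') ↔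
      ∀ x, (x ∈ A ↔ a x ∈ A') ∧ (x ∈ A ↔ b x ∈ A') := by
  constructor
  · rintro ⟨a', b', h⟩ x
    have h1 := congrArg (fun τ : Perm (X ⊕ X) => (τ (Sum.inl x)).isLeft) h
    have h2 := congrArg (fun τ : Perm (X ⊕ X) => (τ (Sum.inr x)).isLeft) h
    simp only [apply_inl, apply_inr] at h1 h2
    by_cases hA : x ∈ A <;> by_cases ha : a x ∈ A' <;> by_cases hb : b x ∈ A' <;>
      simp_all
  · intro h
    rw [block_iff_left]
    intro x
    rw [apply_inl]
    obtain ⟨h1, h2⟩ := h x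
    by_cases hA : x ∈ A
    · rw [if_pos hA, if_pos (h2.mp hA)]; rfl
    · rw [if_neg hA, if_neg (fun h3 => hA (h1.mpr h3))]; rfl

/-- [DOM1] -/
theorem card_pairs (a b : Perm X) :
    (Finset.univ.filter (fun P : Finset X × Finset X =>
      ∃ a' b' : Perm X, flp P.2 * Perm.sumCongr a b * flp P.1 = Perm.sumCongr a' b')).card =
      2 ^ numCyc (b⁻¹ * a) := by
  rw [← card_invariant_subsets]
  apply Finset.card_bij (fun (P : Finset X × Finset X) _ => P.1)
  · rintro ⟨A, A'⟩ hP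
    simp only [mem_filter, mem_univ, true_and, block_iff] at hP ⊢
    intro x
    rw [(hP x).1, (hP ((b⁻¹ * a) x)).2]
    simp
  · rintro ⟨A, A'⟩ hP ⟨B, B'⟩ hQ h
    simp only [mem_filter, mem_univ, true_and, block_iff] at hP hQ h
    subst h
    congr 1
    ext y
    have h1 := (hP (a⁻¹ y)).1
    have h2 := (hQ (a⁻¹ y)).1
    have e : a (a⁻¹ y) = y := by simp
    rw [e] at h1 h2
    rw [← h1, ← h2]
  · intro A hA
    simp only [mem_filter, mem_univ, true_and] at hA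
    refine ⟨(A, A.image a), ?_, rfl⟩
    simp only [mem_filter, mem_univ, true_and, block_iff]
    intro x
    constructor
    · rw [Finset.mem_image]
      constructor
      · intro h; exact ⟨x, h, rfl⟩
      · rintro ⟨y, hy, hyx⟩
        rwa [← a.injective hyx]
    · rw [Finset.mem_image]
      have h1 := hA (a⁻¹ (b x))
      have h2 : (b⁻¹ * a) (a⁻¹ (b x)) = x := by simp
      rw [h2] at h1
      rw [h1]
      constructor
      · intro h; exact ⟨_, h, by simp⟩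
      · rintro ⟨y, hy, hyx⟩
        rw [← hyx]
        simpa using hy

/-- [DOM1] explicit formula for `lift` -/
theorem lift_apply (θ : ℝ) (ψ : Perm X → ℝ) (σ : Perm (X ⊕ X)) :
    lift θ ψ σ = (1 / (4 : ℝ) ^ Fintype.card X) *
      ∑ P : Finset X × Finset X, wten θ ψ (flp P.2 * σ * flp P.1) := by
  have h1 : ∀ (f : Perm (X ⊕ X) → ℝ) (g : Perm (X ⊕ X)), conv f (hlaw X) g =
      (1 / (2 : ℝ) ^ Fintype.card X) * ∑ A : Finset X, f (g * flp A) := by
    intro f g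
    rw [conv_apply']
    have := sum_hlaw (X := X) (fun h => f (g * h⁻¹))
    simp only [flp_inv'] at this
    rw [← this]
    exact Finset.sum_congr rfl fun h _ => mul_comm _ _
  have h2 : ∀ (f : Perm (X ⊕ X) → ℝ) (g : Perm (X ⊕ X)), conv (hlaw X) f g =
      (1 / (2 : ℝ) ^ Fintype.card X) * ∑ A : Finset X, f (flp A * g) := by
    intro f g
    unfold conv
    have := sum_hlaw (X := X) (fun h => f (h⁻¹ * g))
    simp only [flp_inv'] at this
    rw [← this]
  unfold lift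
  rw [h2]
  simp only [h1]
  rw [← Finset.mul_sum, ← mul_assoc, Fintype.sum_prod_type_right]
  congr 1
  rw [show (4 : ℝ) = 2 * 2 by norm_num, mul_pow]
  field_simp

/-- [DOM1] -/
theorem wten_apply_sumCongr (θ : ℝ) (ψ : Perm X → ℝ) (a b : Perm X) :
    wten θ ψ (Perm.sumCongr a b) = ψ a * ψ b * (2 : ℝ) ^ (θ * (numCyc (b⁻¹ * a) : ℝ)) := by
  unfold wten
  rw [Finset.sum_eq_single a, Finset.sum_eq_single b]
  · rw [if_pos rfl]
  · intro b' _ hb
    rw [if_neg]
    intro h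
    have := Perm.sumCongrHom_injective (a₁ := (a, b')) (a₂ := (a, b)) h
    exact hb (congrArg Prod.snd this)
  · intro h; exact absurd (mem_univ _) h
  · intro a' _ ha
    apply Finset.sum_eq_zero
    intro b' _
    rw [if_neg]
    intro h
    have := Perm.sumCongrHom_injective (a₁ := (a', b')) (a₂ := (a, b)) h
    exact ha (congrArg Prod.fst this)
  · intro h; exact absurd (mem_univ _) h

theorem wten_eq_zero (θ : ℝ) (ψ : Perm X → ℝ) (τ : Perm (X ⊕ X))
    (h : ¬ ∃ a' b' : Perm X, τ = Perm.sumCongr a' b') : wten θ ψ τ = 0 := by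
  unfold wten
  apply Finset.sum_eq_zero
  intro a _
  apply Finset.sum_eq_zero
  intro b _
  rw [if_neg]
  intro h2
  exact h ⟨a, b, h2.symm⟩

theorem flp_mul' (A B : Finset X) : flp A * flp B = flp (symmDiff A B) := by
  ext z
  rcases z with x | x
  · rw [Perm.mul_apply, flp_apply_inl, flp_apply_inl]
    by_cases hA : x ∈ A <;> by_cases hB : x ∈ B <;>
      simp [hA, hB, flp_apply_inl, flp_apply_inr, Finset.mem_symmDiff]
  · rw [Perm.mul_apply, flp_apply_inr, flp_apply_inr]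
    by_cases hA : x ∈ A <;> by_cases hB : x ∈ B <;>
      simp [hA, hB, flp_apply_inl, flp_apply_inr, Finset.mem_symmDiff]

theorem card_good {σ : Perm (X ⊕ X)} {P₀ : Finset X × Finset X} {a b : Perm X}
    (h : flp P₀.2 * σ * flp P₀.1 = Perm.sumCongr a b) :
    (Finset.univ.filter (fun P : Finset X × Finset X =>
      ∃ a' b' : Perm X, flp P.2 * σ * flp P.1 = Perm.sumCongr a' b')).card =
      2 ^ numCyc (b⁻¹ * a) := by
  rw [← card_pairs]
  apply Finset.card_bij (fun (P : Finset X × Finset X) _ =>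
    (symmDiff P.1 P₀.1, symmDiff P.2 P₀.2))
  · rintro ⟨A, A'⟩ hP
    simp only [mem_filter, mem_univ, true_and] at hP ⊢
    obtain ⟨a', b', h2⟩ := hP
    refine ⟨a', b', ?_⟩
    rw [← h2, ← h, ← flp_mul', symmDiff_comm A P₀.1, ← flp_mul']
    have h3 : flp P₀.2 * flp P₀.2 = 1 := by
      conv_lhs => rw [← flp_inv' P₀.2]
      rw [flp_inv']
      rw [← mul_inv_cancel (flp P₀.2), flp_inv']
    have h4 : flp P₀.1 * flp P₀.1 = 1 := by
      rw [← mul_inv_cancel (flp P₀.1), flp_inv']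
    calc flp A' * flp P₀.2 * (flp P₀.2 * σ * flp P₀.1) * (flp P₀.1 * flp A)
        = flp A' * (flp P₀.2 * flp P₀.2) * σ * (flp P₀.1 * flp P₀.1) * flp A := by group
      _ = flp A' * σ * flp A := by rw [h3, h4, mul_one, mul_one]
  · rintro ⟨A, A'⟩ _ ⟨B, B'⟩ _ h2
    simp only [Prod.mk.injEq] at h2
    obtain ⟨h3, h4⟩ := h2
    rw [symmDiff_left_injective _ h3, symmDiff_left_injective _ h4]
  · rintro ⟨A, A'⟩ hP
    simp only [mem_filter, mem_univ, true_and] at hP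
    obtain ⟨a', b', h2⟩ := hP
    refine ⟨(symmDiff A P₀.1, symmDiff A' P₀.2), ?_, ?_⟩
    · simp only [mem_filter, mem_univ, true_and]
      refine ⟨a', b', ?_⟩
      rw [← h2, ← h, ← flp_mul', symmDiff_comm A P₀.1, ← flp_mul']
      group
    · simp only [symmDiff_assoc, symmDiff_self, Finset.bot_eq_empty]
      simp

/-- [DOM2] -/
theorem lift_dom {s : ℝ} (hs : 0 ≤ s) {b ψ : Perm X → ℝ} (hb : ∀ g, 0 ≤ b g)
    (h : ∀ g, b g ^ (1 + s) * ((Fintype.card X).factorial : ℝ) ^ s ≤ ψ g) (σ : Perm (X ⊕ X)) :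
    lift 0 b σ ^ (1 + s) * ((Fintype.card (X ⊕ X)).factorial : ℝ) ^ s ≤ lift s ψ σ := by
  have hψ : ∀ g, 0 ≤ ψ g := fun g =>
    le_trans (mul_nonneg (Real.rpow_nonneg (hb g) _) (Real.rpow_nonneg (by positivity) _)) (h g)
  set N := Fintype.card X with hN
  set 𝒢 := Finset.univ.filter (fun P : Finset X × Finset X =>
      ∃ a' b' : Perm X, flp P.2 * σ * flp P.1 = Perm.sumCongr a' b') with h𝒢
  have hsum : ∀ (θ : ℝ) (φ : Perm X → ℝ), lift θ φ σ = (1 / (4 : ℝ) ^ N) *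
      ∑ P ∈ 𝒢, wten θ φ (flp P.2 * σ * flp P.1) := by
    intro θ φ
    rw [lift_apply, h𝒢, Finset.sum_filter]
    congr 1
    apply Finset.sum_congr rfl
    intro P _
    by_cases hP : ∃ a' b' : Perm X, flp P.2 * σ * flp P.1 = Perm.sumCongr a' b'
    · rw [if_pos hP]
    · rw [if_neg hP, wten_eq_zero _ _ _ hP]
  set M : ℝ := (𝒢.card : ℝ) with hM
  have hdec : ∀ P ∈ 𝒢, ∃ a' b' : Perm X,
      wten 0 b (flp P.2 * σ * flp P.1) = b a' * b b' ∧
      wten s ψ (flp P.2 * σ * flp P.1) = ψ a' * ψ b' * M ^ s := by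
    intro P hP
    have hP' := hP
    rw [h𝒢] at hP'
    simp only [mem_filter, mem_univ, true_and] at hP'
    obtain ⟨a', b', h2⟩ := hP'
    refine ⟨a', b', ?_, ?_⟩
    · rw [h2, wten_apply_sumCongr]; simp
    · rw [h2, wten_apply_sumCongr]
      congr 1
      have h3 := card_good h2
      rw [hM, h𝒢, h3]
      push_cast
      rw [mul_comm s, Real.rpow_mul (by norm_num), Real.rpow_natCast]
  have hw0 : ∀ P ∈ 𝒢, 0 ≤ wten 0 b (flp P.2 * σ * flp P.1) := by
    intro P hP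
    obtain ⟨a', b', h2, _⟩ := hdec P hP
    rw [h2]
    exact mul_nonneg (hb _) (hb _)
  have hpm := Real.rpow_sum_le_const_mul_sum_rpow_of_nonneg 𝒢
    (f := fun P => wten 0 b (flp P.2 * σ * flp P.1)) (p := 1 + s) (by linarith) hw0
  rw [show 1 + s - 1 = s by ring] at hpm
  have hfac : ((Fintype.card (X ⊕ X)).factorial : ℝ) ≤ (4 : ℝ) ^ N * ((N.factorial : ℝ) *
      (N.factorial : ℝ)) := by
    have h1 : Fintype.card (X ⊕ X) = N + N := Fintype.card_sum
    have h2 := Nat.add_choose_mul_factorial_mul_factorial N N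
    have h3 : (N + N).choose N ≤ 4 ^ N := by
      refine (Nat.choose_le_two_pow _ _).trans (le_of_eq ?_)
      rw [← two_mul, pow_mul]
      norm_num
    rw [h1, ← h2]
    push_cast
    have h4 : (((N + N).choose N : ℕ) : ℝ) ≤ (4 : ℝ) ^ N := by exact_mod_cast h3
    have h5 : (0 : ℝ) ≤ (N.factorial : ℝ) * (N.factorial : ℝ) := by positivity
    nlinarith
  have h4 : (0 : ℝ) < (4 : ℝ) ^ N := by positivity
  have hF : (0 : ℝ) ≤ (N.factorial : ℝ) := by positivity
  have hterm : ∀ P ∈ 𝒢, M ^ s * (wten 0 b (flp P.2 * σ * flp P.1) ^ (1 + s) *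
      ((N.factorial : ℝ) * (N.factorial : ℝ)) ^ s) ≤ wten s ψ (flp P.2 * σ * flp P.1) := by
    intro P hP
    obtain ⟨a', b', h2, h3⟩ := hdec P hP
    rw [h2, h3, Real.mul_rpow (hb _) (hb _), Real.mul_rpow hF hF, mul_comm (ψ a' * ψ b')]
    have hM0 : 0 ≤ M ^ s := Real.rpow_nonneg (by positivity) _
    apply mul_le_mul_of_nonneg_left _ hM0
    calc b a' ^ (1 + s) * b b' ^ (1 + s) * ((N.factorial : ℝ) ^ s * (N.factorial : ℝ) ^ s)
        = (b a' ^ (1 + s) * (N.factorial : ℝ) ^ s) * (b b' ^ (1 + s) * (N.factorial : ℝ) ^ s) := by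
          ring
      _ ≤ ψ a' * ψ b' := by
          apply mul_le_mul (h a') (h b') _ (hψ a')
          exact mul_nonneg (Real.rpow_nonneg (hb _) _) (Real.rpow_nonneg hF _)
  rw [hsum 0 b, hsum s ψ]
  have hS0 : 0 ≤ ∑ P ∈ 𝒢, wten 0 b (flp P.2 * σ * flp P.1) := Finset.sum_nonneg hw0
  rw [Real.mul_rpow (by positivity) hS0]
  have hq : ((1 / (4 : ℝ) ^ N) ^ (1 + s)) = (1 / (4 : ℝ) ^ N) * (1 / (4 : ℝ) ^ N) ^ s := by
    rw [Real.rpow_add (by positivity), Real.rpow_one]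
  calc (1 / (4 : ℝ) ^ N) ^ (1 + s) * (∑ P ∈ 𝒢, wten 0 b (flp P.2 * σ * flp P.1)) ^ (1 + s) *
        ((Fintype.card (X ⊕ X)).factorial : ℝ) ^ s
      ≤ (1 / (4 : ℝ) ^ N) ^ (1 + s) *
        (M ^ s * ∑ P ∈ 𝒢, wten 0 b (flp P.2 * σ * flp P.1) ^ (1 + s)) *
        ((4 : ℝ) ^ N * ((N.factorial : ℝ) * (N.factorial : ℝ))) ^ s := by
        have h7 := Real.rpow_le_rpow (by positivity) hfac hs
        have h8 : 0 ≤ (1 / (4 : ℝ) ^ N) ^ (1 + s) := Real.rpow_nonneg (by positivity) _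
        refine mul_le_mul (mul_le_mul_of_nonneg_left hpm h8) h7
          (Real.rpow_nonneg (by positivity) _) (mul_nonneg h8 (mul_nonneg
            (Real.rpow_nonneg (by positivity) _) (Finset.sum_nonneg fun P hP => ?_)))
        exact Real.rpow_nonneg (hw0 P hP) _
    _ = (1 / (4 : ℝ) ^ N) * ∑ P ∈ 𝒢, M ^ s * (wten 0 b (flp P.2 * σ * flp P.1) ^ (1 + s) *
          ((N.factorial : ℝ) * (N.factorial : ℝ)) ^ s) := by
        rw [hq, Real.mul_rpow h4.le (mul_nonneg hF hF), ← Finset.mul_sum, ← Finset.sum_mul]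
        have h6 : (1 / (4 : ℝ) ^ N) ^ s * ((4 : ℝ) ^ N) ^ s = 1 := by
          rw [← Real.mul_rpow (by positivity) h4.le, one_div, inv_mul_cancel₀ h4.ne', Real.one_rpow]
        calc _ = (1 / (4 : ℝ) ^ N) * ((1 / (4 : ℝ) ^ N) ^ s * ((4 : ℝ) ^ N) ^ s) *
              (M ^ s * ((∑ P ∈ 𝒢, wten 0 b (flp P.2 * σ * flp P.1) ^ (1 + s)) *
              ((N.factorial : ℝ) * (N.factorial : ℝ)) ^ s)) := by ring
          _ = _ := by rw [h6, mul_one]
    _ ≤ (1 / (4 : ℝ) ^ N) * ∑ P ∈ 𝒢, wten s ψ (flp P.2 * σ * flp P.1) := by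
        apply mul_le_mul_of_nonneg_left _ (by positivity)
        exact Finset.sum_le_sum hterm

theorem psi_of_le {i0 : ℕ} {θ : ℕ → ℝ} {j : ℕ} (h : j ≤ i0) : psi i0 θ j = unifC j :=
  build_of_le h

theorem psi_succ_dom {i0 : ℕ} {θ : ℕ → ℝ} {j : ℕ} (h : i0 ≤ j) :
    psi i0 θ (j + 1) = lift (X := Cube j) (θ j) (psi i0 θ j) :=
  build_succ h

/-- [DOM2] -/
theorem psi_dom (i0 : ℕ) {s : ℝ} (hs : 0 ≤ s) (j : ℕ) (σ : Perm (Cube j)) :
    psi i0 (fun _ => 0) j σ ^ (1 + s) * ((Fintype.card (Cube j)).factorial : ℝ) ^ s ≤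
      psi i0 (fun _ => s) j σ := by
  have hunif : ∀ (j : ℕ) (σ : Perm (Cube j)), unifC j σ ^ (1 + s) *
      ((Fintype.card (Cube j)).factorial : ℝ) ^ s ≤ unifC j σ := by
    intro j σ
    unfold unifC
    have hp : (0 : ℝ) < ((Fintype.card (Cube j)).factorial : ℝ) := by positivity
    rw [Real.rpow_add (by positivity), Real.rpow_one, mul_assoc,
      ← Real.mul_rpow (by positivity) hp.le, one_div, inv_mul_cancel₀ hp.ne', Real.one_rpow,
      mul_one]
  induction j with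
  | zero =>
    rw [psi_of_le (Nat.zero_le _), psi_of_le (Nat.zero_le _)]
    exact hunif 0 σ
  | succ j ih =>
    rcases lt_or_ge j i0 with hj | hj
    · rw [psi_of_le (show j + 1 ≤ i0 from hj), psi_of_le (show j + 1 ≤ i0 from hj)]
      exact hunif (j + 1) σ
    · rw [psi_succ_dom hj, psi_succ_dom hj]
      exact lift_dom (X := Cube j) hs (fun g => psi_nonneg i0 _ j g) ih σ

end Vale.Agent.P162T
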