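import Vale.Agent.ThorpA.Stage1

/-!
# P162T, file Lower: the counting lower bound `t_mix (2^d) ≥ d / 3`, and small facts on `tmix`

* `tvDist_lower`: `1 - 2^(m t) / (2m)! ≤ tvDist (2m) t` (support count).
* `tmix_mem`: `tvDist (2^d) (tmix (2^d)) ≤ 1/4` for `d ≥ 1` (the set is not empty, from stage one).
* `tmix_le_of_tv`: `tvDist n t ≤ 1/4 → tmix n ≤ t`.
* `tmix_later`: the distance stays at most `1/4` after `tmix`.
* `tmix_lower`: `(1/3) d ≤ tmix (2^d)` for `d ≥ 1`.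
-/

namespace Vale.Agent.P162T

open Finset
open Vale.Agent.ThorpA (thorpLaw thorpPow tvDist tmix)

theorem tmix_le_of_tv {n t : ℕ} (h : tvDist n t ≤ 1 / 4) : tmix n ≤ t :=
  Nat.sInf_le h

theorem tmix_mem (d : ℕ) (hd : 1 ≤ d) : tvDist (2 ^ d) (tmix (2 ^ d)) ≤ 1 / 4 := by
  obtain ⟨C, hC⟩ := ThorpA.stage_one
  exact (hC d hd).2 _ le_rfl

theorem tmix_later (d : ℕ) (hd : 1 ≤ d) (t : ℕ) (ht : tmix (2 ^ d) ≤ t) :
    tvDist (2 ^ d) t ≤ 1 / 4 := by
  obtain ⟨C, hC⟩ := ThorpA.stage_one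
  exact (hC d hd).2 _ ht

/-- All values of the law after `t` shuffles are integer multiples of `2^(-(n/2) t)`. -/
theorem thorpPow_grid (n t : ℕ) (g : Equiv.Perm (Fin n)) :
    ∃ k : ℕ, thorpPow n t g = (k : ℝ) / 2 ^ (n / 2 * t) := by
  induction t generalizing g with
  | zero =>
    rw [ThorpA.thorpPow_zero]
    beta_reduce
    split_ifs
    · exact ⟨1, by simp⟩
    · exact ⟨0, by simp⟩
  | succ t ih =>
    choose k hk using ih
    have h : thorpPow n (t + 1) g = ∑ h : Equiv.Perm (Fin n),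
      thorpLaw n h * thorpPow n t (h⁻¹ * g) := rfl
    have hl : ∀ h : Equiv.Perm (Fin n), ∃ j : ℕ, thorpLaw n h = (j : ℝ) / 2 ^ (n / 2) :=
      fun h => ⟨_, rfl⟩
    choose j hj using hl
    refine ⟨∑ h : Equiv.Perm (Fin n), j h * k (h⁻¹ * g), ?_⟩
    rw [h]
    push_cast
    rw [Finset.sum_div]
    refine Finset.sum_congr rfl fun x _ => ?_
    rw [hj, hk, div_mul_div_comm]
    congr 1
    rw [Nat.mul_succ, pow_add, mul_comm]

/-- The support bound. -/
theorem tvDist_lower (m t : ℕ) :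
    1 - (2 : ℝ) ^ (m * t) / ((2 * m).factorial : ℝ) ≤ tvDist (2 * m) t := by
  classical
  set u : ℝ := 1 / ((2 * m).factorial : ℝ) with hu
  have hfac : (0 : ℝ) < ((2 * m).factorial : ℝ) := by exact_mod_cast Nat.factorial_pos _
  have hu0 : 0 < u := by rw [hu]; positivity
  set μ := thorpPow (2 * m) t with hμ
  set A : Finset (Equiv.Perm (Fin (2 * m))) := univ.filter (fun g => μ g ≠ 0) with hA
  have hsum : ∑ g, μ g = 1 := ThorpA.thorpPow_sum m t
  have hnn : ∀ g, 0 ≤ μ g := fun g => ThorpA.thorpPow_nonneg _ _ g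
  have hdiv : 2 * m / 2 = m := by omega
  have hcard : (A.card : ℝ) ≤ 2 ^ (m * t) := by
    have h1 : ∀ g ∈ A, (1 : ℝ) / 2 ^ (m * t) ≤ μ g := by
      intro g hg
      obtain ⟨k, hk⟩ := thorpPow_grid (2 * m) t g
      rw [hdiv] at hk
      have hg' : μ g ≠ 0 := (Finset.mem_filter.1 hg).2
      have hk0 : k ≠ 0 := by
        rintro rfl
        apply hg'
        rw [hμ, hk]
        simp
      have hk1 : (1 : ℝ) ≤ k := by exact_mod_cast Nat.one_le_iff_ne_zero.2 hk0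
      rw [hμ, hk]
      gcongr
    have h2 : (A.card : ℝ) * (1 / 2 ^ (m * t)) ≤ ∑ g ∈ A, μ g := by
      rw [← nsmul_eq_mul]
      exact Finset.card_nsmul_le_sum _ _ _ h1
    have h3 : ∑ g ∈ A, μ g ≤ 1 := by
      rw [← hsum]
      exact Finset.sum_le_sum_of_subset_of_nonneg (Finset.subset_univ _) fun g _ _ => hnn g
    have h4 : (A.card : ℝ) * (1 / 2 ^ (m * t)) ≤ 1 := h2.trans h3
    rw [mul_one_div, div_le_one (by positivity)] at h4
    exact h4
  have hpt : ∀ g, μ g + u - 2 * u * (if g ∈ A then 1 else 0) ≤ |μ g - u| := by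
    intro g
    by_cases hg : g ∈ A
    · rw [if_pos hg]
      have := le_abs_self (μ g - u)
      linarith
    · rw [if_neg hg]
      have h0 : μ g = 0 := by
        by_contra hne
        exact hg (Finset.mem_filter.2 ⟨Finset.mem_univ _, hne⟩)
      have := neg_le_abs (μ g - u)
      rw [h0] at this ⊢
      linarith
  have hsumu : ∑ _g : Equiv.Perm (Fin (2 * m)), u = 1 := by
    rw [Finset.sum_const, Finset.card_univ, Fintype.card_perm, Fintype.card_fin, nsmul_eq_mul, hu]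
    field_simp
  have htot : ∑ g, (μ g + u - 2 * u * (if g ∈ A then (1 : ℝ) else 0)) = 2 - 2 * (u * A.card) := by
    rw [Finset.sum_sub_distrib, Finset.sum_add_distrib, hsum, hsumu, ← Finset.mul_sum]
    rw [Finset.sum_ite_mem, Finset.univ_inter, Finset.sum_const, nsmul_eq_mul, mul_one]
    ring
  have h5 : 2 - 2 * (u * A.card) ≤ ∑ g, |μ g - u| := by
    rw [← htot]
    exact Finset.sum_le_sum fun g _ => hpt g
  have h6 : u * A.card ≤ 2 ^ (m * t) / ((2 * m).factorial : ℝ) := by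
    rw [hu, one_div, div_eq_inv_mul]
    gcongr
  have h7 : tvDist (2 * m) t = (1 / 2) * ∑ g, |μ g - u| := rfl
  rw [h7]
  linarith

/-- The counting bound on the factorial: `2^(2^d d) ≤ (2 * 2^d)!`. -/
theorem pow_le_factorial (d : ℕ) : 2 ^ (2 ^ d * d) ≤ (2 * 2 ^ d).factorial := by
  have h1 := Nat.pow_sub_le_descFactorial (2 * 2 ^ d) (2 ^ d)
  have h2 : (2 * 2 ^ d).descFactorial (2 ^ d) ≤ (2 * 2 ^ d).factorial := by
    rw [← Nat.factorial_mul_descFactorial (show 2 ^ d ≤ 2 * 2 ^ d by omega)]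
    exact Nat.le_mul_of_pos_left _ (Nat.factorial_pos _)
  refine le_trans ?_ (h1.trans h2)
  have h3 : 2 ^ d ≤ 2 * 2 ^ d + 1 - 2 ^ d := by omega
  calc 2 ^ (2 ^ d * d) = (2 ^ d) ^ (2 ^ d) := by rw [← pow_mul, mul_comm]
    _ ≤ _ := Nat.pow_le_pow_left h3 _

theorem tmix_lower (d : ℕ) (hd : 1 ≤ d) : (1 / 3 : ℝ) * d ≤ tmix (2 ^ d) := by
  obtain ⟨e, rfl⟩ : ∃ e, d = e + 1 := ⟨d - 1, by omega⟩
  set t := tmix (2 ^ (e + 1)) with ht
  have hmem : tvDist (2 ^ (e + 1)) t ≤ 1 / 4 := tmix_mem _ hd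
  have h2 : (2 : ℕ) ^ (e + 1) = 2 * 2 ^ e := by rw [pow_succ, mul_comm]
  have hlow := tvDist_lower (2 ^ e) t
  rw [← h2] at hlow
  have hfacpos : (0 : ℝ) < ((2 ^ (e + 1)).factorial : ℝ) := by
    exact_mod_cast Nat.factorial_pos _
  have h3 : (3 / 4 : ℝ) ≤ (2 : ℝ) ^ (2 ^ e * t) / ((2 ^ (e + 1)).factorial : ℝ) := by linarith
  rw [le_div_iff₀ hfacpos] at h3
  -- `t ≥ 1`
  have h1 : 1 ≤ t := by
    by_contra h
    have ht0 : t = 0 := by omega
    rw [ht0, mul_zero, pow_zero] at h3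
    have h4 : 2 ≤ (2 ^ (e + 1)).factorial := by
      have : 2 ≤ 2 ^ (e + 1) := by
        calc 2 = 2 ^ 1 := by norm_num
          _ ≤ 2 ^ (e + 1) := Nat.pow_le_pow_right (by norm_num) (by omega)
      exact this.trans (Nat.self_le_factorial _)
    have h5 : (2 : ℝ) ≤ ((2 ^ (e + 1)).factorial : ℝ) := by exact_mod_cast h4
    linarith
  -- `t ≥ e - 1`
  have h4 : e ≤ t + 1 := by
    by_contra h
    push Not at h
    have h5 : ((2 : ℝ) ^ (2 ^ e * e)) ≤ ((2 ^ (e + 1)).factorial : ℝ) := by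
      rw [h2]
      exact_mod_cast pow_le_factorial e
    have h6 : (3 / 4 : ℝ) * 2 ^ (2 ^ e * e) ≤ 2 ^ (2 ^ e * t) :=
      (mul_le_mul_of_nonneg_left h5 (by norm_num)).trans h3
    have h7 : 2 ^ e * t + 2 ≤ 2 ^ e * e := by
      have h8 : 2 ^ e * (t + 2) ≤ 2 ^ e * e := Nat.mul_le_mul_left _ (by omega)
      have h9 : 1 ≤ 2 ^ e := Nat.one_le_two_pow
      nlinarith
    have h8 : (2 : ℝ) ^ (2 ^ e * t + 2) ≤ 2 ^ (2 ^ e * e) :=
      pow_le_pow_right₀ (by norm_num) h7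
    rw [pow_add] at h8
    have h9 : (0 : ℝ) < 2 ^ (2 ^ e * t) := by positivity
    nlinarith
  have h5 : (e : ℝ) ≤ t + 1 := by exact_mod_cast h4
  have h6 : (1 : ℝ) ≤ t := by exact_mod_cast h1
  push_cast
  linarith

end Vale.Agent.P162T
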