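import Vale.Agent.P162T.Upper
import Vale.Agent.P162T.Bridge
import Vale.Agent.P162T.Lower

/-!
# P162T [FIN] the Thorp shuffle of `2^d` cards mixes in order `d` shuffles
-/

namespace Vale.Agent.P162T

open Vale.Agent.ThorpA (tvDist tmix)

theorem tmix_linear : ∃ c C : ℝ, 0 < c ∧ 0 < C ∧ ∀ d : ℕ, 1 ≤ d →
    c * (d : ℝ) ≤ (tmix (2 ^ d) : ℝ) ∧ (tmix (2 ^ d) : ℝ) ≤ C * (d : ℝ) ∧
      ∀ t : ℕ, tmix (2 ^ d) ≤ t → tvDist (2 ^ d) t ≤ 1 / 4 := by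
  obtain ⟨K, hK⟩ := upper
  refine ⟨1 / 3, (K : ℝ) + 1, by norm_num, by positivity, ?_⟩
  intro d hd
  refine ⟨tmix_lower d hd, ?_, tmix_later d hd⟩
  have h1 : tvDist (2 ^ d) (d * K) ≤ 1 / 4 := by
    rw [tv_bridge d K hd]
    exact hK d
  have h2 : tmix (2 ^ d) ≤ d * K := tmix_le_of_tv h1
  have h3 : (tmix (2 ^ d) : ℝ) ≤ (d : ℝ) * K := by exact_mod_cast h2
  have h4 : (0 : ℝ) ≤ d := Nat.cast_nonneg d
  nlinarith

end Vale.Agent.P162T
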