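import Vale.Agent.P162T.Build

/-!
# P162 [FN] Numeric recursion for `hs (2^t+1) (tw j0 (j0+w))`
-/

open Equiv Finset

set_option linter.unusedSectionVars false

namespace Vale.Agent.P162T

theorem fn_base (t : ℕ) : ((2 ^ t + 1 : ℕ) : ℝ) ≤ (2 : ℝ) ^ ((6 / 5 : ℝ) * (5 / 3) ^ t) := by
  rcases Nat.eq_zero_or_pos t with h | h
  · subst h
    norm_num
    calc (2 : ℝ) = (2 : ℝ) ^ (1 : ℝ) := (Real.rpow_one 2).symm
      _ ≤ (2 : ℝ) ^ (6 / 5 : ℝ) := Real.rpow_le_rpow_of_exponent_le (by norm_num) (by norm_num)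
  · have h1 : ∀ s : ℕ, ((s : ℝ) + 1 + 1) ≤ (6 / 5 : ℝ) * (5 / 3) ^ (s + 1) := by
      intro s
      induction s with
      | zero => norm_num
      | succ s ih =>
        rw [pow_succ]
        push_cast
        have hs : (0 : ℝ) ≤ (s : ℝ) := Nat.cast_nonneg s
        nlinarith
    obtain ⟨s, rfl⟩ : ∃ s, t = s + 1 := ⟨t - 1, by omega⟩
    have h2 : ((2 ^ (s + 1) + 1 : ℕ) : ℝ) ≤ (2 : ℝ) ^ (s + 2) := by
      have : 2 ^ (s + 1) + 1 ≤ 2 ^ (s + 2) := by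
        rw [pow_succ 2 (s + 1)]
        have := Nat.one_le_two_pow (n := s + 1)
        omega
      exact_mod_cast this
    refine h2.trans ?_
    rw [← Real.rpow_natCast]
    apply Real.rpow_le_rpow_of_exponent_le (by norm_num)
    have := h1 s
    push_cast
    linarith

/-- Jensen for `y^{3/5}` -/
theorem hs_three_halves {X : Type} [Fintype X] [DecidableEq X] {μ : Perm X → ℝ}
    (hμ : ∀ g, 0 ≤ μ g) (hμ1 : mass μ = 1) : hs (3 / 2) μ ≤ (hs 2 μ) ^ (3 / 5 : ℝ) := by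
  have hw : ∑ q : Perm X × Perm X, μ q.1 * μ q.2 = 1 := by
    rw [Fintype.sum_prod_type]
    show ∑ x, ∑ y, μ x * μ y = 1
    rw [← Finset.sum_mul_sum]
    unfold mass at hμ1
    rw [hμ1, one_mul]
  have h32 : hs (3 / 2) μ = ∑ q : Perm X × Perm X, μ q.1 * μ q.2 * (3 / 2 : ℝ) ^ numCyc (q.1⁻¹ * q.2) := by
    rw [Fintype.sum_prod_type]
    rfl
  have h2 : hs 2 μ = ∑ q : Perm X × Perm X, μ q.1 * μ q.2 * (2 : ℝ) ^ numCyc (q.1⁻¹ * q.2) := by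
    rw [Fintype.sum_prod_type]
    rfl
  have hb : (3 / 2 : ℝ) ≤ (2 : ℝ) ^ (3 / 5 : ℝ) := by
    have h5 : ((3 / 2 : ℝ)) ^ (5 : ℕ) ≤ ((2 : ℝ) ^ (3 / 5 : ℝ)) ^ (5 : ℕ) := by
      rw [← Real.rpow_natCast ((2 : ℝ) ^ (3 / 5 : ℝ)) 5, ← Real.rpow_mul (by norm_num)]
      have : (3 / 5 : ℝ) * ((5 : ℕ) : ℝ) = ((3 : ℕ) : ℝ) := by norm_num
      rw [this, Real.rpow_natCast]
      norm_num
    exact (pow_le_pow_iff_left₀ (by norm_num) (by positivity) (by norm_num)).mp h5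
  have hk : ∀ k : ℕ, (3 / 2 : ℝ) ^ k ≤ ((2 : ℝ) ^ k) ^ (3 / 5 : ℝ) := by
    intro k
    calc (3 / 2 : ℝ) ^ k ≤ ((2 : ℝ) ^ (3 / 5 : ℝ)) ^ k := pow_le_pow_left₀ (by norm_num) hb k
      _ = ((2 : ℝ) ^ k) ^ (3 / 5 : ℝ) := by
          rw [← Real.rpow_natCast, ← Real.rpow_natCast, ← Real.rpow_mul (by norm_num),
            ← Real.rpow_mul (by norm_num), mul_comm]
  have hj := Real.rpow_arith_mean_le_arith_mean_rpow Finset.univ
    (fun q : Perm X × Perm X => μ q.1 * μ q.2)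
    (fun q => ((2 : ℝ) ^ numCyc (q.1⁻¹ * q.2)) ^ (3 / 5 : ℝ))
    (fun q _ => mul_nonneg (hμ _) (hμ _)) hw (fun q _ => by positivity) (p := 5 / 3) (by norm_num)
  have hz : ∀ k : ℕ, (((2 : ℝ) ^ k) ^ (3 / 5 : ℝ)) ^ (5 / 3 : ℝ) = (2 : ℝ) ^ k := by
    intro k
    rw [← Real.rpow_mul (by positivity)]
    norm_num
  simp only [hz] at hj
  rw [← h2] at hj
  have hnn : 0 ≤ ∑ q : Perm X × Perm X, μ q.1 * μ q.2 *
      ((2 : ℝ) ^ numCyc (q.1⁻¹ * q.2)) ^ (3 / 5 : ℝ) :=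
    Finset.sum_nonneg (fun q _ => mul_nonneg (mul_nonneg (hμ _) (hμ _)) (by positivity))
  calc hs (3 / 2) μ ≤ ∑ q : Perm X × Perm X, μ q.1 * μ q.2 *
      ((2 : ℝ) ^ numCyc (q.1⁻¹ * q.2)) ^ (3 / 5 : ℝ) := by
        rw [h32]
        apply Finset.sum_le_sum
        intro q _
        exact mul_le_mul_of_nonneg_left (hk _) (mul_nonneg (hμ _) (hμ _))
    _ = ((∑ q : Perm X × Perm X, μ q.1 * μ q.2 *
      ((2 : ℝ) ^ numCyc (q.1⁻¹ * q.2)) ^ (3 / 5 : ℝ)) ^ (5 / 3 : ℝ)) ^ (3 / 5 : ℝ) := by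
        rw [← Real.rpow_mul hnn]
        norm_num
    _ ≤ (hs 2 μ) ^ (3 / 5 : ℝ) := by
        apply Real.rpow_le_rpow (Real.rpow_nonneg hnn _) hj (by norm_num)

/-- [FN] -/
theorem hs_tw_le' (j0 w t : ℕ) :
    hs ((2 ^ t + 1 : ℕ) : ℝ) (tw j0 (j0 + w)) ≤
      (2 : ℝ) ^ ((2 : ℝ) ^ j0 * ((6 / 5) * (8 / 5) ^ w * (5 / 3) ^ t)) := by
  induction w generalizing t with
  | zero =>
    have h0 : tw j0 (j0 + 0) = dirac := build_of_le (le_refl j0)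
    rw [h0, hs_dirac, card_cube]
    calc ((2 ^ t + 1 : ℕ) : ℝ) ^ (2 ^ (j0 + 0))
        ≤ ((2 : ℝ) ^ ((6 / 5 : ℝ) * (5 / 3) ^ t)) ^ (2 ^ j0) :=
          pow_le_pow_left₀ (by positivity) (fn_base t) _
      _ = _ := by
          rw [← Real.rpow_natCast, ← Real.rpow_mul (by norm_num)]
          congr 1
          push_cast
          ring
  | succ w ih =>
    have h0 : tw j0 (j0 + (w + 1)) = ext (X := Cube (j0 + w)) (tw j0 (j0 + w)) :=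
      build_succ (Nat.le_add_right j0 w)
    rw [h0]
    have hnn : ∀ g, 0 ≤ tw j0 (j0 + w) g := tw_nonneg j0 (j0 + w)
    have hm : mass (tw j0 (j0 + w)) = 1 := mass_tw j0 (j0 + w)
    refine (hs_ext (2 ^ t + 1) (Nat.le_add_left 1 _) hnn hm).trans ?_
    rcases Nat.eq_zero_or_pos t with h | h
    · subst h
      have h1 : ((((2 ^ 0 + 1 : ℕ) : ℝ) + 1) / 2) = 3 / 2 := by norm_num
      have h2 : (((2 ^ 0 + 1 : ℕ) : ℝ)) = 2 := by norm_num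
      have ih0 := ih 0
      rw [h1]
      rw [h2] at ih0 ⊢
      have h3 := hs_three_halves hnn hm
      have h4 : 0 ≤ hs 2 (tw j0 (j0 + w)) := hs_nonneg 2 (by norm_num) hnn
      set E : ℝ := (2 : ℝ) ^ j0 * ((6 / 5) * (8 / 5) ^ w * (5 / 3) ^ 0) with hE
      calc hs 2 (tw j0 (j0 + w)) * hs (3 / 2) (tw j0 (j0 + w))
          ≤ (2 : ℝ) ^ E * ((2 : ℝ) ^ E) ^ (3 / 5 : ℝ) := by
            apply mul_le_mul ih0 (h3.trans (Real.rpow_le_rpow h4 ih0 (by norm_num)))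
              (hs_nonneg _ (by norm_num) hnn) (by positivity)
        _ = (2 : ℝ) ^ ((2 : ℝ) ^ j0 * ((6 / 5) * (8 / 5) ^ (w + 1) * (5 / 3) ^ 0)) := by
            rw [← Real.rpow_mul (by norm_num), ← Real.rpow_add (by norm_num)]
            congr 1
            rw [hE]
            ring
    · obtain ⟨s, rfl⟩ : ∃ s, t = s + 1 := ⟨t - 1, by omega⟩
      have h1 : ((((2 ^ (s + 1) + 1 : ℕ) : ℝ) + 1) / 2) = ((2 ^ s + 1 : ℕ) : ℝ) := by
        push_cast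
        ring
      rw [h1]
      calc hs ((2 ^ (s + 1) + 1 : ℕ) : ℝ) (tw j0 (j0 + w)) * hs ((2 ^ s + 1 : ℕ) : ℝ) (tw j0 (j0 + w))
          ≤ (2 : ℝ) ^ ((2 : ℝ) ^ j0 * ((6 / 5) * (8 / 5) ^ w * (5 / 3) ^ (s + 1))) *
            (2 : ℝ) ^ ((2 : ℝ) ^ j0 * ((6 / 5) * (8 / 5) ^ w * (5 / 3) ^ s)) := by
            apply mul_le_mul (ih (s + 1)) (ih s) (hs_nonneg _ (by positivity) hnn) (by positivity)
        _ = _ := by
            rw [← Real.rpow_add (by norm_num)]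
            congr 1
            ring

end Vale.Agent.P162T
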