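import Vale.Agent.P162T.Basic

/-!
# P162 [GAP] Spectral gap off low degree

Inside one fixed representation `ρ` of `Perm X`.  For `W ⊆ X`, `𝓛_W = lapOn ρ W`.
Claim: if `1 ≤ k`, `2k ≤ |W|+1`, and `avgOn ρ (W \ Y) v = 0` for all `Y ⊆ W` with `|Y| = k-1`, then
`⟨𝓛_W v, v⟩ ≥ k (|W|-k+1) ‖v‖²`.

Proof by (strong) induction on `|W| = m`.  Let `F` be the set of `v` satisfying the hypothesis
(a subspace, preserved by `𝓛_W` since `𝓛_W` commutes with every permutation supported in `W`).
It is enough to treat the eigenvector of the smallest eigenvalue `λ` of `𝓛_W` on `F`.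
Case (i): `w := avgOn (W\Y) v ≠ 0` for some `Y ⊆ W`, `|Y| = k`.  Then `𝓛_W w = λ w`, and for `y ∈ Y`:
`w + ∑_{z ∈ W\Y} t_{yz} w = 0` (coset decomposition), so
`∑_{z∈W\Y} (w - t_{yz} w) = (m-k+1) w`.  Also `t_{zz'} w = w` for `z,z' ∈ W\Y`.  Hence
`λ w = 𝓛_W w = k (m-k+1) w + 𝓛_Y w`, `⟨𝓛_Y w,w⟩ ≥ 0`, so `λ ≥ k(m-k+1)`.
Case (ii): `avgOn (W\Y) v = 0` for all `Y ⊆ W`, `|Y| = k`.  Use the induction hypothesis for
`W \ {p}` and `∑_{p∈W} 𝓛_{W\p} = (m-2) 𝓛_W`.
-/

open Equiv Finset

set_option linter.unusedSectionVars false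

namespace Vale.Agent.P162T

variable {X : Type} [Fintype X] [DecidableEq X] {V : Type} [NormedAddCommGroup V]
  [InnerProductSpace ℝ V] [FiniteDimensional ℝ V]

/-- coset decomposition of the permutations supported in `insert y U` -/
theorem sum_swap_eq_zero (ρ : ORep (Perm X) V) {U : Finset X} {y : X} (hy : y ∉ U) {z : V}
    (hz : ∀ g ∈ supW U, ρ.toHom g z = z) (h0 : avgOn ρ (insert y U) z = 0) :
    ∑ x ∈ insert y U, ρ.toHom (swap y x) z = 0 := by
  rw [avgOn_apply, smul_eq_zero] at h0
  have h1 : ∑ g ∈ supW (insert y U), ρ.toHom g z = 0 := by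
    rcases h0 with h | h
    · exact absurd h (one_div_ne_zero (card_supW_ne _))
    · exact h
  have h2 : ∑ g ∈ supW (insert y U), ρ.toHom g z =
      ∑ p ∈ (insert y U) ×ˢ supW U, ρ.toHom (swap y p.1 * p.2) z := by
    refine Finset.sum_nbij' (fun g => (g y, swap y (g y) * g)) (fun p => swap y p.1 * p.2)
      ?_ ?_ ?_ ?_ ?_
    · intro g hg
      rw [Finset.mem_product]
      refine ⟨?_, ?_⟩
      · by_contra hcon
        have h3 := mem_supW.mp hg (g y) hcon
        have h4 := g.injective h3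
        simp only at hcon
        rw [h4] at hcon
        exact hcon (Finset.mem_insert_self y U)
      · rw [mem_supW]
        intro w hw
        simp only [Perm.mul_apply]
        by_cases hwy : w = y
        · subst hwy
          exact swap_apply_right _ _
        · have h3 : g w = w := mem_supW.mp hg w (by
            rw [Finset.mem_insert, not_or]; exact ⟨hwy, hw⟩)
          rw [h3]
          refine swap_apply_of_ne_of_ne hwy fun h4 => ?_
          rw [← h3] at h4
          exact hwy (g.injective h4)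
    · rintro ⟨x, h⟩ hp
      rw [Finset.mem_product] at hp
      rw [mem_supW]
      intro w hw
      simp only at hp ⊢
      rw [Perm.mul_apply, mem_supW.mp hp.2 w (fun h3 => hw (Finset.mem_insert_of_mem h3))]
      refine swap_apply_of_ne_of_ne (fun h3 => ?_) (fun h3 => ?_)
      · exact hw (h3 ▸ Finset.mem_insert_self y U)
      · exact hw (h3 ▸ hp.1)
    · intro g hg
      simp
    · rintro ⟨x, h⟩ hp
      rw [Finset.mem_product] at hp
      have h3 : h y = y := mem_supW.mp hp.2 y hy
      simp only [Perm.mul_apply, h3, swap_apply_left]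
      rw [swap_mul_self_mul]
    · intro g hg
      simp
  rw [h2, Finset.sum_product] at h1
  have h3 : ∀ x ∈ insert y U, ∑ h ∈ supW U, ρ.toHom (swap y x * h) z =
      ((supW U).card : ℝ) • ρ.toHom (swap y x) z := by
    intro x _
    rw [Finset.sum_congr rfl fun h hh => by rw [ρ.map_mul_apply, hz h hh], Finset.sum_const,
      Nat.cast_smul_eq_nsmul ℝ]
  rw [Finset.sum_congr rfl h3, ← Finset.smul_sum, smul_eq_zero] at h1
  rcases h1 with h | h
  · exact absurd h (card_supW_ne _)
  · exact h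

theorem avgOn_small (ρ : ORep (Perm X) V) {W : Finset X} (hW : W.card ≤ 1) (v : V) :
    avgOn ρ W v = v := by
  refine avgOn_eq_of_fixed ρ W v fun g hg => ?_
  have h1 : g = 1 := by
    ext x
    by_cases hx : x ∈ W
    · by_contra hcon
      have h2 : g x ∉ W := by
        intro h3
        exact hcon (Finset.card_le_one.mp hW _ h3 _ hx)
      exact hcon (g.injective (hg (g x) h2))
    · exact hg x hx
  rw [h1, ρ.map_one_apply]

theorem sum_erase_pairs (W : Finset X) (f : X → X → ℝ) (hf : ∀ x, f x x = 0) :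
    ∑ p ∈ W, ∑ x ∈ W.erase p, ∑ y ∈ W.erase p, f x y =
      ((W.card : ℝ) - 2) * ∑ x ∈ W, ∑ y ∈ W, f x y := by
  have h1 : ∀ p ∈ W, ∑ x ∈ W.erase p, ∑ y ∈ W.erase p, f x y =
      ∑ x ∈ W, ∑ y ∈ W, f x y - ∑ x ∈ W, f x p - ∑ y ∈ W, f p y := by
    intro p hp
    rw [Finset.sum_erase_eq_sub hp]
    have h2 : ∀ x, ∑ y ∈ W.erase p, f x y = ∑ y ∈ W, f x y - f x p := fun x =>
      Finset.sum_erase_eq_sub hp
    simp_rw [h2]
    rw [Finset.sum_sub_distrib, hf p]
    ring
  rw [Finset.sum_congr rfl h1, Finset.sum_sub_distrib, Finset.sum_sub_distrib, Finset.sum_const,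
    nsmul_eq_mul, Finset.sum_comm (f := fun p x => f x p)]
  ring

theorem sum_lapOn_erase (ρ : ORep (Perm X) V) (W : Finset X) (v : V) :
    ∑ p ∈ W, inner ℝ (lapOn ρ (W.erase p) v) v =
      ((W.card : ℝ) - 2) * inner ℝ (lapOn ρ W v) v := by
  simp_rw [inner_lapOn]
  rw [← Finset.mul_sum, sum_erase_pairs W (fun x y => ‖v - ρ.toHom (swap x y) v‖ ^ 2)]
  · ring
  · intro x
    rw [swap_self, show (Equiv.refl X : Perm X) = 1 from rfl, ρ.map_one_apply, sub_self,
      norm_zero]
    norm_num

/-- case (i) -/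
theorem gap_case_one (ρ : ORep (Perm X) V) {W Y : Finset X} (hY : Y ⊆ W) {z : V}
    (hz : avgOn ρ (W \ Y) z = z)
    (h0 : ∀ y ∈ Y, avgOn ρ (insert y (W \ Y)) z = 0) :
    (Y.card : ℝ) * ((W.card : ℝ) - Y.card + 1) * ‖z‖ ^ 2 ≤ inner ℝ (lapOn ρ W z) z := by
  set U := W \ Y with hU
  have hfix : ∀ g ∈ supW U, ρ.toHom g z = z := by
    intro g hg
    rw [← hz]
    exact avgOn_fixed ρ U z g (mem_supW.mp hg)
  have hcU : (U.card : ℝ) = (W.card : ℝ) - Y.card := by
    rw [hU, Finset.card_sdiff_of_subset hY, Nat.cast_sub (Finset.card_le_card hY)]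
  have hW : W = Y ∪ U := by rw [hU, Finset.union_sdiff_of_subset hY]
  have hdisj : Disjoint Y U := by rw [hU]; exact Finset.disjoint_sdiff
  -- quadratic form pieces
  set f : X → X → ℝ := fun x y => inner ℝ (z - ρ.toHom (swap x y) z) z with hf
  have hfs : ∀ x y, f x y = f y x := by intro x y; simp only [hf]; rw [swap_comm]
  have hq : ∀ S : Finset X, inner ℝ (lapOn ρ S z) z = (1 / 2) * ∑ x ∈ S, ∑ y ∈ S, f x y := by
    intro S
    rw [lapOn_apply, real_inner_smul_left, sum_inner]
    congr 1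
    exact Finset.sum_congr rfl fun x _ => sum_inner _ _ _
  have hUU : ∀ x ∈ U, ∀ y ∈ U, f x y = 0 := by
    intro x hx y hy
    have h1 : swap x y ∈ supW U := by
      rw [mem_supW]
      intro w hw
      exact swap_apply_of_ne_of_ne (fun h => hw (h ▸ hx)) (fun h => hw (h ▸ hy))
    simp only [hf]
    rw [hfix _ h1, sub_self, inner_zero_left]
  have hYU : ∀ y ∈ Y, ∑ x ∈ U, f y x = ((U.card : ℝ) + 1) * ‖z‖ ^ 2 := by
    intro y hy
    have hyU : y ∉ U := Finset.disjoint_left.mp hdisj hy
    have h1 := sum_swap_eq_zero ρ hyU hfix (h0 y hy)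
    rw [Finset.sum_insert hyU, swap_self, show (Equiv.refl X : Perm X) = 1 from rfl,
      ρ.map_one_apply] at h1
    have h2 : ∑ x ∈ U, f y x = inner ℝ (∑ x ∈ U, (z - ρ.toHom (swap y x) z)) z := by
      rw [sum_inner]
    have h3 : ∑ x ∈ U, (z - ρ.toHom (swap y x) z) = ((U.card : ℝ) + 1) • z := by
      rw [Finset.sum_sub_distrib, Finset.sum_const, ← Nat.cast_smul_eq_nsmul ℝ, add_smul, one_smul,
        sub_eq_add_neg]
      congr 1
      rw [← add_eq_zero_iff_neg_eq, add_comm]
      exact h1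
    rw [h2, h3, real_inner_smul_left, real_inner_self_eq_norm_sq]
  have hsum : ∑ x ∈ W, ∑ y ∈ W, f x y = ∑ x ∈ Y, ∑ y ∈ Y, f x y +
      2 * ((Y.card : ℝ) * (((U.card : ℝ) + 1) * ‖z‖ ^ 2)) := by
    have e1 : ∑ y ∈ Y, ∑ x ∈ U, f y x = (Y.card : ℝ) * (((U.card : ℝ) + 1) * ‖z‖ ^ 2) := by
      rw [Finset.sum_congr rfl hYU, Finset.sum_const, nsmul_eq_mul]
    have e2 : ∑ x ∈ U, ∑ y ∈ Y, f x y = (Y.card : ℝ) * (((U.card : ℝ) + 1) * ‖z‖ ^ 2) := by
      rw [Finset.sum_comm, ← e1]
      exact Finset.sum_congr rfl fun y _ => Finset.sum_congr rfl fun x _ => hfs x y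
    have e3 : ∑ x ∈ U, ∑ y ∈ U, f x y = 0 :=
      Finset.sum_eq_zero fun x hx => Finset.sum_eq_zero fun y hy => hUU x hx y hy
    rw [hW, Finset.sum_union hdisj]
    simp_rw [Finset.sum_union hdisj]
    rw [Finset.sum_add_distrib, Finset.sum_add_distrib, e1, e2, e3]
    ring
  have hY0 : 0 ≤ inner ℝ (lapOn ρ Y z) z := lapOn_nonneg ρ Y z
  rw [hq] at hY0
  rw [hq, hsum, hcU]
  nlinarith

/-- [GAP] -/
theorem gap (ρ : ORep (Perm X) V) (k : ℕ) (hk : 1 ≤ k) (W : Finset X)
    (hW : 2 * k ≤ W.card + 1) (v : V)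
    (hv : ∀ Y : Finset X, Y ⊆ W → Y.card = k - 1 → avgOn ρ (W \ Y) v = 0) :
    (k : ℝ) * ((W.card : ℝ) - k + 1) * ‖v‖ ^ 2 ≤ inner ℝ (lapOn ρ W v) v := by
  induction hm : W.card using Nat.strong_induction_on generalizing W k v with
  | _ m ih =>
  rw [hm] at hW
  -- the subspace
  let F : Submodule ℝ V := ⨅ Y : {Y : Finset X // Y ⊆ W ∧ Y.card = k - 1},
    LinearMap.ker (avgOn ρ (W \ Y.1))
  have hF : ∀ w, w ∈ F ↔ ∀ Y : Finset X, Y ⊆ W → Y.card = k - 1 → avgOn ρ (W \ Y) w = 0 := by
    intro w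
    simp only [F, Submodule.mem_iInf, LinearMap.mem_ker, Subtype.forall, and_imp]
  -- commutation
  have hcomm : ∀ Y : Finset X, Commute (avgOn ρ (W \ Y)) (lapOn ρ W) := by
    intro Y
    rw [avgOn_eq]
    refine (Commute.sum_left _ _ _ fun g hg => ?_).smul_left _
    refine lapOn_commute ρ W g fun x => ?_
    have hfix : ∀ x, x ∉ W → g x = x := fun x hx =>
      mem_supW.mp hg x fun h => hx (Finset.mem_sdiff.mp h).1
    constructor
    · intro hx
      by_contra hcon
      have := g.injective (hfix (g x) hcon)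
      rw [this] at hcon
      exact hcon hx
    · intro hx
      by_contra hcon
      rw [hfix x hcon] at hx
      exact hcon hx
  have hinv : ∀ w ∈ F, lapOn ρ W w ∈ F := by
    intro w hw
    rw [hF] at hw ⊢
    intro Y hY hYc
    rw [← Module.End.mul_apply, (hcomm Y).eq, Module.End.mul_apply, hw Y hY hYc, map_zero]
  -- eigenvector statement
  have heig : ∀ (w : V) (μ : ℝ), w ∈ F → w ≠ 0 → lapOn ρ W w = μ • w →
      (k : ℝ) * ((m : ℝ) - k + 1) ≤ μ := by
    intro w μ hw hw0 hμ
    have hpos : 0 < ‖w‖ ^ 2 := by have := norm_pos_iff.mpr hw0; positivity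
    have hinner : ∀ z : V, lapOn ρ W z = μ • z → inner ℝ (lapOn ρ W z) z = μ * ‖z‖ ^ 2 := by
      intro z hz
      rw [hz, real_inner_smul_left, real_inner_self_eq_norm_sq]
    by_cases hcase : ∃ Y ⊆ W, Y.card = k ∧ avgOn ρ (W \ Y) w ≠ 0
    · obtain ⟨Y, hY, hYc, hz0⟩ := hcase
      set z := avgOn ρ (W \ Y) w with hz
      have hlap : lapOn ρ W z = μ • z := by
        rw [hz, ← Module.End.mul_apply, ← (hcomm Y).eq, Module.End.mul_apply, hμ, map_smul]
      have hzz : avgOn ρ (W \ Y) z = z := by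
        rw [hz, ← Module.End.mul_apply, (avgOn_mul_avgOn ρ (Finset.Subset.refl (W \ Y))).1]
      have h0 : ∀ y ∈ Y, avgOn ρ (insert y (W \ Y)) z = 0 := by
        intro y hy
        have h1 : insert y (W \ Y) = W \ (Y.erase y) := by
          ext x
          simp only [Finset.mem_insert, Finset.mem_sdiff, Finset.mem_erase]
          constructor
          · rintro (h | ⟨h, h'⟩)
            · subst h
              exact ⟨hY hy, fun h => h.1 rfl⟩
            · exact ⟨h, fun h2 => h' h2.2⟩
          · rintro ⟨h, h'⟩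
            by_cases hxy : x = y
            · exact Or.inl hxy
            · exact Or.inr ⟨h, fun h2 => h' ⟨hxy, h2⟩⟩
        rw [hz, ← Module.End.mul_apply,
          (avgOn_mul_avgOn ρ (Finset.subset_insert y (W \ Y))).1, h1]
        refine (hF w).mp hw (Y.erase y) ((Finset.erase_subset _ _).trans hY) ?_
        rw [Finset.card_erase_of_mem hy, hYc]
      have h1 := gap_case_one ρ hY hzz h0
      rw [hYc, hm, hinner z hlap] at h1
      have h2 : 0 < ‖z‖ ^ 2 := by have := norm_pos_iff.mpr hz0; positivity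
      exact le_of_mul_le_mul_right h1 h2
    · push Not at hcase
      -- the set `W` is large
      have hkm : k ≤ m := by omega
      have hm3 : 3 ≤ m ∧ k + 2 ≤ m := by
        by_contra hcon
        have h1 : m - k ≤ 1 := by omega
        obtain ⟨Y, hY, hYc⟩ := Finset.exists_subset_card_eq (show k ≤ W.card by rw [hm]; exact hkm)
        have h2 := hcase Y hY hYc
        rw [avgOn_small ρ (by rw [Finset.card_sdiff_of_subset hY, hm, hYc]; exact h1)] at h2
        exact hw0 h2
      have hsum := sum_lapOn_erase ρ W w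
      rw [hinner w hμ, hm] at hsum
      have hmR : (3:ℝ) ≤ m := by exact_mod_cast hm3.1
      have hkR : (1:ℝ) ≤ k := by exact_mod_cast hk
      by_cases h2k : 2 * k ≤ m
      · have hle : ∀ p ∈ W, (k : ℝ) * ((m : ℝ) - k) * ‖w‖ ^ 2 ≤
            inner ℝ (lapOn ρ (W.erase p) w) w := by
          intro p hp
          have hc : (W.erase p).card = m - 1 := by rw [Finset.card_erase_of_mem hp, hm]
          have h1 := ih (m - 1) (by omega) k hk (W.erase p) (by rw [hc]; omega) w ?_ hc
          · have e1 : (((m - 1 : ℕ) : ℝ)) = (m : ℝ) - 1 := by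
              rw [Nat.cast_sub (by omega)]; norm_num
            rw [e1] at h1
            have e2 : (m : ℝ) - 1 - k + 1 = m - k := by ring
            rw [e2] at h1
            exact h1
          · intro Y' hY' hY'c
            have hpY' : p ∉ Y' := fun h => Finset.notMem_erase p W (hY' h)
            have e1 : W.erase p \ Y' = W \ insert p Y' := by
              ext x
              simp only [Finset.mem_sdiff, Finset.mem_erase, Finset.mem_insert, not_or]
              tauto
            rw [e1]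
            refine hcase _ (Finset.insert_subset hp (hY'.trans (Finset.erase_subset _ _))) ?_
            rw [Finset.card_insert_of_notMem hpY', hY'c]
            omega
        have h1 := Finset.sum_le_sum hle
        rw [hsum, Finset.sum_const, hm, nsmul_eq_mul] at h1
        have h2kR : 2 * (k:ℝ) ≤ m := by exact_mod_cast h2k
        have h3 : (m : ℝ) * ((k : ℝ) * ((m : ℝ) - k)) * ‖w‖ ^ 2 ≤ ((m : ℝ) - 2) * μ * ‖w‖ ^ 2 := by
          linarith
        have h4 := le_of_mul_le_mul_right h3 hpos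
        have h5 : ((m : ℝ) - 2) * ((k : ℝ) * ((m : ℝ) - k + 1)) ≤ ((m : ℝ) - 2) * μ := by
          refine le_trans ?_ h4
          have : 0 ≤ (k:ℝ) * ((m:ℝ) - 2 * k + 2) := mul_nonneg (by linarith) (by linarith)
          nlinarith
        exact le_of_mul_le_mul_left h5 (by linarith)
      · have hm2 : m + 1 = 2 * k := by omega
        have hk2 : 2 ≤ k := by omega
        have hle : ∀ p ∈ W, ((k : ℝ) - 1) * (k : ℝ) * ‖w‖ ^ 2 ≤
            inner ℝ (lapOn ρ (W.erase p) w) w := by
          intro p hp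
          have hc : (W.erase p).card = m - 1 := by rw [Finset.card_erase_of_mem hp, hm]
          have h1 := ih (m - 1) (by omega) (k - 1) (by omega) (W.erase p) (by rw [hc]; omega) w ?_ hc
          · have e1 : (((m - 1 : ℕ) : ℝ)) = (m : ℝ) - 1 := by
              rw [Nat.cast_sub (by omega)]; norm_num
            have e3 : (((k - 1 : ℕ) : ℝ)) = (k : ℝ) - 1 := by
              rw [Nat.cast_sub (by omega)]; norm_num
            rw [e1, e3] at h1
            have e4 : (m : ℝ) = 2 * k - 1 := by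
              have : (m : ℝ) + 1 = 2 * k := by exact_mod_cast hm2
              linarith
            have e2 : (m : ℝ) - 1 - (k - 1) + 1 = k := by rw [e4]; ring
            rw [e2] at h1
            exact h1
          · intro Y' hY' hY'c
            have hpY' : p ∉ Y' := fun h => Finset.notMem_erase p W (hY' h)
            have e1 : W.erase p \ Y' = W \ insert p Y' := by
              ext x
              simp only [Finset.mem_sdiff, Finset.mem_erase, Finset.mem_insert, not_or]
              tauto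
            rw [e1]
            refine (hF w).mp hw _ (Finset.insert_subset hp
              (hY'.trans (Finset.erase_subset _ _))) ?_
            rw [Finset.card_insert_of_notMem hpY', hY'c]
            omega
        have h1 := Finset.sum_le_sum hle
        rw [hsum, Finset.sum_const, hm, nsmul_eq_mul] at h1
        have e4 : (m : ℝ) = 2 * k - 1 := by
          have : (m : ℝ) + 1 = 2 * k := by exact_mod_cast hm2
          linarith
        have h3 : (m : ℝ) * (((k : ℝ) - 1) * (k : ℝ)) * ‖w‖ ^ 2 ≤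
            ((m : ℝ) - 2) * μ * ‖w‖ ^ 2 := by
          linarith
        have h4 := le_of_mul_le_mul_right h3 hpos
        have h5 : ((m : ℝ) - 2) * ((k : ℝ) * ((m : ℝ) - k + 1)) ≤ ((m : ℝ) - 2) * μ := by
          refine le_trans ?_ h4
          rw [e4]
          nlinarith
        exact le_of_mul_le_mul_left h5 (by linarith)
  -- reduction to the smallest eigenvalue
  have hvF : v ∈ F := (hF v).mpr hv
  by_cases hv0 : v = 0
  · subst hv0; simp
  let T : F →ₗ[ℝ] F := (lapOn ρ W).restrict hinv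
  have hT : T.IsSymmetric := by
    intro a b
    exact lapOn_symm ρ W a b
  have hnt : Nontrivial F := ⟨⟨v, hvF⟩, 0, fun h => hv0 (congrArg Subtype.val h)⟩
  have hev := hT.hasEigenvalue_iInf_of_finiteDimensional
  obtain ⟨w, hw⟩ := hev.exists_hasEigenvector
  have hwv : lapOn ρ W (w : V) = (⨅ x : {x : F // x ≠ 0},
      RCLike.re (inner ℝ (T x) (x : F)) / ‖(x : F)‖ ^ 2 : ℝ) • (w : V) := by
    have h1 := hw.apply_eq_smul
    exact congrArg Subtype.val h1
  have hw0 : (w : V) ≠ 0 := fun h => hw.2 (Subtype.ext h)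
  have hlam := heig w _ w.2 hw0 hwv
  have hbdd : BddBelow (Set.range fun x : {x : F // x ≠ 0} =>
      RCLike.re (inner ℝ (T x) (x : F)) / ‖(x : F)‖ ^ 2) := by
    refine ⟨0, ?_⟩
    rintro _ ⟨x, rfl⟩
    exact div_nonneg (lapOn_nonneg ρ W (x.1 : V)) (by positivity)
  have h1 := ciInf_le hbdd ⟨⟨v, hvF⟩, fun h => hv0 (congrArg Subtype.val h)⟩
  have h2 := hlam.trans h1
  have h3 : 0 < ‖v‖ ^ 2 := by have := norm_pos_iff.mpr hv0; positivity
  rw [le_div_iff₀ (by exact h3)] at h2
  exact h2

end Vale.Agent.P162T
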