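import Vale.Agent.P162T.Cyc

/-!
# P162 [HS] Hilbert-Schmidt quantities on colourings

`hs r a = ∑_{g,h} a(g) a(h) r^{numCyc(g⁻¹h)}`.  For a natural number `R`, `R^{numCyc σ} = fixN R σ` is the
trace of `σ` on `ℝ^{(X → Fin R)}`, so `hs R a = ∑_{c,c'} (M_a c' c)²`, where
`M_a c' c := ∑_{g : g·c = c'} a g`, `(g·c) x = c (g⁻¹ x)`  (`g·c = h·c` iff `c` is fixed by `g⁻¹h`).

HS1: `hs_conv_left`: `M_{a*b} c'' c = ∑_g a g · M_b (g⁻¹ c'') c`, so by Minkowski / Cauchy-Schwarz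
(`(∑_g a g x_g)² ≤ (∑ a g) ∑ a g x_g²`, `a ≥ 0`) `hs R (a*b) ≤ (mass a)² hs R b`.
`hs_adj`: `numCyc (g h⁻¹) = numCyc (h⁻¹ g)`.  `hs_conv_right`: `a*b = adj (adj b * adj a)`.
`hs_tens`: `hs R (tens a b) = hs R a * hs R b` by `numCyc_sumCongr`.

HS2: `hs_ext`: for a probability law `μ` on `Perm X`, and `R ≥ 1`:
 `hs R (ext μ) ≤ hs R μ · hs ((R+1)/2) μ`.
Proof: `ext μ` = law of `sumCongr a b * flp A`; `(sumCongr a b * flp A)⁻¹ (sumCongr a' b' * flp A')` has as many
cycles as `sumCongr (a⁻¹a') (b⁻¹b') * (flp A' * flp A)` (conjugate), and `A ∆ A'` is uniform.  So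
`hs R (ext μ) = avg_{S ⊆ X} E_{α,β} fixN R (sumCongr α β * flp S)`, `α = a⁻¹a'`, `β = b⁻¹b'` independent, each with
law `ν := adj μ * μ`.
A colouring of `X ⊕ X` is a pair `(c₁,c₂)` of colourings of `X`; it is fixed by `sumCongr α β * flp S` iff (for the
colouring swapped on `S`) ... : `fixN R (sumCongr α β * flp S) = ∑_{u,u' : S → Fin R} m_S^α(u,u') m_S^β(u',u)`, where
`m_S^α(u,u') := #{z : Sᶜ → Fin R | α·(u,z) = (u',z)}`.  Put `A_S(u,u') := E_α m_S^α(u,u') ≥ 0`, symmetric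
(`α` and `α⁻¹` have the same law).  So `hs R (ext μ) = avg_S ∑_{u,u'} A_S(u,u')²`.
PSD-type bound: `A_S(u,u') = ∑_z ⟨T e_{(u',z)}, T e_{(u,z)}⟩ ≤ ½ (A_S(u,u) + A_S(u',u'))`, `T` = matrix `M_μ`
(`⟨x,y⟩ ≤ ½|x|²+½|y|²`).  So `∑_{u,u'} A_S(u,u')² ≤ ∑_u A_S(u,u) rowsum_S(u)`, and
`rowsum_S(u) = E_α #{z : (α·(u,z))|_{Sᶜ} = z}`.  For fixed `α,u`, such a `z` is constant along `α`-orbits outside
`S` and determined by `u` on the orbits meeting `S`; with one chosen representative in each orbit, the number of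
such `z` is `≤ R^{#{orbits whose representative is not in S}}`.  Hmm: this bound must be averaged over `S`
together with `A_S(u,u)`; note `∑_u A_S(u,u) = E_α fixN R α = hs R μ` for EVERY `S`, and `rowsum_S(u) ≤ r_S :=
E_α R^{#{orbits with representative ∉ S}}` for every `u`.  So
`hs R (ext μ) ≤ avg_S (hs R μ · r_S) = hs R μ · E_α ((R+1)/2)^{numCyc α} = hs R μ · hs ((R+1)/2) μ`
(average over `S` of `∏_{orbits} R^{[rep ∉ S]}` is `((R+1)/2)^{numCyc α}`).
-/

open Equiv Finset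

set_option linter.unusedSectionVars false

namespace Vale.Agent.P162T

variable {X : Type} [Fintype X] [DecidableEq X]

/-- `hs r a = ∑_{g,h} a(g) a(h) r^{numCyc(g⁻¹h)}` -/
noncomputable def hs (r : ℝ) (a : Perm X → ℝ) : ℝ :=
  ∑ g, ∑ h, a g * a h * r ^ numCyc (g⁻¹ * h)

/-- [HS1] -/
theorem hs_nonneg (r : ℝ) (hr : 0 ≤ r) {a : Perm X → ℝ} (ha : ∀ g, 0 ≤ a g) : 0 ≤ hs r a :=
  Finset.sum_nonneg fun g _ => Finset.sum_nonneg fun h _ =>
    mul_nonneg (mul_nonneg (ha g) (ha h)) (pow_nonneg hr _)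

/-- [HS1] -/
theorem hs_mono {r r' : ℝ} (hr : 0 ≤ r) (h : r ≤ r') {a : Perm X → ℝ} (ha : ∀ g, 0 ≤ a g) :
    hs r a ≤ hs r' a :=
  Finset.sum_le_sum fun g _ => Finset.sum_le_sum fun k _ =>
    mul_le_mul_of_nonneg_left (pow_le_pow_left₀ hr h _) (mul_nonneg (ha g) (ha k))

/-- matrix of `a` on colourings -/
noncomputable def Mm (R : ℕ) (a : Perm X → ℝ) (d c : X → Fin R) : ℝ :=
  ∑ g, a g * (if ∀ x, c (g⁻¹ x) = d x then 1 else 0)

theorem pow_numCyc_eq (R : ℕ) (σ : Perm X) :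
    (R : ℝ) ^ numCyc σ = ∑ c : X → Fin R, if ∀ x, c (σ x) = c x then 1 else 0 := by
  rw [Finset.sum_boole]
  have := fixN_eq R σ
  unfold fixN at this
  rw [← Nat.cast_pow, ← this]

/-- `∑_d M_a(d,c) M_b(d,c') = ∑ a g b h [c (g⁻¹ h) = c']` -/
theorem sum_Mm_Mm (R : ℕ) (a b : Perm X → ℝ) (c c' : X → Fin R) :
    ∑ d, Mm R a d c * Mm R b d c' =
      ∑ g, ∑ h, a g * b h * (if ∀ x, c ((g⁻¹ * h) x) = c' x then 1 else 0) := by
  unfold Mm
  simp_rw [Finset.sum_mul_sum]
  rw [Finset.sum_comm]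
  refine Finset.sum_congr rfl fun g _ => ?_
  rw [Finset.sum_comm]
  refine Finset.sum_congr rfl fun h _ => ?_
  have h1 : ∀ d : X → Fin R, a g * (if ∀ x, c (g⁻¹ x) = d x then (1 : ℝ) else 0) *
      (b h * (if ∀ x, c' (h⁻¹ x) = d x then 1 else 0)) =
      if d = (fun x => c' (h⁻¹ x)) then
        a g * b h * (if ∀ x, c ((g⁻¹ * h) x) = c' x then 1 else 0) else 0 := by
    intro d
    by_cases h2 : ∀ x, c' (h⁻¹ x) = d x
    · have h3 : d = (fun x => c' (h⁻¹ x)) := funext fun x => (h2 x).symm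
      rw [if_pos h2, if_pos h3]
      have h4 : (∀ x, c (g⁻¹ x) = d x) ↔ ∀ x, c ((g⁻¹ * h) x) = c' x := by
        rw [h3]
        constructor
        · intro h5 x
          have := h5 (h x)
          simpa using this
        · intro h5 x
          have := h5 (h⁻¹ x)
          simpa using this
      by_cases h5 : ∀ x, c (g⁻¹ x) = d x
      · rw [if_pos h5, if_pos (h4.mp h5)]; ring
      · rw [if_neg h5, if_neg (fun h6 => h5 (h4.mpr h6))]; ring
    · have h3 : ¬ (d = fun x => c' (h⁻¹ x)) := fun h3 => h2 fun x => by rw [h3]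
      rw [if_neg h2, if_neg h3]
      ring
  simp_rw [h1]
  rw [Finset.sum_ite_eq', if_pos (Finset.mem_univ _)]

theorem hs_eq_sum_sq (R : ℕ) (a : Perm X → ℝ) :
    hs R a = ∑ c : X → Fin R, ∑ d, Mm R a d c ^ 2 := by
  have h1 : ∀ c : X → Fin R, ∑ d, Mm R a d c ^ 2 =
      ∑ g, ∑ h, a g * a h * (if ∀ x, c ((g⁻¹ * h) x) = c x then 1 else 0) := by
    intro c
    rw [← sum_Mm_Mm]
    exact Finset.sum_congr rfl fun d _ => sq _
  simp_rw [h1]
  rw [Finset.sum_comm]
  unfold hs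
  refine Finset.sum_congr rfl fun g _ => ?_
  rw [Finset.sum_comm]
  refine Finset.sum_congr rfl fun h _ => ?_
  rw [pow_numCyc_eq, Finset.mul_sum]

theorem Mm_conv (R : ℕ) (a b : Perm X → ℝ) (d c : X → Fin R) :
    Mm R (conv a b) d c = ∑ h, a h * Mm R b (fun x => d (h x)) c := by
  unfold Mm conv
  simp_rw [Finset.sum_mul, Finset.mul_sum]
  rw [Finset.sum_comm]
  refine Finset.sum_congr rfl fun h _ => ?_
  rw [← Equiv.sum_comp (Equiv.mulLeft h)]
  refine Finset.sum_congr rfl fun k _ => ?_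
  simp only [Equiv.coe_mulLeft, inv_mul_cancel_left, mul_inv_rev]
  rw [← mul_assoc]
  congr 1
  have h4 : (∀ x, c ((k⁻¹ * h⁻¹) x) = d x) ↔ ∀ x, c (k⁻¹ x) = d (h x) := by
    constructor
    · intro h5 x
      have := h5 (h x)
      simpa using this
    · intro h5 x
      have := h5 (h⁻¹ x)
      simpa using this
  by_cases h5 : ∀ x, c ((k⁻¹ * h⁻¹) x) = d x
  · rw [if_pos h5, if_pos (h4.mp h5)]
  · rw [if_neg h5, if_neg (fun h6 => h5 (h4.mpr h6))]

theorem sq_sum_weight_le {κ : Type*} (s : Finset κ) (a x : κ → ℝ) (ha : ∀ i ∈ s, 0 ≤ a i) :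
    (∑ i ∈ s, a i * x i) ^ 2 ≤ (∑ i ∈ s, a i) * ∑ i ∈ s, a i * x i ^ 2 := by
  have h1 := Finset.sum_mul_sq_le_sq_mul_sq s (fun i => Real.sqrt (a i))
    (fun i => Real.sqrt (a i) * x i)
  have h2 : ∑ i ∈ s, Real.sqrt (a i) * (Real.sqrt (a i) * x i) = ∑ i ∈ s, a i * x i :=
    Finset.sum_congr rfl fun i hi => by rw [← mul_assoc, Real.mul_self_sqrt (ha i hi)]
  have h3 : ∑ i ∈ s, Real.sqrt (a i) ^ 2 = ∑ i ∈ s, a i :=
    Finset.sum_congr rfl fun i hi => Real.sq_sqrt (ha i hi)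
  have h4 : ∑ i ∈ s, (Real.sqrt (a i) * x i) ^ 2 = ∑ i ∈ s, a i * x i ^ 2 :=
    Finset.sum_congr rfl fun i hi => by rw [mul_pow, Real.sq_sqrt (ha i hi)]
  rwa [h2, h3, h4] at h1

/-- [HS1] -/
theorem hs_conv_left (R : ℕ) {a : Perm X → ℝ} (ha : ∀ g, 0 ≤ a g) (b : Perm X → ℝ) :
    hs R (conv a b) ≤ mass a ^ 2 * hs R b := by
  rw [hs_eq_sum_sq, hs_eq_sum_sq, Finset.mul_sum]
  refine Finset.sum_le_sum fun c _ => ?_
  have h1 : ∀ d, Mm R (conv a b) d c ^ 2 ≤
      mass a * ∑ h, a h * Mm R b (fun x => d (h x)) c ^ 2 := by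
    intro d
    rw [Mm_conv]
    exact sq_sum_weight_le Finset.univ a (fun h => Mm R b (fun x => d (h x)) c)
      (fun i _ => ha i)
  refine (Finset.sum_le_sum fun d _ => h1 d).trans ?_
  rw [← Finset.mul_sum, Finset.sum_comm, sq, mul_assoc]
  apply mul_le_mul_of_nonneg_left _ (Finset.sum_nonneg fun g _ => ha g)
  unfold mass
  rw [Finset.sum_mul]
  refine Finset.sum_le_sum fun h _ => ?_
  rw [← Finset.mul_sum]
  apply mul_le_mul_of_nonneg_left _ (ha h)
  apply le_of_eq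
  exact Equiv.sum_comp (Equiv.arrowCongr h.symm (Equiv.refl (Fin R)))
    (fun d : X → Fin R => Mm R b d c ^ 2)

/-- [HS1] -/
theorem hs_adj (r : ℝ) (a : Perm X → ℝ) : hs r (adj a) = hs r a := by
  unfold hs adj
  rw [← Equiv.sum_comp (Equiv.inv (Perm X))]
  refine Finset.sum_congr rfl fun g _ => ?_
  rw [← Equiv.sum_comp (Equiv.inv (Perm X))]
  refine Finset.sum_congr rfl fun h _ => ?_
  simp only [Equiv.inv_apply, inv_inv]
  rw [← numCyc_inv (g⁻¹ * h), mul_inv_rev, inv_inv, numCyc_mul_comm]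

/-- [HS1] -/
theorem hs_conv_right (R : ℕ) (a : Perm X → ℝ) {b : Perm X → ℝ} (hb : ∀ g, 0 ≤ b g) :
    hs R (conv a b) ≤ mass b ^ 2 * hs R a := by
  have h1 : conv a b = adj (conv (adj b) (adj a)) := by
    rw [adj_conv, adj_adj, adj_adj]
  rw [h1, hs_adj]
  have h2 := hs_conv_left R (a := adj b) (fun g => hb g⁻¹) (adj a)
  rwa [mass_adj, hs_adj] at h2

theorem numCyc_sumCongr_inv_mul (a b a' b' : Perm X) :
    numCyc ((Perm.sumCongr a b)⁻¹ * Perm.sumCongr a' b') =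
      numCyc (a⁻¹ * a') + numCyc (b⁻¹ * b') := by
  rw [← numCyc_sumCongr, Perm.sumCongr_inv, Perm.sumCongr_mul]

/-- [HS1] -/
theorem hs_tens (r : ℝ) (a b : Perm X → ℝ) : hs r (tens a b) = hs r a * hs r b := by
  have h0 : hs r (tens a b) = ∑ σ, tens a b σ *
      (∑ τ, tens a b τ * r ^ numCyc (σ⁻¹ * τ)) := by
    unfold hs
    refine Finset.sum_congr rfl fun g _ => ?_
    rw [Finset.mul_sum]
    refine Finset.sum_congr rfl fun h _ => ?_
    ring
  rw [h0, sum_tens]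
  simp_rw [sum_tens, numCyc_sumCongr_inv_mul]
  unfold hs
  rw [Finset.sum_mul_sum]
  refine Finset.sum_congr rfl fun g _ => ?_
  refine Finset.sum_congr rfl fun h _ => ?_
  rw [Finset.sum_mul_sum, Finset.mul_sum]
  refine Finset.sum_congr rfl fun g' _ => ?_
  rw [Finset.mul_sum]
  refine Finset.sum_congr rfl fun h' _ => ?_
  rw [pow_add]
  ring

/-- [HS1] -/
theorem hs_dirac (r : ℝ) : hs r (dirac : Perm X → ℝ) = r ^ Fintype.card X := by
  unfold hs dirac
  rw [Finset.sum_eq_single 1, Finset.sum_eq_single 1]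
  · simp [numCyc_one]
  · intro b _ hb
    simp [hb]
  · intro h; exact absurd (Finset.mem_univ _) h
  · intro b _ hb
    simp [hb]
  · intro h; exact absurd (Finset.mem_univ _) h


/-! ### HS2 -/

/-- `P(c,c') = ∑ μ a μ a' [c ∘ (a⁻¹a') = c']` -/
noncomputable def Pm (R : ℕ) (μ : Perm X → ℝ) (c c' : X → Fin R) : ℝ :=
  ∑ g, ∑ h, μ g * μ h * (if ∀ x, c ((g⁻¹ * h) x) = c' x then 1 else 0)

theorem Pm_eq (R : ℕ) (μ : Perm X → ℝ) (c c' : X → Fin R) :
    Pm R μ c c' = ∑ d, Mm R μ d c * Mm R μ d c' := (sum_Mm_Mm R μ μ c c').symm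

theorem Pm_symm (R : ℕ) (μ : Perm X → ℝ) (c c' : X → Fin R) : Pm R μ c c' = Pm R μ c' c := by
  rw [Pm_eq, Pm_eq]
  exact Finset.sum_congr rfl fun d _ => mul_comm _ _

theorem Pm_nonneg (R : ℕ) {μ : Perm X → ℝ} (hμ : ∀ g, 0 ≤ μ g) (c c' : X → Fin R) :
    0 ≤ Pm R μ c c' :=
  Finset.sum_nonneg fun g _ => Finset.sum_nonneg fun h _ =>
    mul_nonneg (mul_nonneg (hμ g) (hμ h)) (by split_ifs <;> norm_num)

theorem Pm_le (R : ℕ) (μ : Perm X → ℝ) (c c' : X → Fin R) :
    Pm R μ c c' ≤ (1 / 2) * (Pm R μ c c + Pm R μ c' c') := by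
  rw [Pm_eq, Pm_eq, Pm_eq, ← Finset.sum_add_distrib, Finset.mul_sum]
  refine Finset.sum_le_sum fun d _ => ?_
  nlinarith [sq_nonneg (Mm R μ d c - Mm R μ d c')]

theorem sum_Pm (R : ℕ) (μ : Perm X → ℝ) : ∑ c : X → Fin R, Pm R μ c c = hs R μ := by
  rw [hs_eq_sum_sq]
  refine Finset.sum_congr rfl fun c _ => ?_
  rw [Pm_eq]
  exact Finset.sum_congr rfl fun d _ => (sq _).symm

/-- take `c'` on `S` and `c` off `S` -/
def mrg {R : ℕ} (S : Finset X) (c c' : X → Fin R) : X → Fin R :=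
  fun x => if x ∈ S then c' x else c x

theorem fix_flp_iff {R : ℕ} (S : Finset X) (α β : Perm X) (c₁ c₂ : X → Fin R) :
    (∀ z : X ⊕ X, Sum.elim c₁ c₂ ((Perm.sumCongr α β * flp S) z) = Sum.elim c₁ c₂ z) ↔
      (∀ x, c₁ (α x) = mrg S c₁ c₂ x) ∧ (∀ x, c₂ (β x) = mrg S c₂ c₁ x) := by
  constructor
  · intro h
    constructor
    · intro x
      unfold mrg
      by_cases hx : x ∈ S
      · have := h (Sum.inr x)
        rw [Perm.mul_apply, flp_apply_inr, if_pos hx] at this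
        rw [if_pos hx]
        simpa using this
      · have := h (Sum.inl x)
        rw [Perm.mul_apply, flp_apply_inl, if_neg hx] at this
        rw [if_neg hx]
        simpa using this
    · intro x
      unfold mrg
      by_cases hx : x ∈ S
      · have := h (Sum.inl x)
        rw [Perm.mul_apply, flp_apply_inl, if_pos hx] at this
        rw [if_pos hx]
        simpa using this
      · have := h (Sum.inr x)
        rw [Perm.mul_apply, flp_apply_inr, if_neg hx] at this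
        rw [if_neg hx]
        simpa using this
  · rintro ⟨h1, h2⟩ (x | x)
    · rw [Perm.mul_apply, flp_apply_inl]
      by_cases hx : x ∈ S
      · rw [if_pos hx]
        have := h2 x
        rw [mrg, if_pos hx] at this
        simpa using this
      · rw [if_neg hx]
        have := h1 x
        rw [mrg, if_neg hx] at this
        simpa using this
    · rw [Perm.mul_apply, flp_apply_inr]
      by_cases hx : x ∈ S
      · rw [if_pos hx]
        have := h1 x
        rw [mrg, if_pos hx] at this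
        simpa using this
      · rw [if_neg hx]
        have := h2 x
        rw [mrg, if_neg hx] at this
        simpa using this

theorem pow_numCyc_flp (R : ℕ) (S : Finset X) (α β : Perm X) :
    (R : ℝ) ^ numCyc (Perm.sumCongr α β * flp S) =
      ∑ c₁ : X → Fin R, ∑ c₂ : X → Fin R,
        (if ∀ x, c₁ (α x) = mrg S c₁ c₂ x then 1 else 0) *
          (if ∀ x, c₂ (β x) = mrg S c₂ c₁ x then 1 else 0) := by
  rw [pow_numCyc_eq, ← Equiv.sum_comp (Equiv.sumArrowEquivProdArrow X X (Fin R)).symm,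
    Fintype.sum_prod_type]
  refine Finset.sum_congr rfl fun c₁ _ => Finset.sum_congr rfl fun c₂ _ => ?_
  have h := fix_flp_iff S α β c₁ c₂
  have h0 : (Equiv.sumArrowEquivProdArrow X X (Fin R)).symm (c₁, c₂) = Sum.elim c₁ c₂ := rfl
  rw [h0]
  by_cases h1 : ∀ x, c₁ (α x) = mrg S c₁ c₂ x
  · by_cases h2 : ∀ x, c₂ (β x) = mrg S c₂ c₁ x
    · rw [if_pos h1, if_pos h2, if_pos (h.mpr ⟨h1, h2⟩)]; ring
    · rw [if_neg h2, if_neg (fun h3 => h2 (h.mp h3).2)]; ring
  · rw [if_neg h1, if_neg (fun h3 => h1 (h.mp h3).1)]; ring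

theorem sum_ext (μ : Perm X → ℝ) (F : Perm (X ⊕ X) → ℝ) :
    ∑ σ, ext μ σ * F σ = ∑ a, ∑ b, μ a * μ b *
      ((1 / (2 : ℝ) ^ Fintype.card X) * ∑ A : Finset X, F (Perm.sumCongr a b * flp A)) := by
  have h1 : ∑ σ, ext μ σ * F σ = ∑ τ, tens μ μ τ * ∑ σ, hlaw X σ * F (τ * σ) := by
    unfold ext conv
    simp_rw [Finset.sum_mul, Finset.mul_sum]
    rw [Finset.sum_comm]
    refine Finset.sum_congr rfl fun τ _ => ?_
    rw [← Equiv.sum_comp (Equiv.mulLeft τ)]
    refine Finset.sum_congr rfl fun σ _ => ?_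
    simp only [Equiv.coe_mulLeft, inv_mul_cancel_left]
    ring
  rw [h1, sum_tens]
  refine Finset.sum_congr rfl fun a _ => Finset.sum_congr rfl fun b _ => ?_
  rw [sum_hlaw]

theorem sum_symmDiff (A : Finset X) (G : Finset X → ℝ) :
    ∑ A' : Finset X, G (symmDiff A' A) = ∑ S : Finset X, G S := by
  let e : Finset X ≃ Finset X := ⟨fun S => symmDiff S A, fun S => symmDiff S A,
    fun S => symmDiff_symmDiff_cancel_right _ _, fun S => symmDiff_symmDiff_cancel_right _ _⟩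
  exact Equiv.sum_comp e G

theorem flp_mul_flp' (A B : Finset X) : flp A * flp B = flp (symmDiff A B) := by
  ext z
  rcases z with x | x
  · rw [Perm.mul_apply, flp_apply_inl, flp_apply_inl]
    by_cases h1 : x ∈ B <;> by_cases h2 : x ∈ A <;>
      simp [h1, h2, flp_apply_inl, flp_apply_inr, Finset.mem_symmDiff]
  · rw [Perm.mul_apply, flp_apply_inr, flp_apply_inr]
    by_cases h1 : x ∈ B <;> by_cases h2 : x ∈ A <;>
      simp [h1, h2, flp_apply_inl, flp_apply_inr, Finset.mem_symmDiff]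

theorem flp_inv' (A : Finset X) : (flp A)⁻¹ = flp A := by
  rw [inv_eq_iff_mul_eq_one, flp_mul_flp', symmDiff_self]
  ext z
  rcases z with x | x
  · rw [flp_apply_inl]; simp
  · rw [flp_apply_inr]; simp

theorem numCyc_ext (a b a' b' : Perm X) (A A' : Finset X) :
    numCyc ((Perm.sumCongr a b * flp A)⁻¹ * (Perm.sumCongr a' b' * flp A')) =
      numCyc (Perm.sumCongr (a⁻¹ * a') (b⁻¹ * b') * flp (symmDiff A' A)) := by
  rw [mul_inv_rev, mul_assoc, numCyc_mul_comm, flp_inv', ← mul_assoc, mul_assoc _ (flp A') (flp A),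
    flp_mul_flp', Perm.sumCongr_inv, Perm.sumCongr_mul]


/-- pair weight -/
noncomputable def w2 (μ : Perm X → ℝ) (p : Perm X × Perm X) : ℝ := μ p.1 * μ p.2

/-- indicator of `c (a⁻¹ a') = c'` -/
noncomputable def I2 {R : ℕ} (c c' : X → Fin R) (p : Perm X × Perm X) : ℝ :=
  if ∀ x, c ((p.1⁻¹ * p.2) x) = c' x then 1 else 0

theorem Pm_prod (R : ℕ) (μ : Perm X → ℝ) (c c' : X → Fin R) :
    Pm R μ c c' = ∑ p : Perm X × Perm X, w2 μ p * I2 c c' p := by
  rw [Fintype.sum_prod_type]; rfl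

theorem hs_ext_eq (R : ℕ) (μ : Perm X → ℝ) :
    hs R (ext μ) = (1 / (2 : ℝ) ^ Fintype.card X) * ∑ S : Finset X,
      ∑ c₁ : X → Fin R, ∑ c₂ : X → Fin R,
        Pm R μ c₁ (mrg S c₁ c₂) * Pm R μ c₂ (mrg S c₂ c₁) := by
  have h0 : hs R (ext μ) = ∑ σ, ext μ σ * (∑ τ, ext μ τ * (R : ℝ) ^ numCyc (σ⁻¹ * τ)) := by
    unfold hs
    refine Finset.sum_congr rfl fun g _ => ?_
    rw [Finset.mul_sum]
    refine Finset.sum_congr rfl fun h _ => ?_
    ring
  have h1 : ∀ a b : Perm X, (1 / (2 : ℝ) ^ Fintype.card X) * ∑ A : Finset X,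
      (∑ τ, ext μ τ * (R : ℝ) ^ numCyc ((Perm.sumCongr a b * flp A)⁻¹ * τ)) =
      ∑ a', ∑ b', μ a' * μ b' * ((1 / (2 : ℝ) ^ Fintype.card X) * ∑ S : Finset X,
        (R : ℝ) ^ numCyc (Perm.sumCongr (a⁻¹ * a') (b⁻¹ * b') * flp S)) := by
    intro a b
    have h2 : ∀ A : Finset X,
        (∑ τ, ext μ τ * (R : ℝ) ^ numCyc ((Perm.sumCongr a b * flp A)⁻¹ * τ)) =
        ∑ a', ∑ b', μ a' * μ b' * ((1 / (2 : ℝ) ^ Fintype.card X) * ∑ S : Finset X,
        (R : ℝ) ^ numCyc (Perm.sumCongr (a⁻¹ * a') (b⁻¹ * b') * flp S)) := by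
      intro A
      rw [sum_ext]
      simp_rw [numCyc_ext]
      refine Finset.sum_congr rfl fun a' _ => Finset.sum_congr rfl fun b' _ => ?_
      rw [sum_symmDiff A (fun S => (R : ℝ) ^ numCyc
        (Perm.sumCongr (a⁻¹ * a') (b⁻¹ * b') * flp S))]
    simp_rw [h2]
    rw [Finset.sum_const, Finset.card_univ, Fintype.card_finset, nsmul_eq_mul]
    push_cast
    rw [← mul_assoc, one_div_mul_cancel (by positivity), one_mul]
  rw [h0, sum_ext]
  simp_rw [h1, pow_numCyc_flp]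
  -- now both sides as double sums over product types
  have hR : (1 / (2 : ℝ) ^ Fintype.card X) * ∑ S : Finset X,
      ∑ c₁ : X → Fin R, ∑ c₂ : X → Fin R,
        Pm R μ c₁ (mrg S c₁ c₂) * Pm R μ c₂ (mrg S c₂ c₁) =
      ∑ z : Finset X × (X → Fin R) × (X → Fin R),
        ∑ q : (Perm X × Perm X) × (Perm X × Perm X), (1 / (2 : ℝ) ^ Fintype.card X) *
        ((w2 μ q.1 * I2 z.2.1 (mrg z.1 z.2.1 z.2.2) q.1) *
          (w2 μ q.2 * I2 z.2.2 (mrg z.1 z.2.2 z.2.1) q.2)) := by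
    rw [Fintype.sum_prod_type, Finset.mul_sum]
    refine Finset.sum_congr rfl fun S _ => ?_
    rw [Fintype.sum_prod_type, Finset.mul_sum]
    refine Finset.sum_congr rfl fun c₁ _ => ?_
    rw [Finset.mul_sum]
    refine Finset.sum_congr rfl fun c₂ _ => ?_
    conv_rhs => rw [Fintype.sum_prod_type]
    rw [Pm_prod, Pm_prod, Finset.sum_mul_sum, Finset.mul_sum]
    refine Finset.sum_congr rfl fun p _ => ?_
    rw [Finset.mul_sum]
  have hR2 := Finset.sum_comm (s := (Finset.univ : Finset (Finset X × (X → Fin R) × (X → Fin R))))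
    (t := (Finset.univ : Finset ((Perm X × Perm X) × (Perm X × Perm X))))
    (f := fun z q => (1 / (2 : ℝ) ^ Fintype.card X) *
        ((w2 μ q.1 * I2 z.2.1 (mrg z.1 z.2.1 z.2.2) q.1) *
          (w2 μ q.2 * I2 z.2.2 (mrg z.1 z.2.2 z.2.1) q.2)))
  rw [hR, hR2, Fintype.sum_prod_type (f := fun q : (Perm X × Perm X) × (Perm X × Perm X) =>
    ∑ z : Finset X × (X → Fin R) × (X → Fin R), (1 / (2 : ℝ) ^ Fintype.card X) *
        ((w2 μ q.1 * I2 z.2.1 (mrg z.1 z.2.1 z.2.2) q.1) *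
          (w2 μ q.2 * I2 z.2.2 (mrg z.1 z.2.2 z.2.1) q.2)))]
  have hL : ∀ F : Perm X → Perm X → Perm X → Perm X → ℝ,
      ∑ a, ∑ b, μ a * μ b * ∑ a', ∑ b', μ a' * μ b' * F a a' b b' =
      ∑ p : Perm X × Perm X, ∑ q : Perm X × Perm X,
        w2 μ p * w2 μ q * F p.1 p.2 q.1 q.2 := by
    intro F
    rw [Fintype.sum_prod_type]
    refine Finset.sum_congr rfl fun a _ => ?_
    simp_rw [Finset.mul_sum]
    rw [Finset.sum_comm]
    refine Finset.sum_congr rfl fun a' _ => ?_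
    rw [Fintype.sum_prod_type]
    refine Finset.sum_congr rfl fun b _ => Finset.sum_congr rfl fun b' _ => ?_
    unfold w2
    ring
  rw [hL (fun a a' b b' => (1 / (2 : ℝ) ^ Fintype.card X) * ∑ S : Finset X,
    ∑ c₁ : X → Fin R, ∑ c₂ : X → Fin R,
      (if ∀ x, c₁ ((a⁻¹ * a') x) = mrg S c₁ c₂ x then 1 else 0) *
          (if ∀ x, c₂ ((b⁻¹ * b') x) = mrg S c₂ c₁ x then 1 else 0))]
  refine Finset.sum_congr rfl fun p _ => Finset.sum_congr rfl fun q _ => ?_
  rw [Fintype.sum_prod_type, ← mul_assoc, Finset.mul_sum]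
  refine Finset.sum_congr rfl fun S _ => ?_
  rw [Fintype.sum_prod_type, Finset.mul_sum]
  refine Finset.sum_congr rfl fun c₁ _ => ?_
  rw [Finset.mul_sum]
  refine Finset.sum_congr rfl fun c₂ _ => ?_
  unfold I2
  ring


/-- a set of representatives of the orbits -/
noncomputable def reps (α : Perm X) : Finset X :=
  Finset.univ.filter (fun x => (Quotient.mk (Perm.SameCycle.setoid α) x).out = x)

theorem mem_reps {α : Perm X} {x : X} :
    x ∈ reps α ↔ (Quotient.mk (Perm.SameCycle.setoid α) x).out = x := by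
  simp [reps]

theorem card_reps (α : Perm X) : (reps α).card = numCyc α := by
  have e : {x // x ∈ reps α} ≃ Quotient (Perm.SameCycle.setoid α) :=
    { toFun := fun x => Quotient.mk _ x.1
      invFun := fun q => ⟨q.out, by rw [mem_reps, Quotient.out_eq]⟩
      left_inv := fun x => Subtype.ext (mem_reps.mp x.2)
      right_inv := fun q => Quotient.out_eq q }
  have h := Nat.card_congr e
  rw [Nat.card_eq_fintype_card, Fintype.card_coe] at h
  exact h

theorem card_ext_le (R : ℕ) (α : Perm X) (S : Finset X) (c : X → Fin R) :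
    (Finset.univ.filter (fun e : X → Fin R => (∀ x ∈ S, e x = c x) ∧
      ∀ x, x ∉ S → e (α x) = e x)).card ≤ R ^ (reps α \ S).card := by
  have h1 : Fintype.card ({x // x ∈ reps α \ S} → Fin R) = R ^ (reps α \ S).card := by
    rw [Fintype.card_fun, Fintype.card_fin, Fintype.card_coe]
  rw [← h1, ← Finset.card_univ]
  apply Finset.card_le_card_of_injOn (fun e => fun x => e x.1)
  · intro e _
    exact Finset.mem_coe.mpr (Finset.mem_univ _)
  · intro e he e' he' hee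
    simp only [Finset.coe_filter, Finset.mem_univ, true_and, Set.mem_ofPred_eq] at he he'
    have key : ∀ k : ℕ, ∀ x, (α ^ k) x ∈ S → e x = e' x := by
      intro k
      induction k with
      | zero =>
        intro x hx
        have hx' : x ∈ S := by simpa using hx
        rw [he.1 x hx', he'.1 x hx']
      | succ k ih =>
        intro x hx
        by_cases hxS : x ∈ S
        · rw [he.1 x hxS, he'.1 x hxS]
        · rw [← he.2 x hxS, ← he'.2 x hxS]
          apply ih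
          rw [pow_succ] at hx
          simpa using hx
    have key2 : ∀ f : X → Fin R, (∀ x, x ∉ S → f (α x) = f x) → ∀ x,
        (∀ k : ℕ, (α ^ k) x ∉ S) → ∀ k : ℕ, f ((α ^ k) x) = f x := by
      intro f hf x hx k
      induction k with
      | zero => simp
      | succ k ih =>
        rw [pow_succ', Perm.mul_apply, hf _ (hx k), ih]
    funext x
    by_cases hx : ∃ k : ℕ, (α ^ k) x ∈ S
    · obtain ⟨k, hk⟩ := hx
      exact key k x hk
    · push Not at hx
      set r := (Quotient.mk (Perm.SameCycle.setoid α) x).out with hr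
      have hrel : Perm.SameCycle α x r := by
        have h2 : Quotient.mk (Perm.SameCycle.setoid α) r =
            Quotient.mk (Perm.SameCycle.setoid α) x := Quotient.out_eq _
        exact (Quotient.exact h2).symm
      obtain ⟨k, hk⟩ := hrel.exists_nat_pow_eq
      have hrS : r ∉ S := by rw [← hk]; exact hx k
      have hrT : r ∈ reps α := by
        rw [mem_reps]
        have h2 : Quotient.mk (Perm.SameCycle.setoid α) r =
            Quotient.mk (Perm.SameCycle.setoid α) x := Quotient.out_eq _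
        rw [h2]
      have h3 : e r = e' r := congrFun hee ⟨r, Finset.mem_sdiff.mpr ⟨hrT, hrS⟩⟩
      have h4 := key2 e he.2 x hx k
      have h5 := key2 e' he'.2 x hx k
      rw [hk] at h4 h5
      rw [← h4, ← h5, h3]

theorem rowsum_le (R : ℕ) {μ : Perm X → ℝ} (hμ : ∀ g, 0 ≤ μ g) (S : Finset X)
    (c₁ : X → Fin R) :
    ∑ c₂ : X → Fin R, Pm R μ c₂ (mrg S c₂ c₁) ≤
      ∑ g, ∑ h, μ g * μ h * (R : ℝ) ^ (reps (g⁻¹ * h) \ S).card := by
  simp_rw [fun c₂ : X → Fin R => Pm_symm R μ c₂ (mrg S c₂ c₁)]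
  unfold Pm
  rw [Finset.sum_comm]
  refine Finset.sum_le_sum fun g _ => ?_
  rw [Finset.sum_comm]
  refine Finset.sum_le_sum fun h _ => ?_
  rw [← Finset.mul_sum]
  apply mul_le_mul_of_nonneg_left _ (mul_nonneg (hμ g) (hμ h))
  rw [Finset.sum_boole]
  set α := g⁻¹ * h
  have h1 : (Finset.univ.filter (fun c₂ : X → Fin R => ∀ x, mrg S c₂ c₁ (α x) = c₂ x)).card ≤
      (Finset.univ.filter (fun e : X → Fin R => (∀ x ∈ S, e x = c₁ x) ∧
      ∀ x, x ∉ S → e (α x) = e x)).card := by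
    apply Finset.card_le_card_of_injOn (fun c₂ => mrg S c₂ c₁)
    · intro c₂ hc
      simp only [Finset.coe_filter, Finset.mem_univ, true_and, Set.mem_ofPred_eq] at hc ⊢
      refine ⟨fun x hx => by rw [mrg, if_pos hx], fun x hx => ?_⟩
      rw [hc x]
      rw [mrg, if_neg hx]
    · intro c₂ hc c₂' hc' hcc
      simp only [Finset.coe_filter, Finset.mem_univ, true_and, Set.mem_ofPred_eq] at hc hc'
      funext x
      rw [← hc x, ← hc' x]
      exact congrFun hcc (α x)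
  exact_mod_cast h1.trans (card_ext_le R α S c₁)

theorem sum_half_add {κ : Type*} [Fintype κ] (A B : κ → κ → ℝ) :
    ∑ i, ∑ j, ((1 / 2) * A i j + (1 / 2) * B i j) =
      (1 / 2) * ∑ i, ∑ j, A i j + (1 / 2) * ∑ i, ∑ j, B i j := by
  simp_rw [Finset.sum_add_distrib, ← Finset.mul_sum]

theorem total_le (R : ℕ) {μ : Perm X → ℝ} (hμ : ∀ g, 0 ≤ μ g) (S : Finset X) :
    ∑ c₁ : X → Fin R, ∑ c₂ : X → Fin R,
        Pm R μ c₁ (mrg S c₁ c₂) * Pm R μ c₂ (mrg S c₂ c₁) ≤
      hs R μ * ∑ g, ∑ h, μ g * μ h * (R : ℝ) ^ (reps (g⁻¹ * h) \ S).card := by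
  set r := ∑ g, ∑ h, μ g * μ h * (R : ℝ) ^ (reps (g⁻¹ * h) \ S).card with hr
  have hfirst : ∑ c₁ : X → Fin R, ∑ c₂ : X → Fin R,
      Pm R μ c₁ c₁ * Pm R μ c₂ (mrg S c₂ c₁) ≤ hs R μ * r := by
    rw [← sum_Pm, Finset.sum_mul]
    refine Finset.sum_le_sum fun c₁ _ => ?_
    rw [← Finset.mul_sum]
    exact mul_le_mul_of_nonneg_left (rowsum_le R hμ S c₁) (Pm_nonneg R hμ _ _)
  have hsecond : ∑ c₁ : X → Fin R, ∑ c₂ : X → Fin R,
      Pm R μ (mrg S c₁ c₂) (mrg S c₁ c₂) * Pm R μ c₂ (mrg S c₂ c₁) =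
      ∑ c₁ : X → Fin R, ∑ c₂ : X → Fin R,
      Pm R μ c₁ c₁ * Pm R μ c₂ (mrg S c₂ c₁) := by
    have hinv : ∀ c d : X → Fin R, mrg S (mrg S c d) (mrg S d c) = c := by
      intro c d
      funext x
      unfold mrg
      by_cases hx : x ∈ S <;> simp [hx]
    let e : (X → Fin R) × (X → Fin R) ≃ (X → Fin R) × (X → Fin R) :=
      { toFun := fun p => (mrg S p.1 p.2, mrg S p.2 p.1)
        invFun := fun p => (mrg S p.1 p.2, mrg S p.2 p.1)
        left_inv := fun p => Prod.ext (hinv _ _) (hinv _ _)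
        right_inv := fun p => Prod.ext (hinv _ _) (hinv _ _) }
    have h1 := Equiv.sum_comp e (fun p : (X → Fin R) × (X → Fin R) =>
      Pm R μ p.1 p.1 * Pm R μ p.2 (mrg S p.2 p.1))
    rw [Fintype.sum_prod_type, Fintype.sum_prod_type] at h1
    rw [← h1]
    refine Finset.sum_congr rfl fun c₁ _ => Finset.sum_congr rfl fun c₂ _ => ?_
    show _ = Pm R μ (mrg S c₁ c₂) (mrg S c₁ c₂) *
      Pm R μ (mrg S c₂ c₁) (mrg S (mrg S c₂ c₁) (mrg S c₁ c₂))
    rw [hinv c₂ c₁, Pm_symm R μ (mrg S c₂ c₁) c₂]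
  have hle : ∑ c₁ : X → Fin R, ∑ c₂ : X → Fin R,
        Pm R μ c₁ (mrg S c₁ c₂) * Pm R μ c₂ (mrg S c₂ c₁) ≤
      ∑ c₁ : X → Fin R, ∑ c₂ : X → Fin R, ((1 / 2) *
        (Pm R μ c₁ c₁ * Pm R μ c₂ (mrg S c₂ c₁)) + (1 / 2) *
        (Pm R μ (mrg S c₁ c₂) (mrg S c₁ c₂) * Pm R μ c₂ (mrg S c₂ c₁))) := by
    refine Finset.sum_le_sum fun c₁ _ => Finset.sum_le_sum fun c₂ _ => ?_
    have h1 := mul_le_mul_of_nonneg_right (Pm_le R μ c₁ (mrg S c₁ c₂))
      (Pm_nonneg R hμ c₂ (mrg S c₂ c₁))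
    refine h1.trans (le_of_eq ?_)
    ring
  refine hle.trans ?_
  rw [sum_half_add, hsecond]
  linarith

theorem avg_pow (R : ℕ) (T : Finset X) :
    (1 / (2 : ℝ) ^ Fintype.card X) * ∑ S : Finset X, (R : ℝ) ^ (T \ S).card =
      (((R : ℝ) + 1) / 2) ^ T.card := by
  have h1 := Finset.prod_add (fun _ : X => (1 : ℝ)) (fun x => if x ∈ T then (R : ℝ) else 1)
    Finset.univ
  have h2 : ∀ S : Finset X, ∏ i ∈ Finset.univ \ S, (if i ∈ T then (R : ℝ) else 1) =
      (R : ℝ) ^ (T \ S).card := by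
    intro S
    rw [Finset.prod_ite, Finset.prod_const, Finset.prod_const_one, mul_one]
    congr 2
    ext x
    simp only [Finset.mem_filter, Finset.mem_sdiff, Finset.mem_univ, true_and]
    tauto
  simp only [Finset.prod_const_one, one_mul, Finset.powerset_univ] at h1
  simp_rw [h2] at h1
  rw [← h1]
  have h3 : ∀ x : X, (1 + (if x ∈ T then (R : ℝ) else 1)) =
      2 * (if x ∈ T then ((R : ℝ) + 1) / 2 else 1) := by
    intro x
    split_ifs <;> ring
  simp_rw [h3]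
  rw [Finset.prod_mul_distrib, Finset.prod_const, Finset.card_univ, Finset.prod_ite_mem,
    Finset.univ_inter, Finset.prod_const, ← mul_assoc, one_div_mul_cancel (by positivity), one_mul]

/-- [HS2] -/
theorem hs_ext (R : ℕ) (hR : 1 ≤ R) {μ : Perm X → ℝ} (hμ : ∀ g, 0 ≤ μ g)
    (hμ1 : mass μ = 1) :
    hs R (ext μ) ≤ hs R μ * hs (((R : ℝ) + 1) / 2) μ := by
  rw [hs_ext_eq]
  have h1 : ∑ S : Finset X, ∑ c₁ : X → Fin R, ∑ c₂ : X → Fin R,
        Pm R μ c₁ (mrg S c₁ c₂) * Pm R μ c₂ (mrg S c₂ c₁) ≤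
      ∑ S : Finset X, hs R μ *
        ∑ g, ∑ h, μ g * μ h * (R : ℝ) ^ (reps (g⁻¹ * h) \ S).card :=
    Finset.sum_le_sum fun S _ => total_le R hμ S
  have h2 := mul_le_mul_of_nonneg_left h1 (by positivity : (0 : ℝ) ≤ 1 / 2 ^ Fintype.card X)
  refine h2.trans (le_of_eq ?_)
  rw [← Finset.mul_sum, mul_left_comm]
  congr 1
  rw [Finset.sum_comm, Finset.mul_sum]
  unfold hs
  refine Finset.sum_congr rfl fun g _ => ?_
  rw [Finset.sum_comm, Finset.mul_sum]
  refine Finset.sum_congr rfl fun h _ => ?_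
  rw [← Finset.mul_sum, mul_left_comm, avg_pow, card_reps]


/-! ### HS3 -/

theorem exists_perm_of_counts {R : ℕ} (c c' : X → Fin R)
    (h : ∀ i, (Finset.univ.filter (fun x => c x = i)).card =
      (Finset.univ.filter (fun x => c' x = i)).card) :
    ∃ σ : Perm X, ∀ x, c' (σ x) = c x := by
  have h1 : ∀ i, Nonempty ({x // c x = i} ≃ {x // c' x = i}) := by
    intro i
    rw [← Fintype.card_eq, Fintype.card_subtype, Fintype.card_subtype]
    exact h i
  let e : ∀ i, {x // c x = i} ≃ {x // c' x = i} := fun i => (h1 i).some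
  refine ⟨(Equiv.sigmaFiberEquiv c).symm.trans ((Equiv.sigmaCongrRight e).trans
    (Equiv.sigmaFiberEquiv c')), fun x => ?_⟩
  simp only [Equiv.trans_apply, Equiv.sigmaCongrRight_apply, Equiv.sigmaFiberEquiv_apply]
  exact (e (c x) ⟨x, rfl⟩).2

/-- number of colourings with a given count vector times the stabiliser is `n!` -/
theorem sum_fix_le (R : ℕ) :
    ∑ σ : Perm X, (fixN R σ : ℝ) ≤
      ((Fintype.card X : ℝ) + 1) ^ R * ((Fintype.card X).factorial : ℝ) := by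
  classical
  let cnt : (X → Fin R) → (Fin R → Fin (Fintype.card X + 1)) := fun c i =>
    ⟨(Finset.univ.filter (fun x => c x = i)).card, Nat.lt_succ_of_le (Finset.card_le_univ _)⟩
  have h1 : ∑ σ : Perm X, fixN R σ =
      ∑ c : X → Fin R, (Finset.univ.filter (fun σ : Perm X => ∀ x, c (σ x) = c x)).card := by
    unfold fixN
    simp_rw [Finset.card_filter]
    rw [Finset.sum_comm]
  have h2 : ∀ t : Fin R → Fin (Fintype.card X + 1),
      ∑ c ∈ Finset.univ.filter (fun c : X → Fin R => cnt c = t),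
        (Finset.univ.filter (fun σ : Perm X => ∀ x, c (σ x) = c x)).card ≤
        (Fintype.card X).factorial := by
    intro t
    by_cases hne : (Finset.univ.filter (fun c : X → Fin R => cnt c = t)).Nonempty
    · obtain ⟨c₀, hc₀⟩ := hne
      have hc₀' : cnt c₀ = t := by simpa using hc₀
      -- choose for each `c` in the class a permutation `τ_c` with `c₀ ∘ τ_c = c`
      have hex : ∀ c : X → Fin R, cnt c = t → ∃ τ : Perm X, ∀ x, c₀ (τ x) = c x := by
        intro c hc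
        apply exists_perm_of_counts
        intro i
        have h3 := congrFun (hc.trans hc₀'.symm) i
        exact congrArg Fin.val h3
      choose! τ hτ using hex
      rw [← Finset.card_sigma, ← Fintype.card_perm]
      refine le_trans ?_ (le_of_eq (Finset.card_univ (α := Perm X)))
      apply Finset.card_le_card_of_injOn (fun p => τ p.1 * p.2)
      · intro p _
        exact Finset.mem_coe.mpr (Finset.mem_univ _)
      · rintro ⟨c, σ⟩ hp ⟨c', σ'⟩ hp' heq
        simp only [Finset.coe_sigma, Set.mem_sigma_iff, Finset.coe_filter, Finset.mem_univ,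
          true_and, Set.mem_ofPred_eq] at hp hp'
        simp only at heq
        have h4 : c = c' := by
          funext x
          rw [← hp.2 x, ← hτ c hp.1, ← hp'.2 x, ← hτ c' hp'.1, ← Perm.mul_apply,
            ← Perm.mul_apply, heq]
        subst h4
        have h5 : σ = σ' := mul_left_cancel heq
        rw [h5]
    · rw [Finset.not_nonempty_iff_eq_empty] at hne
      rw [hne]; simp
  have h3 : ∑ σ : Perm X, fixN R σ ≤ (Fintype.card X + 1) ^ R * (Fintype.card X).factorial := by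
    rw [h1, ← Finset.sum_fiberwise (s := Finset.univ) (g := cnt)]
    refine (Finset.sum_le_sum fun t _ => h2 t).trans ?_
    rw [Finset.sum_const, Finset.card_univ, Fintype.card_fun, Fintype.card_fin, Fintype.card_fin,
      smul_eq_mul]
  exact_mod_cast h3

/-- [HS3] uniform law -/
theorem hs_unif_le (R : ℕ) :
    hs R (fun _ : Perm X => 1 / ((Fintype.card X).factorial : ℝ)) ≤
      ((Fintype.card X : ℝ) + 1) ^ R := by
  have hf : (0 : ℝ) < ((Fintype.card X).factorial : ℝ) := by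
    exact_mod_cast Nat.factorial_pos _
  have h1 : hs R (fun _ : Perm X => 1 / ((Fintype.card X).factorial : ℝ)) =
      (1 / ((Fintype.card X).factorial : ℝ)) * ∑ σ : Perm X, (fixN R σ : ℝ) := by
    unfold hs
    have h2 : ∀ g : Perm X, ∑ h : Perm X, 1 / ((Fintype.card X).factorial : ℝ) *
        (1 / ((Fintype.card X).factorial : ℝ)) * (R : ℝ) ^ numCyc (g⁻¹ * h) =
        1 / ((Fintype.card X).factorial : ℝ) * (1 / ((Fintype.card X).factorial : ℝ)) *
          ∑ σ : Perm X, (fixN R σ : ℝ) := by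
      intro g
      rw [← Finset.mul_sum]
      congr 1
      rw [← Equiv.sum_comp (Equiv.mulLeft g)]
      refine Finset.sum_congr rfl fun h _ => ?_
      simp only [Equiv.coe_mulLeft, inv_mul_cancel_left]
      rw [fixN_eq]
      push_cast
      rfl
    simp_rw [h2]
    rw [Finset.sum_const, Finset.card_univ, Fintype.card_perm, nsmul_eq_mul]
    field_simp
  rw [h1]
  have h2 := mul_le_mul_of_nonneg_left (sum_fix_le (X := X) R)
    (by positivity : (0 : ℝ) ≤ 1 / ((Fintype.card X).factorial : ℝ))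
  refine h2.trans (le_of_eq ?_)
  field_simp

end Vale.Agent.P162T
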