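import Vale.Agent.P162T.MassDefs

/-!
# P162 [STEP] the window step
-/

open Equiv Finset

set_option linter.unusedSectionVars false

namespace Vale.Agent.P162T

/-- mass of one more level in terms of `hs` -/
theorem mass_succ_le (i0 : ℕ) (θ : ℕ → ℝ) (i t0 : ℕ) (hi : i0 ≤ i) (ht : θ i ≤ t0) :
    mass (psi i0 θ (i + 1)) ≤ hs ((2 ^ t0 + 1 : ℕ) : ℝ) (psi i0 θ i) := by
  have h1 : psi i0 θ (i + 1) = lift (X := Cube i) (θ i) (psi i0 θ i) := build_succ hi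
  rw [h1]
  refine mass_lift_le (X := Cube i) (θ i) (2 ^ t0 + 1) ?_ (psi_nonneg i0 θ i)
  calc (2 : ℝ) ^ (θ i) ≤ (2 : ℝ) ^ (t0 : ℝ) :=
        Real.rpow_le_rpow_of_exponent_le (by norm_num) ht
    _ = (2 : ℝ) ^ t0 := Real.rpow_natCast 2 t0
    _ ≤ ((2 ^ t0 + 1 : ℕ) : ℝ) := by push_cast; linarith

/-- [STEP] (with the bound for the top layers as a hypothesis) -/
theorem mass_step_aux (i0 : ℕ) (θ : ℕ → ℝ) (i w t0 : ℕ) (hw : i0 + w ≤ i)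
    (hθ : ∀ l, i - w ≤ l → l < i → θ l = 0) (ht : θ i ≤ t0)
    (hfn : hs ((2 ^ t0 + 1 : ℕ) : ℝ) (tw (i - w) (i - w + w)) ≤
      (2 : ℝ) ^ ((2 : ℝ) ^ (i - w) * ((6 / 5) * (8 / 5) ^ w * (5 / 3) ^ t0))) :
    mass (psi i0 θ (i + 1)) ≤ (mass (psi i0 θ (i - w)) ^ (2 ^ w)) ^ 2 *
      (2 : ℝ) ^ ((2 : ℝ) ^ (i - w) * ((6 / 5) * (8 / 5) ^ w * (5 / 3) ^ t0)) := by
  have hle : i - w ≤ i := Nat.sub_le i w
  have hsub : i - (i - w) = w := by omega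
  have h1 := mass_succ_le i0 θ i t0 (by omega) ht
  have h2 : psi i0 θ i = fr (i - w) (psi i0 θ) i := psi_eq_fr (by omega) hle θ hθ
  have h3 := hs_fr_le (2 ^ t0 + 1) hle (f := psi i0 θ) (psi_nonneg i0 θ (i - w))
  rw [← h2, hsub] at h3
  have h4 : i - w + w = i := by omega
  rw [h4] at hfn
  refine h1.trans (h3.trans ?_)
  exact mul_le_mul_of_nonneg_left hfn (sq_nonneg _)

theorem hs_th (R : ℝ) {j0 : ℕ} (f : (j : ℕ) → Perm (Cube j) → ℝ) (n : ℕ) :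
    hs R (th j0 f (j0 + n)) = hs R (f j0) ^ (2 ^ n) := by
  induction n with
  | zero =>
    have h1 : th j0 f (j0 + 0) = f j0 := build_of_le (le_refl j0)
    rw [h1, pow_zero, pow_one]
  | succ n ih =>
    have h1 : th j0 f (j0 + n + 1) = tens (X := Cube (j0 + n)) (th j0 f (j0 + n))
        (th j0 f (j0 + n)) := build_succ (Nat.le_add_right j0 n)
    have h2 := hs_tens (X := Cube (j0 + n)) R (th j0 f (j0 + n)) (th j0 f (j0 + n))
    rw [ih] at h2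
    change hs R (th j0 f (j0 + n + 1)) = _
    rw [h1]
    rw [pow_succ, pow_mul, sq]
    exact h2

/-- [STEP] -/
theorem mass_step0 (i0 : ℕ) (θ : ℕ → ℝ) (i t0 : ℕ) (hi : i0 ≤ i)
    (hθ : ∀ l, i0 ≤ l → l < i → θ l = 0) (ht : θ i ≤ t0) :
    mass (psi i0 θ (i + 1)) ≤ ((2 : ℝ) ^ i0 + 1) ^ ((2 ^ t0 + 1) * 2 ^ (i - i0)) := by
  set R : ℕ := 2 ^ t0 + 1 with hR
  have h1 := mass_succ_le i0 θ i t0 hi ht
  have h2 : psi i0 θ i = fr i0 (psi i0 θ) i := psi_eq_fr (le_refl i0) hi θ hθ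
  have h3 := fr_eq hi (psi i0 θ)
  have hth0 : ∀ n, ∀ g, 0 ≤ th i0 (psi i0 θ) (i0 + n) g := by
    intro n
    induction n with
    | zero =>
      intro g
      have e : th i0 (psi i0 θ) (i0 + 0) = psi i0 θ i0 := build_of_le (le_refl i0)
      rw [e]
      exact psi_nonneg i0 θ i0 g
    | succ n ih =>
      have e : th i0 (psi i0 θ) (i0 + n + 1) = tens (X := Cube (i0 + n)) (th i0 (psi i0 θ) (i0 + n))
        (th i0 (psi i0 θ) (i0 + n)) := build_succ (Nat.le_add_right i0 n)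
      intro g
      change 0 ≤ th i0 (psi i0 θ) (i0 + n + 1) g
      rw [e]
      exact tens_nonneg ih ih g
  have h4 : hs (R : ℝ) (psi i0 θ i) ≤ hs (R : ℝ) (th i0 (psi i0 θ) i) := by
    rw [h2, h3]
    have a1 := hs_conv_left R (a := adj (tw i0 i)) (fun g => tw_nonneg i0 i g⁻¹)
      (conv (th i0 (psi i0 θ) i) (tw i0 i))
    have a2 := hs_conv_right R (th i0 (psi i0 θ) i) (b := tw i0 i) (tw_nonneg i0 i)
    rw [mass_adj, mass_tw, one_pow, one_mul] at a1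
    rw [mass_tw, one_pow, one_mul] at a2
    exact a1.trans a2
  obtain ⟨n, rfl⟩ := Nat.exists_eq_add_of_le hi
  have h5 : hs (R : ℝ) (th i0 (psi i0 θ) (i0 + n)) = hs (R : ℝ) (psi i0 θ i0) ^ (2 ^ n) :=
    hs_th (R : ℝ) (psi i0 θ) n
  have h6 : hs (R : ℝ) (psi i0 θ i0) ≤ ((2 : ℝ) ^ i0 + 1) ^ R := by
    have e : psi i0 θ i0 = unifC i0 := build_of_le (le_refl i0)
    rw [e]
    have a1 := hs_unif_le (X := Cube i0) R
    have a2 : (Fintype.card (Cube i0) : ℝ) = (2 : ℝ) ^ i0 := by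
      rw [card_cube]; push_cast; rfl
    rw [a2] at a1
    exact a1
  have h7 : 0 ≤ hs (R : ℝ) (psi i0 θ i0) := hs_nonneg _ (by positivity) (psi_nonneg i0 θ i0)
  have e8 : i0 + n - i0 = n := by omega
  rw [e8]
  calc mass (psi i0 θ (i0 + n + 1)) ≤ hs (R : ℝ) (th i0 (psi i0 θ) (i0 + n)) := h1.trans h4
    _ = hs (R : ℝ) (psi i0 θ i0) ^ (2 ^ n) := h5
    _ ≤ (((2 : ℝ) ^ i0 + 1) ^ R) ^ (2 ^ n) := pow_le_pow_left₀ h7 h6 _
    _ = ((2 : ℝ) ^ i0 + 1) ^ (R * 2 ^ n) := (pow_mul _ _ _).symm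

end Vale.Agent.P162T
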