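import Vale.Agent.P162T.Fnum
import Vale.Agent.P162T.Step

/-!
# P162 [IND] strong induction over levels
-/

open Equiv Finset

set_option linter.unusedSectionVars false

namespace Vale.Agent.P162T

/-- the active level in the dyadic range `[2^a, 2^(a+1))` -/
def act (t a : ℕ) : ℕ := 2 ^ a + t % 2 ^ a

theorem act_ge (t a : ℕ) : 2 ^ a ≤ act t a := Nat.le_add_right _ _

theorem act_lt (t a : ℕ) : act t a < 2 ^ (a + 1) := by
  unfold act
  have := Nat.mod_lt t (Nat.two_pow_pos a)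
  rw [pow_succ]
  omega

theorem rr_eq {a i : ℕ} (h1 : 2 ^ a ≤ i) (h2 : i < 2 ^ (a + 1)) : rr i = 2 ^ a := by
  unfold rr
  rw [Nat.log_eq_of_pow_le_of_lt_pow h1 h2]

theorem θt_zero {t a i : ℕ} (h1 : 2 ^ a ≤ i) (h2 : i < 2 ^ (a + 1)) (h : i ≠ act t a) :
    θt t i = 0 := by
  unfold θt
  rw [rr_eq h1 h2, if_neg]
  intro hm
  apply h
  have h3 : i % 2 ^ a = t % 2 ^ a := hm
  have h4 : i % 2 ^ a = i - 2 ^ a := by
    rw [Nat.mod_eq_sub_mod h1, Nat.mod_eq_of_lt]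
    rw [pow_succ] at h2
    omega
  unfold act
  omega

theorem θt_act (t a : ℕ) : θt t (act t a) = ((2 ^ a : ℕ) : ℝ) / 7 := by
  unfold θt
  rw [rr_eq (act_ge t a) (act_lt t a), if_pos]
  show (2 ^ a + t % 2 ^ a) % 2 ^ a = t % 2 ^ a
  rw [Nat.add_mod_left, Nat.mod_mod]

theorem mass_psi_nonneg (i0 : ℕ) (θ : ℕ → ℝ) (j : ℕ) : 0 ≤ mass (psi i0 θ j) :=
  Finset.sum_nonneg (fun g _ => psi_nonneg i0 θ j g)

theorem mass_psi_of_le {i0 j : ℕ} (θ : ℕ → ℝ) (h : j ≤ i0) : mass (psi i0 θ j) = 1 := by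
  have h0 : psi i0 θ j = unifC j := build_of_le h
  rw [h0, mass_unifC]

theorem mass_psi_succ {i0 i : ℕ} {θ : ℕ → ℝ} (h : i0 ≤ i) (hθ : θ i = 0) :
    mass (psi i0 θ (i + 1)) = mass (psi i0 θ i) ^ 2 := by
  have h0 : psi i0 θ (i + 1) = lift (X := Cube i) (θ i) (psi i0 θ i) := build_succ h
  rw [h0, hθ]
  exact mass_lift_zero (X := Cube i) (psi i0 θ i)

theorem mass_propagate {i0 : ℕ} {θ : ℕ → ℝ} {E : ℝ} {j1 : ℕ} (h1 : i0 ≤ j1)
    (hb : mass (psi i0 θ j1) ≤ (2 : ℝ) ^ ((2 : ℝ) ^ j1 * E)) (j2 : ℕ) (h2 : j1 ≤ j2)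
    (hθ : ∀ l, j1 ≤ l → l < j2 → θ l = 0) :
    mass (psi i0 θ j2) ≤ (2 : ℝ) ^ ((2 : ℝ) ^ j2 * E) := by
  induction j2, h2 using Nat.le_induction with
  | base => exact hb
  | succ j hj ih =>
    have ih' := ih (fun l hl hl' => hθ l hl (by omega))
    rw [mass_psi_succ (h1.trans hj) (hθ j hj (by omega))]
    calc mass (psi i0 θ j) ^ 2 ≤ ((2 : ℝ) ^ ((2 : ℝ) ^ j * E)) ^ 2 :=
          pow_le_pow_left₀ (mass_psi_nonneg _ _ _) ih' 2
      _ = (2 : ℝ) ^ ((2 : ℝ) ^ (j + 1) * E) := by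
          rw [← Real.rpow_natCast, ← Real.rpow_mul (by norm_num)]
          congr 1
          push_cast
          ring

/-- increments -/
noncomputable def ci (a0 : ℕ) : ℕ → ℝ
  | 0 => 5 * (93 / 100 : ℝ) ^ (2 ^ a0)
  | k + 1 => 5 / 4 * (93 / 100 : ℝ) ^ (2 ^ (a0 + k))

noncomputable def Ei (a0 : ℕ) : ℕ → ℝ
  | 0 => 0
  | k + 1 => Ei a0 k + ci a0 k

theorem ci_nonneg (a0 k : ℕ) : 0 ≤ ci a0 k := by
  cases k with
  | zero => unfold ci; positivity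
  | succ k => unfold ci; positivity

theorem Ei_le_succ (a0 k : ℕ) : Ei a0 k ≤ Ei a0 (k + 1) := by
  have := ci_nonneg a0 k
  show Ei a0 k ≤ Ei a0 k + ci a0 k
  linarith

theorem Ei_bound (a0 k : ℕ) : Ei a0 (k + 1) ≤
    (93 / 100 : ℝ) ^ (2 ^ a0) * (5 + 125 / 7 * (1 - (93 / 100 : ℝ) ^ k)) := by
  induction k with
  | zero =>
    show (0 : ℝ) + ci a0 0 ≤ _
    unfold ci
    norm_num
    linarith
  | succ k ih =>
    show Ei a0 (k + 1) + ci a0 (k + 1) ≤ _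
    have h1 : ci a0 (k + 1) ≤ 5 / 4 * ((93 / 100 : ℝ) ^ (2 ^ a0) * (93 / 100 : ℝ) ^ k) := by
      show 5 / 4 * (93 / 100 : ℝ) ^ (2 ^ (a0 + k)) ≤ _
      apply mul_le_mul_of_nonneg_left _ (by norm_num)
      rw [← pow_add]
      apply pow_le_pow_of_le_one (by norm_num) (by norm_num)
      have h2 : 1 ≤ 2 ^ a0 := Nat.one_le_two_pow
      have h3 : k + 1 ≤ 2 ^ k := Nat.lt_two_pow_self
      calc 2 ^ a0 + k ≤ 2 ^ a0 + 2 ^ a0 * k := by nlinarith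
        _ = 2 ^ a0 * (k + 1) := by ring
        _ ≤ 2 ^ a0 * 2 ^ k := Nat.mul_le_mul_left _ h3
        _ = 2 ^ (a0 + k) := (pow_add 2 a0 k).symm
    have h4 : (93 / 100 : ℝ) ^ (k + 1) = (93 / 100 : ℝ) ^ k * (93 / 100) := pow_succ _ _
    rw [h4]
    nlinarith

theorem Ei_le (a0 k : ℕ) : Ei a0 k ≤ 25 * (93 / 100 : ℝ) ^ (2 ^ a0) := by
  refine (Ei_le_succ a0 k).trans ((Ei_bound a0 k).trans ?_)
  have h1 : (0 : ℝ) < (93 / 100 : ℝ) ^ (2 ^ a0) := by positivity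
  have h2 : (0 : ℝ) < (93 / 100 : ℝ) ^ k := by positivity
  nlinarith [mul_pos h1 h2]

/-- ceiling of `x/7` for naturals -/
def c7 (x : ℕ) : ℕ := (x + 6) / 7

theorem c7_ge (x : ℕ) : (x : ℝ) / 7 ≤ (c7 x : ℝ) := by
  unfold c7
  have h : x ≤ 7 * ((x + 6) / 7) := by omega
  have h' : (x : ℝ) ≤ 7 * (((x + 6) / 7 : ℕ) : ℝ) := by exact_mod_cast h
  linarith

theorem step0_num (i0 : ℕ) (h : 1 ≤ i0) :
    (2 ^ (c7 i0) + 1 : ℝ) * (i0 + 1) ≤ 10 * (93 / 50 : ℝ) ^ i0 := by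
  obtain ⟨s, hs⟩ : ∃ s, c7 i0 = s + 1 := ⟨c7 i0 - 1, by unfold c7; omega⟩
  have h7 : 7 * s ≤ i0 - 1 := by unfold c7 at hs; omega
  have h1 : (2 : ℝ) ^ s ≤ (9 / 8 : ℝ) ^ i0 := by
    calc (2 : ℝ) ^ s ≤ ((9 / 8 : ℝ) ^ 7) ^ s := pow_le_pow_left₀ (by norm_num) (by norm_num) s
      _ = (9 / 8 : ℝ) ^ (7 * s) := (pow_mul _ _ _).symm
      _ ≤ (9 / 8 : ℝ) ^ i0 := pow_le_pow_right₀ (by norm_num) (by omega)
  have h2 : (1 : ℝ) ≤ (9 / 8 : ℝ) ^ i0 := one_le_pow₀ (by norm_num)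
  have h3 : (i0 : ℝ) + 1 ≤ 10 / 3 * (248 / 150 : ℝ) ^ i0 := by
    have hb := one_add_mul_le_pow (a := (98 / 150 : ℝ)) (by norm_num) i0
    have : (1 + 98 / 150 : ℝ) = 248 / 150 := by norm_num
    rw [this] at hb
    have hi : (0 : ℝ) ≤ (i0 : ℝ) := Nat.cast_nonneg _
    nlinarith
  have h4 : (93 / 50 : ℝ) ^ i0 = (9 / 8 : ℝ) ^ i0 * (248 / 150 : ℝ) ^ i0 := by
    rw [← mul_pow]; norm_num
  rw [hs, pow_succ, h4]
  have h5 : (2 : ℝ) ^ s * 2 + 1 ≤ 3 * (9 / 8 : ℝ) ^ i0 := by linarith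
  calc ((2 : ℝ) ^ s * 2 + 1) * (i0 + 1) ≤ (3 * (9 / 8 : ℝ) ^ i0) * (10 / 3 * (248 / 150 : ℝ) ^ i0) := by
        apply mul_le_mul h5 h3 (by positivity) (by positivity)
    _ = 10 * ((9 / 8 : ℝ) ^ i0 * (248 / 150 : ℝ) ^ i0) := by ring

theorem step_num (w0 : ℕ) (h : 1 ≤ w0) :
    (6 / 5 : ℝ) * (8 / 5) ^ (w0 - 1) * (5 / 3) ^ (c7 (2 * w0)) ≤
      (2 : ℝ) ^ w0 * (5 / 4 * (93 / 100 : ℝ) ^ w0) := by
  obtain ⟨w, rfl⟩ : ∃ w, w0 = w + 1 := ⟨w0 - 1, by omega⟩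
  obtain ⟨s, hs⟩ : ∃ s, c7 (2 * (w + 1)) = s + 1 := ⟨c7 (2 * (w + 1)) - 1, by unfold c7; omega⟩
  have h7 : 7 * s ≤ 2 * (w + 1) := by unfold c7 at hs; omega
  have h1 : (5 / 3 : ℝ) ^ s ≤ (93 / 80 : ℝ) ^ (w + 1) := by
    have h2 : ((5 / 3 : ℝ) ^ s) ^ 7 ≤ ((93 / 80 : ℝ) ^ (w + 1)) ^ 7 := by
      calc ((5 / 3 : ℝ) ^ s) ^ 7 = (5 / 3 : ℝ) ^ (7 * s) := by rw [← pow_mul, mul_comm]
        _ ≤ (5 / 3 : ℝ) ^ (2 * (w + 1)) := pow_le_pow_right₀ (by norm_num) h7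
        _ = ((5 / 3 : ℝ) ^ 2) ^ (w + 1) := pow_mul _ _ _
        _ ≤ ((93 / 80 : ℝ) ^ 7) ^ (w + 1) := pow_le_pow_left₀ (by norm_num) (by norm_num) _
        _ = ((93 / 80 : ℝ) ^ (w + 1)) ^ 7 := by rw [← pow_mul, ← pow_mul, mul_comm]
    exact (pow_le_pow_iff_left₀ (by positivity) (by positivity) (by norm_num)).mp h2
  rw [hs, Nat.add_sub_cancel, pow_succ (5 / 3 : ℝ) s]
  have h3 : (2 : ℝ) ^ (w + 1) * (5 / 4 * (93 / 100 : ℝ) ^ (w + 1)) =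
      (6 / 5 : ℝ) * (8 / 5) ^ w * ((93 / 80 : ℝ) ^ (w + 1) * (5 / 3)) := by
    have h4 : (2 : ℝ) ^ (w + 1) * (93 / 100 : ℝ) ^ (w + 1) =
        (8 / 5 : ℝ) ^ (w + 1) * (93 / 80 : ℝ) ^ (w + 1) := by
      rw [← mul_pow, ← mul_pow]; norm_num
    calc (2 : ℝ) ^ (w + 1) * (5 / 4 * (93 / 100 : ℝ) ^ (w + 1))
        = 5 / 4 * ((2 : ℝ) ^ (w + 1) * (93 / 100 : ℝ) ^ (w + 1)) := by ring
      _ = 5 / 4 * ((8 / 5 : ℝ) ^ (w + 1) * (93 / 80 : ℝ) ^ (w + 1)) := by rw [h4]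
      _ = _ := by rw [pow_succ (8 / 5 : ℝ) w]; ring
  rw [h3]
  apply mul_le_mul_of_nonneg_left _ (by positivity)
  exact mul_le_mul_of_nonneg_right h1 (by norm_num)

theorem two_rpow_mono {x y : ℝ} (h : x ≤ y) : (2 : ℝ) ^ x ≤ (2 : ℝ) ^ y :=
  Real.rpow_le_rpow_of_exponent_le (by norm_num) h

/-- after the active level of the base range -/
theorem base_active (a0 t : ℕ) :
    mass (psi (2 ^ a0) (θt t) (act t a0 + 1)) ≤
      (2 : ℝ) ^ ((2 : ℝ) ^ (act t a0 + 1) * (5 * (93 / 100 : ℝ) ^ (2 ^ a0))) := by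
  set i0 := 2 ^ a0 with hi0
  have hi1 : 1 ≤ i0 := Nat.one_le_two_pow
  set i := act t a0 with hi
  have hge : i0 ≤ i := act_ge t a0
  have h1 := mass_step0 i0 (θt t) i (c7 i0) hge
    (fun l hl hl' => θt_zero hl (hl'.trans (act_lt t a0)) (by omega))
    (by rw [hi, θt_act]; exact c7_ge _)
  refine h1.trans ?_
  have h2 : (2 : ℝ) ^ i0 + 1 ≤ (2 : ℝ) ^ (i0 + 1) := by
    rw [pow_succ]
    have : (1 : ℝ) ≤ (2 : ℝ) ^ i0 := one_le_pow₀ (by norm_num)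
    linarith
  calc ((2 : ℝ) ^ i0 + 1) ^ ((2 ^ (c7 i0) + 1) * 2 ^ (i - i0))
      ≤ ((2 : ℝ) ^ (i0 + 1)) ^ ((2 ^ (c7 i0) + 1) * 2 ^ (i - i0)) :=
        pow_le_pow_left₀ (by positivity) h2 _
    _ = (2 : ℝ) ^ ((((i0 + 1) * ((2 ^ (c7 i0) + 1) * 2 ^ (i - i0)) : ℕ) : ℝ)) := by
        rw [Real.rpow_natCast, ← pow_mul]
    _ ≤ _ := by
        apply two_rpow_mono
        push_cast
        have h3 := step0_num i0 hi1
        have h4 : (2 : ℝ) ^ (i + 1) = (2 : ℝ) ^ (i - i0) * ((2 : ℝ) ^ i0 * 2) := by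
          rw [← pow_succ, ← pow_add]
          congr 1
          omega
        have h5 : (93 / 50 : ℝ) ^ i0 = (2 : ℝ) ^ i0 * (93 / 100 : ℝ) ^ i0 := by
          rw [← mul_pow]; norm_num
        rw [h5] at h3
        rw [h4]
        calc ((i0 : ℝ) + 1) * (((2 : ℝ) ^ (c7 i0) + 1) * 2 ^ (i - i0))
            = (2 : ℝ) ^ (i - i0) * (((2 : ℝ) ^ (c7 i0) + 1) * (i0 + 1)) := by ring
          _ ≤ (2 : ℝ) ^ (i - i0) * (10 * ((2 : ℝ) ^ i0 * (93 / 100 : ℝ) ^ i0)) :=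
              mul_le_mul_of_nonneg_left h3 (by positivity)
          _ = _ := by ring

/-- the induction statement for the dyadic range `a = a0 + k` -/
def Sa (a0 t k : ℕ) : Prop :=
  ∀ j, 2 ^ (a0 + k) ≤ j → j ≤ 2 ^ (a0 + k + 1) →
    (j ≤ act t (a0 + k) →
      mass (psi (2 ^ a0) (θt t) j) ≤ (2 : ℝ) ^ ((2 : ℝ) ^ j * Ei a0 k)) ∧
    (act t (a0 + k) < j →
      mass (psi (2 ^ a0) (θt t) j) ≤ (2 : ℝ) ^ ((2 : ℝ) ^ j * Ei a0 (k + 1)))

theorem Sa_of {a0 t k : ℕ}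
    (h0 : mass (psi (2 ^ a0) (θt t) (2 ^ (a0 + k))) ≤
      (2 : ℝ) ^ ((2 : ℝ) ^ (2 ^ (a0 + k)) * Ei a0 k))
    (h1 : mass (psi (2 ^ a0) (θt t) (act t (a0 + k) + 1)) ≤
      (2 : ℝ) ^ ((2 : ℝ) ^ (act t (a0 + k) + 1) * Ei a0 (k + 1))) : Sa a0 t k := by
  intro j hj1 hj2
  have hle : 2 ^ a0 ≤ 2 ^ (a0 + k) := Nat.pow_le_pow_right (by norm_num) (by omega)
  constructor
  · intro hj
    apply mass_propagate hle h0 j hj1
    intro l hl hl'
    exact θt_zero hl (lt_of_lt_of_le hl' hj2) (by omega)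
  · intro hj
    have ha := act_ge t (a0 + k)
    apply mass_propagate (j1 := act t (a0 + k) + 1) (by omega) h1 j (by omega)
    intro l hl hl'
    exact θt_zero (by omega) (lt_of_lt_of_le hl' hj2) (by omega)

theorem Sa_all (a0 t k : ℕ) : Sa a0 t k := by
  induction k with
  | zero =>
    apply Sa_of
    · rw [mass_psi_of_le (i0 := 2 ^ a0) (j := 2 ^ (a0 + 0)) _ (le_refl _)]
      show (1 : ℝ) ≤ (2 : ℝ) ^ ((2 : ℝ) ^ (2 ^ (a0 + 0)) * 0)
      rw [mul_zero, Real.rpow_zero]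
    · have h := base_active a0 t
      have h2 : Ei a0 (0 + 1) = 5 * (93 / 100 : ℝ) ^ (2 ^ a0) := by
        show (0 : ℝ) + 5 * (93 / 100 : ℝ) ^ (2 ^ a0) = _
        ring
      rw [h2]
      exact h
  | succ k ih =>
    set i0 := 2 ^ a0 with hi0
    set w0 := 2 ^ (a0 + k) with hw0
    have hw1 : 1 ≤ w0 := Nat.one_le_two_pow
    have hiw : i0 ≤ w0 := Nat.pow_le_pow_right (by norm_num) (by omega)
    have h2w : 2 ^ (a0 + (k + 1)) = 2 * w0 := by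
      rw [← Nat.add_assoc, pow_succ, hw0, mul_comm]
    have h2w' : 2 ^ (a0 + k + 1) = 2 * w0 := by rw [pow_succ, hw0, mul_comm]
    set i := act t (a0 + (k + 1)) with hi
    have hi2 : 2 * w0 ≤ i := by rw [← h2w]; exact act_ge _ _
    have hi3 : i < 2 ^ (a0 + (k + 1) + 1) := act_lt _ _
    have hk1 : act t (a0 + k) < 2 * w0 := by rw [← h2w']; exact act_lt _ _
    have hstart : mass (psi i0 (θt t) (2 ^ (a0 + (k + 1)))) ≤
        (2 : ℝ) ^ ((2 : ℝ) ^ (2 ^ (a0 + (k + 1))) * Ei a0 (k + 1)) :=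
      (ih (2 ^ (a0 + (k + 1))) (by rw [h2w]; omega) (by rw [h2w, h2w'])).2 (by rw [h2w]; exact hk1)
    -- the bound for `i - w`, `w = w0 - 1`
    have hmid : mass (psi i0 (θt t) (i - (w0 - 1))) ≤
        (2 : ℝ) ^ ((2 : ℝ) ^ (i - (w0 - 1)) * Ei a0 (k + 1)) := by
      rcases le_total (i - (w0 - 1)) (2 * w0) with hc | hc
      · have h3 := ih (i - (w0 - 1)) (by omega) (by rw [h2w']; exact hc)
        rcases le_or_gt (i - (w0 - 1)) (act t (a0 + k)) with h4 | h4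
        · refine (h3.1 h4).trans (two_rpow_mono ?_)
          exact mul_le_mul_of_nonneg_left (Ei_le_succ a0 k) (by positivity)
        · exact h3.2 h4
      · apply mass_propagate (j1 := 2 ^ (a0 + (k + 1))) (by rw [h2w]; omega) hstart _ (by rw [h2w]; exact hc)
        intro l hl hl'
        exact θt_zero hl (by omega) (by omega)
    have hact : mass (psi i0 (θt t) (i + 1)) ≤
        (2 : ℝ) ^ ((2 : ℝ) ^ (i + 1) * Ei a0 (k + 1 + 1)) := by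
      have h1 := mass_step_aux i0 (θt t) i (w0 - 1) (c7 (2 * w0)) (by omega) (by
        intro l hl hl'
        rcases le_or_gt (2 * w0) l with hc | hc
        · exact θt_zero (a := a0 + (k + 1)) (by rw [h2w]; exact hc) (by omega) (by omega)
        · apply θt_zero (a := a0 + k) (by omega) (by rw [h2w']; exact hc)
          intro he
          -- `i ≡ t` mod `2 w0`, `l ≡ t` mod `w0`
          have e1 : l % w0 = t % w0 := by
            rw [he]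
            show (2 ^ (a0 + k) + t % 2 ^ (a0 + k)) % w0 = t % w0
            rw [← hw0, Nat.add_mod_left, Nat.mod_mod]
          have e2 : i % w0 = t % w0 := by
            have : i = 2 * w0 + t % (2 * w0) := by
              rw [hi]
              show 2 ^ (a0 + (k + 1)) + t % 2 ^ (a0 + (k + 1)) = _
              rw [h2w]
            rw [this, Nat.mul_comm 2 w0, Nat.mul_add_mod, Nat.mod_mul_right_mod]
          have e3 : (i - l) % w0 = 0 := by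
            have : l ≡ i [MOD w0] := e1.trans e2.symm
            exact Nat.sub_mod_eq_zero_of_mod_eq (e2.trans e1.symm)
          have e4 : i - l < w0 := by omega
          rw [Nat.mod_eq_of_lt e4] at e3
          omega) (by
        rw [hi, θt_act, h2w]
        exact c7_ge _) (hs_tw_le' _ _ _)
      refine h1.trans ?_
      have h3 := step_num w0 hw1
      have hE : Ei a0 (k + 1 + 1) = Ei a0 (k + 1) + 5 / 4 * (93 / 100 : ℝ) ^ w0 := rfl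
      calc (mass (psi i0 (θt t) (i - (w0 - 1))) ^ (2 ^ (w0 - 1))) ^ 2 *
            (2 : ℝ) ^ ((2 : ℝ) ^ (i - (w0 - 1)) *
              ((6 / 5) * (8 / 5) ^ (w0 - 1) * (5 / 3) ^ (c7 (2 * w0))))
          ≤ (((2 : ℝ) ^ ((2 : ℝ) ^ (i - (w0 - 1)) * Ei a0 (k + 1))) ^ (2 ^ (w0 - 1))) ^ 2 *
            (2 : ℝ) ^ ((2 : ℝ) ^ (i - (w0 - 1)) * ((2 : ℝ) ^ w0 * (5 / 4 * (93 / 100 : ℝ) ^ w0))) := by
            apply mul_le_mul _ (two_rpow_mono (mul_le_mul_of_nonneg_left h3 (by positivity)))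
              (by positivity) (by positivity)
            apply pow_le_pow_left₀ (pow_nonneg (mass_psi_nonneg _ _ _) _)
            exact pow_le_pow_left₀ (mass_psi_nonneg _ _ _) hmid _
        _ = (2 : ℝ) ^ ((2 : ℝ) ^ (i + 1) * Ei a0 (k + 1 + 1)) := by
            rw [← pow_mul, ← Real.rpow_natCast, ← Real.rpow_mul (by norm_num),
              ← Real.rpow_add (by norm_num), hE]
            congr 1
            have h6 : (2 : ℝ) ^ (i + 1) = (2 : ℝ) ^ (i - (w0 - 1)) * (2 : ℝ) ^ w0 := by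
              rw [← pow_add]; congr 1; omega
            have h7 : (2 : ℝ) ^ w0 = (2 : ℝ) ^ (w0 - 1) * 2 := by
              rw [← pow_succ]; congr 1; omega
            rw [h6, h7]
            push_cast
            ring
    exact Sa_of hstart hact

/-- [IND] -/
theorem mass_theta_le' (a0 t d : ℕ) :
    mass (psi (2 ^ a0) (θt t) d) ≤ (2 : ℝ) ^ (25 * (2 : ℝ) ^ d * (93 / 100 : ℝ) ^ (2 ^ a0)) := by
  rcases le_or_gt d (2 ^ a0) with h | h
  · rw [mass_psi_of_le _ h]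
    apply Real.one_le_rpow (by norm_num) (by positivity)
  · have hd : d ≠ 0 := (lt_of_le_of_lt (Nat.zero_le _) h).ne'
    set a := Nat.log 2 d with ha
    have h1 : 2 ^ a ≤ d := Nat.pow_log_le_self 2 hd
    have h2 : d < 2 ^ (a + 1) := Nat.lt_pow_succ_log_self (by norm_num) d
    have h3 : a0 ≤ a := by
      rw [ha]
      exact Nat.le_log_of_pow_le (by norm_num) h.le
    obtain ⟨k, hk⟩ := Nat.exists_eq_add_of_le h3
    rw [hk] at h1 h2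
    have hS := Sa_all a0 t k d h1 h2.le
    have h4 : mass (psi (2 ^ a0) (θt t) d) ≤ (2 : ℝ) ^ ((2 : ℝ) ^ d * Ei a0 (k + 1)) := by
      rcases le_or_gt d (act t (a0 + k)) with hc | hc
      · refine (hS.1 hc).trans (two_rpow_mono ?_)
        exact mul_le_mul_of_nonneg_left (Ei_le_succ a0 k) (by positivity)
      · exact hS.2 hc
    refine h4.trans (two_rpow_mono ?_)
    have h5 := Ei_le a0 (k + 1)
    calc (2 : ℝ) ^ d * Ei a0 (k + 1) ≤ (2 : ℝ) ^ d * (25 * (93 / 100 : ℝ) ^ (2 ^ a0)) :=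
          mul_le_mul_of_nonneg_left h5 (by positivity)
      _ = _ := by ring

end Vale.Agent.P162T
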