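import Vale.Agent.P162T.Degree

/-!
# P162 [KILL] The pass kills the low part `0 < δ < 3/2`

(1) `top_of_fixed`: if `w` is fixed by all permutations fixing `y` (`avgOn {y}ᶜ w = w`), then
`T_d w = avgOn univ w` (the position of one card is exactly uniform after one pass).
Induction on `d`, through `FixStab`: for `w` fixed by the stabiliser of `y`, `ρ(g) w` depends only
on `g y`, `E_H w = ½ (w + u w)`, `T w = 2^{-d} ∑_z t_{yz} w`.
(2) `kill`: `D v = δ v`, `0 < δ < 3/2`: `v` is a sum of vectors fixed by stabilisers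
(`mem_Vdeg_of_lt` with `k = 1` if `d ≥ 2`), so `T v = avgOn univ v`, and `avgOn univ v = 0`, because
`D (avgOn univ v) = 0 = δ avgOn univ v`.
-/

open Equiv Finset

set_option linter.unusedSectionVars false

namespace Vale.Agent.P162T

variable {V : Type} [NormedAddCommGroup V] [InnerProductSpace ℝ V]

section Orbit

variable {X : Type} [Fintype X] [DecidableEq X]

/-- `w` is fixed by the stabiliser of `y` -/
def FixStab (ρ : ORep (Perm X) V) (y : X) (w : V) : Prop :=
  ∀ g : Perm X, g y = y → ρ.toHom g w = w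

theorem FixStab.apply {ρ : ORep (Perm X) V} {y : X} {w : V} (h : FixStab ρ y w) (g : Perm X) :
    ρ.toHom g w = ρ.toHom (swap y (g y)) w := by
  have h1 : (swap y (g y) * g) y = y := by simp
  have h2 := h _ h1
  rw [ORep.map_mul_apply] at h2
  calc ρ.toHom g w
      = ρ.toHom (swap y (g y)) (ρ.toHom (swap y (g y)) (ρ.toHom g w)) := by
        rw [← ORep.map_mul_apply ρ (swap y (g y)) (swap y (g y)), swap_mul_self,
          ORep.map_one_apply]
    _ = _ := by rw [h2]

theorem FixStab.map {ρ : ORep (Perm X) V} {y : X} {w : V} (h : FixStab ρ y w) (g0 : Perm X) :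
    FixStab ρ (g0 y) (ρ.toHom g0 w) := by
  intro g hg
  rw [← ORep.map_mul_apply, h.apply, h.apply g0, Perm.mul_apply, hg]

theorem FixStab.of_avgOn {ρ : ORep (Perm X) V} {y : X} {w : V}
    (h : avgOn ρ {y}ᶜ w = w) : FixStab ρ y w := by
  intro g hg
  rw [← h]
  refine avgOn_fixed ρ {y}ᶜ w g fun x hx => ?_
  have : x = y := by simpa using hx
  rw [this, hg]

theorem avgOn_univ_map (ρ : ORep (Perm X) V) (g : Perm X) (w : V) :
    avgOn ρ Finset.univ (ρ.toHom g w) = avgOn ρ Finset.univ w := by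
  refine ext_inner_right ℝ fun x => ?_
  rw [avgOn_symm, ORep.inner_map_left, avgOn_fixed, avgOn_symm]
  intro z hz
  exact absurd (mem_univ z) hz

theorem FixStab.avgOn_univ [Nonempty X] {ρ : ORep (Perm X) V} {y : X} {w : V}
    (h : FixStab ρ y w) :
    avgOn ρ Finset.univ w = (1 / (Fintype.card X : ℝ)) • ∑ z, ρ.toHom (swap y z) w := by
  set m : V := (1 / (Fintype.card X : ℝ)) • ∑ z, ρ.toHom (swap y z) w with hm
  have hn : (Fintype.card X : ℝ) ≠ 0 := Nat.cast_ne_zero.2 Fintype.card_ne_zero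
  have h1 : avgOn ρ Finset.univ m = m := by
    refine avgOn_eq_of_fixed ρ _ _ fun g _ => ?_
    rw [hm, map_smul, map_sum]
    congr 1
    rw [← Equiv.sum_comp g (fun z => ρ.toHom (swap y z) w)]
    refine Finset.sum_congr rfl fun z _ => ?_
    rw [← ORep.map_mul_apply, h.apply, Perm.mul_apply, swap_apply_left]
  rw [← h1, hm, map_smul, map_sum]
  rw [Finset.sum_congr rfl fun z _ => avgOn_univ_map ρ (swap y z) w, Finset.sum_const,
    Finset.card_univ, ← Nat.cast_smul_eq_nsmul ℝ, smul_smul, one_div, inv_mul_cancel₀ hn, one_smul]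

end Orbit

section Step

variable {X : Type} [Fintype X] [DecidableEq X]

theorem EH_of_fix (ρ : ORep (Perm (X ⊕ X)) V) (y0 : X) (w : V)
    (h : ∀ x, x ≠ y0 → ρ.toHom (flp {x}) w = w) :
    EH ρ w = (1 / 2 : ℝ) • (w + ρ.toHom (flp {y0}) w) := by
  have hcomm : ∀ A B : Finset X, ∀ v : V, ρ.toHom (flp A) (ρ.toHom (flp B) v)
      = ρ.toHom (flp B) (ρ.toHom (flp A) v) := by
    intro A B v
    rw [← ORep.map_mul_apply, ← ORep.map_mul_apply, flp_mul_flp, flp_mul_flp, symmDiff_comm]
  have hself : ∀ v : V, ρ.toHom (flp {y0}) (ρ.toHom (flp {y0}) v) = v := by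
    intro v
    rw [← ORep.map_mul_apply, flp_mul_flp, symmDiff_self]
    change ρ.toHom (flp ∅) v = v
    rw [flp_empty, ORep.map_one_apply]
  set u : V := ρ.toHom (flp {y0}) w with hu
  have hux : ∀ x, x ≠ y0 → ρ.toHom (flp {x}) u = u := by
    intro x hx
    rw [hu, hcomm, h x hx]
  have hp : sec ρ ∅ ((1 / 2 : ℝ) • (w + u)) = (1 / 2 : ℝ) • (w + u) := by
    rw [sec_eq_self_iff]
    intro x
    rw [if_neg (Finset.notMem_empty x), one_smul, map_smul, map_add]
    by_cases hx : x = y0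
    · subst hx
      rw [← hu, hu, hself, add_comm]
    · rw [h x hx, hux x hx]
  have hm : sec ρ {y0} ((1 / 2 : ℝ) • (w - u)) = (1 / 2 : ℝ) • (w - u) := by
    rw [sec_eq_self_iff]
    intro x
    by_cases hx : x = y0
    · subst hx
      rw [if_pos (Finset.mem_singleton_self x), map_smul, map_sub, ← hu, hu, hself]
      module
    · rw [if_neg (by simpa using hx), one_smul, map_smul, map_sub, h x hx, hux x hx]
  have hm0 : sec ρ ∅ ((1 / 2 : ℝ) • (w - u)) = 0 := by
    have h1 := congrArg (fun T : V →ₗ[ℝ] V => T ((1 / 2 : ℝ) • (w - u))) (sec_mul_sec ρ ∅ {y0})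
    have h2 : (∅ : Finset X) ≠ {y0} := (Finset.singleton_ne_empty y0).symm
    rw [if_neg h2] at h1
    simp only [Module.End.mul_apply] at h1
    rw [hm] at h1
    simpa using h1
  have hw : w = (1 / 2 : ℝ) • (w + u) + (1 / 2 : ℝ) • (w - u) := by module
  rw [← sec_empty]
  conv_lhs => rw [hw]
  rw [map_add, hp, hm0, add_zero]

variable (ρ : ORep (Perm (X ⊕ X)) V) (TL TR : V →ₗ[ℝ] V) (c : ℝ)

theorem step_left
    (hTL : ∀ y w, FixStab (ρ.comp inL) y w → TL w = c • ∑ z, ρ.toHom (inL (swap y z)) w)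
    (hTR' : ∀ w, (∀ b, ρ.toHom (inR b) w = w) → TR w = w)
    (y0 : X) (w : V) (h : FixStab ρ (Sum.inl y0) w) :
    TL (TR w) = c • ∑ z, ρ.toHom (swap (Sum.inl y0) (Sum.inl z)) w := by
  rw [hTR' w fun b => h _ (inR_apply_inl b y0), hTL y0 w]
  · congr 1
    refine Finset.sum_congr rfl fun z _ => ?_
    rw [h.apply, inL_apply_inl, swap_apply_left]
  · intro a ha
    refine h _ ?_
    rw [inL_apply_inl, ha]

theorem step_right
    (hTL' : ∀ w, (∀ a, ρ.toHom (inL a) w = w) → TL w = w)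
    (hTR : ∀ y w, FixStab (ρ.comp inR) y w → TR w = c • ∑ z, ρ.toHom (inR (swap y z)) w)
    (y0 : X) (w : V) (h : FixStab ρ (Sum.inr y0) w) :
    TL (TR w) = c • ∑ z, ρ.toHom (swap (Sum.inr y0) (Sum.inr z)) w := by
  have hfix : FixStab (ρ.comp inR) y0 w := by
    intro a ha
    refine h _ ?_
    rw [inR_apply_inr, ha]
  rw [hTR y0 w hfix, map_smul, map_sum]
  congr 1
  refine Finset.sum_congr rfl fun z _ => ?_
  rw [hTL', h.apply, inR_apply_inr, swap_apply_left]
  intro a
  have h1 := congrArg (fun T : V →ₗ[ℝ] V => T w) (inL_commute_inR ρ a (swap y0 z)).eq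
  simp only [Module.End.mul_apply] at h1
  rw [h1, h _ (inL_apply_inr a y0)]

theorem flp_fix_inl {x y0 : X} (h : x ≠ y0) : flp {x} (Sum.inl y0 : X ⊕ X) = Sum.inl y0 := by
  rw [flp_apply_inl, if_neg]
  simpa using h.symm

theorem flp_fix_inr {x y0 : X} (h : x ≠ y0) : flp {x} (Sum.inr y0 : X ⊕ X) = Sum.inr y0 := by
  rw [flp_apply_inr, if_neg]
  simpa using h.symm

theorem flp_self_inl (y0 : X) : flp {y0} (Sum.inl y0 : X ⊕ X) = Sum.inr y0 := by
  rw [flp_apply_inl, if_pos (Finset.mem_singleton_self y0)]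

theorem flp_self_inr (y0 : X) : flp {y0} (Sum.inr y0 : X ⊕ X) = Sum.inl y0 := by
  rw [flp_apply_inr, if_pos (Finset.mem_singleton_self y0)]

theorem step_aux
    (hTL : ∀ y w, FixStab (ρ.comp inL) y w → TL w = c • ∑ z, ρ.toHom (inL (swap y z)) w)
    (hTR : ∀ y w, FixStab (ρ.comp inR) y w → TR w = c • ∑ z, ρ.toHom (inR (swap y z)) w)
    (hTL' : ∀ w, (∀ a, ρ.toHom (inL a) w = w) → TL w = w)
    (hTR' : ∀ w, (∀ b, ρ.toHom (inR b) w = w) → TR w = w)
    (y : X ⊕ X) (w : V) (h : FixStab ρ y w) :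
    TL (TR (EH ρ w)) = (c / 2) • ∑ z, ρ.toHom (swap y z) w := by
  rw [Fintype.sum_sum_type]
  rcases y with y0 | y0
  · have h2 := h.map (flp {y0})
    rw [flp_self_inl] at h2
    rw [EH_of_fix ρ y0 w fun x hx => h _ (flp_fix_inl hx), map_smul, map_add, map_smul, map_add,
      step_left ρ TL TR c hTL hTR' y0 w h, step_right ρ TL TR c hTL' hTR y0 _ h2]
    have e : ∀ z ∈ (univ : Finset X), ρ.toHom (swap (Sum.inr y0) (Sum.inr z))
        (ρ.toHom (flp {y0}) w) = ρ.toHom (swap (Sum.inl y0) (Sum.inr z)) w := by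
      intro z _
      rw [← ORep.map_mul_apply, h.apply, Perm.mul_apply, flp_self_inl, swap_apply_left]
    rw [Finset.sum_congr rfl e]
    module
  · have h2 := h.map (flp {y0})
    rw [flp_self_inr] at h2
    rw [EH_of_fix ρ y0 w fun x hx => h _ (flp_fix_inr hx), map_smul, map_add, map_smul, map_add,
      step_right ρ TL TR c hTL' hTR y0 w h, step_left ρ TL TR c hTL hTR' y0 _ h2]
    have e : ∀ z ∈ (univ : Finset X), ρ.toHom (swap (Sum.inl y0) (Sum.inl z))
        (ρ.toHom (flp {y0}) w) = ρ.toHom (swap (Sum.inr y0) (Sum.inl z)) w := by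
      intro z _
      rw [← ORep.map_mul_apply, h.apply, Perm.mul_apply, flp_self_inr, swap_apply_left]
    rw [Finset.sum_congr rfl e]
    module

end Step

theorem top_of_all_fixed (d : ℕ) (ρ : ORep (Perm (Cube d)) V) (w : V)
    (h : ∀ g, ρ.toHom g w = w) : Top d ρ w = w := by
  rw [Top_eq_op, ORep.op_apply, Finset.sum_congr rfl fun g _ => by rw [h g], ← Finset.sum_smul,
    tlaw_sum, one_smul]

theorem top_of_stab (d : ℕ) : ∀ (ρ : ORep (Perm (Cube d)) V) (y : Cube d) (w : V),
    FixStab ρ y w → Top d ρ w = (1 / (2 : ℝ) ^ d) • ∑ z, ρ.toHom (swap y z) w := by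
  induction d with
  | zero =>
    intro ρ y w h
    have h1 : ∀ z ∈ (univ : Finset (Cube 0)), ρ.toHom (swap y z) w = w := by
      intro z _
      have : z = y := Subsingleton.elim (α := Unit) z y
      rw [this, swap_self]
      exact ρ.map_one_apply w
    rw [Finset.sum_congr rfl h1, Finset.sum_const, Finset.card_univ, card_cube]
    change w = _
    simp
  | succ d ih =>
    intro ρ y w h
    have h1 := step_aux (X := Cube d) ρ (Top d (ORep.comp (G := Perm (Cube d ⊕ Cube d)) ρ inL))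
      (Top d (ORep.comp (G := Perm (Cube d ⊕ Cube d)) ρ inR)) (1 / (2 : ℝ) ^ d)
      (fun y w h => ih _ y w h) (fun y w h => ih _ y w h)
      (fun w h => top_of_all_fixed d _ w h) (fun w h => top_of_all_fixed d _ w h) y w h
    rw [pow_succ, ← div_div]
    exact h1

/-- [KILL] -/
theorem top_of_fixed (d : ℕ) (ρ : ORep (Perm (Cube d)) V) (y : Cube d) (w : V)
    (hw : avgOn ρ {y}ᶜ w = w) : Top d ρ w = avgOn ρ Finset.univ w := by
  have h := FixStab.of_avgOn hw
  have : Nonempty (Cube d) := ⟨y⟩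
  rw [top_of_stab d ρ y w h, h.avgOn_univ, card_cube]
  push_cast
  rfl

theorem Dop_avgOn_univ {X : Type} [Fintype X] [DecidableEq X] (ρ : ORep (Perm X) V) (v : V) :
    Dop ρ (avgOn ρ Finset.univ v) = 0 := by
  unfold Dop lap
  rw [LinearMap.smul_apply, lapOn_apply]
  have h : ∀ x ∈ (univ : Finset X), ∑ y : X, (avgOn ρ Finset.univ v
      - ρ.toHom (swap x y) (avgOn ρ Finset.univ v)) = 0 := by
    intro x _
    refine Finset.sum_eq_zero fun y _ => ?_
    rw [avgOn_fixed ρ _ v _ fun z hz => absurd (mem_univ z) hz, sub_self]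
  rw [Finset.sum_congr rfl h]
  simp

theorem perm_eq_one_of_card_le_two {X : Type} [Fintype X] [DecidableEq X]
    (hX : Fintype.card X ≤ 2) (g : Perm X) (y : X) (hg : g y = y) : g = 1 := by
  ext x
  by_contra hx
  have h1 : x ≠ y := by
    rintro rfl
    exact hx hg
  have h2 : g x ≠ y := by
    intro hc
    exact h1 (g.injective (hc.trans hg.symm))
  have h3 : g x ≠ x := hx
  have h4 : ({x, y, g x} : Finset X).card = 3 := by
    rw [Finset.card_eq_three]
    exact ⟨x, y, g x, h1, h3.symm, h2.symm, rfl⟩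
  have h5 := Finset.card_le_univ ({x, y, g x} : Finset X)
  omega

/-- [KILL] -/
theorem kill [FiniteDimensional ℝ V] (d : ℕ) (ρ : ORep (Perm (Cube d)) V) {v : V} {δ : ℝ}
    (hv : Dop ρ v = δ • v) (h0 : 0 < δ) (h1 : δ < 3 / 2) : Top d ρ v = 0 := by
  have hne : Nonempty (Cube d) := by
    rw [← Fintype.card_pos_iff, card_cube]
    positivity
  have hz : avgOn ρ Finset.univ v = 0 := by
    have e1 := Dop_avgOn_univ ρ v
    have e2 := congrArg (fun T : V →ₗ[ℝ] V => T v) (avgOn_commute_Dop ρ Finset.univ).eq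
    simp only [Module.End.mul_apply] at e2
    rw [← e2, hv, map_smul] at e1
    exact (smul_eq_zero.1 e1).resolve_left h0.ne'
  suffices h : Top d ρ v = avgOn ρ Finset.univ v by rw [h, hz]
  by_cases hd : d ≤ 1
  · obtain ⟨y⟩ := hne
    refine top_of_fixed d ρ y v (avgOn_eq_of_fixed ρ _ v fun g hg => ?_)
    have hg1 : g = 1 := by
      refine perm_eq_one_of_card_le_two ?_ g y (hg y (by simp))
      rw [card_cube]
      interval_cases d <;> norm_num
    rw [hg1]
    exact ρ.map_one_apply v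
  · have hd2 : 2 ≤ d := by omega
    have hcard : (4 : ℕ) ≤ 2 ^ d := by
      calc 4 = 2 ^ 2 := by norm_num
        _ ≤ 2 ^ d := Nat.pow_le_pow_right (by norm_num) hd2
    have hcardR : (4 : ℝ) ≤ 2 ^ d := by exact_mod_cast hcard
    have hmem : v ∈ Vdeg ρ 1 := by
      refine mem_Vdeg_of_lt ρ 1 ?_ hv ?_
      · rw [card_cube]
        omega
      · rw [card_cube]
        push_cast
        rw [lt_div_iff₀ (by positivity)]
        nlinarith
    have hle : Vdeg ρ 1 ≤ LinearMap.ker (Top d ρ - avgOn ρ Finset.univ) := by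
      unfold Vdeg
      refine iSup_le fun Y => ?_
      obtain ⟨y, hy⟩ := Finset.card_eq_one.1 Y.2
      rintro _ ⟨w, rfl⟩
      rw [LinearMap.mem_ker, LinearMap.sub_apply, sub_eq_zero]
      rw [hy]
      refine top_of_fixed d ρ y _ ?_
      have h2 := congrArg (fun T : V →ₗ[ℝ] V => T w)
        (avgOn_mul_avgOn ρ (subset_refl ({y}ᶜ : Finset (Cube d)))).1
      simpa using h2
    have h3 := hle hmem
    rw [LinearMap.mem_ker, LinearMap.sub_apply, sub_eq_zero] at h3
    exact h3

/-- [KILL] improve any rate by 0 on `(0, 3/2)` -/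
theorem rate_kill {d : ℕ} {q : ℝ → ℝ} (hq : Rate d q) :
    Rate d (fun δ => if 0 < δ ∧ δ < 3 / 2 then 0 else q δ) := by
  intro V _ _ _ ρ v δ hv hv0
  by_cases h : 0 < δ ∧ δ < 3 / 2
  · simp only [h, and_self, if_true]
    rw [kill d ρ hv h.1 h.2, norm_zero]
    simp
  · simp only [h, if_false]
    exact hq V ρ v δ hv hv0

end Vale.Agent.P162T
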