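import Vale.Agent.P162T.Basic

/-!
# P162 [LVK] The operator `Y = D - D_L - D_R` on the levels of `H`

Notation: `N = card X`, `n = 2N`, `u_x = flp {x} = (inl x  inr x)`.  `D w = δ w`.

`CC x y = t(lx,ly) + t(rx,ry) - t(lx,ry) - t(rx,ly)`, `KK = ∑_{x ≠ y} CC x y`,
`Y = (1/(4N)) (∑_x CC x x + KK)`.
-/

open Equiv Finset

set_option linter.unusedSectionVars false

namespace Vale.Agent.P162T

variable {X : Type} [Fintype X] [DecidableEq X] {V : Type} [NormedAddCommGroup V]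
  [InnerProductSpace ℝ V]

/-- the operator of a transposition -/
noncomputable def tt (ρ : ORep (Perm (X ⊕ X)) V) (p q : X ⊕ X) : V →ₗ[ℝ] V :=
  ρ.toHom (swap p q)

/-- the four-term operator -/
noncomputable def CC (ρ : ORep (Perm (X ⊕ X)) V) (x y : X) : V →ₗ[ℝ] V :=
  tt ρ (Sum.inl x) (Sum.inl y) + tt ρ (Sum.inr x) (Sum.inr y)
    - tt ρ (Sum.inl x) (Sum.inr y) - tt ρ (Sum.inr x) (Sum.inl y)

/-- the off-diagonal pairs -/
def offp (X : Type) [Fintype X] [DecidableEq X] : Finset (X × X) :=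
  Finset.univ.filter fun p => p.1 ≠ p.2

noncomputable def KK (ρ : ORep (Perm (X ⊕ X)) V) : V →ₗ[ℝ] V :=
  ∑ p ∈ offp X, CC ρ p.1 p.2

/-! ### conjugation rules -/

theorem rep_mul_tt (ρ : ORep (Perm (X ⊕ X)) V) (g : Perm (X ⊕ X)) (p q : X ⊕ X) :
    ρ.toHom g * tt ρ p q = tt ρ (g p) (g q) * ρ.toHom g := by
  unfold tt
  rw [← map_mul, ← map_mul, Equiv.mul_swap_eq_swap_mul]

theorem tt_comm (ρ : ORep (Perm (X ⊕ X)) V) (p q : X ⊕ X) : tt ρ p q = tt ρ q p := by
  unfold tt; rw [swap_comm]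

theorem tt_self (ρ : ORep (Perm (X ⊕ X)) V) (p : X ⊕ X) : tt ρ p p = 1 := by
  unfold tt; rw [swap_self]; exact map_one _

theorem tt_lr (ρ : ORep (Perm (X ⊕ X)) V) (x : X) :
    tt ρ (Sum.inl x) (Sum.inr x) = ρ.toHom (flp {x}) := by
  unfold tt; rw [flp_singleton]

theorem tt_inner (ρ : ORep (Perm (X ⊕ X)) V) (p q : X ⊕ X) (v w : V) :
    inner ℝ (tt ρ p q v) w = inner ℝ v (tt ρ p q w) := by
  unfold tt
  rw [ρ.inner_map_left, swap_inv]

theorem tt_tt (ρ : ORep (Perm (X ⊕ X)) V) (p q : X ⊕ X) (v : V) :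
    tt ρ p q (tt ρ p q v) = v := by
  unfold tt
  rw [← ρ.map_mul_apply, swap_mul_self, ρ.map_one_apply]

theorem flp_inl_self (x : X) : flp ({x} : Finset X) (Sum.inl x) = Sum.inr x := by
  rw [flp_apply_inl]; simp

theorem flp_inr_self (x : X) : flp ({x} : Finset X) (Sum.inr x) = Sum.inl x := by
  rw [flp_apply_inr]; simp

theorem flp_inl_ne {x z : X} (h : x ≠ z) : flp ({z} : Finset X) (Sum.inl x) = Sum.inl x := by
  rw [flp_apply_inl]; simp [h]

theorem flp_inr_ne {x z : X} (h : x ≠ z) : flp ({z} : Finset X) (Sum.inr x) = Sum.inr x := by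
  rw [flp_apply_inr]; simp [h]

theorem CC_comm (ρ : ORep (Perm (X ⊕ X)) V) (x y : X) : CC ρ x y = CC ρ y x := by
  unfold CC
  rw [tt_comm ρ (Sum.inl x) (Sum.inl y), tt_comm ρ (Sum.inr x) (Sum.inr y),
    tt_comm ρ (Sum.inl x) (Sum.inr y), tt_comm ρ (Sum.inr x) (Sum.inl y)]
  abel

theorem CC_diag (ρ : ORep (Perm (X ⊕ X)) V) (x : X) :
    CC ρ x x = (2 : ℝ) • (1 - ρ.toHom (flp {x})) := by
  unfold CC
  rw [tt_self, tt_self, tt_comm ρ (Sum.inr x) (Sum.inl x), tt_lr, two_smul]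
  abel

theorem CC_conj (ρ : ORep (Perm (X ⊕ X)) V) {x y : X} (hxy : x ≠ y) (z : X) :
    ρ.toHom (flp {z}) * CC ρ x y =
      (if z ∈ ({x, y} : Finset X) then (-1 : ℝ) else 1) • (CC ρ x y * ρ.toHom (flp {z})) := by
  by_cases hzx : z = x
  · subst hzx
    unfold CC
    rw [mul_sub, mul_sub, mul_add, rep_mul_tt, rep_mul_tt, rep_mul_tt, rep_mul_tt,
      flp_inl_self, flp_inr_self, flp_inl_ne (Ne.symm hxy), flp_inr_ne (Ne.symm hxy)]
    simp only [mem_insert, true_or, if_true, neg_smul, one_smul, sub_mul, add_mul]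
    abel
  · by_cases hzy : z = y
    · subst hzy
      unfold CC
      rw [mul_sub, mul_sub, mul_add, rep_mul_tt, rep_mul_tt, rep_mul_tt, rep_mul_tt,
        flp_inl_self, flp_inr_self, flp_inl_ne hxy, flp_inr_ne hxy]
      simp only [mem_insert, mem_singleton, or_true, if_true, neg_smul, one_smul, sub_mul, add_mul]
      abel
    · unfold CC
      rw [mul_sub, mul_sub, mul_add, rep_mul_tt, rep_mul_tt, rep_mul_tt, rep_mul_tt,
        flp_inl_ne (Ne.symm hzx), flp_inr_ne (Ne.symm hzx), flp_inl_ne (Ne.symm hzy),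
        flp_inr_ne (Ne.symm hzy)]
      simp only [mem_insert, mem_singleton, hzx, hzy, or_self, if_false, one_smul, sub_mul, add_mul]

theorem sec_CC (ρ : ORep (Perm (X ⊕ X)) V) {x y : X} (hxy : x ≠ y) (S : Finset X) (w : V) :
    sec ρ S (CC ρ x y w) = CC ρ x y (sec ρ (symmDiff S {x, y}) w) := by
  have h := sec_shift ρ (CC ρ x y) {x, y} (CC_conj ρ hxy) (symmDiff S {x, y})
  rw [symmDiff_symmDiff_cancel_right] at h
  have h2 := congrArg (fun L : V →ₗ[ℝ] V => L w) h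
  simpa using h2.symm

/-! ### the algebraic identity for `Y` -/

theorem lap_eq_tt (ρ : ORep (Perm (X ⊕ X)) V) :
    lap ρ = (1 / 2 : ℝ) • ∑ x : X, ∑ y : X,
      ((1 - tt ρ (Sum.inl x) (Sum.inl y)) + (1 - tt ρ (Sum.inr x) (Sum.inr y))
        + (1 - tt ρ (Sum.inl x) (Sum.inr y)) + (1 - tt ρ (Sum.inr x) (Sum.inl y))) := by
  unfold lap lapOn
  congr 1
  rw [Fintype.sum_sum_type]
  simp only [Fintype.sum_sum_type, Finset.sum_add_distrib]
  change (∑ x : X, ∑ y : X, (1 - tt ρ (Sum.inl x) (Sum.inl y))) +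
      (∑ x : X, ∑ y : X, (1 - tt ρ (Sum.inl x) (Sum.inr y))) +
      ((∑ x : X, ∑ y : X, (1 - tt ρ (Sum.inr x) (Sum.inl y))) +
      (∑ x : X, ∑ y : X, (1 - tt ρ (Sum.inr x) (Sum.inr y)))) = _
  abel

theorem inL_swapK (x y : X) : inL (swap x y) = swap (Sum.inl x : X ⊕ X) (Sum.inl y) := by
  ext z
  rcases z with z | z
  · rw [inL_apply_inl, swap_apply_def, swap_apply_def]
    simp only [Sum.inl.injEq]
    split_ifs <;> rfl
  · rw [inL_apply_inr, swap_apply_def]
    simp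

theorem inR_swapK (x y : X) : inR (swap x y) = swap (Sum.inr x : X ⊕ X) (Sum.inr y) := by
  ext z
  rcases z with z | z
  · rw [inR_apply_inl, swap_apply_def]
    simp
  · rw [inR_apply_inr, swap_apply_def, swap_apply_def]
    simp only [Sum.inr.injEq]
    split_ifs <;> rfl

theorem DL_eq_tt (ρ : ORep (Perm (X ⊕ X)) V) :
    DL ρ = (1 / (Fintype.card X : ℝ)) • (1 / 2 : ℝ) • ∑ x : X, ∑ y : X,
      (1 - tt ρ (Sum.inl x) (Sum.inl y)) := by
  unfold DL Dop lap lapOn tt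
  simp only [ORep.comp_apply, inL_swapK]

theorem DR_eq_tt (ρ : ORep (Perm (X ⊕ X)) V) :
    DR ρ = (1 / (Fintype.card X : ℝ)) • (1 / 2 : ℝ) • ∑ x : X, ∑ y : X,
      (1 - tt ρ (Sum.inr x) (Sum.inr y)) := by
  unfold DR Dop lap lapOn tt
  simp only [ORep.comp_apply, inR_swapK]

theorem Yop_eq_CC (ρ : ORep (Perm (X ⊕ X)) V) :
    Yop ρ = (1 / (4 * (Fintype.card X : ℝ))) • ∑ x : X, ∑ y : X, CC ρ x y := by
  unfold Yop
  rw [DL_eq_tt, DR_eq_tt]
  unfold Dop
  rw [lap_eq_tt]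
  have hc : ((Fintype.card (X ⊕ X) : ℕ) : ℝ) = 2 * (Fintype.card X : ℝ) := by
    rw [Fintype.card_sum]; push_cast; ring
  rw [hc]
  have e1 : (1 / (2 * (Fintype.card X : ℝ))) = 2 * (1 / (4 * (Fintype.card X : ℝ))) := by
    rcases eq_or_ne (Fintype.card X : ℝ) 0 with h | h
    · simp [h]
    · field_simp; norm_num
  have e2 : (1 / ((Fintype.card X : ℝ))) = 4 * (1 / (4 * (Fintype.card X : ℝ))) := by
    rcases eq_or_ne (Fintype.card X : ℝ) 0 with h | h
    · simp [h]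
    · field_simp
  rw [e1, e2]
  simp only [smul_smul]
  rw [show (2 * (1 / (4 * (Fintype.card X : ℝ))) * (1 / 2)) = 1 / (4 * (Fintype.card X : ℝ)) by ring,
    show (4 * (1 / (4 * (Fintype.card X : ℝ))) * (1 / 2)) = (1 / (4 * (Fintype.card X : ℝ))) * 2 by
      ring]
  rw [mul_smul, mul_smul, ← smul_sub, ← smul_sub]
  congr 1
  rw [two_smul, two_smul, sub_sub, ← Finset.sum_add_distrib, ← Finset.sum_add_distrib,
    ← Finset.sum_add_distrib, ← Finset.sum_sub_distrib]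
  refine Finset.sum_congr rfl fun x _ => ?_
  rw [← Finset.sum_add_distrib, ← Finset.sum_add_distrib,
    ← Finset.sum_add_distrib, ← Finset.sum_sub_distrib]
  refine Finset.sum_congr rfl fun y _ => ?_
  unfold CC
  abel

theorem sum_CC_eq (ρ : ORep (Perm (X ⊕ X)) V) :
    ∑ x : X, ∑ y : X, CC ρ x y = (∑ x : X, CC ρ x x) + KK ρ := by
  unfold KK offp
  rw [← Finset.sum_product' (s := univ) (t := univ) (f := fun x y => CC ρ x y),
    Finset.univ_product_univ,
    ← Finset.sum_filter_add_sum_filter_not (univ : Finset (X × X)) (fun p => p.1 = p.2)]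
  congr 1
  refine Finset.sum_bij' (fun p _ => p.1) (fun x _ => (x, x)) ?_ ?_ ?_ ?_ ?_
  · intro p _; simp
  · intro x _; simp
  · rintro ⟨a, b⟩ hp
    simp only [mem_filter, mem_univ, true_and] at hp
    simp [hp]
  · intro x _; rfl
  · rintro ⟨a, b⟩ hp
    simp only [mem_filter, mem_univ, true_and] at hp
    simp [hp]

/-! ### the two estimates (K1), (K2) -/

section K12

variable (ρ : ORep (Perm (X ⊕ X)) V) {x y : X}

/-- `t(x',y) w = u_x t(x,y) u_x w` -/
theorem tt_rl_apply (hxy : x ≠ y) (w : V) :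
    tt ρ (Sum.inr x) (Sum.inl y) (ρ.toHom (flp {x}) w) =
      ρ.toHom (flp {x}) (tt ρ (Sum.inl x) (Sum.inl y) w) := by
  have h := rep_mul_tt ρ (flp {x}) (Sum.inl x) (Sum.inl y)
  rw [flp_inl_self, flp_inl_ne (Ne.symm hxy)] at h
  exact (congrArg (fun L : V →ₗ[ℝ] V => L w) h).symm

theorem tt_lr_apply (hxy : x ≠ y) (w : V) :
    tt ρ (Sum.inl x) (Sum.inr y) (ρ.toHom (flp {y}) w) =
      ρ.toHom (flp {y}) (tt ρ (Sum.inl x) (Sum.inl y) w) := by
  have h := rep_mul_tt ρ (flp {y}) (Sum.inl x) (Sum.inl y)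
  rw [flp_inl_self, flp_inl_ne hxy] at h
  exact (congrArg (fun L : V →ₗ[ℝ] V => L w) h).symm

theorem tt_rr_apply (hxy : x ≠ y) (w : V) :
    tt ρ (Sum.inr x) (Sum.inr y) (ρ.toHom (flp {x}) w) =
      ρ.toHom (flp {x}) (tt ρ (Sum.inl x) (Sum.inr y) w) := by
  have h := rep_mul_tt ρ (flp {x}) (Sum.inl x) (Sum.inr y)
  rw [flp_inl_self, flp_inr_ne (Ne.symm hxy)] at h
  exact (congrArg (fun L : V →ₗ[ℝ] V => L w) h).symm

/-- `t u_x t = t(x',y)` -/
theorem tt_u_tt (_hxy : x ≠ y) (w : V) :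
    tt ρ (Sum.inl x) (Sum.inl y) (ρ.toHom (flp {x}) (tt ρ (Sum.inl x) (Sum.inl y) w)) =
      tt ρ (Sum.inr x) (Sum.inl y) w := by
  have h := rep_mul_tt ρ (swap (Sum.inl x) (Sum.inl y)) (Sum.inl x) (Sum.inr x)
  rw [tt_lr, swap_apply_left, swap_apply_of_ne_of_ne (by simp) (by simp)] at h
  have h2 := congrArg (fun L : V →ₗ[ℝ] V => L (tt ρ (Sum.inl x) (Sum.inl y) w)) h
  change tt ρ (Sum.inl x) (Sum.inl y) (ρ.toHom (flp {x}) (tt ρ (Sum.inl x) (Sum.inl y) w)) =
    tt ρ (Sum.inl y) (Sum.inr x) (tt ρ (Sum.inl x) (Sum.inl y)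
      (tt ρ (Sum.inl x) (Sum.inl y) w)) at h2
  rw [h2, tt_tt, tt_comm]

theorem tt_v_tt (hxy : x ≠ y) (w : V) :
    tt ρ (Sum.inl x) (Sum.inl y) (ρ.toHom (flp {y}) (tt ρ (Sum.inl x) (Sum.inl y) w)) =
      tt ρ (Sum.inl x) (Sum.inr y) w := by
  rw [tt_comm ρ (Sum.inl x) (Sum.inl y), tt_u_tt ρ (Ne.symm hxy) w, tt_comm]

theorem u_inner (z : X) (v w : V) :
    inner ℝ (ρ.toHom (flp {z}) v) w = inner ℝ v (ρ.toHom (flp {z}) w) := by
  rw [ρ.inner_map_left, flp_inv]

theorem u_u (z : X) (v : V) : ρ.toHom (flp {z}) (ρ.toHom (flp {z}) v) = v := by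
  have h := ρ.map_mul_apply (flp {z}) (flp {z}) v
  rw [← h, flp_mul_flp, symmDiff_self]
  change ρ.toHom (flp (∅ : Finset X)) v = v
  rw [flp_empty, ρ.map_one_apply]

theorem u_comm (z z' : X) (v : V) :
    ρ.toHom (flp {z}) (ρ.toHom (flp {z'}) v) = ρ.toHom (flp {z'}) (ρ.toHom (flp {z}) v) := by
  rw [← ρ.map_mul_apply, ← ρ.map_mul_apply, flp_mul_flp, flp_mul_flp, symmDiff_comm]

/-- `‖(1 ± u_x)(1 - u_y) v‖² = 4 ⟨v, (1 ± u_x)(1 - u_y) v⟩` expanded -/
theorem norm_sq_two (e : ℝ) (he : e = 1 ∨ e = -1) (v : V) :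
    ‖v + e • ρ.toHom (flp {x}) v - ρ.toHom (flp {y}) v
        - e • ρ.toHom (flp {x}) (ρ.toHom (flp {y}) v)‖ ^ 2 =
      4 * (‖v‖ ^ 2 + e * inner ℝ v (ρ.toHom (flp {x}) v) - inner ℝ v (ρ.toHom (flp {y}) v)
        - e * inner ℝ v (ρ.toHom (flp {x}) (ρ.toHom (flp {y}) v))) := by
  set a := ρ.toHom (flp {x}) v with ha
  set b := ρ.toHom (flp {y}) v with hb
  set c := ρ.toHom (flp {x}) b with hc
  have hee : e * e = 1 := by rcases he with h | h <;> rw [h] <;> norm_num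
  have naa : inner ℝ a a = inner ℝ v v := by rw [ha]; exact ρ.isom _ _ _
  have nbb : inner ℝ b b = inner ℝ v v := by rw [hb]; exact ρ.isom _ _ _
  have ncc : inner ℝ c c = inner ℝ v v := by rw [hc, ← nbb]; exact ρ.isom _ _ _
  have hab : inner ℝ a b = inner ℝ v c := by rw [ha, u_inner, ← hc]
  have hac : inner ℝ a c = inner ℝ v b := by rw [ha, hc]; exact ρ.isom _ _ _
  have hbc : inner ℝ b c = inner ℝ v a := by
    rw [hc, ← u_inner, hb, ← hb, hb, u_comm, u_inner, u_u, real_inner_comm]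
  have hva : inner ℝ a v = inner ℝ v a := real_inner_comm _ _
  have hvb : inner ℝ b v = inner ℝ v b := real_inner_comm _ _
  have hvc : inner ℝ c v = inner ℝ v c := real_inner_comm _ _
  have hba : inner ℝ b a = inner ℝ v c := by rw [real_inner_comm, hab]
  have hca : inner ℝ c a = inner ℝ v b := by rw [real_inner_comm, hac]
  have hcb : inner ℝ c b = inner ℝ v a := by rw [real_inner_comm, hbc]
  rw [← real_inner_self_eq_norm_sq, ← real_inner_self_eq_norm_sq]
  simp only [inner_add_left, inner_add_right, inner_sub_left, inner_sub_right,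
    real_inner_smul_left, real_inner_smul_right, naa, nbb, ncc, hab, hac, hbc, hva, hvb, hvc,
    hba, hca, hcb]
  linear_combination (2 * inner ℝ v v - 2 * inner ℝ v b) * hee

/-- (K1) -/
theorem K1 (hxy : x ≠ y) {w : V} (hx : ρ.toHom (flp {x}) w = w) (hy : ρ.toHom (flp {y}) w = w) :
    ‖CC ρ x y w‖ ^ 2 ≤ 8 * (‖w‖ ^ 2 - inner ℝ w (tt ρ (Sum.inl x) (Sum.inl y) w)) := by
  set z := tt ρ (Sum.inl x) (Sum.inl y) w with hz
  have h1 : tt ρ (Sum.inr x) (Sum.inl y) w = ρ.toHom (flp {x}) z := by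
    have := tt_rl_apply ρ hxy w
    rwa [hx] at this
  have h2 : tt ρ (Sum.inl x) (Sum.inr y) w = ρ.toHom (flp {y}) z := by
    have := tt_lr_apply ρ hxy w
    rwa [hy] at this
  have h3 : tt ρ (Sum.inr x) (Sum.inr y) w = ρ.toHom (flp {x}) (ρ.toHom (flp {y}) z) := by
    have := tt_rr_apply ρ hxy w
    rwa [hx, h2] at this
  have h4 : CC ρ x y w = z + (-1 : ℝ) • ρ.toHom (flp {x}) z - ρ.toHom (flp {y}) z
      - (-1 : ℝ) • ρ.toHom (flp {x}) (ρ.toHom (flp {y}) z) := by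
    unfold CC
    simp only [LinearMap.add_apply, LinearMap.sub_apply]
    rw [h1, h2, h3, ← hz]
    simp only [neg_smul, one_smul]
    abel
  have h5 : inner ℝ z (ρ.toHom (flp {x}) z) = inner ℝ w z := by
    rw [hz, tt_inner, tt_u_tt ρ hxy, h1, ← u_inner, hx]
  have h6 : inner ℝ z (ρ.toHom (flp {y}) z) = inner ℝ w z := by
    rw [hz, tt_inner, tt_v_tt ρ hxy, h2, ← u_inner, hy]
  have h7 : ‖z‖ = ‖w‖ := by rw [hz]; exact ρ.norm_map _ _
  have h8 : inner ℝ z (ρ.toHom (flp {x}) (ρ.toHom (flp {y}) z)) ≤ ‖w‖ ^ 2 := by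
    refine (real_inner_le_norm _ _).trans ?_
    rw [ρ.norm_map, ρ.norm_map, h7, sq]
  rw [h4, norm_sq_two ρ (-1) (Or.inr rfl), h5, h6, h7]
  nlinarith [h8]

/-- (K2) -/
theorem K2 (hxy : x ≠ y) {w : V} (hx : ρ.toHom (flp {x}) w = -w)
    (hy : ρ.toHom (flp {y}) w = w) : ‖CC ρ x y w‖ ^ 2 ≤ 4 * ‖w‖ ^ 2 := by
  set z := tt ρ (Sum.inl x) (Sum.inl y) w with hz
  have h1 : tt ρ (Sum.inr x) (Sum.inl y) w = -ρ.toHom (flp {x}) z := by
    have := tt_rl_apply ρ hxy w
    rw [hx, map_neg] at this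
    rw [← this, neg_neg]
  have h2 : tt ρ (Sum.inl x) (Sum.inr y) w = ρ.toHom (flp {y}) z := by
    have := tt_lr_apply ρ hxy w
    rwa [hy] at this
  have h3 : tt ρ (Sum.inr x) (Sum.inr y) w = -ρ.toHom (flp {x}) (ρ.toHom (flp {y}) z) := by
    have := tt_rr_apply ρ hxy w
    rw [hx, map_neg, h2] at this
    rw [← this, neg_neg]
  have h4 : CC ρ x y w = z + (1 : ℝ) • ρ.toHom (flp {x}) z - ρ.toHom (flp {y}) z
      - (1 : ℝ) • ρ.toHom (flp {x}) (ρ.toHom (flp {y}) z) := by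
    unfold CC
    simp only [LinearMap.add_apply, LinearMap.sub_apply]
    rw [h1, h2, h3, ← hz]
    simp only [one_smul]
    abel
  have h5 : inner ℝ z (ρ.toHom (flp {x}) z) = inner ℝ w z := by
    rw [hz, tt_inner, tt_u_tt ρ hxy, h1, inner_neg_right, ← u_inner, hx, inner_neg_left, neg_neg]
  have h6 : inner ℝ z (ρ.toHom (flp {y}) z) = inner ℝ w z := by
    rw [hz, tt_inner, tt_v_tt ρ hxy, h2, ← u_inner, hy]
  have h7 : ‖z‖ = ‖w‖ := by rw [hz]; exact ρ.norm_map _ _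
  -- the last inner product vanishes
  have h8 : inner ℝ z (ρ.toHom (flp {x}) (ρ.toHom (flp {y}) z)) = 0 := by
    -- w2 = t u_x u_y t w is fixed by u_x
    set w2 := tt ρ (Sum.inl x) (Sum.inl y) (ρ.toHom (flp {x}) (ρ.toHom (flp {y}) z)) with hw2
    have e1 : inner ℝ z (ρ.toHom (flp {x}) (ρ.toHom (flp {y}) z)) = inner ℝ w w2 := by
      rw [hz, tt_inner]
    have e2 : w2 = tt ρ (Sum.inr x) (Sum.inl y) (tt ρ (Sum.inl x) (Sum.inr y) w) := by
      have a1 : tt ρ (Sum.inl x) (Sum.inr y) w =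
          tt ρ (Sum.inl x) (Sum.inl y) (ρ.toHom (flp {y}) z) := by
        rw [hz, tt_v_tt ρ hxy]
      rw [hw2, a1, ← tt_u_tt ρ hxy, tt_tt]
    have e3 : ρ.toHom (flp {x}) w2 = w2 := by
      have a1 := rep_mul_tt ρ (swap (Sum.inr x) (Sum.inl y) * swap (Sum.inl x) (Sum.inr y))
        (Sum.inl y) (Sum.inr y)
      rw [tt_lr, Perm.mul_apply, Perm.mul_apply,
        swap_apply_of_ne_of_ne (a := Sum.inl x) (b := Sum.inr y) (x := Sum.inl y)
          (by simpa using Ne.symm hxy) (by simp),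
        swap_apply_right, swap_apply_right,
        swap_apply_of_ne_of_ne (a := Sum.inr x) (b := Sum.inl y) (x := Sum.inl x) (by simp)
          (by simpa using hxy), tt_comm ρ (Sum.inr x) (Sum.inl x), tt_lr] at a1
      have a2 := congrArg (fun L : V →ₗ[ℝ] V => L w) a1
      change ρ.toHom (swap (Sum.inr x) (Sum.inl y) * swap (Sum.inl x) (Sum.inr y))
          (ρ.toHom (flp {y}) w) =
        ρ.toHom (flp {x}) (ρ.toHom (swap (Sum.inr x) (Sum.inl y) * swap (Sum.inl x) (Sum.inr y)) w)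
        at a2
      rw [hy, ρ.map_mul_apply] at a2
      rw [e2]
      exact a2.symm
    rw [e1]
    have e4 : inner ℝ w w2 = -inner ℝ w w2 := by
      calc inner ℝ w w2 = inner ℝ w (ρ.toHom (flp {x}) w2) := by rw [e3]
        _ = inner ℝ (ρ.toHom (flp {x}) w) w2 := (u_inner ρ x w w2).symm
        _ = -inner ℝ w w2 := by rw [hx, inner_neg_left]
    linarith
  rw [h4, norm_sq_two ρ 1 (Or.inl rfl), h5, h6, h7, h8]
  linarith

end K12

/-! ### cardinalities -/

section Cards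

variable {S : Finset X} {x y : X}

theorem card_sd_out (hxy : x ≠ y) (hx : x ∉ S) (hy : y ∉ S) :
    (symmDiff S {x, y}).card = S.card + 2 := by
  have h : symmDiff S {x, y} = insert x (insert y S) := by
    ext z
    simp only [mem_symmDiff, mem_insert, mem_singleton]
    constructor
    · rintro (⟨h1, h2⟩ | ⟨h1, h2⟩)
      · exact Or.inr (Or.inr h1)
      · rcases h1 with h1 | h1
        · exact Or.inl h1
        · exact Or.inr (Or.inl h1)
    · rintro (h1 | h1 | h1)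
      · subst h1; exact Or.inr ⟨Or.inl rfl, hx⟩
      · subst h1; exact Or.inr ⟨Or.inr rfl, hy⟩
      · refine Or.inl ⟨h1, ?_⟩
        rintro (h2 | h2)
        · exact hx (h2 ▸ h1)
        · exact hy (h2 ▸ h1)
  rw [h, card_insert_of_notMem (by simp [hxy, hx]), card_insert_of_notMem hy]

theorem card_sd_mid (hx : x ∈ S) (hy : y ∉ S) :
    (symmDiff S {x, y}).card = S.card := by
  have hxy : x ≠ y := fun h => hy (h ▸ hx)
  have h : symmDiff S {x, y} = insert y (S.erase x) := by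
    ext z
    simp only [mem_symmDiff, mem_insert, mem_singleton, mem_erase]
    constructor
    · rintro (⟨h1, h2⟩ | ⟨h1, h2⟩)
      · exact Or.inr ⟨fun h => h2 (Or.inl h), h1⟩
      · rcases h1 with h1 | h1
        · exact absurd (h1 ▸ hx) h2
        · exact Or.inl h1
    · rintro (h1 | ⟨h1, h2⟩)
      · subst h1; exact Or.inr ⟨Or.inr rfl, hy⟩
      · refine Or.inl ⟨h2, ?_⟩
        rintro (h3 | h3)
        · exact h1 h3
        · exact hy (h3 ▸ h2)
  rw [h, card_insert_of_notMem (by simp [hy]), card_erase_of_mem hx]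
  have : 0 < S.card := card_pos.2 ⟨x, hx⟩
  omega

theorem card_sd_mid' (hx : x ∉ S) (hy : y ∈ S) :
    (symmDiff S {x, y}).card = S.card := by
  rw [pair_comm]; exact card_sd_mid hy hx

theorem card_sd_in (hxy : x ≠ y) (hx : x ∈ S) (hy : y ∈ S) :
    (symmDiff S {x, y}).card + 2 = S.card := by
  have h : symmDiff S {x, y} = (S.erase x).erase y := by
    ext z
    simp only [mem_symmDiff, mem_insert, mem_singleton, mem_erase]
    constructor
    · rintro (⟨h1, h2⟩ | ⟨h1, h2⟩)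
      · exact ⟨fun h => h2 (Or.inr h), fun h => h2 (Or.inl h), h1⟩
      · rcases h1 with h1 | h1
        · exact absurd (h1 ▸ hx) h2
        · exact absurd (h1 ▸ hy) h2
    · rintro ⟨h1, h2, h3⟩
      exact Or.inl ⟨h3, fun h => h.elim h2 h1⟩
  have hy' : y ∈ S.erase x := mem_erase.2 ⟨Ne.symm hxy, hy⟩
  rw [h, card_erase_of_mem hy', card_erase_of_mem hx]
  have h1 : 0 < (S.erase x).card := card_pos.2 ⟨y, hy'⟩
  rw [card_erase_of_mem hx] at h1
  omega

end Cards

/-! ### sectors and levels -/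

section Lev

variable (ρ : ORep (Perm (X ⊕ X)) V)

theorem sec_sec_apply (S S' : Finset X) (w : V) :
    sec ρ S (sec ρ S' w) = if S = S' then sec ρ S w else 0 := by
  have h := congrArg (fun L : V →ₗ[ℝ] V => L w) (sec_mul_sec ρ S S')
  change sec ρ S (sec ρ S' w) = (if S = S' then sec ρ S else 0 : V →ₗ[ℝ] V) w at h
  rw [h]
  split_ifs <;> simp

theorem lev_apply (m : ℕ) (w : V) : lev ρ m w =
    ∑ S ∈ Finset.univ.filter (fun S : Finset X => S.card = m), sec ρ S w := by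
  unfold lev; rw [LinearMap.sum_apply]

theorem sec_lev_applyK (S : Finset X) (m : ℕ) (w : V) :
    sec ρ S (lev ρ m w) = if S.card = m then sec ρ S w else 0 := by
  rw [lev_apply, map_sum]
  simp only [sec_sec_apply]
  rw [Finset.sum_ite_eq]
  simp

theorem lev_lev_applyK (m m' : ℕ) (w : V) :
    lev ρ m (lev ρ m' w) = if m = m' then lev ρ m w else 0 := by
  have h := congrArg (fun L : V →ₗ[ℝ] V => L w) (lev_mul_lev ρ m m')
  change lev ρ m (lev ρ m' w) = (if m = m' then lev ρ m else 0 : V →ₗ[ℝ] V) w at h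
  rw [h]
  split_ifs <;> simp

theorem flp_sec_apply (S : Finset X) (x : X) (w : V) :
    ρ.toHom (flp {x}) (sec ρ S w) = (if x ∈ S then (-1 : ℝ) else 1) • sec ρ S w := by
  have h := congrArg (fun L : V →ₗ[ℝ] V => L w) (flp_mul_sec ρ {x} S)
  change ρ.toHom (flp {x}) (sec ρ S w) =
    (((-1 : ℝ) ^ (({x} : Finset X) ∩ S).card) • sec ρ S) w at h
  rw [h, LinearMap.smul_apply]
  by_cases hx : x ∈ S
  · rw [singleton_inter_of_mem hx, if_pos hx]; simp
  · rw [singleton_inter_of_notMem hx, if_neg hx]; simp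

theorem sec_eig {δ : ℝ} {w : V} (hw : Dop ρ w = δ • w) (S : Finset X) :
    Dop ρ (sec ρ S w) = δ • sec ρ S w := by
  have h := sec_commute_of ρ (Dop ρ) (fun g => Dop_commute ρ g) S
  have h2 := congrArg (fun L : V →ₗ[ℝ] V => L w) h.eq
  change sec ρ S (Dop ρ w) = Dop ρ (sec ρ S w) at h2
  rw [← h2, hw, map_smul]

theorem lev_eig {δ : ℝ} {w : V} (hw : Dop ρ w = δ • w) (m : ℕ) :
    Dop ρ (lev ρ m w) = δ • lev ρ m w := by
  have h := lev_commute_of ρ (Dop ρ) (fun g => Dop_commute ρ g) m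
  have h2 := congrArg (fun L : V →ₗ[ℝ] V => L w) h.eq
  change lev ρ m (Dop ρ w) = Dop ρ (lev ρ m w) at h2
  rw [← h2, hw, map_smul]

theorem CC_commute_Dop (x y : X) : Commute (CC ρ x y) (Dop ρ) := by
  unfold CC tt
  exact (((Dop_commute ρ _).add_left (Dop_commute ρ _)).sub_left (Dop_commute ρ _)).sub_left
    (Dop_commute ρ _)

theorem KK_eig {δ : ℝ} {w : V} (hw : Dop ρ w = δ • w) : Dop ρ (KK ρ w) = δ • KK ρ w := by
  have h : Commute (KK ρ) (Dop ρ) := Commute.sum_left _ _ _ fun p _ => CC_commute_Dop ρ p.1 p.2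
  have h2 := congrArg (fun L : V →ₗ[ℝ] V => L w) h.eq
  change KK ρ (Dop ρ w) = Dop ρ (KK ρ w) at h2
  rw [← h2, hw, map_smul]

theorem CC_inner (x y : X) (v w : V) :
    inner ℝ (CC ρ x y v) w = inner ℝ v (CC ρ x y w) := by
  unfold CC
  simp only [LinearMap.add_apply, LinearMap.sub_apply, inner_add_left, inner_sub_left,
    inner_add_right, inner_sub_right, tt_inner]

theorem KK_inner (v w : V) : inner ℝ (KK ρ v) w = inner ℝ v (KK ρ w) := by
  unfold KK
  rw [LinearMap.sum_apply, LinearMap.sum_apply, sum_inner, inner_sum]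
  exact Finset.sum_congr rfl fun p _ => CC_inner ρ p.1 p.2 v w

theorem sec_KK (S : Finset X) (w : V) : sec ρ S (KK ρ w) =
    ∑ p ∈ offp X, CC ρ p.1 p.2 (sec ρ (symmDiff S {p.1, p.2}) w) := by
  unfold KK
  rw [LinearMap.sum_apply, map_sum]
  refine Finset.sum_congr rfl fun p hp => ?_
  exact sec_CC ρ (by simpa [offp] using hp) S w

theorem sec_KK_lev (S : Finset X) (k : ℕ) (w : V) : sec ρ S (KK ρ (lev ρ k w)) =
    ∑ p ∈ (offp X).filter (fun p => (symmDiff S {p.1, p.2}).card = k),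
      CC ρ p.1 p.2 (sec ρ (symmDiff S {p.1, p.2}) w) := by
  rw [sec_KK, Finset.sum_filter]
  refine Finset.sum_congr rfl fun p _ => ?_
  rw [sec_lev_applyK]
  split_ifs <;> simp

/-- general Cauchy-Schwarz bound -/
theorem gen_bound (m k : ℕ) (M c : ℝ) (w : V)
    (hM : ∀ S : Finset X, S.card = m →
      (((offp X).filter fun p => (symmDiff S {p.1, p.2}).card = k).card : ℝ) ≤ M)
    (hc : ∀ S : Finset X, S.card = k →
      ∑ p ∈ (offp X).filter (fun p => (symmDiff S {p.1, p.2}).card = m),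
        ‖CC ρ p.1 p.2 (sec ρ S w)‖ ^ 2 ≤ c * ‖sec ρ S w‖ ^ 2) (hM0 : 0 ≤ M) :
    ‖lev ρ m (KK ρ (lev ρ k w))‖ ^ 2 ≤ M * c * ‖lev ρ k w‖ ^ 2 := by
  rw [norm_lev_sq, norm_lev_sq]
  have h1 : ∀ S ∈ Finset.univ.filter (fun S : Finset X => S.card = m),
      ‖sec ρ S (KK ρ (lev ρ k w))‖ ^ 2 ≤
        M * ∑ p ∈ (offp X).filter (fun p => (symmDiff S {p.1, p.2}).card = k),
          ‖CC ρ p.1 p.2 (sec ρ (symmDiff S {p.1, p.2}) w)‖ ^ 2 := by
    intro S hS
    rw [sec_KK_lev]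
    set F := (offp X).filter (fun p => (symmDiff S {p.1, p.2}).card = k) with hF
    calc ‖∑ p ∈ F, CC ρ p.1 p.2 (sec ρ (symmDiff S {p.1, p.2}) w)‖ ^ 2
        ≤ (∑ p ∈ F, ‖CC ρ p.1 p.2 (sec ρ (symmDiff S {p.1, p.2}) w)‖) ^ 2 := by
          gcongr; exact norm_sum_le _ _
      _ ≤ (F.card : ℝ) * ∑ p ∈ F, ‖CC ρ p.1 p.2 (sec ρ (symmDiff S {p.1, p.2}) w)‖ ^ 2 :=
          sq_sum_le_card_mul_sum_sq
      _ ≤ M * ∑ p ∈ F, ‖CC ρ p.1 p.2 (sec ρ (symmDiff S {p.1, p.2}) w)‖ ^ 2 := by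
          gcongr
          exact hM S (by simpa using hS)
  have h2 : ∑ S ∈ Finset.univ.filter (fun S : Finset X => S.card = m),
        ∑ p ∈ (offp X).filter (fun p => (symmDiff S {p.1, p.2}).card = k),
          ‖CC ρ p.1 p.2 (sec ρ (symmDiff S {p.1, p.2}) w)‖ ^ 2 =
      ∑ S ∈ Finset.univ.filter (fun S : Finset X => S.card = k),
        ∑ p ∈ (offp X).filter (fun p => (symmDiff S {p.1, p.2}).card = m),
          ‖CC ρ p.1 p.2 (sec ρ S w)‖ ^ 2 := by
    rw [Finset.sum_sigma', Finset.sum_sigma']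
    refine Finset.sum_bij' (fun q _ => ⟨symmDiff q.1 {q.2.1, q.2.2}, q.2⟩)
      (fun q _ => ⟨symmDiff q.1 {q.2.1, q.2.2}, q.2⟩) ?_ ?_ ?_ ?_ ?_
    · rintro ⟨S, p⟩ hq
      simp only [mem_sigma, mem_filter, mem_univ, true_and] at hq ⊢
      refine ⟨hq.2.2, hq.2.1, ?_⟩
      rw [symmDiff_symmDiff_cancel_right]
      exact hq.1
    · rintro ⟨S, p⟩ hq
      simp only [mem_sigma, mem_filter, mem_univ, true_and] at hq ⊢
      refine ⟨hq.2.2, hq.2.1, ?_⟩
      rw [symmDiff_symmDiff_cancel_right]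
      exact hq.1
    · rintro ⟨S, p⟩ _
      simp only [symmDiff_symmDiff_cancel_right]
    · rintro ⟨S, p⟩ _
      simp only [symmDiff_symmDiff_cancel_right]
    · rintro ⟨S, p⟩ _
      rfl
  calc ∑ S ∈ Finset.univ.filter (fun S : Finset X => S.card = m),
        ‖sec ρ S (KK ρ (lev ρ k w))‖ ^ 2
      ≤ ∑ S ∈ Finset.univ.filter (fun S : Finset X => S.card = m),
        M * ∑ p ∈ (offp X).filter (fun p => (symmDiff S {p.1, p.2}).card = k),
          ‖CC ρ p.1 p.2 (sec ρ (symmDiff S {p.1, p.2}) w)‖ ^ 2 := Finset.sum_le_sum h1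
    _ = M * ∑ S ∈ Finset.univ.filter (fun S : Finset X => S.card = k),
        ∑ p ∈ (offp X).filter (fun p => (symmDiff S {p.1, p.2}).card = m),
          ‖CC ρ p.1 p.2 (sec ρ S w)‖ ^ 2 := by rw [← Finset.mul_sum, h2]
    _ ≤ M * ∑ S ∈ Finset.univ.filter (fun S : Finset X => S.card = k),
        c * ‖sec ρ S w‖ ^ 2 := by
          gcongr with S hS
          exact hc S (by simpa using hS)
    _ = M * c * ∑ S ∈ Finset.univ.filter (fun S : Finset X => S.card = k),
        ‖sec ρ S w‖ ^ 2 := by rw [← Finset.mul_sum, mul_assoc]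

/-- the Laplacian controls the sum over pairs of fixed letters -/
theorem sum_tt_le [Nonempty X] {δ : ℝ} {w : V} (hw : Dop ρ w = δ • w) (P : Finset (X × X))
    (hP : ∀ p ∈ P, p.1 ≠ p.2 ∧ ρ.toHom (flp {p.1}) w = w ∧ ρ.toHom (flp {p.2}) w = w) :
    ∑ p ∈ P, (‖w‖ ^ 2 - inner ℝ w (tt ρ (Sum.inl p.1) (Sum.inl p.2) w)) ≤
      (Fintype.card X : ℝ) * δ * ‖w‖ ^ 2 := by
  have h1 := inner_lapOn ρ Finset.univ w
  have h2 : lapOn ρ Finset.univ w = ((Fintype.card (X ⊕ X) : ℝ) * δ) • w := by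
    have := Dop_eig_lap ρ hw
    exact this
  rw [h2, real_inner_smul_left, real_inner_self_eq_norm_sq, Fintype.card_sum] at h1
  -- expand the norm
  have h3 : ∀ p q : X ⊕ X, ‖w - ρ.toHom (swap p q) w‖ ^ 2 =
      2 * (‖w‖ ^ 2 - inner ℝ w (tt ρ p q w)) := by
    intro p q
    rw [norm_sub_sq_real, ρ.norm_map]
    unfold tt
    ring
  have h4 : ∀ p q : X ⊕ X, 0 ≤ ‖w‖ ^ 2 - inner ℝ w (tt ρ p q w) := by
    intro p q
    have := h3 p q
    nlinarith [sq_nonneg ‖w - ρ.toHom (swap p q) w‖]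
  simp only [h3, Fintype.sum_sum_type, ← Finset.sum_add_distrib] at h1
  set F : X → X → ℝ := fun x y =>
    2 * (‖w‖ ^ 2 - inner ℝ w (tt ρ (Sum.inl x) (Sum.inl y) w)) +
      2 * (‖w‖ ^ 2 - inner ℝ w (tt ρ (Sum.inl x) (Sum.inr y) w)) +
      (2 * (‖w‖ ^ 2 - inner ℝ w (tt ρ (Sum.inr x) (Sum.inl y) w)) +
        2 * (‖w‖ ^ 2 - inner ℝ w (tt ρ (Sum.inr x) (Sum.inr y) w))) with hF
  have hF0 : ∀ x y, 0 ≤ F x y := by
    intro x y
    have a1 := h4 (Sum.inl x) (Sum.inl y)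
    have a2 := h4 (Sum.inl x) (Sum.inr y)
    have a3 := h4 (Sum.inr x) (Sum.inl y)
    have a4 := h4 (Sum.inr x) (Sum.inr y)
    simp only [hF]
    linarith
  have h5 : ∑ x : X, ∑ y : X, F x y = 4 * (((Fintype.card X : ℝ) + Fintype.card X) * δ * ‖w‖ ^ 2) := by
    push_cast at h1
    rw [h1]
    simp only [hF]
    ring
  have h6 : ∑ p ∈ P, F p.1 p.2 ≤ ∑ x : X, ∑ y : X, F x y := by
    rw [← Finset.sum_product' (s := univ) (t := univ) (f := F), Finset.univ_product_univ]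
    exact Finset.sum_le_sum_of_subset_of_nonneg (Finset.subset_univ _) fun p _ _ => hF0 _ _
  have h7 : ∀ p ∈ P, F p.1 p.2 =
      8 * (‖w‖ ^ 2 - inner ℝ w (tt ρ (Sum.inl p.1) (Sum.inl p.2) w)) := by
    rintro ⟨x, y⟩ hp
    obtain ⟨hxy, hx, hy⟩ := hP _ hp
    simp only at hxy hx hy ⊢
    have b1 : tt ρ (Sum.inr x) (Sum.inl y) w =
        ρ.toHom (flp {x}) (tt ρ (Sum.inl x) (Sum.inl y) w) := by
      have := tt_rl_apply ρ hxy w
      rwa [hx] at this
    have b2 : tt ρ (Sum.inl x) (Sum.inr y) w =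
        ρ.toHom (flp {y}) (tt ρ (Sum.inl x) (Sum.inl y) w) := by
      have := tt_lr_apply ρ hxy w
      rwa [hy] at this
    have b3 : tt ρ (Sum.inr x) (Sum.inr y) w = ρ.toHom (flp {x})
        (ρ.toHom (flp {y}) (tt ρ (Sum.inl x) (Sum.inl y) w)) := by
      have := tt_rr_apply ρ hxy w
      rwa [hx, b2] at this
    have c1 : ∀ z : V, inner ℝ w (ρ.toHom (flp {x}) z) = inner ℝ w z := fun z => by
      rw [← u_inner, hx]
    have c2 : ∀ z : V, inner ℝ w (ρ.toHom (flp {y}) z) = inner ℝ w z := fun z => by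
      rw [← u_inner, hy]
    simp only [hF]
    rw [b1, b2, b3, c1, c2, c1, c2]
    ring
  rw [Finset.sum_congr rfl h7, ← Finset.mul_sum, h5] at h6
  nlinarith [h6]

/-- creation -/
theorem creation [Nonempty X] {δ : ℝ} {w : V} (hw : Dop ρ w = δ • w) (k : ℕ) :
    ‖lev ρ (k + 2) (KK ρ (lev ρ k w))‖ ^ 2 ≤
      (((k : ℝ) + 2) * (k + 1)) * (8 * Fintype.card X * δ) * ‖lev ρ k w‖ ^ 2 := by
  refine gen_bound ρ (k + 2) k _ _ w ?_ ?_ (by positivity)
  · intro S hS
    have hsub : (offp X).filter (fun p => (symmDiff S {p.1, p.2}).card = k) ⊆ S.offDiag := by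
      rintro ⟨x, y⟩ hp
      simp only [offp, mem_filter, mem_univ, true_and] at hp
      obtain ⟨hxy, hc⟩ := hp
      rw [mem_offDiag]
      by_cases hx : x ∈ S
      · by_cases hy : y ∈ S
        · exact ⟨hx, hy, hxy⟩
        · have := card_sd_mid hx hy
          omega
      · by_cases hy : y ∈ S
        · have := card_sd_mid' hx hy
          omega
        · have := card_sd_out hxy hx hy
          omega
    have h1 := card_le_card hsub
    rw [offDiag_card, hS] at h1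
    have h2 : (k + 2) * (k + 2) - (k + 2) = (k + 2) * (k + 1) := by
      rw [show (k + 2) * (k + 2) = (k + 2) * (k + 1) + (k + 2) by ring, Nat.add_sub_cancel]
    rw [h2] at h1
    calc (((offp X).filter fun p => (symmDiff S {p.1, p.2}).card = k).card : ℝ)
        ≤ (((k + 2) * (k + 1) : ℕ) : ℝ) := by exact_mod_cast h1
      _ = ((k : ℝ) + 2) * (k + 1) := by push_cast; ring
  · intro S hS
    have hfil : ∀ p ∈ (offp X).filter (fun p => (symmDiff S {p.1, p.2}).card = k + 2),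
        p.1 ≠ p.2 ∧ ρ.toHom (flp {p.1}) (sec ρ S w) = sec ρ S w ∧
          ρ.toHom (flp {p.2}) (sec ρ S w) = sec ρ S w := by
      rintro ⟨x, y⟩ hp
      simp only [offp, mem_filter, mem_univ, true_and] at hp
      obtain ⟨hxy, hc⟩ := hp
      have hx : x ∉ S := by
        intro hx
        by_cases hy : y ∈ S
        · have := card_sd_in hxy hx hy
          omega
        · have := card_sd_mid hx hy
          omega
      have hy : y ∉ S := by
        intro hy
        have := card_sd_mid' hx hy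
        omega
      refine ⟨hxy, ?_, ?_⟩
      · rw [flp_sec_apply, if_neg hx, one_smul]
      · rw [flp_sec_apply, if_neg hy, one_smul]
    have h1 := sum_tt_le ρ (sec_eig ρ hw S) _ hfil
    calc ∑ p ∈ (offp X).filter (fun p => (symmDiff S {p.1, p.2}).card = k + 2),
          ‖CC ρ p.1 p.2 (sec ρ S w)‖ ^ 2
        ≤ ∑ p ∈ (offp X).filter (fun p => (symmDiff S {p.1, p.2}).card = k + 2),
          8 * (‖sec ρ S w‖ ^ 2 -
            inner ℝ (sec ρ S w) (tt ρ (Sum.inl p.1) (Sum.inl p.2) (sec ρ S w))) :=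
          Finset.sum_le_sum fun p hp =>
            K1 ρ (hfil p hp).1 (hfil p hp).2.1 (hfil p hp).2.2
      _ ≤ 8 * ((Fintype.card X : ℝ) * δ * ‖sec ρ S w‖ ^ 2) := by
          rw [← Finset.mul_sum]
          gcongr
      _ = 8 * Fintype.card X * δ * ‖sec ρ S w‖ ^ 2 := by ring

theorem count_mid (S : Finset X) :
    (((offp X).filter fun p => (symmDiff S {p.1, p.2}).card = S.card).card : ℝ) ≤
      2 * S.card * (Fintype.card X - S.card) := by
  have hsub : (offp X).filter (fun p => (symmDiff S {p.1, p.2}).card = S.card) ⊆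
      (S ×ˢ Sᶜ) ∪ (Sᶜ ×ˢ S) := by
    rintro ⟨x, y⟩ hp
    simp only [offp, mem_filter, mem_univ, true_and] at hp
    obtain ⟨hxy, hc⟩ := hp
    rw [mem_union, mem_product, mem_product, mem_compl, mem_compl]
    by_cases hx : x ∈ S
    · by_cases hy : y ∈ S
      · have := card_sd_in hxy hx hy
        omega
      · exact Or.inl ⟨hx, hy⟩
    · by_cases hy : y ∈ S
      · exact Or.inr ⟨hx, hy⟩
      · have := card_sd_out hxy hx hy
        omega
  have h1 := (card_le_card hsub).trans (card_union_le _ _)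
  rw [card_product, card_product, card_compl] at h1
  have h2 : S.card ≤ Fintype.card X := card_le_univ S
  have h3 : (((offp X).filter fun p => (symmDiff S {p.1, p.2}).card = S.card).card : ℝ) ≤
      ((S.card * (Fintype.card X - S.card) + (Fintype.card X - S.card) * S.card : ℕ) : ℝ) := by
    exact_mod_cast h1
  refine h3.trans (le_of_eq ?_)
  push_cast [Nat.cast_sub h2]
  ring

/-- hopping -/
theorem hop (m : ℕ) (w : V) : ‖lev ρ m (KK ρ (lev ρ m w))‖ ≤
    4 * m * (Fintype.card X - m) * ‖lev ρ m w‖ := by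
  rcases lt_or_ge (Fintype.card X) m with hm | hm
  · rw [lev_eq_zero ρ m hm]; simp
  have hm' : (m : ℝ) ≤ Fintype.card X := by exact_mod_cast hm
  have hM0 : (0 : ℝ) ≤ 2 * m * (Fintype.card X - m) :=
    mul_nonneg (by positivity) (by linarith)
  have h := gen_bound ρ m m (2 * m * (Fintype.card X - m)) (4 * (2 * m * (Fintype.card X - m))) w
    (fun S hS => by
      have := count_mid S
      rwa [hS] at this)
    (fun S hS => by
      have hfil : ∀ p ∈ (offp X).filter (fun p => (symmDiff S {p.1, p.2}).card = m),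
          ‖CC ρ p.1 p.2 (sec ρ S w)‖ ^ 2 ≤ 4 * ‖sec ρ S w‖ ^ 2 := by
        rintro ⟨x, y⟩ hp
        simp only [offp, mem_filter, mem_univ, true_and] at hp
        obtain ⟨hxy, hc⟩ := hp
        by_cases hx : x ∈ S
        · by_cases hy : y ∈ S
          · have := card_sd_in hxy hx hy
            omega
          · refine K2 ρ hxy ?_ ?_
            · rw [flp_sec_apply, if_pos hx, neg_one_smul]
            · rw [flp_sec_apply, if_neg hy, one_smul]
        · by_cases hy : y ∈ S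
          · show ‖CC ρ x y (sec ρ S w)‖ ^ 2 ≤ 4 * ‖sec ρ S w‖ ^ 2
            rw [CC_comm]
            refine K2 ρ (Ne.symm hxy) ?_ ?_
            · rw [flp_sec_apply, if_pos hy, neg_one_smul]
            · rw [flp_sec_apply, if_neg hx, one_smul]
          · have := card_sd_out hxy hx hy
            omega
      have h2 := count_mid S
      rw [hS] at h2
      calc ∑ p ∈ (offp X).filter (fun p => (symmDiff S {p.1, p.2}).card = m),
            ‖CC ρ p.1 p.2 (sec ρ S w)‖ ^ 2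
          ≤ ∑ _p ∈ (offp X).filter (fun p => (symmDiff S {p.1, p.2}).card = m),
            4 * ‖sec ρ S w‖ ^ 2 := Finset.sum_le_sum hfil
        _ = (((offp X).filter fun p => (symmDiff S {p.1, p.2}).card = m).card : ℝ) *
            (4 * ‖sec ρ S w‖ ^ 2) := by rw [Finset.sum_const, nsmul_eq_mul]
        _ ≤ (2 * m * (Fintype.card X - m)) * (4 * ‖sec ρ S w‖ ^ 2) := by gcongr
        _ = 4 * (2 * m * (Fintype.card X - m)) * ‖sec ρ S w‖ ^ 2 := by ring)
    hM0
  have h2 : ‖lev ρ m (KK ρ (lev ρ m w))‖ ^ 2 ≤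
      (4 * m * (Fintype.card X - m) * ‖lev ρ m w‖) ^ 2 := by
    refine h.trans (le_of_eq ?_)
    ring
  have h3 : (0 : ℝ) ≤ 4 * m * (Fintype.card X - m) * ‖lev ρ m w‖ :=
    mul_nonneg (mul_nonneg (by positivity) (by linarith)) (norm_nonneg _)
  exact abs_le_of_sq_le_sq' h2 h3 |>.2

/-- creation, without squares -/
theorem creation' [Nonempty X] {δ : ℝ} (hδ : 0 ≤ δ) {w : V} (hw : Dop ρ w = δ • w) (k : ℕ) :
    ‖lev ρ (k + 2) (KK ρ (lev ρ k w))‖ ≤
      4 * Fintype.card X * ((k + 2) * Real.sqrt (δ / (2 * Fintype.card X))) * ‖lev ρ k w‖ := by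
  have h := creation ρ hw k
  have hN : (0 : ℝ) < Fintype.card X := by exact_mod_cast Fintype.card_pos
  have hs : Real.sqrt (δ / (2 * Fintype.card X)) ^ 2 = δ / (2 * Fintype.card X) :=
    Real.sq_sqrt (by positivity)
  have h2 : ‖lev ρ (k + 2) (KK ρ (lev ρ k w))‖ ^ 2 ≤
      (4 * Fintype.card X * ((k + 2) * Real.sqrt (δ / (2 * Fintype.card X))) * ‖lev ρ k w‖) ^ 2 := by
    refine h.trans ?_
    have e1 : (4 * (Fintype.card X : ℝ) * (((k : ℝ) + 2) *
        Real.sqrt (δ / (2 * Fintype.card X))) * ‖lev ρ k w‖) ^ 2 =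
        (((k : ℝ) + 2) * (k + 2)) * (8 * Fintype.card X * δ) * ‖lev ρ k w‖ ^ 2 := by
      rw [mul_pow, mul_pow, mul_pow, mul_pow, hs]
      field_simp
      ring
    rw [e1]
    gcongr
    linarith
  exact (abs_le_of_sq_le_sq' h2 (by positivity)).2

/-- annihilation, by duality -/
theorem annih [Nonempty X] {δ : ℝ} (hδ : 0 ≤ δ) {w : V} (hw : Dop ρ w = δ • w) (m : ℕ) :
    ‖lev ρ m (KK ρ (lev ρ (m + 2) w))‖ ≤
      4 * Fintype.card X * ((m + 2) * Real.sqrt (δ / (2 * Fintype.card X))) *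
        ‖lev ρ (m + 2) w‖ := by
  set z := lev ρ m (KK ρ (lev ρ (m + 2) w)) with hz
  have hzeig : Dop ρ z = δ • z := lev_eig ρ (KK_eig ρ (lev_eig ρ hw _)) m
  have hzz : lev ρ m z = z := by rw [hz, lev_lev_applyK, if_pos rfl]
  have h1 : ‖z‖ ^ 2 = inner ℝ (lev ρ (m + 2) (KK ρ (lev ρ m z))) (lev ρ (m + 2) w) := by
    have a1 : inner ℝ (lev ρ (m + 2) (KK ρ (lev ρ m z))) (lev ρ (m + 2) w) =
        inner ℝ (KK ρ (lev ρ m z)) (lev ρ (m + 2) w) := by
      have := lev_symm ρ (m + 2) (KK ρ (lev ρ m z)) (lev ρ (m + 2) w)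
      rw [this, lev_lev_applyK ρ (m + 2) (m + 2) w, if_pos rfl]
    rw [a1, KK_inner]
    have a2 := lev_symm ρ m z (KK ρ (lev ρ (m + 2) w))
    rw [a2, ← hz, real_inner_self_eq_norm_sq]
  have h2 := creation' ρ hδ hzeig m
  rw [hzz] at h2 h1
  have h3 : ‖z‖ ^ 2 ≤ (4 * Fintype.card X * ((m + 2) * Real.sqrt (δ / (2 * Fintype.card X))) *
      ‖lev ρ (m + 2) w‖) * ‖z‖ := by
    rw [h1]
    refine (real_inner_le_norm _ _).trans ?_
    calc ‖lev ρ (m + 2) (KK ρ z)‖ * ‖lev ρ (m + 2) w‖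
        ≤ (4 * Fintype.card X * ((m + 2) * Real.sqrt (δ / (2 * Fintype.card X))) * ‖z‖) *
          ‖lev ρ (m + 2) w‖ := by gcongr
      _ = _ := by ring
  rcases eq_or_lt_of_le (norm_nonneg z) with h0 | h0
  · rw [← h0]; positivity
  · rw [sq] at h3
    exact le_of_mul_le_mul_right h3 h0

/-- the level structure of `KK` -/
theorem lev_KK_lev_eq_zero {m k : ℕ} (h1 : k + 2 ≠ m) (h2 : k ≠ m) (h3 : k ≠ m + 2) (w : V) :
    lev ρ m (KK ρ (lev ρ k w)) = 0 := by
  rw [← norm_eq_zero, ← sq_eq_zero_iff, norm_lev_sq]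
  refine Finset.sum_eq_zero fun S hS => ?_
  simp only [mem_filter, mem_univ, true_and] at hS
  rw [sec_KK_lev]
  have hem : (offp X).filter (fun p => (symmDiff S {p.1, p.2}).card = k) = ∅ := by
    rw [Finset.filter_eq_empty_iff]
    rintro ⟨x, y⟩ hp hc
    simp only [offp, mem_filter, mem_univ, true_and] at hp
    simp only at hc
    by_cases hx : x ∈ S
    · by_cases hy : y ∈ S
      · have := card_sd_in hp hx hy
        omega
      · have := card_sd_mid hx hy
        omega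
    · by_cases hy : y ∈ S
      · have := card_sd_mid' hx hy
        omega
      · have := card_sd_out hp hx hy
        omega
  rw [hem, Finset.sum_empty, norm_zero]
  norm_num

theorem sum_lev_apply (w : V) : ∑ k ∈ Finset.range (Fintype.card X + 1), lev ρ k w = w := by
  have h := congrArg (fun L : V →ₗ[ℝ] V => L w) (sum_lev ρ)
  simpa [LinearMap.sum_apply] using h

/-- the diagonal part -/
theorem lev_diag (m : ℕ) (w : V) :
    lev ρ m ((∑ x : X, CC ρ x x) w) = (4 * (m : ℝ)) • lev ρ m w := by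
  rw [lev_apply, lev_apply, Finset.smul_sum]
  refine Finset.sum_congr rfl fun S hS => ?_
  simp only [mem_filter, mem_univ, true_and] at hS
  rw [LinearMap.sum_apply, map_sum]
  have h1 : ∀ x : X, sec ρ S (CC ρ x x w) = (if x ∈ S then (4 : ℝ) else 0) • sec ρ S w := by
    intro x
    rw [CC_diag]
    have h2 : sec ρ S (ρ.toHom (flp {x}) w) = (if x ∈ S then (-1 : ℝ) else 1) • sec ρ S w := by
      have h := congrArg (fun L : V →ₗ[ℝ] V => L w) (sec_mul_flp ρ {x} S)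
      change sec ρ S (ρ.toHom (flp {x}) w) =
        (((-1 : ℝ) ^ (({x} : Finset X) ∩ S).card) • sec ρ S) w at h
      rw [h, LinearMap.smul_apply]
      by_cases hx : x ∈ S
      · rw [singleton_inter_of_mem hx, if_pos hx]; simp
      · rw [singleton_inter_of_notMem hx, if_neg hx]; simp
    have h3 : ((2 : ℝ) • (1 - ρ.toHom (flp {x}) : V →ₗ[ℝ] V)) w =
        (2 : ℝ) • (w - ρ.toHom (flp {x}) w) := by simp
    rw [h3, map_smul, map_sub, h2]
    by_cases hx : x ∈ S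
    · simp only [hx, if_true, neg_smul, one_smul, sub_neg_eq_add]
      rw [← two_smul ℝ (sec ρ S w), smul_smul]
      norm_num
    · simp only [hx, if_false, one_smul, sub_self, smul_zero, zero_smul]
  rw [Finset.sum_congr rfl fun x _ => h1 x, ← Finset.sum_smul, Finset.sum_ite_mem,
    Finset.univ_inter, Finset.sum_const, hS, nsmul_eq_mul]
  congr 1
  ring

theorem lev_KK_norm [Nonempty X] {δ : ℝ} (hδ : 0 ≤ δ) {w : V} (hw : Dop ρ w = δ • w) (m : ℕ) :
    ‖lev ρ m (KK ρ w)‖ ≤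
      4 * Fintype.card X * (m * Real.sqrt (δ / (2 * Fintype.card X))) * ‖lev ρ (m - 2) w‖
      + 4 * m * (Fintype.card X - m) * ‖lev ρ m w‖
      + 4 * Fintype.card X * ((m + 2) * Real.sqrt (δ / (2 * Fintype.card X))) *
        ‖lev ρ (m + 2) w‖ := by
  rcases lt_or_ge (Fintype.card X) m with hmN | hmN
  · rw [lev_eq_zero ρ m hmN]
    simp only [LinearMap.zero_apply, norm_zero, mul_zero, add_zero]
    positivity
  have hmN' : (m : ℝ) ≤ Fintype.card X := by exact_mod_cast hmN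
  have hhop0 : (0 : ℝ) ≤ 4 * m * (Fintype.card X - m) * ‖lev ρ m w‖ :=
    mul_nonneg (mul_nonneg (by positivity) (by linarith)) (norm_nonneg _)
  have h0 : lev ρ m (KK ρ w) =
      ∑ k ∈ Finset.range (Fintype.card X + 1), lev ρ m (KK ρ (lev ρ k w)) := by
    conv_lhs => rw [← sum_lev_apply ρ w]
    rw [map_sum, map_sum]
  rw [h0]
  refine (norm_sum_le _ _).trans ?_
  set A : ℝ := 4 * Fintype.card X * (m * Real.sqrt (δ / (2 * Fintype.card X))) * ‖lev ρ (m - 2) w‖
    with hA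
  set B : ℝ := 4 * m * (Fintype.card X - m) * ‖lev ρ m w‖ with hB
  set C : ℝ := 4 * Fintype.card X * ((m + 2) * Real.sqrt (δ / (2 * Fintype.card X))) *
        ‖lev ρ (m + 2) w‖ with hC
  have hA0 : 0 ≤ A := by rw [hA]; positivity
  have hC0 : 0 ≤ C := by rw [hC]; positivity
  have hterm : ∀ k ∈ Finset.range (Fintype.card X + 1), ‖lev ρ m (KK ρ (lev ρ k w))‖ ≤
      (if k = m - 2 then (if 2 ≤ m then A else 0) else 0) + (if k = m then B else 0)
        + (if k = m + 2 then C else 0) := by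
    intro k _
    have hn1 : 0 ≤ (if k = m - 2 then (if 2 ≤ m then A else 0) else 0) := by
      split_ifs <;> first | exact hA0 | exact le_refl _
    have hn2 : 0 ≤ (if k = m then B else 0) := by
      split_ifs <;> first | exact hhop0 | exact le_refl _
    have hn3 : 0 ≤ (if k = m + 2 then C else 0) := by
      split_ifs <;> first | exact hC0 | exact le_refl _
    by_cases c1 : k + 2 = m
    · have e1 : k = m - 2 := by omega
      have e2 : 2 ≤ m := by omega
      have e3 : ‖lev ρ m (KK ρ (lev ρ k w))‖ ≤ A := by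
        have := creation' ρ hδ hw k
        rw [c1] at this
        refine this.trans (le_of_eq ?_)
        rw [hA, ← e1]
        have : (k : ℝ) + 2 = m := by exact_mod_cast c1
        rw [this]
      rw [if_pos e1, if_pos e2] at *
      linarith
    · by_cases c2 : k = m
      · have e3 : ‖lev ρ m (KK ρ (lev ρ k w))‖ ≤ B := by rw [c2]; exact hop ρ m w
        rw [if_pos c2] at *
        linarith
      · by_cases c3 : k = m + 2
        · have e3 : ‖lev ρ m (KK ρ (lev ρ k w))‖ ≤ C := by rw [c3]; exact annih ρ hδ hw m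
          rw [if_pos c3] at *
          linarith
        · rw [lev_KK_lev_eq_zero ρ c1 c2 c3, norm_zero]
          linarith
  refine (Finset.sum_le_sum hterm).trans ?_
  rw [Finset.sum_add_distrib, Finset.sum_add_distrib, Finset.sum_ite_eq', Finset.sum_ite_eq',
    Finset.sum_ite_eq']
  have g1 : (if m - 2 ∈ Finset.range (Fintype.card X + 1) then (if 2 ≤ m then A else 0) else 0) ≤ A := by
    split_ifs <;> first | exact hA0 | exact le_refl _
  have g2 : (if m ∈ Finset.range (Fintype.card X + 1) then B else 0) ≤ B := by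
    split_ifs <;> first | exact hhop0 | exact le_refl _
  have g3 : (if m + 2 ∈ Finset.range (Fintype.card X + 1) then C else 0) ≤ C := by
    split_ifs <;> first | exact hC0 | exact le_refl _
  linarith

theorem Yop_apply (w : V) : Yop ρ w = (1 / (4 * (Fintype.card X : ℝ))) •
    ((∑ x : X, CC ρ x x) w + KK ρ w) := by
  rw [Yop_eq_CC, sum_CC_eq, LinearMap.smul_apply, LinearMap.add_apply]

end Lev

/-- [LVK] main inequality. -/
theorem levelK [Nonempty X] (ρ : ORep (Perm (X ⊕ X)) V) {δ : ℝ} (hδ : 0 ≤ δ) (w : V)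
    (hw : Dop ρ w = δ • w) (l : ℕ) :
    ‖lev ρ (2 * l) (Yop ρ w)‖ ≤ 2 * l * ‖lev ρ (2 * l) w‖
      + 2 * l * Real.sqrt (δ / (2 * Fintype.card X)) * ‖lev ρ (2 * l - 2) w‖
      + (2 * l + 2) * Real.sqrt (δ / (2 * Fintype.card X)) * ‖lev ρ (2 * l + 2) w‖ := by
  have hN : (0 : ℝ) < Fintype.card X := by exact_mod_cast Fintype.card_pos
  have h1 := lev_KK_norm ρ hδ hw (2 * l)
  rw [Yop_apply, map_smul, map_add, lev_diag, norm_smul, Real.norm_of_nonneg (by positivity)]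
  have h2 : ‖(4 * ((2 * l : ℕ) : ℝ)) • lev ρ (2 * l) w + lev ρ (2 * l) (KK ρ w)‖ ≤
      4 * (2 * l) * ‖lev ρ (2 * l) w‖ + ‖lev ρ (2 * l) (KK ρ w)‖ := by
    refine (norm_add_le _ _).trans ?_
    rw [norm_smul, Real.norm_of_nonneg (by positivity)]
    push_cast
    exact le_refl _
  push_cast at h1
  rcases Nat.eq_zero_or_pos l with hl | hl
  · subst hl
    simp only [Nat.cast_zero, mul_zero, zero_mul, zero_add] at *
    calc 1 / (4 * (Fintype.card X : ℝ)) * ‖(0 : ℝ) • lev ρ 0 w + lev ρ 0 (KK ρ w)‖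
        ≤ 1 / (4 * (Fintype.card X : ℝ)) * (4 * Fintype.card X *
          (2 * Real.sqrt (δ / (2 * Fintype.card X))) * ‖lev ρ 2 w‖) := by
          gcongr
          exact h2.trans h1
      _ = 2 * Real.sqrt (δ / (2 * Fintype.card X)) * ‖lev ρ 2 w‖ := by
          field_simp
  · have hl1 : (1 : ℝ) ≤ l := by exact_mod_cast hl
    calc 1 / (4 * (Fintype.card X : ℝ)) *
          ‖(4 * ((2 * l : ℕ) : ℝ)) • lev ρ (2 * l) w + lev ρ (2 * l) (KK ρ w)‖
        ≤ 1 / (4 * (Fintype.card X : ℝ)) * (4 * (2 * l) * ‖lev ρ (2 * l) w‖ +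
          (4 * Fintype.card X * (2 * l * Real.sqrt (δ / (2 * Fintype.card X))) *
            ‖lev ρ (2 * l - 2) w‖ + 4 * (2 * l) * (Fintype.card X - 2 * l) * ‖lev ρ (2 * l) w‖
          + 4 * Fintype.card X * ((2 * l + 2) * Real.sqrt (δ / (2 * Fintype.card X))) *
            ‖lev ρ (2 * l + 2) w‖)) := by
          gcongr
          linarith
      _ = 2 * l * ((1 + (Fintype.card X - 2 * l)) / Fintype.card X) * ‖lev ρ (2 * l) w‖
          + 2 * l * Real.sqrt (δ / (2 * Fintype.card X)) * ‖lev ρ (2 * l - 2) w‖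
          + (2 * l + 2) * Real.sqrt (δ / (2 * Fintype.card X)) * ‖lev ρ (2 * l + 2) w‖ := by
          field_simp
          ring
      _ ≤ 2 * l * 1 * ‖lev ρ (2 * l) w‖
          + 2 * l * Real.sqrt (δ / (2 * Fintype.card X)) * ‖lev ρ (2 * l - 2) w‖
          + (2 * l + 2) * Real.sqrt (δ / (2 * Fintype.card X)) * ‖lev ρ (2 * l + 2) w‖ := by
          gcongr
          rw [div_le_one hN]
          linarith
      _ = _ := by ring

theorem lev_zero_of_EH (ρ : ORep (Perm (X ⊕ X)) V) {v : V} (hv : EH ρ v = v) :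
    lev ρ 0 v = v := by rw [lev_zero, hv]

theorem Yop_of_EH (ρ : ORep (Perm (X ⊕ X)) V) {v : V} (hv : EH ρ v = v) :
    Yop ρ v = (1 / (4 * (Fintype.card X : ℝ))) • KK ρ (lev ρ 0 v) := by
  rw [Yop_apply, lev_zero_of_EH ρ hv]
  congr 1
  have h : (∑ x : X, CC ρ x x) v = 0 := by
    rw [LinearMap.sum_apply]
    refine Finset.sum_eq_zero fun x _ => ?_
    rw [CC_diag]
    have := flp_of_EH ρ hv {x}
    simp [this]
  rw [h, zero_add]

theorem lev_two_KK (ρ : ORep (Perm (X ⊕ X)) V) (v : V) :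
    lev ρ 2 (KK ρ (lev ρ 0 v)) = KK ρ (lev ρ 0 v) := by
  have h1 := sum_lev_apply ρ (KK ρ (lev ρ 0 v))
  have h2 : ∀ k, k ≠ 2 → lev ρ k (KK ρ (lev ρ 0 v)) = 0 := by
    intro k hk
    by_cases hk0 : k = 0
    · subst hk0
      have := hop ρ 0 v
      simp only [Nat.cast_zero, mul_zero, zero_mul] at this
      exact norm_le_zero_iff.1 this
    · exact lev_KK_lev_eq_zero ρ (by omega) (by omega) (by omega) v
  rcases Nat.lt_or_ge (Fintype.card X) 2 with hN | hN
  · have h3 : KK ρ (lev ρ 0 v) = 0 := by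
      rw [← h1]
      refine Finset.sum_eq_zero fun k hk => h2 k ?_
      rw [Finset.mem_range] at hk
      omega
    rw [h3, map_zero]
  · rw [Finset.sum_eq_single 2 (fun k _ hk => h2 k hk)
      (fun h => absurd (Finset.mem_range.2 (by omega)) h)] at h1
    exact h1

/-- [LVK] `Y` maps level 0 to level 2. -/
theorem Yop_lev_two [Nonempty X] (ρ : ORep (Perm (X ⊕ X)) V) {v : V} (hv : EH ρ v = v) :
    lev ρ 2 (Yop ρ v) = Yop ρ v := by
  rw [Yop_of_EH ρ hv, map_smul, lev_two_KK]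

/-- [LVK] second moment of `Y`. -/
theorem norm_Yop_sq_le [Nonempty X] (ρ : ORep (Perm (X ⊕ X)) V) {δ : ℝ} (hδ : 0 ≤ δ) {v : V}
    (hv : EH ρ v = v) (hw : Dop ρ v = δ • v) :
    ‖Yop ρ v‖ ^ 2 ≤ δ / Fintype.card X * ‖v‖ ^ 2 := by
  have hN : (0 : ℝ) < Fintype.card X := by exact_mod_cast Fintype.card_pos
  have h1 := creation ρ hw 0
  rw [zero_add, lev_two_KK] at h1
  rw [Yop_of_EH ρ hv, norm_smul, Real.norm_of_nonneg (by positivity), mul_pow]
  have h2 : ‖lev ρ 0 v‖ = ‖v‖ := by rw [lev_zero_of_EH ρ hv]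
  rw [h2] at h1
  calc (1 / (4 * (Fintype.card X : ℝ))) ^ 2 * ‖KK ρ (lev ρ 0 v)‖ ^ 2
      ≤ (1 / (4 * (Fintype.card X : ℝ))) ^ 2 * (((((0 : ℕ) : ℝ) + 2) * (((0 : ℕ) : ℝ) + 1)) *
        (8 * Fintype.card X * δ) * ‖v‖ ^ 2) := by gcongr
    _ = δ / Fintype.card X * ‖v‖ ^ 2 := by
        push_cast
        field_simp
        ring

end Vale.Agent.P162T
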