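import Vale.Agent.P162T.Basic

/-!
# P162 [LVL] The operator `Z = D_L - D_R` on the levels of `H`

Notation as in `LevelK.lean`.  For `x : X` let
`L_x := ∑_{q ≠ x, x'} (t_{x q} - t_{x' q})` (`q` over all points `≠ inl x, inr x`), `L = ∑_x L_x`.

(1) `D_L - D_R = - L/(2N)`.  Indeed `L = ∑_{x≠y} (t_xy - t_x'y + t_xy' - t_x'y')`, the mixed terms
    cancel, so `L = 2 ∑_{x<y} (t_xy - t_x'y')` and `D_L - D_R = (1/N) ∑_{x<y} (t_x'y' - t_xy)`.
(2) `u_x L_x = - L_x u_x`, `u_y L_x = L_x u_y` for `y ≠ x` (conjugation permutes the `q`),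
    so `L_x` maps sector `S` to `S ∆ {x}`.
(L1) for `w` in sector `S` with `D w = δ w`: `∑_{x ∉ S} ‖L_x w‖² ≤ 8 n² δ ‖w‖²`  (n = 2N).
    Proof: for `x ∉ S` (u_x w = w): `t_{x'q} w = u_x t_{x q'...}`; precisely `u_x t_{x q} u_x = t_{x' q}`,
    so `L_x w = (1-u_x) ∑_q t_{xq} w = -(1-u_x) 𝓛_x w`, `𝓛_x := ∑_{q≠x,x'} (1 - t_{xq})`.
    `‖L_x w‖² ≤ 4 ‖𝓛_x w‖²`, and `𝓛_x` symmetric, `0 ≤ 𝓛_x ≤ 2n` gives `‖𝓛_x w‖² ≤ 2n ⟨w, 𝓛_x w⟩`
    (or directly: Cauchy-Schwarz `‖∑_q (w - t w)‖² ≤ n ∑_q ‖w - t w‖² = 2 n ⟨w,𝓛_x w⟩`).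
    `⟨w,𝓛_x w⟩ = ½ ∑_q ⟨w,(2 - t_{xq} - t_{x'q}) w⟩` and summing over `x` each pair of points from
    different swap-pairs is counted twice (with the factor ½), so `∑_{x∉S} ⟨w,𝓛_x w⟩ ≤ ⟨w,𝓛 w⟩ = n δ‖w‖²`.
(3) The component of `Z w` in sector `S'` (`|S'| = m`) is `-(1/n) ∑_{x ∈ S'} L_x w_{S'∖x}` (from level
    `m-1`) `-(1/n) ∑_{x ∉ S'} L_x w_{S'∪x}` (from level `m+1`).  Creation part: Cauchy-Schwarz + (L1):
    norm² ≤ `(m/n²) · 8 n² δ ‖w_{m-1}‖² = 8 δ m ‖w_{m-1}‖²`.  Annihilation part = adjoint of the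
    creation part from `m` to `m+1` (as in `LevelK.lean`): norm ≤ `√(8 δ (m+1)) ‖w_{m+1}‖`.
(4) for `EH v = v`: `Z v = -(1/n) ∑_x L_x v` with `L_x v` in sector `{x}` (orthogonal for
    different `x`), so `‖Z v‖² = (1/n²) ∑_x ‖L_x v‖²`, `L_x v = -(𝓛_x - 𝓛_{x'}) v`,
    `𝓛_{x'} := ∑_{q≠x,x'} (1 - t_{x'q})`.  Expand `‖(𝓛_x - 𝓛_{x'})v‖² = ‖𝓛_x v‖² + ‖𝓛_{x'} v‖² - 2⟨𝓛_x v,𝓛_{x'} v⟩`,
    `⟨𝓛_x v, 𝓛_{x'} v⟩ = ∑_{q,r} ⟨(1-t_{xq})v,(1-t_{x'r})v⟩`; for `q ≠ r` the two transpositions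
    commute, and the product of commuting symmetric PSD operators is PSD:
    `(1-t)(1-s) = ¼ (1-t)²(1-s)² ` so `⟨(1-t)v,(1-s)v⟩ = ¼ ‖(1-t)(1-s)v‖² ≥ 0`; for `q = r`:
    `⟨(1-t)v,(1-s)v⟩ ≥ -½(‖(1-t)v‖² + ‖(1-s)v‖²) = -⟨(1-t)v,v⟩ - ⟨(1-s)v,v⟩`.
    So `‖L_x v‖² ≤ ‖𝓛_x v‖² + ‖𝓛_{x'} v‖² + 2 (⟨𝓛_x v,v⟩ + ⟨𝓛_{x'} v,v⟩)`.  Sum over `x`; `𝓛_x v = ∑_{all q} (v - t_{xq} v)`
    because `u_x v = v`, and `∑_p ⟨∑_q (1-t_pq)v, v⟩ = 2⟨𝓛v,v⟩ = 2nδ‖v‖²`.
-/

open Equiv Finset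

set_option linter.unusedSectionVars false

namespace Vale.Agent.P162T

variable {X : Type} [Fintype X] [DecidableEq X] {V : Type} [NormedAddCommGroup V]
  [InnerProductSpace ℝ V]

/-- `L_x = ∑_q (t_{xq} - t_{x'q})` (the terms `q = x, x'` cancel) -/
noncomputable def Lx (ρ : ORep (Perm (X ⊕ X)) V) (x : X) : V →ₗ[ℝ] V :=
  ∑ q : X ⊕ X, (ρ.toHom (swap (Sum.inl x) q) - ρ.toHom (swap (Sum.inr x) q))

/-- conjugation of transpositions -/
theorem conj_swap {Y : Type} [DecidableEq Y] (ρ : ORep (Perm Y) V) (g : Perm Y) (p q : Y) :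
    ρ.toHom g * ρ.toHom (swap p q) = ρ.toHom (swap (g p) (g q)) * ρ.toHom g := by
  rw [← map_mul, ← map_mul, Equiv.mul_swap_eq_swap_mul]

theorem Zop_eq [Nonempty X] (ρ : ORep (Perm (X ⊕ X)) V) :
    Zop ρ = -((1 / (2 * Fintype.card X : ℝ)) • ∑ x : X, Lx ρ x) := by
  have hL : ∑ x : X, Lx ρ x = ∑ x : X, ∑ y : X, (ρ.toHom (swap (Sum.inl x) (Sum.inl y)) -
      ρ.toHom (swap (Sum.inr x) (Sum.inr y))) := by
    unfold Lx
    simp_rw [Fintype.sum_sum_type, Finset.sum_sub_distrib, Finset.sum_add_distrib,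
      Finset.sum_sub_distrib]
    have h1 : ∑ x : X, ∑ y : X, ρ.toHom (swap (Sum.inr x : X ⊕ X) (Sum.inl y)) =
        ∑ x : X, ∑ y : X, ρ.toHom (swap (Sum.inl x : X ⊕ X) (Sum.inr y)) := by
      rw [Finset.sum_comm]
      apply Finset.sum_congr rfl; intro x _
      apply Finset.sum_congr rfl; intro y _
      rw [swap_comm]
    rw [h1]
    abel
  rw [hL]
  unfold Zop DL DR Dop lap lapOn
  have hi : ∀ x y : X, (ρ.comp inL).toHom (swap x y) = ρ.toHom (swap (Sum.inl x) (Sum.inl y)) := by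
    intro x y
    rw [ORep.comp_apply]
    congr 1
    ext z
    rcases z with z | z
    · rw [inL_apply_inl]
      by_cases h1 : z = x
      · subst h1; simp
      · by_cases h2 : z = y
        · subst h2; simp
        · rw [swap_apply_of_ne_of_ne h1 h2, swap_apply_of_ne_of_ne (by simpa using h1)
            (by simpa using h2)]
    · rw [inL_apply_inr, swap_apply_of_ne_of_ne (by simp) (by simp)]
  have hi' : ∀ x y : X, (ρ.comp inR).toHom (swap x y) = ρ.toHom (swap (Sum.inr x) (Sum.inr y)) := by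
    intro x y
    rw [ORep.comp_apply]
    congr 1
    ext z
    rcases z with z | z
    · rw [inR_apply_inl, swap_apply_of_ne_of_ne (by simp) (by simp)]
    · rw [inR_apply_inr]
      by_cases h1 : z = x
      · subst h1; simp
      · by_cases h2 : z = y
        · subst h2; simp
        · rw [swap_apply_of_ne_of_ne h1 h2, swap_apply_of_ne_of_ne (by simpa using h1)
            (by simpa using h2)]
  simp_rw [hi, hi']
  rw [← smul_sub, ← smul_sub, smul_smul, ← Finset.sum_sub_distrib, ← smul_neg,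
    ← Finset.sum_neg_distrib]
  have hN : (Fintype.card X : ℝ) ≠ 0 := by
    have := Fintype.card_pos (α := X)
    positivity
  congr 1
  · field_simp
  · apply Finset.sum_congr rfl; intro x _
    rw [← Finset.sum_sub_distrib, ← Finset.sum_neg_distrib]
    apply Finset.sum_congr rfl; intro y _
    abel

theorem flp_conj_Lx (ρ : ORep (Perm (X ⊕ X)) V) (x y : X) :
    ρ.toHom (flp {y}) * Lx ρ x =
      (if y ∈ ({x} : Finset X) then (-1 : ℝ) else 1) • (Lx ρ x * ρ.toHom (flp {y})) := by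
  unfold Lx
  rw [Finset.mul_sum, Finset.sum_mul]
  simp_rw [mul_sub, sub_mul, conj_swap ρ (flp {y})]
  rw [Finset.sum_sub_distrib, Finset.sum_sub_distrib, ← Finset.sum_mul, ← Finset.sum_mul,
    ← Finset.sum_mul, ← Finset.sum_mul]
  have h1 : ∀ p : X ⊕ X, ∑ q : X ⊕ X, ρ.toHom (swap p (flp {y} q)) =
      ∑ q : X ⊕ X, ρ.toHom (swap p q) := fun p =>
    Equiv.sum_comp (flp {y}) (fun q => ρ.toHom (swap p q))
  rw [h1, h1]
  by_cases h : y = x
  · subst h
    simp only [Finset.mem_singleton, if_true, flp_apply_inl, flp_apply_inr]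
    rw [neg_smul, one_smul, neg_sub]
  · have h' : x ∉ ({y} : Finset X) := by simpa using fun h0 => h h0.symm
    have h'' : y ∉ ({x} : Finset X) := by simpa using h
    rw [flp_apply_inl, flp_apply_inr, if_neg h', if_neg h', if_neg h'', one_smul]

theorem Lx_sec (ρ : ORep (Perm (X ⊕ X)) V) (x : X) (S : Finset X) :
    Lx ρ x * sec ρ S = sec ρ (symmDiff S {x}) * Lx ρ x :=
  sec_shift ρ (Lx ρ x) {x} (fun y => flp_conj_Lx ρ x y) S

/-- the local Laplacian at the point `p` -/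
noncomputable def Ap (ρ : ORep (Perm (X ⊕ X)) V) (p : X ⊕ X) (v : V) : V :=
  ∑ q : X ⊕ X, (v - ρ.toHom (swap p q) v)

theorem Lx_apply (ρ : ORep (Perm (X ⊕ X)) V) (x : X) (v : V) :
    Lx ρ x v = Ap ρ (Sum.inr x) v - Ap ρ (Sum.inl x) v := by
  unfold Lx Ap
  rw [LinearMap.sum_apply, ← Finset.sum_sub_distrib]
  apply Finset.sum_congr rfl; intro q _
  rw [LinearMap.sub_apply]
  abel

theorem inner_sub_swap (ρ : ORep (Perm (X ⊕ X)) V) (p q : X ⊕ X) (v : V) :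
    inner ℝ (v - ρ.toHom (swap p q) v) v = (1 / 2) * ‖v - ρ.toHom (swap p q) v‖ ^ 2 := by
  rw [norm_sub_sq_real, ρ.norm_map, inner_sub_left, real_inner_self_eq_norm_sq,
    real_inner_comm v (ρ.toHom (swap p q) v)]
  ring

theorem inner_Ap (ρ : ORep (Perm (X ⊕ X)) V) (p : X ⊕ X) (v : V) :
    inner ℝ (Ap ρ p v) v = (1 / 2) * ∑ q : X ⊕ X, ‖v - ρ.toHom (swap p q) v‖ ^ 2 := by
  unfold Ap
  rw [sum_inner, Finset.mul_sum]
  exact Finset.sum_congr rfl (fun q _ => inner_sub_swap ρ p q v)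

theorem inner_Ap_nonneg (ρ : ORep (Perm (X ⊕ X)) V) (p : X ⊕ X) (v : V) :
    0 ≤ inner ℝ (Ap ρ p v) v := by
  rw [inner_Ap]; positivity

theorem norm_sum_sq_le {κ : Type*} (s : Finset κ) (f : κ → V) :
    ‖∑ q ∈ s, f q‖ ^ 2 ≤ (s.card : ℝ) * ∑ q ∈ s, ‖f q‖ ^ 2 := by
  have h1 : ‖∑ q ∈ s, f q‖ ≤ ∑ q ∈ s, ‖f q‖ := norm_sum_le _ _
  have h2 : (∑ q ∈ s, ‖f q‖) ^ 2 ≤ (s.card : ℝ) * ∑ q ∈ s, ‖f q‖ ^ 2 :=
    sq_sum_le_card_mul_sum_sq
  have h3 : ‖∑ q ∈ s, f q‖ ^ 2 ≤ (∑ q ∈ s, ‖f q‖) ^ 2 := by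
    gcongr
  exact h3.trans h2

theorem norm_Ap_sq_le (ρ : ORep (Perm (X ⊕ X)) V) (p : X ⊕ X) (v : V) :
    ‖Ap ρ p v‖ ^ 2 ≤ 2 * (2 * Fintype.card X : ℝ) * inner ℝ (Ap ρ p v) v := by
  rw [inner_Ap]
  unfold Ap
  have h := norm_sum_sq_le (Finset.univ : Finset (X ⊕ X)) (fun q => v - ρ.toHom (swap p q) v)
  rw [Finset.card_univ, Fintype.card_sum] at h
  push_cast at h
  refine h.trans (le_of_eq ?_)
  ring

/-- `∑_p ⟨A_p v, v⟩ = 2 n δ ‖v‖²` -/
theorem sum_inner_Ap [Nonempty X] (ρ : ORep (Perm (X ⊕ X)) V) {δ : ℝ} {v : V}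
    (hw : Dop ρ v = δ • v) :
    ∑ p : X ⊕ X, inner ℝ (Ap ρ p v) v = 2 * (2 * Fintype.card X : ℝ) * δ * ‖v‖ ^ 2 := by
  have h1 := Dop_eig_lap ρ hw
  have h2 : inner ℝ (lap ρ v) v = (2 * Fintype.card X : ℝ) * δ * ‖v‖ ^ 2 := by
    rw [h1, inner_smul_left, real_inner_self_eq_norm_sq, Fintype.card_sum]
    push_cast
    simp only [conj_trivial]
    ring
  unfold lap at h2
  rw [inner_lapOn] at h2
  simp_rw [inner_Ap]
  rw [← Finset.mul_sum]
  linarith

theorem sum_norm_Lx_sq_le [Nonempty X] (ρ : ORep (Perm (X ⊕ X)) V) {δ : ℝ} {v : V}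
    (hw : Dop ρ v = δ • v) :
    ∑ x : X, ‖Lx ρ x v‖ ^ 2 ≤ 8 * (2 * Fintype.card X : ℝ) ^ 2 * δ * ‖v‖ ^ 2 := by
  have h1 : ∀ x, ‖Lx ρ x v‖ ^ 2 ≤ 2 * ‖Ap ρ (Sum.inl x) v‖ ^ 2 + 2 * ‖Ap ρ (Sum.inr x) v‖ ^ 2 := by
    intro x
    rw [Lx_apply]
    have h2 := norm_sub_le (Ap ρ (Sum.inr x) v) (Ap ρ (Sum.inl x) v)
    have h3 : ‖Ap ρ (Sum.inr x) v - Ap ρ (Sum.inl x) v‖ ^ 2 ≤
        (‖Ap ρ (Sum.inr x) v‖ + ‖Ap ρ (Sum.inl x) v‖) ^ 2 := by gcongr
    nlinarith [sq_nonneg (‖Ap ρ (Sum.inr x) v‖ - ‖Ap ρ (Sum.inl x) v‖)]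
  have h4 : ∑ x : X, ‖Lx ρ x v‖ ^ 2 ≤ ∑ p : X ⊕ X, 2 * ‖Ap ρ p v‖ ^ 2 := by
    rw [Fintype.sum_sum_type, ← Finset.sum_add_distrib]
    exact Finset.sum_le_sum (fun x _ => h1 x)
  have h5 : ∑ p : X ⊕ X, 2 * ‖Ap ρ p v‖ ^ 2 ≤
      ∑ p : X ⊕ X, 2 * (2 * (2 * Fintype.card X : ℝ) * inner ℝ (Ap ρ p v) v) :=
    Finset.sum_le_sum (fun p _ => by
      have := norm_Ap_sq_le ρ p v
      linarith)
  have h6 := h4.trans h5
  rw [← Finset.mul_sum, ← Finset.mul_sum, sum_inner_Ap ρ hw] at h6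
  refine h6.trans (le_of_eq ?_)
  ring


theorem sec_Lx (ρ : ORep (Perm (X ⊕ X)) V) (x : X) (S : Finset X) :
    sec ρ S * Lx ρ x = Lx ρ x * sec ρ (symmDiff S {x}) := by
  rw [Lx_sec, symmDiff_symmDiff_cancel_right]

theorem sec_Lx_apply (ρ : ORep (Perm (X ⊕ X)) V) (x : X) (S : Finset X) (v : V) :
    sec ρ S (Lx ρ x v) = Lx ρ x (sec ρ (symmDiff S {x}) v) := by
  have := congrArg (fun f => f v) (sec_Lx ρ x S)
  simpa using this

theorem sec_mul_lev (ρ : ORep (Perm (X ⊕ X)) V) (S : Finset X) (m : ℕ) :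
    sec ρ S * lev ρ m = if S.card = m then sec ρ S else 0 := by
  unfold lev
  rw [Finset.mul_sum]
  simp_rw [sec_mul_sec]
  by_cases h : S.card = m
  · rw [if_pos h, Finset.sum_eq_single S]
    · simp
    · intro b _ hb
      rw [if_neg (Ne.symm hb)]
    · intro hS
      exact absurd (by simp [h]) hS
  · rw [if_neg h]
    apply Finset.sum_eq_zero
    intro S' hS'
    rw [if_neg]
    rintro rfl
    exact h (by simpa using hS')

theorem sec_lev_applyL (ρ : ORep (Perm (X ⊕ X)) V) (S : Finset X) (m : ℕ) (v : V) :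
    sec ρ S (lev ρ m v) = if S.card = m then sec ρ S v else 0 := by
  have := congrArg (fun f => f v) (sec_mul_lev ρ S m)
  simp only [Module.End.mul_apply] at this
  rw [this]
  split_ifs <;> rfl

theorem Dop_sec (ρ : ORep (Perm (X ⊕ X)) V) {δ : ℝ} {w : V} (hw : Dop ρ w = δ • w)
    (S : Finset X) : Dop ρ (sec ρ S w) = δ • sec ρ S w := by
  have h := sec_commute_of ρ (Dop ρ) (fun g => Dop_commute ρ g) S
  have h1 := congrArg (fun f => f w) h.eq
  simp only [Module.End.mul_apply] at h1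
  rw [← h1, hw, map_smul]

theorem Dop_lev (ρ : ORep (Perm (X ⊕ X)) V) {δ : ℝ} {w : V} (hw : Dop ρ w = δ • w)
    (m : ℕ) : Dop ρ (lev ρ m w) = δ • lev ρ m w := by
  have h := lev_commute_of ρ (Dop ρ) (fun g => Dop_commute ρ g) m
  have h1 := congrArg (fun f => f w) h.eq
  simp only [Module.End.mul_apply] at h1
  rw [← h1, hw, map_smul]

/-- the total operator -/
noncomputable def Lop (ρ : ORep (Perm (X ⊕ X)) V) : V →ₗ[ℝ] V := ∑ x : X, Lx ρ x

theorem Lop_commute_Dop (ρ : ORep (Perm (X ⊕ X)) V) : Commute (Lop ρ) (Dop ρ) := by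
  unfold Lop Lx
  apply Commute.sum_left; intro x _
  apply Commute.sum_left; intro q _
  exact (Dop_commute ρ _).sub_left (Dop_commute ρ _)

theorem Dop_Lop (ρ : ORep (Perm (X ⊕ X)) V) {δ : ℝ} {w : V} (hw : Dop ρ w = δ • w) :
    Dop ρ (Lop ρ w) = δ • Lop ρ w := by
  have h1 := congrArg (fun f => f w) (Lop_commute_Dop ρ).eq
  simp only [Module.End.mul_apply] at h1
  rw [← h1, hw, map_smul]

theorem Lop_symm (ρ : ORep (Perm (X ⊕ X)) V) (v w : V) :
    inner ℝ (Lop ρ v) w = inner ℝ v (Lop ρ w) := by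
  unfold Lop Lx
  simp only [LinearMap.sum_apply, LinearMap.sub_apply, sum_inner, inner_sum, inner_sub_left,
    inner_sub_right, ρ.inner_map_left, swap_inv]

theorem Lop_apply (ρ : ORep (Perm (X ⊕ X)) V) (v : V) : Lop ρ v = ∑ x : X, Lx ρ x v := by
  unfold Lop
  rw [LinearMap.sum_apply]

theorem card_symmDiff_singleton_mem {S : Finset X} {x : X} (h : x ∈ S) :
    (symmDiff S {x}).card + 1 = S.card := by
  have : symmDiff S {x} = S.erase x := by
    ext y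
    simp only [Finset.mem_symmDiff, Finset.mem_singleton, Finset.mem_erase]
    constructor
    · rintro (h1 | h1)
      · exact ⟨h1.2, h1.1⟩
      · exact absurd (h1.1 ▸ h) h1.2
    · rintro ⟨h1, h2⟩
      exact Or.inl ⟨h2, h1⟩
  rw [this, Finset.card_erase_add_one h]

theorem card_symmDiff_singleton_notMem {S : Finset X} {x : X} (h : x ∉ S) :
    (symmDiff S {x}).card = S.card + 1 := by
  have : symmDiff S {x} = insert x S := by
    ext y
    simp only [Finset.mem_symmDiff, Finset.mem_singleton, Finset.mem_insert]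
    constructor
    · rintro (h1 | h1)
      · exact Or.inr h1.1
      · exact Or.inl h1.1
    · rintro (h1 | h1)
      · exact Or.inr ⟨h1, h1 ▸ h⟩
      · exact Or.inl ⟨h1, fun h2 => h (h2 ▸ h1)⟩
  rw [this, Finset.card_insert_of_notMem h]

theorem symmDiff_mem_iff {S : Finset X} {x : X} : x ∈ symmDiff S {x} ↔ x ∉ S := by
  simp [Finset.mem_symmDiff]

/-- creation part -/
theorem creation_le [Nonempty X] (ρ : ORep (Perm (X ⊕ X)) V) {δ : ℝ} (hδ : 0 ≤ δ) (w : V)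
    (hw : Dop ρ w = δ • w) (m : ℕ) :
    ‖lev ρ (m + 1) (Lop ρ (lev ρ m w))‖ ≤
      (2 * Fintype.card X : ℝ) * Real.sqrt (8 * δ) * Real.sqrt (m + 1) * ‖lev ρ m w‖ := by
  have hsq : ‖lev ρ (m + 1) (Lop ρ (lev ρ m w))‖ ^ 2 ≤
      ((m : ℝ) + 1) * (8 * (2 * Fintype.card X : ℝ) ^ 2 * δ * ‖lev ρ m w‖ ^ 2) := by
    rw [norm_lev_sq]
    have h1 : ∀ S' ∈ Finset.univ.filter (fun S : Finset X => S.card = m + 1),
        ‖sec ρ S' (Lop ρ (lev ρ m w))‖ ^ 2 ≤
          ((m : ℝ) + 1) * ∑ x ∈ S', ‖Lx ρ x (sec ρ (symmDiff S' {x}) w)‖ ^ 2 := by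
      intro S' hS'
      have hc : S'.card = m + 1 := by simpa using hS'
      have h2 : sec ρ S' (Lop ρ (lev ρ m w)) =
          ∑ x ∈ S', Lx ρ x (sec ρ (symmDiff S' {x}) w) := by
        rw [Lop_apply, map_sum, ← Finset.sum_subset (Finset.subset_univ S')]
        · apply Finset.sum_congr rfl
          intro x hx
          rw [sec_Lx_apply, sec_lev_applyL, if_pos]
          have := card_symmDiff_singleton_mem hx
          omega
        · intro x _ hx
          rw [sec_Lx_apply, sec_lev_applyL, if_neg, map_zero]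
          have := card_symmDiff_singleton_notMem hx
          omega
      rw [h2]
      have h3 := norm_sum_sq_le S' (fun x => Lx ρ x (sec ρ (symmDiff S' {x}) w))
      rw [hc] at h3
      push_cast at h3
      exact h3
    refine (Finset.sum_le_sum h1).trans ?_
    rw [← Finset.mul_sum]
    apply mul_le_mul_of_nonneg_left _ (by positivity)
    -- reindexing
    have h4 : ∑ S' ∈ Finset.univ.filter (fun S : Finset X => S.card = m + 1),
        ∑ x ∈ S', ‖Lx ρ x (sec ρ (symmDiff S' {x}) w)‖ ^ 2 ≤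
        ∑ S ∈ Finset.univ.filter (fun S : Finset X => S.card = m),
          ∑ x : X, ‖Lx ρ x (sec ρ S w)‖ ^ 2 := by
      have h5 : ∑ S' ∈ Finset.univ.filter (fun S : Finset X => S.card = m + 1),
          ∑ x ∈ S', ‖Lx ρ x (sec ρ (symmDiff S' {x}) w)‖ ^ 2 =
          ∑ x : X, ∑ S' : Finset X, if (S'.card = m + 1 ∧ x ∈ S') then
            ‖Lx ρ x (sec ρ (symmDiff S' {x}) w)‖ ^ 2 else 0 := by
        rw [Finset.sum_comm, Finset.sum_filter]
        apply Finset.sum_congr rfl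
        intro S' _
        by_cases hc : S'.card = m + 1
        · rw [if_pos hc, ← Finset.sum_filter]
          apply Finset.sum_congr _ (fun _ _ => rfl)
          ext x; simp [hc]
        · rw [if_neg hc]
          symm
          apply Finset.sum_eq_zero
          intro x _
          rw [if_neg (fun h => hc h.1)]
      have h6 : ∑ S ∈ Finset.univ.filter (fun S : Finset X => S.card = m),
          ∑ x : X, ‖Lx ρ x (sec ρ S w)‖ ^ 2 =
          ∑ x : X, ∑ S : Finset X, if S.card = m then ‖Lx ρ x (sec ρ S w)‖ ^ 2 else 0 := by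
        rw [Finset.sum_comm]
        apply Finset.sum_congr rfl
        intro x _
        rw [Finset.sum_filter]
      rw [h5, h6]
      apply Finset.sum_le_sum
      intro x _
      let e : Finset X ≃ Finset X := ⟨fun S => symmDiff S {x}, fun S => symmDiff S {x},
        fun S => symmDiff_symmDiff_cancel_right _ _, fun S => symmDiff_symmDiff_cancel_right _ _⟩
      rw [← Equiv.sum_comp e]
      apply Finset.sum_le_sum
      intro S _
      show (if ((symmDiff S {x}).card = m + 1 ∧ x ∈ symmDiff S {x}) then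
        ‖Lx ρ x (sec ρ (symmDiff (symmDiff S {x}) {x}) w)‖ ^ 2 else 0) ≤ _
      rw [symmDiff_symmDiff_cancel_right]
      by_cases hc : (symmDiff S {x}).card = m + 1 ∧ x ∈ symmDiff S {x}
      · rw [if_pos hc, if_pos]
        have h7 := card_symmDiff_singleton_notMem (symmDiff_mem_iff.mp hc.2)
        omega
      · rw [if_neg hc]
        split_ifs <;> positivity
    refine h4.trans ?_
    rw [norm_lev_sq, Finset.mul_sum]
    exact Finset.sum_le_sum (fun S _ => sum_norm_Lx_sq_le ρ (Dop_sec ρ hw S))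
  apply le_of_sq_le_sq _ (by positivity)
  refine hsq.trans (le_of_eq ?_)
  have hs1 : Real.sqrt (8 * δ) ^ 2 = 8 * δ := Real.sq_sqrt (by positivity)
  have hs2 : Real.sqrt ((m : ℝ) + 1) ^ 2 = (m : ℝ) + 1 := Real.sq_sqrt (by positivity)
  have hs3 : ((2 * Fintype.card X : ℝ) * Real.sqrt (8 * δ) * Real.sqrt (m + 1) *
      ‖lev ρ m w‖) ^ 2 = (2 * Fintype.card X : ℝ) ^ 2 * Real.sqrt (8 * δ) ^ 2 *
        Real.sqrt ((m : ℝ) + 1) ^ 2 * ‖lev ρ m w‖ ^ 2 := by ring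
  rw [hs3, hs1, hs2]
  ring

theorem lev_lev_applyL (ρ : ORep (Perm (X ⊕ X)) V) (m : ℕ) (v : V) :
    lev ρ m (lev ρ m v) = lev ρ m v := by
  have := congrArg (fun f => f v) (lev_mul_lev ρ m m)
  simpa using this

/-- annihilation part -/
theorem annihilation_le [Nonempty X] (ρ : ORep (Perm (X ⊕ X)) V) {δ : ℝ} (hδ : 0 ≤ δ) (w : V)
    (hw : Dop ρ w = δ • w) (m : ℕ) :
    ‖lev ρ m (Lop ρ (lev ρ (m + 1) w))‖ ≤
      (2 * Fintype.card X : ℝ) * Real.sqrt (8 * δ) * Real.sqrt (m + 1) *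
        ‖lev ρ (m + 1) w‖ := by
  set w' := lev ρ m (Lop ρ (lev ρ (m + 1) w)) with hw'
  have hD : Dop ρ w' = δ • w' := Dop_lev ρ (Dop_Lop ρ (Dop_lev ρ hw _)) _
  have h1 := creation_le ρ hδ w' hD m
  have h2 : lev ρ m w' = w' := lev_lev_applyL ρ m _
  rw [h2] at h1
  have h3 : ‖w'‖ ^ 2 = inner ℝ (lev ρ (m + 1) w) (lev ρ (m + 1) (Lop ρ w')) := by
    calc ‖w'‖ ^ 2 = inner ℝ w' w' := (real_inner_self_eq_norm_sq _).symm
      _ = inner ℝ (Lop ρ (lev ρ (m + 1) w)) (lev ρ m w') := by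
          conv_lhs => rw [hw']
          exact lev_symm ρ m _ _
      _ = inner ℝ (lev ρ (m + 1) w) (Lop ρ w') := by rw [h2, Lop_symm]
      _ = inner ℝ (lev ρ (m + 1) (lev ρ (m + 1) w)) (Lop ρ w') := by rw [lev_lev_applyL]
      _ = _ := lev_symm ρ (m + 1) _ _
  have h4 := real_inner_le_norm (lev ρ (m + 1) w) (lev ρ (m + 1) (Lop ρ w'))
  rw [← h3] at h4
  by_cases h0 : ‖w'‖ = 0
  · rw [h0]; positivity
  · have hpos : 0 < ‖w'‖ := lt_of_le_of_ne (norm_nonneg _) (Ne.symm h0)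
    have h5 : ‖w'‖ * ‖w'‖ ≤ ((2 * Fintype.card X : ℝ) * Real.sqrt (8 * δ) * Real.sqrt (m + 1) *
        ‖lev ρ (m + 1) w‖) * ‖w'‖ := by
      calc ‖w'‖ * ‖w'‖ = ‖w'‖ ^ 2 := (sq _).symm
        _ ≤ ‖lev ρ (m + 1) w‖ * ‖lev ρ (m + 1) (Lop ρ w')‖ := h4
        _ ≤ ‖lev ρ (m + 1) w‖ * ((2 * Fintype.card X : ℝ) * Real.sqrt (8 * δ) *
              Real.sqrt (m + 1) * ‖w'‖) := mul_le_mul_of_nonneg_left h1 (norm_nonneg _)
        _ = _ := by ring
    exact le_of_mul_le_mul_right h5 hpos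

/-- `L` changes the level by one -/
theorem lev_Lop_succ (ρ : ORep (Perm (X ⊕ X)) V) (m : ℕ) (w : V) :
    lev ρ (m + 1) (Lop ρ w) = lev ρ (m + 1) (Lop ρ (lev ρ m w)) +
      lev ρ (m + 1) (Lop ρ (lev ρ (m + 2) w)) := by
  have h0 : ∀ v, lev ρ (m + 1) (Lop ρ v) =
      ∑ S ∈ Finset.univ.filter (fun S : Finset X => S.card = m + 1),
        ∑ x : X, Lx ρ x (sec ρ (symmDiff S {x}) v) := by
    intro v
    unfold lev
    rw [LinearMap.sum_apply]
    apply Finset.sum_congr rfl; intro S _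
    rw [Lop_apply, map_sum]
    exact Finset.sum_congr rfl (fun x _ => sec_Lx_apply ρ x S v)
  rw [h0, h0, h0, ← Finset.sum_add_distrib]
  apply Finset.sum_congr rfl; intro S hS
  have hc : S.card = m + 1 := by simpa using hS
  rw [← Finset.sum_add_distrib]
  apply Finset.sum_congr rfl; intro x _
  rw [← map_add, sec_lev_applyL, sec_lev_applyL]
  congr 1
  by_cases hx : x ∈ S
  · have h1 := card_symmDiff_singleton_mem hx
    rw [if_pos (by omega), if_neg (by omega), add_zero]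
  · have h1 := card_symmDiff_singleton_notMem hx
    rw [if_neg (by omega), if_pos (by omega), zero_add]

theorem lev_Lop_zero (ρ : ORep (Perm (X ⊕ X)) V) (w : V) :
    lev ρ 0 (Lop ρ w) = lev ρ 0 (Lop ρ (lev ρ 1 w)) := by
  have h0 : ∀ v, lev ρ 0 (Lop ρ v) =
      ∑ S ∈ Finset.univ.filter (fun S : Finset X => S.card = 0),
        ∑ x : X, Lx ρ x (sec ρ (symmDiff S {x}) v) := by
    intro v
    unfold lev
    rw [LinearMap.sum_apply]
    apply Finset.sum_congr rfl; intro S _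
    rw [Lop_apply, map_sum]
    exact Finset.sum_congr rfl (fun x _ => sec_Lx_apply ρ x S v)
  rw [h0, h0]
  apply Finset.sum_congr rfl; intro S hS
  have hc : S.card = 0 := by simpa using hS
  apply Finset.sum_congr rfl; intro x _
  rw [sec_lev_applyL]
  congr 1
  have hx : x ∉ S := by
    intro h
    rw [Finset.card_eq_zero] at hc
    rw [hc] at h
    exact absurd h (Finset.notMem_empty x)
  have h1 := card_symmDiff_singleton_notMem hx
  rw [if_pos (by omega)]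

theorem Zop_apply [Nonempty X] (ρ : ORep (Perm (X ⊕ X)) V) (v : V) :
    Zop ρ v = -((1 / (2 * Fintype.card X : ℝ)) • Lop ρ v) := by
  rw [Zop_eq]; rfl

/-- [LVL1] main inequality. -/
theorem levelL [Nonempty X] (ρ : ORep (Perm (X ⊕ X)) V) {δ : ℝ} (hδ : 0 ≤ δ) (w : V)
    (hw : Dop ρ w = δ • w) (m : ℕ) :
    ‖lev ρ m (Zop ρ w)‖ ≤ Real.sqrt (8 * δ) *
      (Real.sqrt m * ‖lev ρ (m - 1) w‖ + Real.sqrt (m + 1) * ‖lev ρ (m + 1) w‖) := by
  have hn : (0 : ℝ) < 2 * Fintype.card X := by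
    have := Fintype.card_pos (α := X)
    positivity
  have hkey : ‖lev ρ m (Lop ρ w)‖ ≤ (2 * Fintype.card X : ℝ) * (Real.sqrt (8 * δ) *
      (Real.sqrt m * ‖lev ρ (m - 1) w‖ + Real.sqrt (m + 1) * ‖lev ρ (m + 1) w‖)) := by
    rcases m with _ | m
    · rw [lev_Lop_zero]
      have h1 := annihilation_le ρ hδ w hw 0
      simp only [Nat.cast_zero, Real.sqrt_zero, zero_mul, zero_add] at h1 ⊢
      refine h1.trans (le_of_eq ?_)
      ring
    · rw [lev_Lop_succ]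
      have h1 := annihilation_le ρ hδ w hw (m + 1)
      have h2 := creation_le ρ hδ w hw m
      refine (norm_add_le _ _).trans ?_
      have h3 : m + 1 - 1 = m := rfl
      rw [h3]
      push_cast at h1 ⊢
      have h4 : m + 1 + 1 = m + 2 := rfl
      rw [h4] at h1 ⊢
      refine (add_le_add h2 h1).trans (le_of_eq ?_)
      ring
  rw [Zop_apply, map_neg, norm_neg, map_smul, norm_smul, Real.norm_eq_abs, abs_of_pos (by positivity)]
  calc 1 / (2 * Fintype.card X : ℝ) * ‖lev ρ m (Lop ρ w)‖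
      ≤ 1 / (2 * Fintype.card X : ℝ) * ((2 * Fintype.card X : ℝ) * (Real.sqrt (8 * δ) *
      (Real.sqrt m * ‖lev ρ (m - 1) w‖ + Real.sqrt (m + 1) * ‖lev ρ (m + 1) w‖))) :=
        mul_le_mul_of_nonneg_left hkey (by positivity)
    _ = _ := by field_simp

/-- on vectors fixed by `E_H`, `L_x v` is in the sector `{x}` -/
theorem sec_singleton_Lx (ρ : ORep (Perm (X ⊕ X)) V) {v : V} (hv : EH ρ v = v) (x : X) :
    sec ρ {x} (Lx ρ x v) = Lx ρ x v := by
  rw [sec_Lx_apply]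
  have h1 : symmDiff ({x} : Finset X) {x} = ∅ := symmDiff_self _
  rw [h1, sec_empty, hv]

/-- [LVL1] `Z` maps level 0 to level 1. -/
theorem Zop_lev_one [Nonempty X] (ρ : ORep (Perm (X ⊕ X)) V) {v : V} (hv : EH ρ v = v) :
    lev ρ 1 (Zop ρ v) = Zop ρ v := by
  rw [Zop_apply, map_neg, map_smul, Lop_apply, map_sum]
  congr 2
  apply Finset.sum_congr rfl; intro x _
  have h1 : lev ρ 1 (sec ρ {x} (Lx ρ x v)) = sec ρ {x} (Lx ρ x v) := by
    unfold lev
    rw [LinearMap.sum_apply, Finset.sum_eq_single {x}]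
    · have := congrArg (fun f => f (Lx ρ x v)) (sec_mul_sec ρ {x} {x})
      simpa using this
    · intro b _ hb
      have := congrArg (fun f => f (Lx ρ x v)) (sec_mul_sec ρ b {x})
      simp only [Module.End.mul_apply, if_neg hb] at this
      simpa using this
    · intro h
      exact absurd (by simp) h
  rw [sec_singleton_Lx ρ hv x] at h1
  exact h1


theorem inner_lap_comm_nonneg {Y : Type} [Fintype Y] [DecidableEq Y] (ρ : ORep (Perm Y) V)
    (s t : Perm Y) (hs : s * s = 1) (ht : t * t = 1) (hst : s * t = t * s) (v : V) :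
    0 ≤ inner ℝ (v - ρ.toHom s v) (v - ρ.toHom t v) := by
  have hsi : s⁻¹ = s := by rw [inv_eq_iff_mul_eq_one]; exact hs
  have hti : t⁻¹ = t := by rw [inv_eq_iff_mul_eq_one]; exact ht
  have e1 : ρ.toHom s (ρ.toHom s v) = v := by rw [← ρ.map_mul_apply, hs, ρ.map_one_apply]
  have key : ∀ a b : V, inner ℝ (ρ.toHom s a) b = inner ℝ a (ρ.toHom s b) := by
    intro a b; rw [ρ.inner_map_left, hsi]
  have key' : ∀ a b : V, inner ℝ (ρ.toHom t a) b = inner ℝ a (ρ.toHom t b) := by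
    intro a b; rw [ρ.inner_map_left, hti]
  have ss : ∀ a : V, ρ.toHom s (ρ.toHom s a) = a := by
    intro a; rw [← ρ.map_mul_apply, hs, ρ.map_one_apply]
  have tt : ∀ a : V, ρ.toHom t (ρ.toHom t a) = a := by
    intro a; rw [← ρ.map_mul_apply, ht, ρ.map_one_apply]
  have st : ∀ a : V, ρ.toHom s (ρ.toHom t a) = ρ.toHom t (ρ.toHom s a) := by
    intro a; rw [← ρ.map_mul_apply, ← ρ.map_mul_apply, hst]
  -- `⟨(1-s)v,(1-t)v⟩ = ¼ ‖(1-s)(1-t)v‖²`
  have h : ‖v - ρ.toHom t v - ρ.toHom s (v - ρ.toHom t v)‖ ^ 2 =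
      4 * inner ℝ (v - ρ.toHom s v) (v - ρ.toHom t v) := by
    rw [← real_inner_self_eq_norm_sq]
    simp only [map_sub, inner_sub_left, inner_sub_right, key, ss, st]
    simp only [key', tt]
    simp only [key, ss, st]
    ring
  have := sq_nonneg ‖v - ρ.toHom t v - ρ.toHom s (v - ρ.toHom t v)‖
  linarith


/-- lower bound of the cross terms -/
theorem inner_Ap_Ap_ge (ρ : ORep (Perm (X ⊕ X)) V) {v : V} (hv : EH ρ v = v) (x : X) :
    -(inner ℝ (Ap ρ (Sum.inl x) v) v + inner ℝ (Ap ρ (Sum.inr x) v) v) ≤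
      inner ℝ (Ap ρ (Sum.inl x) v) (Ap ρ (Sum.inr x) v) := by
  have hu : ρ.toHom (swap (Sum.inl x) (Sum.inr x)) v = v := by
    rw [← flp_singleton]; exact flp_of_EH ρ hv {x}
  have hu' : ρ.toHom (swap (Sum.inr x) (Sum.inl x)) v = v := by
    rw [swap_comm]; exact hu
  have hterm : ∀ q r : X ⊕ X,
      (if q = r then -(inner ℝ (v - ρ.toHom (swap (Sum.inl x) q) v) v +
        inner ℝ (v - ρ.toHom (swap (Sum.inr x) q) v) v) else 0) ≤
      inner ℝ (v - ρ.toHom (swap (Sum.inl x) q) v) (v - ρ.toHom (swap (Sum.inr x) r) v) := by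
    intro q r
    by_cases hqr : q = r
    · subst hqr
      rw [if_pos rfl, inner_sub_swap, inner_sub_swap]
      have h1 := abs_real_inner_le_norm (v - ρ.toHom (swap (Sum.inl x) q) v)
        (v - ρ.toHom (swap (Sum.inr x) q) v)
      rw [abs_le] at h1
      nlinarith [sq_nonneg (‖v - ρ.toHom (swap (Sum.inl x) q) v‖ -
        ‖v - ρ.toHom (swap (Sum.inr x) q) v‖), h1.1]
    · rw [if_neg hqr]
      by_cases h1 : q = Sum.inl x
      · subst h1
        rw [swap_self]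
        have : ρ.toHom (Equiv.refl (X ⊕ X)) v = v := ρ.map_one_apply v
        rw [this]; simp
      by_cases h2 : q = Sum.inr x
      · subst h2
        rw [hu]; simp
      by_cases h3 : r = Sum.inr x
      · subst h3
        rw [swap_self]
        have : ρ.toHom (Equiv.refl (X ⊕ X)) v = v := ρ.map_one_apply v
        rw [this]; simp
      by_cases h4 : r = Sum.inl x
      · subst h4
        rw [hu']; simp
      apply inner_lap_comm_nonneg
      · exact swap_mul_self _ _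
      · exact swap_mul_self _ _
      · apply Equiv.Perm.Disjoint.commute
        rw [Equiv.Perm.disjoint_iff_disjoint_support, Perm.support_swap (Ne.symm h1),
          Perm.support_swap (Ne.symm h3)]
        simp only [Finset.disjoint_insert_left, Finset.disjoint_singleton_left,
          Finset.mem_insert, Finset.mem_singleton]
        refine ⟨?_, ?_⟩
        · rintro (h | h)
          · exact absurd h (by simp)
          · exact h4 h.symm
        · rintro (h | h)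
          · exact h2 h
          · exact hqr h
  have hexp : inner ℝ (Ap ρ (Sum.inl x) v) (Ap ρ (Sum.inr x) v) =
      ∑ q : X ⊕ X, ∑ r : X ⊕ X,
        inner ℝ (v - ρ.toHom (swap (Sum.inl x) q) v) (v - ρ.toHom (swap (Sum.inr x) r) v) := by
    unfold Ap
    rw [sum_inner]
    exact Finset.sum_congr rfl (fun q _ => inner_sum _ _ _)
  rw [hexp]
  have hlhs : -(inner ℝ (Ap ρ (Sum.inl x) v) v + inner ℝ (Ap ρ (Sum.inr x) v) v) =
      ∑ q : X ⊕ X, ∑ r : X ⊕ X, (if q = r then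
        -(inner ℝ (v - ρ.toHom (swap (Sum.inl x) q) v) v +
        inner ℝ (v - ρ.toHom (swap (Sum.inr x) q) v) v) else 0) := by
    unfold Ap
    rw [sum_inner, sum_inner, ← Finset.sum_add_distrib, ← Finset.sum_neg_distrib]
    apply Finset.sum_congr rfl
    intro q _
    rw [Finset.sum_ite_eq]
    simp
  rw [hlhs]
  exact Finset.sum_le_sum (fun q _ => Finset.sum_le_sum (fun r _ => hterm q r))

/-- vectors in different singleton sectors are orthogonal -/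
theorem norm_sum_Lx_sq (ρ : ORep (Perm (X ⊕ X)) V) {v : V} (hv : EH ρ v = v) :
    ‖∑ x : X, Lx ρ x v‖ ^ 2 = ∑ x : X, ‖Lx ρ x v‖ ^ 2 := by
  have horth : ∀ x y : X, x ≠ y → inner ℝ (Lx ρ x v) (Lx ρ y v) = 0 := by
    intro x y hxy
    rw [← sec_singleton_Lx ρ hv x, ← sec_singleton_Lx ρ hv y]
    have h1 := sec_symm ρ {x} (Lx ρ x v) (sec ρ {y} (Lx ρ y v))
    rw [h1]
    have h2 := congrArg (fun f => f (Lx ρ y v)) (sec_mul_sec ρ {x} {y})
    have h3 : ({x} : Finset X) ≠ {y} := fun h => hxy (Finset.singleton_injective h)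
    simp only [Module.End.mul_apply, if_neg h3] at h2
    rw [h2]; simp
  rw [← real_inner_self_eq_norm_sq, sum_inner]
  apply Finset.sum_congr rfl
  intro x _
  rw [inner_sum, Finset.sum_eq_single x, real_inner_self_eq_norm_sq]
  · intro y _ hy
    exact horth x y hy.symm
  · intro h; exact absurd (Finset.mem_univ x) h

/-- [LVL2] precise second moment of `Z` (item (4)); `n = 2N`. -/
theorem norm_Zop_sq_le [Nonempty X] (ρ : ORep (Perm (X ⊕ X)) V) {δ : ℝ} {v : V}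
    (hv : EH ρ v = v) (hw : Dop ρ v = δ • v) :
    ‖Zop ρ v‖ ^ 2 ≤ (1 / (2 * Fintype.card X : ℝ) ^ 2) *
      (∑ p : X ⊕ X, ‖∑ q : X ⊕ X, (v - ρ.toHom (swap p q) v)‖ ^ 2
        + 4 * (2 * Fintype.card X) * δ * ‖v‖ ^ 2) := by
  have hn : (0 : ℝ) < 2 * Fintype.card X := by
    have := Fintype.card_pos (α := X)
    positivity
  rw [Zop_apply, norm_neg, norm_smul, mul_pow, Lop_apply, norm_sum_Lx_sq ρ hv, Real.norm_eq_abs,
    sq_abs, one_div, inv_pow, ← one_div]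
  apply mul_le_mul_of_nonneg_left _ (by positivity)
  have h1 : ∀ x : X, ‖Lx ρ x v‖ ^ 2 ≤
      (‖Ap ρ (Sum.inl x) v‖ ^ 2 + 2 * inner ℝ (Ap ρ (Sum.inl x) v) v) +
        (‖Ap ρ (Sum.inr x) v‖ ^ 2 + 2 * inner ℝ (Ap ρ (Sum.inr x) v) v) := by
    intro x
    rw [Lx_apply, norm_sub_sq_real, real_inner_comm]
    have := inner_Ap_Ap_ge ρ hv x
    linarith
  refine (Finset.sum_le_sum (fun x _ => h1 x)).trans (le_of_eq ?_)
  rw [Finset.sum_add_distrib, ← Fintype.sum_sum_type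
    (fun p : X ⊕ X => ‖Ap ρ p v‖ ^ 2 + 2 * inner ℝ (Ap ρ p v) v), Finset.sum_add_distrib,
    ← Finset.mul_sum, sum_inner_Ap ρ hw]
  unfold Ap
  ring

end Vale.Agent.P162T
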