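import Vale.Agent.P162T.Convex
import Vale.Agent.P162T.Step
import Vale.Agent.P162T.Fnum
import Vale.Agent.P162T.Ind

/-!
# P162 [MASS] Bound of the total mass of `psi` with constant weight `1/7`

Theorem (`mass_psi_le`): for `i0 = 2^{a0}`: `mass (psi i0 (1/7) d) ≤ 2^{25 · 2^d · 0.93^{i0}}`.

CVX (`mass_psi_mid`): `mass (psi i0 ((θ+θ')/2) j) ≤ √(mass (psi i0 θ j) · mass (psi i0 θ' j))`.
 Prove the pointwise version by induction on `j` (Cauchy-Schwarz for sums of products of square roots):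
 for `0 ≤ ψ ≤ √(ψ₁ψ₂)` pointwise, `wten ((θ+θ')/2) ψ ≤ √(wten θ ψ₁ · wten θ' ψ₂)` pointwise (one term), and
 `conv h` preserves `f ≤ √(f₁ f₂)` (Cauchy-Schwarz); then `mass`.
SPLIT: put `r i = 2^(Nat.log 2 i)` (largest power of 2 `≤ i`; `r 0 = 1`), and for `q t : ℕ`
 `θqt q t i = (1/7) · min (r i) (2^q)` if `i ≡ t [MOD min (r i) (2^q)]`, else 0.
 `θqt q t = ½ (θqt (q+1) t + θqt (q+1) (t+2^q))` and `θqt 0 t = 1/7` (constant).  By CVX, if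
 `mass (psi i0 (θqt q t) j) ≤ M` for all `t`, the same holds for `q = 0`.  Only the values `θ i`, `i < j`, matter
 (`psi_congr`), and for `2^q ≥ j`, `θqt q t i = θt t i := (1/7) r i [i ≡ t mod r i]` for `i < j`.
FN (`hs_tw_le`): for `t w : ℕ`: `hs (2^t+1) (tw j0 (j0+w)) ≤ 2^{2^{j0} · (6/5) (8/5)^w (5/3)^t}`.  Induction on `w`, all `t`:
 `w = 0`: `hs R dirac = R^{2^{j0}}` and `2^t + 1 ≤ 2^{(6/5)(5/3)^t}` (t = 0: `1 ≤ 1.2`; t = 1: `log₂3 < 2`; t ≥ 2: `2^t+1 ≤ 2^{t+1}`,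
 `t+1 ≤ 1.2 (5/3)^t`);  step `hs_ext`: `t ≥ 1`: `((2^t+1)+1)/2 = 2^{t-1}+1`: exponents add:
 `(8/5)^w (5/3)^t (1 + 3/5)`; `t = 0`: `hs (3/2) μ ≤ (hs 2 μ)^{3/5}` since `3/2 ≤ 2^{3/5}` (i.e. `(3/2)^5 ≤ 8`) and Jensen for
 the concave function `y^{3/5}` (probability weights `μ g μ h`).
STEP1 (`mass_step`), `i ≥ i0` level, `w ≤ i - i0`, `θ` vanishing on `[i-w, i)`, `θ i ≤ t0` (so `2^{θ i} ≤ 2^{t0}+1 =: R`):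
 `mass (psi i0 θ (i+1)) = mass (lift (θ i) (psi i)) ≤ hs R (psi i)` (`mass_lift_le`) and by `psi_eq_fr`, `hs_fr_le`, `hs_tw_le`:
 `≤ (mass (psi (i-w)))^{2·2^w} · 2^{2^{i-w} (6/5)(8/5)^w (5/3)^{t0}}`.
STEP0 (`mass_step0`), `i0 ≤ i`, `θ` vanishing on `[i0,i)`, `θ i ≤ t0`: `psi i = fr i0 unifC i = adj t * Θ * t`, so
 `mass (psi (i+1)) ≤ hs R (psi i) ≤ hs R (th i0 unifC i) = (hs R unif)^{2^{i-i0}} ≤ (2^{i0}+1)^{R 2^{i-i0}}` (`hs_conv_left/right`,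
 `hs_tens`, `hs_unif_le`), `R = 2^{t0}+1`.
IND (`mass_theta_le`): for `θ = θt t`, `i0 = 2^{a0}`, prove by strong induction on `j` that
 `mass (psi i0 θ j) ≤ 2^{2^j e_j}`, `e_j := ∑_{i0 ≤ i < j, i active} c_i`  (active: `θ i ≠ 0`), where with `r = r i`:
 `c_i = (5/4) (0.93)^{r/2}` if `i ≥ 2 i0`, and `c_i = 5 (0.93)^{i0}` if `i0 ≤ i < 2 i0`.
 For `i` not active: `mass (psi (i+1)) = (mass (psi i))²`.
 `i` active, `i0 ≤ i < 2i0` (`r = i0`): no other active level in `[i0, 2i0)` (unique residue), STEP0 with `t0 = ⌈i0/7⌉₊`: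
 exponent `/2^{i+1}`: `(2^{t0}+1) log₂(2^{i0}+1)/(2·2^{i0}) ≤ (2·2^{i0/7}+1)(i0+1) 2^{-i0}/2 ≤ (3/2)(i0+1) 2^{-6 i0/7} ≤ 5 · 0.93^{i0}`.
 `i` active, `i ≥ 2 i0`, `r = r i = 2w₀`, `w₀ ≥ i0`: all active levels below `i` are `≤ i - w₀` (same dyadic range: none, as they
 are `≡ t mod r`; previous range `[w₀, 2w₀)`: the active one is `≡ i mod w₀` and `< i`; lower: `< w₀ ≤ i - w₀`).
 STEP1 with `w = w₀ - 1`, `t0 = ⌈r/7⌉₊ ≤ 2w₀/7 + 1`: exponent `/2^{i+1}`: `e_{i-w}` plus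
 `½ 2^{-w} (6/5)(8/5)^w (5/3)^{t0} = (3/5)(4/5)^{w₀-1}(5/3)^{t0} ≤ (3/4)(5/3) ((4/5)(5/3)^{2/7})^{w₀} ≤ (5/4) 0.93^{w₀}`.
 (`(4/5)^7 (5/3)^2 = 0.58254 ≤ 0.93^7 = 0.6017`).
 SUM: `e_d ≤ 5·0.93^{i0} + ∑_{m≥0} (5/4) 0.93^{i0 2^m} ≤ 5·0.93^{i0} + (5/4)·0.93^{i0}/(1-0.93) ≤ 25·0.93^{i0}`.
 (one active level per dyadic range `[2^a, 2^{a+1})`; `2^m ≥ m+1`, `0.93^{i0} ≤ 0.93`).
 A convenient form of the induction: prove directly, for `a ≥ a0` and `2^a ≤ j ≤ 2^{a+1}`,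
 `mass (psi i0 θ j) ≤ 2^{2^j E}` with `E = E_a` before the active level and `E = E_{a+1} = E_a + c_a` after it.
-/

open Equiv Finset

namespace Vale.Agent.P162T

/-- [FN] -/
theorem hs_tw_le (j0 w t : ℕ) :
    hs ((2 ^ t + 1 : ℕ) : ℝ) (tw j0 (j0 + w)) ≤
      (2 : ℝ) ^ ((2 : ℝ) ^ j0 * ((6 / 5) * (8 / 5) ^ w * (5 / 3) ^ t)) :=
  hs_tw_le' j0 w t

/-- [STEP] -/
theorem mass_step (i0 : ℕ) (θ : ℕ → ℝ) (i w t0 : ℕ) (hw : i0 + w ≤ i)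
    (hθ : ∀ l, i - w ≤ l → l < i → θ l = 0) (ht : θ i ≤ t0) :
    mass (psi i0 θ (i + 1)) ≤ (mass (psi i0 θ (i - w)) ^ (2 ^ w)) ^ 2 *
      (2 : ℝ) ^ ((2 : ℝ) ^ (i - w) * ((6 / 5) * (8 / 5) ^ w * (5 / 3) ^ t0)) :=
  mass_step_aux i0 θ i w t0 hw hθ ht (hs_tw_le (i - w) w t0)

/-- [IND] -/
theorem mass_theta_le (a0 t d : ℕ) :
    mass (psi (2 ^ a0) (θt t) d) ≤ (2 : ℝ) ^ (25 * (2 : ℝ) ^ d * (93 / 100 : ℝ) ^ (2 ^ a0)) :=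
  mass_theta_le' a0 t d

theorem mass_psi_le (a0 d : ℕ) :
    mass (psi (2 ^ a0) (fun _ => 1 / 7) d) ≤
      (2 : ℝ) ^ (25 * (2 : ℝ) ^ d * (93 / 100 : ℝ) ^ (2 ^ a0)) :=
  mass_psi_le_of_classes _ _ _ (fun t => mass_theta_le a0 t d)

end Vale.Agent.P162T
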