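import Vale.Agent.P162T.Build

/-!
# P162: the classes of levels (definitions used by CVX, IND, MASS)
-/

namespace Vale.Agent.P162T

/-- largest power of two `≤ i` -/
def rr (i : ℕ) : ℕ := 2 ^ Nat.log 2 i

/-- one class of levels -/
noncomputable def θt (t : ℕ) (i : ℕ) : ℝ := if i ≡ t [MOD rr i] then (rr i : ℝ) / 7 else 0

end Vale.Agent.P162T
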