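import Vale.Agent.P162T.Upper
import Vale.Agent.P162T.Bridge
import Vale.Agent.P162T.Lower

/-!
# P162 [FIN] The mixing time of the Thorp shuffle with `2^d` cards is of order `log (2^d)`
-/

namespace Vale.Agent.P162T

open Vale.Agent.ThorpA (thorpLaw thorpPow tvDist tmix)

/-- a bounded number of passes mixes, in terms of the Thorp shuffle itself -/
theorem thorp_upper : ∃ K : ℕ, ∀ d : ℕ, 1 ≤ d → tvDist (2 ^ d) (d * K) ≤ 1 / 4 := by
  obtain ⟨K, hK⟩ := upper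
  exact ⟨K, fun d hd => by rw [tv_bridge d K hd]; exact hK d⟩

/-- total variation is nonincreasing, and `tmix` is a threshold -/
theorem tmix_iff (d : ℕ) (hd : 1 ≤ d) (t : ℕ) :
    tvDist (2 ^ d) t ≤ 1 / 4 ↔ tmix (2 ^ d) ≤ t := by
  obtain ⟨K, hK⟩ := thorp_upper
  have hmem : d * K ∈ {t : ℕ | tvDist (2 ^ d) t ≤ 1 / 4} := hK d hd
  have hmin : tvDist (2 ^ d) (tmix (2 ^ d)) ≤ 1 / 4 := Nat.sInf_mem ⟨_, hmem⟩
  constructor
  · intro h
    exact Nat.sInf_le h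
  · intro ht
    obtain ⟨e, rfl⟩ : ∃ e, d = e + 1 := ⟨d - 1, by omega⟩
    have h2 : 2 ^ (e + 1) = 2 * 2 ^ e := by rw [pow_succ]; ring
    have hanti : ∀ n : ℕ, n = 2 * 2 ^ e → Antitone (fun t => tvDist n t) := by
      intro n hn
      subst hn
      exact Vale.Agent.ThorpA.tv_antitone _
    exact (hanti _ h2 ht).trans hmin

/-- Main theorem: `t_mix(2^d) = Θ(log (2^d))`. -/
theorem mixing_order :
    ∃ c C : ℝ, 0 < c ∧ 0 < C ∧ ∀ d : ℕ, 1 ≤ d →
      c * Real.log ((2 : ℝ) ^ d) ≤ (tmix (2 ^ d) : ℝ) ∧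
      (tmix (2 ^ d) : ℝ) ≤ C * Real.log ((2 : ℝ) ^ d) ∧
      ∀ t : ℕ, tvDist (2 ^ d) t ≤ 1 / 4 ↔ tmix (2 ^ d) ≤ t := by
  have hc : (0 : ℝ) < 1 / 3 := by norm_num
  obtain ⟨K, hK⟩ := thorp_upper
  have hlog : 0 < Real.log 2 := Real.log_pos (by norm_num)
  refine ⟨(1 / 3) / Real.log 2, (K + 1) / Real.log 2, by positivity, by positivity, ?_⟩
  intro d hd
  have hl : Real.log ((2 : ℝ) ^ d) = d * Real.log 2 := by
    rw [Real.log_pow]
  refine ⟨?_, ?_, tmix_iff d hd⟩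
  · rw [hl]
    have : (1 / 3 : ℝ) / Real.log 2 * (d * Real.log 2) = (1 / 3) * d := by field_simp
    rw [this]
    exact tmix_lower d hd
  · rw [hl]
    have h1 : ((K : ℝ) + 1) / Real.log 2 * (d * Real.log 2) = (K + 1) * d := by field_simp
    rw [h1]
    have h2 : tmix (2 ^ d) ≤ d * K := (tmix_iff d hd _).1 (hK d hd)
    have h3 : (tmix (2 ^ d) : ℝ) ≤ ((d * K : ℕ) : ℝ) := by exact_mod_cast h2
    refine h3.trans ?_
    push_cast
    have : (0 : ℝ) ≤ d := Nat.cast_nonneg d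
    nlinarith

end Vale.Agent.P162T
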