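import Vale.Agent.P162T.LevelK
import Vale.Agent.P162T.Joint

/-!
# P162 [MY] Exponential moments of `Y`

`κ = √(δ/(2N))`, `2κ(e^{2s}-1) ≤ 1`.  Let `β(u) = 2κ(e^{2u}-1)`, `α(u) = exp(2κ²(e^{2u}-1-2u))`,
`y_l(u) = α(u) β(u)^l`.  For `ε = ±1`, `h = s/r`, put `a_l^{(i)} := ‖lev (2l) ((1 + ε h Y)^i v)‖`.
Claim: `a_l^{(i)} ≤ y_l(i h) ‖v‖` for `i ≤ r`.  Induction on `i`: `i = 0`: `lev (2l) v = 0` for `l > 0`
(since `v = lev 0 v`), `y_0(0) = 1`.  Step, by `levelK`: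
`a_l^{(i+1)} ≤ (1+2lh) a_l + 2lκh a_{l-1} + (2l+2)κh a_{l+1}`, and
`y_l(u+h) ≥ y_l(u) + h (2l y_l(u) + 2lκ y_{l-1}(u) + (2l+2)κ y_{l+1}(u))` because
* `α(u+h) ≥ α(u) (1 + 2κhβ(u))`   [`e^{2(u+h)} - e^{2u} - 2h ≥ 2h(e^{2u}-1)`, `exp x ≥ 1+x`],
* `β(u+h) ≥ β(u) + h(2β(u)+4κ)`   [`e^{2h} ≥ 1+2h`],
* `(b+x)^l ≥ b^l + l b^{l-1} x` for `b,x ≥ 0`,
so `y_l(u+h) ≥ α β^l + h(2κ α β^{l+1} + l α β^{l-1}(2β+4κ))`, and the claim reduces to
`2lκ β^{l-1} ≥ 2lκ β^{l+1}`, true since `β(u) ≤ β(s) ≤ 1` for `u ≤ s`.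
Then `⟨(1+εhY)^r v, v⟩ = ⟨lev 0 (..) , v⟩ ≤ a_0^{(r)} ‖v‖ ≤ α(s) ‖v‖²`, and the left side is
`∑ ‖vec i‖² (1 + ε(s/r) y_i)^r` (JD.inner_pow), which tends to `∑ ‖vec i‖² exp(ε s y_i)` as `r → ∞`
(`tendsto_one_add_div_pow_exp` or similar).
-/

open Equiv Finset

set_option linter.unusedSectionVars false

namespace Vale.Agent.P162T

section Aux

/-- `β(u) = 2κ(e^{2u}-1)` -/
noncomputable def myB (κ u : ℝ) : ℝ := 2 * κ * (Real.exp (2 * u) - 1)

/-- `α(u) = exp(2κ²(e^{2u}-1-2u))` -/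
noncomputable def myA (κ u : ℝ) : ℝ := Real.exp (2 * κ ^ 2 * (Real.exp (2 * u) - 1 - 2 * u))

theorem myB_nonneg {κ u : ℝ} (hκ : 0 ≤ κ) (hu : 0 ≤ u) : 0 ≤ myB κ u := by
  unfold myB
  have : 1 ≤ Real.exp (2 * u) := Real.one_le_exp (by positivity)
  exact mul_nonneg (by positivity) (by linarith)

theorem myB_mono {κ u u' : ℝ} (hκ : 0 ≤ κ) (h : u ≤ u') : myB κ u ≤ myB κ u' := by
  unfold myB
  have : Real.exp (2 * u) ≤ Real.exp (2 * u') := Real.exp_le_exp.mpr (by linarith)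
  exact mul_le_mul_of_nonneg_left (by linarith) (by positivity)

theorem myA_pos (κ u : ℝ) : 0 < myA κ u := Real.exp_pos _

theorem pow_add_ge {b x : ℝ} (hb : 0 ≤ b) (hx : 0 ≤ x) (l : ℕ) :
    b ^ l + l * b ^ (l - 1) * x ≤ (b + x) ^ l := by
  induction l with
  | zero => simp
  | succ l ih =>
    rw [pow_succ (b + x)]
    have h1 : (b ^ l + l * b ^ (l - 1) * x) * (b + x) ≤ (b + x) ^ l * (b + x) :=
      mul_le_mul_of_nonneg_right ih (by positivity)
    refine le_trans ?_ h1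
    have h2 : (l : ℝ) * b ^ (l - 1) * b = l * b ^ l := by
      rcases l with _ | l
      · simp
      · rw [Nat.add_sub_cancel, pow_succ]
        ring
    have h3 : 0 ≤ (l : ℝ) * b ^ (l - 1) * x * x := by positivity
    rw [Nat.add_sub_cancel]
    push_cast
    have h4 : (b ^ l + l * b ^ (l - 1) * x) * (b + x)
        = b ^ (l + 1) + b ^ l * x + (l * b ^ (l - 1) * b) * x + l * b ^ (l - 1) * x * x := by
      rw [pow_succ]
      ring
    rw [h4, h2]
    have h5 : ((l : ℝ) + 1) * b ^ l * x = b ^ l * x + l * b ^ l * x := by ring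
    rw [h5]
    linarith

theorem myA_add {κ u h : ℝ} :
    myA κ u * (1 + 2 * κ * h * myB κ u) ≤ myA κ (u + h) := by
  have h1 : myA κ (u + h) = myA κ u * Real.exp (2 * κ ^ 2 *
      (Real.exp (2 * (u + h)) - Real.exp (2 * u) - 2 * h)) := by
    unfold myA
    rw [← Real.exp_add]
    congr 1
    ring
  rw [h1]
  refine mul_le_mul_of_nonneg_left ?_ (myA_pos κ u).le
  have h2 : Real.exp (2 * (u + h)) = Real.exp (2 * u) * Real.exp (2 * h) := by
    rw [← Real.exp_add]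
    congr 1
    ring
  have h3 : 2 * h + 1 ≤ Real.exp (2 * h) := Real.add_one_le_exp _
  have h4 : Real.exp (2 * u) * (2 * h + 1) ≤ Real.exp (2 * u) * Real.exp (2 * h) :=
    mul_le_mul_of_nonneg_left h3 (Real.exp_pos _).le
  have h5 : 2 * κ * h * myB κ u ≤ 2 * κ ^ 2 *
      (Real.exp (2 * (u + h)) - Real.exp (2 * u) - 2 * h) := by
    have e : 2 * κ * h * myB κ u = 2 * κ ^ 2 * (Real.exp (2 * u) * (2 * h + 1)
        - Real.exp (2 * u) - 2 * h) := by
      unfold myB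
      ring
    rw [e, h2]
    refine mul_le_mul_of_nonneg_left ?_ (by positivity)
    linarith
  have h6 := Real.add_one_le_exp (2 * κ ^ 2 *
      (Real.exp (2 * (u + h)) - Real.exp (2 * u) - 2 * h))
  linarith

theorem myB_add {κ u h : ℝ} (hκ : 0 ≤ κ) :
    myB κ u + h * (2 * myB κ u + 4 * κ) ≤ myB κ (u + h) := by
  have h2 : Real.exp (2 * (u + h)) = Real.exp (2 * u) * Real.exp (2 * h) := by
    rw [← Real.exp_add]
    congr 1
    ring
  have h3 : 2 * h + 1 ≤ Real.exp (2 * h) := Real.add_one_le_exp _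
  have h4 : Real.exp (2 * u) * (2 * h + 1) ≤ Real.exp (2 * u) * Real.exp (2 * h) :=
    mul_le_mul_of_nonneg_left h3 (Real.exp_pos _).le
  have e : myB κ u + h * (2 * myB κ u + 4 * κ) = 2 * κ * (Real.exp (2 * u) * (2 * h + 1) - 1) := by
    unfold myB
    ring
  rw [e]
  unfold myB
  rw [h2]
  exact mul_le_mul_of_nonneg_left (by linarith) (by positivity)

theorem my_step {κ u h : ℝ} (hκ : 0 ≤ κ) (hu : 0 ≤ u) (hh : 0 ≤ h) (hb : myB κ u ≤ 1) (l : ℕ) :
    (1 + 2 * l * h) * (myA κ u * myB κ u ^ l) + 2 * l * κ * h * (myA κ u * myB κ u ^ (l - 1))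
      + (2 * l + 2) * κ * h * (myA κ u * myB κ u ^ (l + 1))
      ≤ myA κ (u + h) * myB κ (u + h) ^ l := by
  have hb0 := myB_nonneg hκ hu
  have ha0 := myA_pos κ u
  have h1 := myA_add (κ := κ) (u := u) (h := h)
  have h2 := myB_add (u := u) (h := h) hκ
  set a := myA κ u with ha
  set b := myB κ u with hbdef
  have h3 : b ^ l + l * b ^ (l - 1) * (h * (2 * b + 4 * κ)) ≤ myB κ (u + h) ^ l :=
    le_trans (pow_add_ge hb0 (by positivity) l) (pow_le_pow_left₀ (by positivity) h2 l)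
  have h4 : a * (1 + 2 * κ * h * b) * (b ^ l + l * b ^ (l - 1) * (h * (2 * b + 4 * κ)))
      ≤ myA κ (u + h) * myB κ (u + h) ^ l :=
    mul_le_mul h1 h3 (by positivity) (myA_pos κ (u + h)).le
  refine le_trans ?_ h4
  have h5 : (l : ℝ) * b ^ (l - 1) * b = l * b ^ l := by
    rcases l with _ | l
    · simp
    · rw [Nat.add_sub_cancel, pow_succ]
      ring
  have h6 : (l : ℝ) * b ^ (l + 1) ≤ l * b ^ (l - 1) := by
    rcases l with _ | l
    · simp
    · rw [Nat.add_sub_cancel]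
      refine mul_le_mul_of_nonneg_left ?_ (by positivity)
      exact pow_le_pow_of_le_one hb0 hb (by omega)
  have h7 : 0 ≤ a * (2 * κ * h * b) * (l * b ^ (l - 1) * (h * (2 * b + 4 * κ))) := by positivity
  have h8 : a * (1 + 2 * κ * h * b) * (b ^ l + l * b ^ (l - 1) * (h * (2 * b + 4 * κ)))
      = a * b ^ l + 2 * κ * h * (a * (b ^ l * b)) + 2 * h * a * (l * b ^ (l - 1) * b)
        + 4 * κ * h * a * (l * b ^ (l - 1))
        + a * (2 * κ * h * b) * (l * b ^ (l - 1) * (h * (2 * b + 4 * κ))) := by ring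
  rw [h8, h5]
  have h9 : 2 * κ * h * a * (l * b ^ (l + 1)) ≤ 2 * κ * h * a * (l * b ^ (l - 1)) :=
    mul_le_mul_of_nonneg_left h6 (by positivity)
  have e1 : b ^ (l + 1) = b ^ l * b := pow_succ b l
  rw [e1] at h9 ⊢
  nlinarith [h9, h7]

end Aux

variable {X : Type} [Fintype X] [DecidableEq X] {V : Type} [NormedAddCommGroup V]
  [InnerProductSpace ℝ V]

theorem lev_of_EH (ρ : ORep (Perm (X ⊕ X)) V) {v : V} (hv : EH ρ v = v) {m : ℕ} (hm : m ≠ 0) :
    lev ρ m v = 0 := by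
  have h1 : lev ρ m (lev ρ 0 v) = 0 := by
    have := lev_mul_lev ρ m 0
    rw [if_neg hm] at this
    have h2 := LinearMap.congr_fun this v
    simpa using h2
  rwa [lev_zero, hv] at h1

theorem Yop_commute_Dop (ρ : ORep (Perm (X ⊕ X)) V) : Commute (Yop ρ) (Dop ρ) := by
  unfold Yop
  exact ((Commute.refl _).sub_left (DL_commute_Dop ρ)).sub_left (DR_commute_Dop ρ)

/-- the discrete exponential: level bounds -/
theorem lev_pow_le [Nonempty X] (ρ : ORep (Perm (X ⊕ X)) V) {δ : ℝ} (hδ : 0 ≤ δ) {v : V}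
    (hv : EH ρ v = v) (hw : Dop ρ v = δ • v) {s h : ℝ} (hh : 0 ≤ h)
    (hs1 : myB (Real.sqrt (δ / (2 * Fintype.card X))) s ≤ 1)
    {ε : ℝ} (hε : |ε| = 1) (i : ℕ) (hi : i * h ≤ s) :
    Dop ρ (((1 + (ε * h) • Yop ρ) ^ i) v) = δ • (((1 + (ε * h) • Yop ρ) ^ i) v) ∧
    ∀ l : ℕ, ‖lev ρ (2 * l) (((1 + (ε * h) • Yop ρ) ^ i) v)‖ ≤
      myA (Real.sqrt (δ / (2 * Fintype.card X))) (i * h) *
        myB (Real.sqrt (δ / (2 * Fintype.card X))) (i * h) ^ l * ‖v‖ := by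
  set κ := Real.sqrt (δ / (2 * Fintype.card X)) with hκdef
  have hκ : 0 ≤ κ := Real.sqrt_nonneg _
  induction i with
  | zero =>
    refine ⟨by simpa using hw, fun l => ?_⟩
    rw [pow_zero, Module.End.one_apply]
    rcases Nat.eq_zero_or_pos l with rfl | hl
    · have h0 : lev ρ (2 * 0) v = v := by
        rw [Nat.mul_zero, lev_zero, hv]
      rw [h0]
      simp [myA]
    · rw [lev_of_EH ρ hv (by omega : 2 * l ≠ 0), norm_zero]
      have := myB_nonneg (u := ((0 : ℕ) : ℝ) * h) hκ (by simp)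
      have := (myA_pos κ (((0 : ℕ) : ℝ) * h)).le
      positivity
  | succ i ih =>
    have hi' : (i : ℝ) * h ≤ s := by
      push_cast at hi
      nlinarith
    obtain ⟨ihD, ihl⟩ := ih hi'
    set w := ((1 + (ε * h) • Yop ρ) ^ i) v with hwdef
    have hstep : ((1 + (ε * h) • Yop ρ) ^ (i + 1)) v = w + (ε * h) • Yop ρ w := by
      rw [pow_succ', Module.End.mul_apply, ← hwdef]
      simp
    rw [hstep]
    constructor
    · rw [map_add, map_smul, ihD, smul_add]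
      have : Dop ρ (Yop ρ w) = δ • Yop ρ w := by
        have h1 := LinearMap.congr_fun (Yop_commute_Dop ρ) w
        simp only [Module.End.mul_apply] at h1
        rw [← h1, ihD, map_smul]
      rw [this, smul_comm]
    · intro l
      rw [map_add, map_smul]
      have h1 := levelK ρ hδ w ihD l
      rw [← hκdef] at h1
      have h2 : ‖lev ρ (2 * l) w + (ε * h) • lev ρ (2 * l) (Yop ρ w)‖
          ≤ ‖lev ρ (2 * l) w‖ + h * ‖lev ρ (2 * l) (Yop ρ w)‖ := by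
        refine (norm_add_le _ _).trans ?_
        rw [norm_smul, norm_mul, Real.norm_eq_abs, hε, one_mul, Real.norm_eq_abs,
          abs_of_nonneg hh]
      refine h2.trans ?_
      have h3 := ihl l
      have h4 := ihl (l - 1)
      have h5 := ihl (l + 1)
      have e4 : 2 * (l - 1) = 2 * l - 2 := by omega
      have e5 : 2 * (l + 1) = 2 * l + 2 := by ring
      rw [e4] at h4
      rw [e5] at h5
      set a := myA κ (i * h) with ha
      set b := myB κ (i * h) with hb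
      have hu : 0 ≤ (i : ℝ) * h := by positivity
      have hb1 : b ≤ 1 := le_trans (myB_mono hκ hi') hs1
      have h6 := my_step hκ hu hh hb1 l
      have e6 : ((i + 1 : ℕ) : ℝ) * h = i * h + h := by push_cast; ring
      rw [e6]
      have h7 : ‖lev ρ (2 * l) w‖ + h * ‖lev ρ (2 * l) (Yop ρ w)‖
          ≤ (1 + 2 * l * h) * ‖lev ρ (2 * l) w‖ + 2 * l * κ * h * ‖lev ρ (2 * l - 2) w‖
            + (2 * l + 2) * κ * h * ‖lev ρ (2 * l + 2) w‖ := by
        have := mul_le_mul_of_nonneg_left h1 hh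
        nlinarith [this]
      refine h7.trans ?_
      have h8 : (1 + 2 * l * h) * ‖lev ρ (2 * l) w‖ + 2 * l * κ * h * ‖lev ρ (2 * l - 2) w‖
            + (2 * l + 2) * κ * h * ‖lev ρ (2 * l + 2) w‖
          ≤ (1 + 2 * l * h) * (a * b ^ l * ‖v‖) + 2 * l * κ * h * (a * b ^ (l - 1) * ‖v‖)
            + (2 * l + 2) * κ * h * (a * b ^ (l + 1) * ‖v‖) := by
        gcongr
      refine h8.trans ?_
      have h9 := mul_le_mul_of_nonneg_right h6 (norm_nonneg v)
      refine le_trans (le_of_eq ?_) h9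
      ring

/-- [MY] -/
theorem mgfY [Nonempty X] (ρ : ORep (Perm (X ⊕ X)) V) {δ : ℝ} (hδ : 0 ≤ δ) {v : V}
    (hv : EH ρ v = v) (hw : Dop ρ v = δ • v) (J : JD (DL ρ) (DR ρ) v) {s : ℝ} (hs : 0 ≤ s)
    (hs1 : 2 * Real.sqrt (δ / (2 * Fintype.card X)) * (Real.exp (2 * s) - 1) ≤ 1)
    {ε : ℝ} (hε : ε = 1 ∨ ε = -1) :
    ∑ i, ‖J.vec i‖ ^ 2 * Real.exp (ε * s * (δ - J.a i - J.b i)) ≤
      Real.exp (2 * (δ / (2 * Fintype.card X)) * (Real.exp (2 * s) - 1 - 2 * s)) * ‖v‖ ^ 2 := by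
  have hε' : |ε| = 1 := by rcases hε with rfl | rfl <;> simp
  have hκ2 : Real.sqrt (δ / (2 * Fintype.card X)) ^ 2 = δ / (2 * Fintype.card X) :=
    Real.sq_sqrt (by positivity)
  -- the inequality for the discrete exponential
  have key : ∀ r : ℕ, r ≠ 0 → ∑ i, ‖J.vec i‖ ^ 2 * (1 + (ε * s * (δ - J.a i - J.b i)) / r) ^ r ≤
      Real.exp (2 * (δ / (2 * Fintype.card X)) * (Real.exp (2 * s) - 1 - 2 * s)) * ‖v‖ ^ 2 := by
    intro r hr
    have hr' : (0 : ℝ) < r := by exact_mod_cast Nat.pos_of_ne_zero hr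
    have h1 := (lev_pow_le ρ hδ hv hw (s := s) (h := s / r) (by positivity) hs1 hε' r
      (by rw [mul_div_cancel₀ _ hr'.ne'])).2 0
    rw [mul_div_cancel₀ _ hr'.ne', Nat.mul_zero, pow_zero, mul_one] at h1
    have h2 := J.inner_pow (C := 1 + (ε * (s / r)) • Yop ρ)
      (c := fun i => 1 + (ε * s * (δ - J.a i - J.b i)) / r) (fun i => by
        rw [LinearMap.add_apply, Module.End.one_apply, LinearMap.smul_apply, JD.Yop_vec ρ hw J i,
          smul_smul, add_smul, one_smul]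
        congr 2
        ring) r
    rw [← h2]
    have h3 : inner ℝ (((1 + (ε * (s / r)) • Yop ρ) ^ r) v) v
        = inner ℝ (lev ρ 0 (((1 + (ε * (s / r)) • Yop ρ) ^ r) v)) v := by
      rw [lev_symm ρ 0 _ v, lev_zero, hv]
    rw [h3]
    refine (real_inner_le_norm _ _).trans ?_
    refine (mul_le_mul_of_nonneg_right h1 (norm_nonneg v)).trans (le_of_eq ?_)
    rw [myA, hκ2]
    ring
  have hlim : Filter.Tendsto (fun r : ℕ => ∑ i, ‖J.vec i‖ ^ 2 *
      (1 + (ε * s * (δ - J.a i - J.b i)) / r) ^ r) Filter.atTop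
      (nhds (∑ i, ‖J.vec i‖ ^ 2 * Real.exp (ε * s * (δ - J.a i - J.b i)))) :=
    tendsto_finsetSum _ fun i _ =>
      (Real.tendsto_one_add_div_pow_exp (ε * s * (δ - J.a i - J.b i))).const_mul _
  refine le_of_tendsto hlim ?_
  filter_upwards [Filter.eventually_ne_atTop 0] with r hr
  exact key r hr

end Vale.Agent.P162T
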