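import Vale.Agent.P162T.LevelL
import Vale.Agent.P162T.Joint

/-!
# P162 [MZ] Moments of `Z`

`‖Z^j v‖ ≤ (√(8δ))^j 2^j √(j!) ‖v‖` for `E_H v = v`, `D v = δ v`.  Proof: by `levelL`, `Z^j v` has
only levels `≤ j`, and for `w` with levels `≤ j` and `D w = δ w`:
`‖Z w‖ ≤ 2 √(8δ(j+1)) ‖w‖`: by `levelL` and Minkowski (ℓ² norm over the level `m`),
`‖Zw‖ ≤ √(8δ) ( (∑_m m ‖lev (m-1) w‖²)^{1/2} + (∑_m (m+1)‖lev (m+1) w‖²)^{1/2} ) ≤ √(8δ) (√(j+1) + √j) ‖w‖`.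
(Or: `(a+b)² ≤ 2a²+2b²` on each level gives the same constant `‖Zw‖² ≤ 2·8δ·((j+1)+j)‖w‖² ≤ 4·8δ(j+1)‖w‖²`.)
Then `∑ ‖vec i‖² (a i - b i)^{2j} = ‖Z^j v‖² ≤ (32 δ)^j j! ‖v‖²`  (JD.norm_pow_sq).
-/

open Equiv Finset

set_option linter.unusedSectionVars false

namespace Vale.Agent.P162T

variable {X : Type} [Fintype X] [DecidableEq X] {V : Type} [NormedAddCommGroup V]
  [InnerProductSpace ℝ V]

theorem Zop_commute_Dop (ρ : ORep (Perm (X ⊕ X)) V) : Commute (Zop ρ) (Dop ρ) := by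
  unfold Zop
  exact (DL_commute_Dop ρ).sub_left (DR_commute_Dop ρ)

theorem lev_of_EH' (ρ : ORep (Perm (X ⊕ X)) V) {v : V} (hv : EH ρ v = v) {m : ℕ} (hm : m ≠ 0) :
    lev ρ m v = 0 := by
  have h1 : lev ρ m (lev ρ 0 v) = 0 := by
    have := lev_mul_lev ρ m 0
    rw [if_neg hm] at this
    have h2 := LinearMap.congr_fun this v
    simpa using h2
  rwa [lev_zero, hv] at h1

/-- one application of `Z` -/
theorem Zop_step [Nonempty X] (ρ : ORep (Perm (X ⊕ X)) V) {δ : ℝ} (hδ : 0 ≤ δ) {w : V}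
    (hw : Dop ρ w = δ • w) {j : ℕ} (hj : ∀ m, j < m → lev ρ m w = 0) :
    ‖Zop ρ w‖ ^ 2 ≤ 32 * δ * (j + 1) * ‖w‖ ^ 2 := by
  have h1 : ∀ m : ℕ, ‖lev ρ m (Zop ρ w)‖ ^ 2 ≤
      16 * δ * (m * ‖lev ρ (m - 1) w‖ ^ 2 + (m + 1) * ‖lev ρ (m + 1) w‖ ^ 2) := by
    intro m
    have h2 := levelL ρ hδ w hw m
    have h3 : ‖lev ρ m (Zop ρ w)‖ ^ 2 ≤ (Real.sqrt (8 * δ) *
      (Real.sqrt m * ‖lev ρ (m - 1) w‖ + Real.sqrt (m + 1) * ‖lev ρ (m + 1) w‖)) ^ 2 :=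
      pow_le_pow_left₀ (norm_nonneg _) h2 2
    refine h3.trans ?_
    rw [mul_pow, Real.sq_sqrt (by positivity)]
    have h4 := Real.sq_sqrt (Nat.cast_nonneg m : (0 : ℝ) ≤ m)
    have h5 := Real.sq_sqrt (by positivity : (0 : ℝ) ≤ (m : ℝ) + 1)
    have h6 : (Real.sqrt m * ‖lev ρ (m - 1) w‖ + Real.sqrt (m + 1) * ‖lev ρ (m + 1) w‖) ^ 2
        ≤ 2 * (m * ‖lev ρ (m - 1) w‖ ^ 2 + (m + 1) * ‖lev ρ (m + 1) w‖ ^ 2) := by
      have h7 := sq_nonneg (Real.sqrt m * ‖lev ρ (m - 1) w‖ - Real.sqrt (m + 1) * ‖lev ρ (m + 1) w‖)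
      have h8 : (Real.sqrt m * ‖lev ρ (m - 1) w‖) ^ 2 = m * ‖lev ρ (m - 1) w‖ ^ 2 := by
        rw [mul_pow, h4]
      have h9 : (Real.sqrt (m + 1) * ‖lev ρ (m + 1) w‖) ^ 2 = (m + 1) * ‖lev ρ (m + 1) w‖ ^ 2 := by
        rw [mul_pow, h5]
      nlinarith
    calc 8 * δ * (Real.sqrt m * ‖lev ρ (m - 1) w‖ + Real.sqrt (m + 1) * ‖lev ρ (m + 1) w‖) ^ 2
        ≤ 8 * δ * (2 * (m * ‖lev ρ (m - 1) w‖ ^ 2 + (m + 1) * ‖lev ρ (m + 1) w‖ ^ 2)) :=
          mul_le_mul_of_nonneg_left h6 (by positivity)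
      _ = _ := by ring
  set f : ℕ → ℝ := fun m => ‖lev ρ m w‖ ^ 2 with hf
  have hf0 : ∀ m, 0 ≤ f m := fun m => by positivity
  have hfj : ∀ m, j < m → f m = 0 := fun m hm => by simp [hf, hj m hm]
  have hsum : ∑ m ∈ Finset.range (Fintype.card X + 1), f m = ‖w‖ ^ 2 :=
    (norm_sq_eq_sum_lev ρ w).symm
  have hA : ∑ m ∈ Finset.range (Fintype.card X + 1), (m : ℝ) * f (m - 1) ≤ (j + 1) * ‖w‖ ^ 2 := by
    rw [Finset.sum_range_succ']
    simp only [Nat.add_sub_cancel, Nat.cast_zero, zero_mul, add_zero]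
    have h2 : ∑ m ∈ Finset.range (Fintype.card X), ((m + 1 : ℕ) : ℝ) * f m
        ≤ ∑ m ∈ Finset.range (Fintype.card X), ((j : ℝ) + 1) * f m := by
      refine Finset.sum_le_sum fun m _ => ?_
      rcases lt_or_ge j m with hm | hm
      · rw [hfj m hm]; simp
      · refine mul_le_mul_of_nonneg_right ?_ (hf0 m)
        have : (m : ℝ) ≤ j := by exact_mod_cast hm
        push_cast
        linarith
    refine h2.trans ?_
    rw [← Finset.mul_sum]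
    refine mul_le_mul_of_nonneg_left ?_ (by positivity)
    rw [← hsum, Finset.sum_range_succ]
    linarith [hf0 (Fintype.card X)]
  have hB : ∑ m ∈ Finset.range (Fintype.card X + 1), ((m : ℝ) + 1) * f (m + 1)
      ≤ (j + 1) * ‖w‖ ^ 2 := by
    have h2 : ∑ m ∈ Finset.range (Fintype.card X + 1), ((m : ℝ) + 1) * f (m + 1)
        ≤ ∑ m ∈ Finset.range (Fintype.card X + 1), ((j : ℝ) + 1) * f (m + 1) := by
      refine Finset.sum_le_sum fun m _ => ?_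
      rcases lt_or_ge j (m + 1) with hm | hm
      · rw [hfj (m + 1) hm]; simp
      · refine mul_le_mul_of_nonneg_right ?_ (hf0 (m + 1))
        have : (m : ℝ) ≤ j := by exact_mod_cast (by omega : m ≤ j)
        linarith
    refine h2.trans ?_
    rw [← Finset.mul_sum]
    refine mul_le_mul_of_nonneg_left ?_ (by positivity)
    have h3 : ∑ m ∈ Finset.range (Fintype.card X + 1 + 1), f m
        = ∑ m ∈ Finset.range (Fintype.card X + 1), f (m + 1) + f 0 := Finset.sum_range_succ' _ _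
    have h4 : f (Fintype.card X + 1) = 0 := by
      simp [hf, lev_eq_zero ρ (Fintype.card X + 1) (by omega)]
    rw [Finset.sum_range_succ, hsum, h4] at h3
    linarith [hf0 0]
  rw [norm_sq_eq_sum_lev ρ (Zop ρ w)]
  calc ∑ m ∈ Finset.range (Fintype.card X + 1), ‖lev ρ m (Zop ρ w)‖ ^ 2
      ≤ ∑ m ∈ Finset.range (Fintype.card X + 1), 16 * δ * (m * f (m - 1) + (m + 1) * f (m + 1)) :=
        Finset.sum_le_sum fun m _ => h1 m
    _ = 16 * δ * (∑ m ∈ Finset.range (Fintype.card X + 1), (m : ℝ) * f (m - 1)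
        + ∑ m ∈ Finset.range (Fintype.card X + 1), ((m : ℝ) + 1) * f (m + 1)) := by
        rw [← Finset.sum_add_distrib, Finset.mul_sum]
    _ ≤ 16 * δ * ((j + 1) * ‖w‖ ^ 2 + (j + 1) * ‖w‖ ^ 2) :=
        mul_le_mul_of_nonneg_left (add_le_add hA hB) (by positivity)
    _ = 32 * δ * (j + 1) * ‖w‖ ^ 2 := by ring

theorem Zop_pow [Nonempty X] (ρ : ORep (Perm (X ⊕ X)) V) {δ : ℝ} (hδ : 0 ≤ δ) {v : V}
    (hv : EH ρ v = v) (hw : Dop ρ v = δ • v) (j : ℕ) :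
    Dop ρ (((Zop ρ) ^ j) v) = δ • (((Zop ρ) ^ j) v) ∧
    (∀ m, j < m → lev ρ m (((Zop ρ) ^ j) v) = 0) ∧
    ‖((Zop ρ) ^ j) v‖ ^ 2 ≤ (32 * δ) ^ j * (j.factorial : ℝ) * ‖v‖ ^ 2 := by
  induction j with
  | zero =>
    refine ⟨by simpa using hw, fun m hm => ?_, by simp⟩
    rw [pow_zero, Module.End.one_apply]
    exact lev_of_EH' ρ hv (by omega)
  | succ j ih =>
    obtain ⟨h1, h2, h3⟩ := ih
    rw [pow_succ', Module.End.mul_apply]
    set w := ((Zop ρ) ^ j) v with hwdef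
    refine ⟨?_, fun m hm => ?_, ?_⟩
    · have h4 := LinearMap.congr_fun (Zop_commute_Dop ρ) w
      simp only [Module.End.mul_apply] at h4
      rw [← h4, h1, map_smul]
    · have h4 := levelL ρ hδ w h1 m
      rw [h2 (m - 1) (by omega), h2 (m + 1) (by omega)] at h4
      simp only [norm_zero, mul_zero, add_zero] at h4
      exact norm_eq_zero.mp (le_antisymm h4 (norm_nonneg _))
    · refine (Zop_step ρ hδ h1 h2).trans ?_
      have h5 : 32 * δ * (j + 1) * ‖w‖ ^ 2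
          ≤ 32 * δ * (j + 1) * ((32 * δ) ^ j * (j.factorial : ℝ) * ‖v‖ ^ 2) :=
        mul_le_mul_of_nonneg_left h3 (by positivity)
      refine h5.trans (le_of_eq ?_)
      rw [Nat.factorial_succ, pow_succ]
      push_cast
      ring

/-- [MZ] -/
theorem momentZ [Nonempty X] (ρ : ORep (Perm (X ⊕ X)) V) {δ : ℝ} (hδ : 0 ≤ δ) {v : V}
    (hv : EH ρ v = v) (hw : Dop ρ v = δ • v) (J : JD (DL ρ) (DR ρ) v) (j : ℕ) :
    ∑ i, ‖J.vec i‖ ^ 2 * (J.a i - J.b i) ^ (2 * j) ≤ (32 * δ) ^ j * (j.factorial : ℝ) * ‖v‖ ^ 2 := by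
  rw [← J.norm_pow_sq (C := Zop ρ) (c := fun i => J.a i - J.b i) (fun i => JD.Zop_vec ρ J i) j]
  exact (Zop_pow ρ hδ hv hw j).2.2

end Vale.Agent.P162T
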