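import Vale.Agent.P162T.RateF1

/-! # P162 [RF4] part (c) of the step (no zero) -/

open Equiv Finset

namespace Vale.Agent.P162T

/-- [RF4] auxiliary: the exponent `2s = 4α(ℓ+1)` is harmless -/
theorem stepF_c_aux {n δ α : ℝ} (hn : 0 < n) (hδ : 0 < δ) (hx : δ / n < Real.exp (-30))
    (hα : 0 < α) (hα1 : α ≤ 1 / 50000) :
    2 * Real.sqrt (δ / n) * Real.exp (2 * (2 * α * (Real.log (1 + n / δ) + 1))) ≤ 1 ∧
    2 * (δ / n) * Real.exp (2 * (2 * α * (Real.log (1 + n / δ) + 1))) ≤ 1 := by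
  set x : ℝ := δ / n with hxdef
  have hx0 : 0 < x := div_pos hδ hn
  have hnx : n / δ = x⁻¹ := by rw [hxdef, inv_div]
  set L : ℝ := -Real.log x with hL
  have hxe : x = Real.exp (-L) := by rw [hL, neg_neg, Real.exp_log hx0]
  have hL30 : 30 < L := by
    have := Real.log_lt_log hx0 hx
    rw [Real.log_exp] at this
    rw [hL]; linarith
  have hx1 : x ≤ 1 := by
    rw [hxe]
    exact Real.exp_le_one_iff.mpr (by linarith)
  have hℓ : Real.log (1 + n / δ) ≤ 1 + L := by
    rw [hnx]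
    have h1 : 1 + x⁻¹ ≤ 2 * x⁻¹ := by
      have : 1 ≤ x⁻¹ := (one_le_inv₀ hx0).mpr hx1
      linarith
    have h2 : Real.log (1 + x⁻¹) ≤ Real.log (2 * x⁻¹) :=
      Real.log_le_log (by positivity) h1
    rw [Real.log_mul (by norm_num) (by positivity), Real.log_inv] at h2
    have h3 : Real.log 2 ≤ 1 := by
      have := Real.log_two_lt_d9; linarith
    rw [hL]; linarith
  have hsq : Real.sqrt x = Real.exp (-(L / 2)) := by
    rw [hxe, Real.sqrt_eq_iff_mul_self_eq (Real.exp_pos _).le (Real.exp_pos _).le, ← Real.exp_add]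
    congr 1; ring
  have he : 2 * (2 * α * (Real.log (1 + n / δ) + 1)) ≤ L / 2 - 1 := by
    have h1 : 2 * (2 * α * (Real.log (1 + n / δ) + 1)) ≤ 4 * (1 / 50000) * (L + 2) := by
      have h0 : 0 ≤ Real.log (1 + n / δ) := Real.log_nonneg (by
        have : 0 ≤ n / δ := by positivity
        linarith)
      have : α * (Real.log (1 + n / δ) + 1) ≤ (1 / 50000) * (L + 2) := by
        apply mul_le_mul hα1 (by linarith) (by linarith) (by norm_num)
      linarith
    linarith
  have hexp1 : Real.exp (-1) ≤ 1 / 2 := by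
    rw [Real.exp_neg, inv_le_comm₀ (Real.exp_pos 1) (by norm_num)]
    have := Real.exp_one_gt_d9
    norm_num; linarith
  have hmain : 2 * Real.sqrt x * Real.exp (2 * (2 * α * (Real.log (1 + n / δ) + 1))) ≤ 1 := by
    rw [hsq, mul_assoc, ← Real.exp_add]
    have : Real.exp (-(L / 2) + 2 * (2 * α * (Real.log (1 + n / δ) + 1))) ≤ Real.exp (-1) :=
      Real.exp_le_exp.mpr (by linarith)
    linarith
  refine ⟨hmain, le_trans ?_ hmain⟩
  have hxs : x ≤ Real.sqrt x := by
    rw [hsq, hxe]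
    exact Real.exp_le_exp.mpr (by linarith)
  have : 0 < Real.exp (2 * (2 * α * (Real.log (1 + n / δ) + 1))) := Real.exp_pos _
  nlinarith

/-- [RF4] pointwise lower bound of `ps N a + ps N b` -/
theorem stepF_c_pt {n δ a b : ℝ} (hn : 0 < n) (hδ : 0 < δ) (ha : 0 < a) (hb : 0 < b) :
    ps n δ - (Real.log (1 + n / δ) + 1) * max (δ - a - b) 0 - 2 * (a - b) ^ 2 / δ ≤
      ps (n / 2) a + ps (n / 2) b := by
  have h1 := ps_two (N := n / 2) (by positivity) ha hb
  rw [show 2 * (n / 2) = n by ring] at h1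
  have h2 := ps_sub (n := n) (t := a + b) (δ := δ) hn.le (by positivity) hδ
  rw [show δ - (a + b) = δ - a - b by ring] at h2
  have h3 : (a - b) ^ 2 / (a + b) ≤ 2 * (a - b) ^ 2 / δ + max (δ - a - b) 0 := by
    have hab : 0 < a + b := by positivity
    rcases le_total (δ / 2) (a + b) with h | h
    · have : (a - b) ^ 2 / (a + b) ≤ (a - b) ^ 2 / (δ / 2) :=
        div_le_div_of_nonneg_left (sq_nonneg _) (by positivity) h
      have e : (a - b) ^ 2 / (δ / 2) = 2 * (a - b) ^ 2 / δ := by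
        field_simp
      have := le_max_right (δ - a - b) 0
      linarith
    · have h4 : (a - b) ^ 2 / (a + b) ≤ a + b := by
        rw [div_le_iff₀ hab]
        nlinarith [mul_pos ha hb]
      have h5 : 0 ≤ 2 * (a - b) ^ 2 / δ := by positivity
      have := le_max_left (δ - a - b) 0
      linarith
  nlinarith [h1, h2, h3]

/-- [RF4] part (c) -/
theorem stepF_c {n δ : ℝ} {m : ℕ} {p a b : Fin m → ℝ} (h : SplitData n δ p a b)
    (hn : 0 < n) (hδ : 3 / 2 ≤ δ) (hx : δ / n < Real.exp (-30)) {α : ℝ} (hα : 0 < α)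
    (hα1 : α ≤ 1 / 50000) :
    ∑ i ∈ Finset.univ.filter (fun i => a i ≠ 0 ∧ b i ≠ 0), p i *
      (((1 / 100) * Real.exp (-(α * ps (n / 2) (a i)))) *
        ((1 / 100) * Real.exp (-(α * ps (n / 2) (b i))))) ≤
      (3 / 100) * ((1 / 100) * Real.exp (-(α * ps n δ))) := by
  have hδ0 : 0 < δ := by linarith
  set s : ℝ := 2 * α * (Real.log (1 + n / δ) + 1) with hs
  obtain ⟨hs1, hs2⟩ := stepF_c_aux hn hδ0 hx hα hα1
  rw [← hs] at hs1 hs2
  have hlog : 0 ≤ Real.log (1 + n / δ) := Real.log_nonneg (by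
    have : 0 ≤ n / δ := by positivity
    linarith)
  have hs0 : 0 ≤ s := by positivity
  have hY := h.expY_le hn hδ0 hs0 (by
    have : 0 ≤ Real.sqrt (δ / n) := Real.sqrt_nonneg _
    nlinarith) hs2
  have hZ := h.gauss_le hδ0 (θ := 4 * α) (by positivity) (by linarith)
  have hZ' : ∑ i, p i * Real.exp (4 * α * (a i - b i) ^ 2 / δ) ≤ 2 := by
    refine hZ.trans ?_
    rw [div_le_iff₀ (by linarith)]
    linarith
  -- Cauchy-Schwarz
  have hCS : ∑ i, p i * (Real.exp (s / 2 * max (δ - a i - b i) 0) *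
      Real.exp (2 * α * (a i - b i) ^ 2 / δ)) ≤ 3 := by
    have h1 : ∀ i, p i * (Real.exp (s / 2 * max (δ - a i - b i) 0) *
        Real.exp (2 * α * (a i - b i) ^ 2 / δ)) ≤
        (1 / 2) * (p i * Real.exp (s * max (δ - a i - b i) 0)) +
        (1 / 2) * (p i * Real.exp (4 * α * (a i - b i) ^ 2 / δ)) := by
      intro i
      have e1 : Real.exp (s * max (δ - a i - b i) 0) =
          Real.exp (s / 2 * max (δ - a i - b i) 0) ^ 2 := by
        rw [← Real.exp_nat_mul]; congr 1; push_cast; ring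
      have e2 : Real.exp (4 * α * (a i - b i) ^ 2 / δ) =
          Real.exp (2 * α * (a i - b i) ^ 2 / δ) ^ 2 := by
        rw [← Real.exp_nat_mul]; congr 1; push_cast; ring
      rw [e1, e2]
      have := h.p_nonneg i
      nlinarith [sq_nonneg (Real.exp (s / 2 * max (δ - a i - b i) 0) -
        Real.exp (2 * α * (a i - b i) ^ 2 / δ)), mul_nonneg this (sq_nonneg
        (Real.exp (s / 2 * max (δ - a i - b i) 0) - Real.exp (2 * α * (a i - b i) ^ 2 / δ)))]
    calc _ ≤ ∑ i, ((1 / 2) * (p i * Real.exp (s * max (δ - a i - b i) 0)) +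
        (1 / 2) * (p i * Real.exp (4 * α * (a i - b i) ^ 2 / δ))) :=
          Finset.sum_le_sum (fun i _ => h1 i)
      _ = (1 / 2) * ∑ i, (p i * Real.exp (s * max (δ - a i - b i) 0)) +
        (1 / 2) * ∑ i, (p i * Real.exp (4 * α * (a i - b i) ^ 2 / δ)) := by
          rw [Finset.sum_add_distrib, Finset.mul_sum, Finset.mul_sum]
      _ ≤ 3 := by linarith
  -- pointwise
  have hpt : ∀ i ∈ Finset.univ.filter (fun i => a i ≠ 0 ∧ b i ≠ 0), p i *
      (((1 / 100) * Real.exp (-(α * ps (n / 2) (a i)))) *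
        ((1 / 100) * Real.exp (-(α * ps (n / 2) (b i))))) ≤
      (1 / 100) * ((1 / 100) * Real.exp (-(α * ps n δ))) *
      (p i * (Real.exp (s / 2 * max (δ - a i - b i) 0) *
      Real.exp (2 * α * (a i - b i) ^ 2 / δ))) := by
    intro i hi
    rw [Finset.mem_filter] at hi
    have hai : 0 < a i := lt_of_le_of_ne (h.a_nonneg i) (Ne.symm hi.2.1)
    have hbi : 0 < b i := lt_of_le_of_ne (h.b_nonneg i) (Ne.symm hi.2.2)
    have hp := stepF_c_pt hn hδ0 hai hbi
    have key : Real.exp (-(α * ps (n / 2) (a i))) * Real.exp (-(α * ps (n / 2) (b i))) ≤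
        Real.exp (-(α * ps n δ)) * (Real.exp (s / 2 * max (δ - a i - b i) 0) *
        Real.exp (2 * α * (a i - b i) ^ 2 / δ)) := by
      rw [← Real.exp_add, ← Real.exp_add, ← Real.exp_add]
      apply Real.exp_le_exp.mpr
      have e3 : s / 2 * max (δ - a i - b i) 0 =
          α * ((Real.log (1 + n / δ) + 1) * max (δ - a i - b i) 0) := by rw [hs]; ring
      have e4 : 2 * α * (a i - b i) ^ 2 / δ = α * (2 * (a i - b i) ^ 2 / δ) := by ring
      rw [e3, e4]
      nlinarith [mul_le_mul_of_nonneg_left hp hα.le]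
    have hpi := h.p_nonneg i
    calc _ = (1 / 100) * (1 / 100) * p i *
        (Real.exp (-(α * ps (n / 2) (a i))) * Real.exp (-(α * ps (n / 2) (b i)))) := by ring
      _ ≤ (1 / 100) * (1 / 100) * p i * (Real.exp (-(α * ps n δ)) *
        (Real.exp (s / 2 * max (δ - a i - b i) 0) *
        Real.exp (2 * α * (a i - b i) ^ 2 / δ))) := by gcongr
      _ = _ := by ring
  calc _ ≤ ∑ i ∈ Finset.univ.filter (fun i => a i ≠ 0 ∧ b i ≠ 0),
      (1 / 100) * ((1 / 100) * Real.exp (-(α * ps n δ))) *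
      (p i * (Real.exp (s / 2 * max (δ - a i - b i) 0) *
      Real.exp (2 * α * (a i - b i) ^ 2 / δ))) := Finset.sum_le_sum hpt
    _ ≤ ∑ i, (1 / 100) * ((1 / 100) * Real.exp (-(α * ps n δ))) *
      (p i * (Real.exp (s / 2 * max (δ - a i - b i) 0) *
      Real.exp (2 * α * (a i - b i) ^ 2 / δ))) := by
        apply Finset.sum_le_sum_of_subset_of_nonneg (Finset.filter_subset _ _)
        intro i _ _
        have := h.p_nonneg i
        positivity
    _ = (1 / 100) * ((1 / 100) * Real.exp (-(α * ps n δ))) *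
      ∑ i, (p i * (Real.exp (s / 2 * max (δ - a i - b i) 0) *
      Real.exp (2 * α * (a i - b i) ^ 2 / δ))) := by rw [Finset.mul_sum]
    _ ≤ (1 / 100) * ((1 / 100) * Real.exp (-(α * ps n δ))) * 3 := by gcongr
    _ = _ := by ring

end Vale.Agent.P162T
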