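import Vale.Agent.P162T.RateFb
import Vale.Agent.P162T.RateFc

/-!
# P162 [RF] The improved rate `exp(-α δ log(1+n/δ))`

`ψ n t = α t log(1+n/t)` (`t > 0`).  `ε₀ = 1/100`, `C₁ = 20 log 100`, `C₂ = 1000`, `x₁ = exp(-30)`.
Choose `d₁` such that `n₁ = 2^{d₁}` satisfies: `n₁ ≥ C₁/x₁`, `n₁ ≥ 10^10`, `Rate d (qs (ε₀²))` for all `d ≥ d₁` (`rateG`);
`α = min (2·10⁻⁵) (1/(20 log(1+n₁)))`.
CLAIM: for all `d ≥ d₁`, `Rate d (qf)` with `qf δ = 1` (δ ≤ 0), `0` (0<δ<3/2), `ε₀ exp(-ψ n δ)` (δ ≥ 3/2), `n = 2^d`.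
* base `d = d₁`: `δ ≤ C₁`: `ψ ≤ δ/20 ≤ log 100` (as `log(1+n₁/δ) ≤ log(1+n₁)`, δ ≥ 1), so `ε₀² ≤ ε₀ e^{-ψ}`;
  `δ > C₁`: `e^{-δ/10} ≤ e^{-δ/20} e^{-ψ} ≤ ε₀ e^{-ψ}`.  (combine `rateA`, `rateG` by `Rate.min`, `Rate.mono`.)
* step `N = 2^d → n = 2N`, `δ ≥ 3/2`, `x = δ/n`:
 - `x ≥ x₁`: `ψ n δ ≤ αδ log(1+1/x₁) ≤ δ/20` and `δ ≥ x₁ n₁ ≥ C₁`: `rateA` gives `e^{-δ/10} ≤ ε₀ e^{-ψ}`.
 - `x < x₁` (`rate_of_split`), `ℓ = log(1+1/x)`:
 (a) `P(a=b=0) ≤ e^{√x}(4x)^{δ/4} ≤ 0.02 ε₀ (1+1/x)^{-αδ}`: `(4x)^{1/4}(1+1/x)^α ≤ 1.5 x^{0.24} ≤ 1` and power `δ ≥ 3/2`: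
     `e (1.5 x₁^{0.24})^{1.5} ≤ 2·10⁻⁴`.
 (b) exactly one zero, say `b = 0`, `a ≥ 3/2`: `ψ N a ≥ ψ n δ - αδ log 2 - α Y⁺ ℓ` (see `psi_one`), so the total (both
     cases) is `≤ ε₀ e^{-ψ} 2^{αδ} (E[e^{αℓY⁺};b=0] + E[e^{αℓY⁺};a=0])`.
     If `δ ≤ C₂`: `E[e^{αℓY⁺};b=0] ≤ P(b=0) + E[αℓY⁺ e^{αℓY⁺}] ≤ P(b=0) + αℓ √(E Y²) √(E e^{2αℓY⁺})
       ≤ 0.41 + αℓ√(2x)·2 ≤ 0.44` (`ysq`; `expY_le` with `s = 2αℓ`, `ℓ √x ≤ 1`; `pb_le` with `k = ⌈δ⌉₊`), `2^{αδ} ≤ 1.02`:
       total `≤ 0.9 ε₀ e^{-ψ}`.
     If `δ > C₂`: `E[e^{αℓY⁺};b=0] ≤ √(E e^{2αℓY⁺}) √P(b=0) ≤ 2 √1.5 e^{-δ/256}`, `2^{αδ} ≤ e^{δ/512}`; total `≤ 4.9 e^{-δ/512} ε₀ e^{-ψ}`,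
       `≤ 0.9 ε₀ e^{-ψ}` (δ ≥ 1000).
 (c) `a,b ≥ 3/2`: `ψ N a + ψ N b ≥ ψ n (a+b) - α Z²/(a+b)` (`psi_two`), `ψ n (a+b) ≥ ψ n δ - αℓY⁺`,
     `Z²/(a+b) ≤ 2Z²/δ + Y⁺` (if `a+b ≥ δ/2` first term; otherwise `Z²/(a+b) ≤ a+b ≤ δ/2 ≤ Y`).  So the sum is
     `≤ ε₀² e^{-ψ} E exp(α(ℓ+1)Y⁺ + 2αZ²/δ) ≤ ε₀² e^{-ψ} √(E e^{2α(ℓ+1)Y⁺}) √(E e^{4αZ²/δ}) ≤ 3 ε₀² e^{-ψ}`.
 Sum: `(0.02 + 0.9 + 0.03) ε₀ e^{-ψ} ≤ ε₀ e^{-ψ}`.
Elementary: `psi_mono`: `t ↦ t log(1+n/t)` is increasing on `t > 0` (`log(1+y) ≥ y/(1+y)`).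
`psi_two`: with `m=(a+b)/2`: `a log(a/m) + b log(b/m) ≤ (a²+b²-2m²)/m = (a-b)²/(a+b)` (`log z ≤ z-1`), and
`a log((N+a)/(N+m)) + b log((N+b)/(N+m)) ≥ a(a-m)/(N+a) + b(b-m)/(N+b) ≥ 0` (`log z ≥ 1-1/z`).
-/

open Equiv Finset

namespace Vale.Agent.P162T

/-- the improved rate function -/
noncomputable def qf (c α n : ℝ) (δ : ℝ) : ℝ :=
  if δ ≤ 0 then 1 else if δ < 3 / 2 then 0 else c * Real.exp (-(α * ps n δ))

theorem qf_nonneg {c α n : ℝ} (hc : 0 ≤ c) (δ : ℝ) : 0 ≤ qf c α n δ := by
  unfold qf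
  split_ifs <;> positivity

theorem ps_nonneg {n δ : ℝ} (hn : 0 ≤ n) (hδ : 0 ≤ δ) : 0 ≤ ps n δ := by
  unfold ps
  refine mul_nonneg hδ (Real.log_nonneg ?_)
  have : 0 ≤ n / δ := by positivity
  linarith

theorem qf_le_one {c α n : ℝ} (hc1 : c ≤ 1) (hα : 0 ≤ α) (hn : 0 ≤ n) (δ : ℝ) :
    qf c α n δ ≤ 1 := by
  unfold qf
  split_ifs with h1 h2
  · exact le_rfl
  · exact zero_le_one
  · push Not at h1 h2
    have h3 : 0 ≤ ps n δ := ps_nonneg hn (by linarith)
    have h4 : Real.exp (-(α * ps n δ)) ≤ 1 := Real.exp_le_one_iff.mpr (by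
      have := mul_nonneg hα h3
      linarith)
    have h5 : 0 < Real.exp (-(α * ps n δ)) := Real.exp_pos _
    nlinarith

theorem qf_le_of_pos {c α n δ : ℝ} (hc : 0 ≤ c) (hδ : 0 < δ) :
    qf c α n δ ≤ c * Real.exp (-(α * ps n δ)) := by
  unfold qf
  rw [if_neg (by linarith)]
  split_ifs
  · positivity
  · exact le_rfl

/-- the bound of the split sum, `3/2 ≤ δ`, `δ/n` small -/
theorem stepF_all {n δ : ℝ} {m : ℕ} {p a b : Fin m → ℝ} (h : SplitData n δ p a b)
    (hn : 10 ^ 10 ≤ n) (hδ : 3 / 2 ≤ δ) (hx : δ / n < Real.exp (-30)) {α : ℝ} (hα : 0 < α)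
    (hα1 : α ≤ 1 / 50000) :
    ∑ i, p i * (qf (1 / 100) α (n / 2) (a i) * qf (1 / 100) α (n / 2) (b i)) ≤
      (1 / 100) * Real.exp (-(α * ps n δ)) := by
  have hn0 : 0 < n := by linarith
  have hA := stepF_a h hn0 hδ hx hα hα1
  have hB := stepF_b h hn hδ hx hα hα1
  have hB' := stepF_b' h hn hδ hx hα hα1
  have hC := stepF_c h hn0 hδ hx hα hα1
  have hsplit : ∑ i, p i * (qf (1 / 100) α (n / 2) (a i) * qf (1 / 100) α (n / 2) (b i)) ≤
      ((∑ i ∈ Finset.univ.filter (fun i => a i = 0 ∧ b i = 0), p i +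
      ∑ i ∈ Finset.univ.filter (fun i => b i = 0 ∧ a i ≠ 0), p i *
      ((1 / 100) * Real.exp (-(α * ps (n / 2) (a i))))) +
      ∑ i ∈ Finset.univ.filter (fun i => a i = 0 ∧ b i ≠ 0), p i *
      ((1 / 100) * Real.exp (-(α * ps (n / 2) (b i))))) +
      ∑ i ∈ Finset.univ.filter (fun i => a i ≠ 0 ∧ b i ≠ 0), p i *
      (((1 / 100) * Real.exp (-(α * ps (n / 2) (a i)))) *
        ((1 / 100) * Real.exp (-(α * ps (n / 2) (b i))))) := by
    rw [Finset.sum_filter, Finset.sum_filter, Finset.sum_filter, Finset.sum_filter,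
      ← Finset.sum_add_distrib, ← Finset.sum_add_distrib, ← Finset.sum_add_distrib]
    apply Finset.sum_le_sum
    intro i _
    have hp := h.p_nonneg i
    have q0 : qf (1 / 100) α (n / 2) 0 = 1 := by simp [qf]
    by_cases ha : a i = 0
    · by_cases hb : b i = 0
      · rw [ha, hb, q0]; simp
      · have hbi : 0 < b i := lt_of_le_of_ne (h.b_nonneg i) (Ne.symm hb)
        have := qf_le_of_pos (c := 1 / 100) (α := α) (n := n / 2) (by norm_num) hbi
        simp only [ha, hb, q0, and_false, if_false, ne_eq, not_false_eq_true, and_self, if_true,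
          false_and, not_true_eq_false, one_mul, zero_add, add_zero]
        exact mul_le_mul_of_nonneg_left this hp
    · have hai : 0 < a i := lt_of_le_of_ne (h.a_nonneg i) (Ne.symm ha)
      have h1 := qf_le_of_pos (c := 1 / 100) (α := α) (n := n / 2) (by norm_num) hai
      by_cases hb : b i = 0
      · simp only [ha, hb, q0, if_false, ne_eq, not_false_eq_true, and_self, if_true,
          false_and, not_true_eq_false, mul_one, zero_add, add_zero, and_false]
        exact mul_le_mul_of_nonneg_left h1 hp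
      · have hbi : 0 < b i := lt_of_le_of_ne (h.b_nonneg i) (Ne.symm hb)
        have h2 := qf_le_of_pos (c := 1 / 100) (α := α) (n := n / 2) (by norm_num) hbi
        simp only [ha, hb, if_false, ne_eq, not_false_eq_true, and_self, if_true,
          false_and, zero_add]
        apply mul_le_mul_of_nonneg_left _ hp
        apply mul_le_mul h1 h2 (qf_nonneg (by norm_num) _) (by positivity)
  refine hsplit.trans ?_
  have hE : 0 < Real.exp (-(α * ps n δ)) := Real.exp_pos _
  linarith

theorem log_hundred_le : Real.log 100 ≤ 5 := by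
  have h : (100 : ℝ) ≤ Real.exp 5 := by
    have h1 : (2.7 : ℝ) ≤ Real.exp 1 := by
      have := Real.exp_one_gt_d9
      linarith
    have h2 : Real.exp 5 = (Real.exp 1) ^ 5 := by
      rw [← Real.exp_nat_mul]; norm_num
    rw [h2]
    calc (100 : ℝ) ≤ (2.7 : ℝ) ^ 5 := by norm_num
      _ ≤ _ := pow_le_pow_left₀ (by norm_num) h1 5
  calc Real.log 100 ≤ Real.log (Real.exp 5) := Real.log_le_log (by norm_num) h
    _ = 5 := Real.log_exp 5

theorem exp_neg_twentieth {δ : ℝ} (h : 20 * Real.log 100 ≤ δ) :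
    Real.exp (-(δ / 20)) ≤ 1 / 100 := by
  have h1 : -(δ / 20) ≤ -Real.log 100 := by linarith
  calc Real.exp (-(δ / 20)) ≤ Real.exp (-Real.log 100) := Real.exp_le_exp.mpr h1
    _ = 1 / 100 := by rw [Real.exp_neg, Real.exp_log (by norm_num)]; norm_num

/-- [RF5] assembly -/
theorem rateF : ∃ (α : ℝ) (d1 : ℕ), 0 < α ∧
    ∀ d, d1 ≤ d → Rate d (qf 1 α (2 ^ d)) := by
  obtain ⟨dG, hG⟩ := rateG ((1 / 100) ^ 2) (by norm_num)
  obtain ⟨d2, hd2⟩ := pow_unbounded_of_one_lt
    (max (10 ^ 10) (20 * Real.log 100 * Real.exp 30)) (by norm_num : (1 : ℝ) < 2)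
  set d1 : ℕ := max dG d2 with hd1
  have hn1 : max (10 ^ 10) (20 * Real.log 100 * Real.exp 30) ≤ (2 : ℝ) ^ d1 :=
    hd2.le.trans (pow_le_pow_right₀ (by norm_num) (le_max_right _ _))
  have hn1a : (10 : ℝ) ^ 10 ≤ 2 ^ d1 := (le_max_left _ _).trans hn1
  have hn1b : 20 * Real.log 100 * Real.exp 30 ≤ (2 : ℝ) ^ d1 := (le_max_right _ _).trans hn1
  set n1 : ℝ := 2 ^ d1 with hn1def
  have hn1pos : 0 < n1 := by positivity
  have hlogpos : 0 < Real.log (1 + n1) := Real.log_pos (by linarith)
  set α : ℝ := min (1 / 50000) (1 / (20 * Real.log (1 + n1))) with hα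
  have hα0 : 0 < α := lt_min (by norm_num) (by positivity)
  have hα1 : α ≤ 1 / 50000 := min_le_left _ _
  have hα2 : α * Real.log (1 + n1) ≤ 1 / 20 := by
    have h1 : α ≤ 1 / (20 * Real.log (1 + n1)) := min_le_right _ _
    calc α * Real.log (1 + n1) ≤ 1 / (20 * Real.log (1 + n1)) * Real.log (1 + n1) := by gcongr
      _ = 1 / 20 := by field_simp
  have hl100 : 0 < Real.log 100 := Real.log_pos (by norm_num)
  -- the claim
  have claim : ∀ d, d1 ≤ d → Rate d (qf (1 / 100) α (2 ^ d)) := by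
    intro d hd
    induction d, hd using Nat.le_induction with
    | base =>
      have hR := (rateA d1).min (hG d1 (le_max_left _ _))
      refine hR.mono ?_
      intro δ hδ0
      rcases eq_or_lt_of_le hδ0 with h0 | hpos
      · rw [← h0]
        simp [qf, qs]
      · by_cases h32 : δ < 3 / 2
        · have hq1 : qf (1 / 100) α (2 ^ d1) δ = 0 := by
            unfold qf; rw [if_neg (by linarith), if_pos h32]
          have hq2 : qs ((1 / 100) ^ 2) δ = 0 := by
            unfold qs; rw [if_neg (by linarith), if_pos h32]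
          rw [hq1, hq2]
          exact min_le_right _ _
        · push Not at h32
          have hq1 : qf (1 / 100) α (2 ^ d1) δ = (1 / 100) * Real.exp (-(α * ps n1 δ)) := by
            unfold qf; rw [if_neg (by linarith), if_neg (by linarith)]
          have hq2 : qs ((1 / 100) ^ 2) δ = (1 / 100) ^ 2 := by
            unfold qs; rw [if_neg (by linarith), if_neg (by linarith)]
          rw [hq1, hq2]
          have hps : α * ps n1 δ ≤ δ / 20 := by
            unfold ps
            have h1 : Real.log (1 + n1 / δ) ≤ Real.log (1 + n1) := by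
              apply Real.log_le_log (by positivity)
              have : n1 / δ ≤ n1 := div_le_self hn1pos.le (by linarith)
              linarith
            have h2 : α * Real.log (1 + n1 / δ) ≤ 1 / 20 :=
              (mul_le_mul_of_nonneg_left h1 hα0.le).trans hα2
            calc α * (δ * Real.log (1 + n1 / δ)) = δ * (α * Real.log (1 + n1 / δ)) := by ring
              _ ≤ δ * (1 / 20) := by gcongr
              _ = δ / 20 := by ring
          rcases le_total δ (20 * Real.log 100) with hle | hge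
          · refine (min_le_right _ _).trans ?_
            have h3 : (1 / 100 : ℝ) ≤ Real.exp (-(α * ps n1 δ)) := by
              calc (1 / 100 : ℝ) = Real.exp (-Real.log 100) := by
                    rw [Real.exp_neg, Real.exp_log (by norm_num)]; norm_num
                _ ≤ _ := Real.exp_le_exp.mpr (by linarith)
            nlinarith
          · refine (min_le_left _ _).trans ?_
            have h3 := exp_neg_twentieth hge
            have h4 : Real.exp (-(δ / 10)) = Real.exp (-(δ / 20)) * Real.exp (-(δ / 20)) := by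
              rw [← Real.exp_add]; congr 1; ring
            rw [h4]
            have h5 : Real.exp (-(δ / 20)) ≤ Real.exp (-(α * ps n1 δ)) :=
              Real.exp_le_exp.mpr (by linarith)
            exact mul_le_mul h3 h5 (Real.exp_pos _).le (by norm_num)
    | succ d hd ih =>
      set n : ℝ := 2 ^ (d + 1) with hn
      have hnn1 : n1 ≤ n := by
        rw [hn, hn1def]
        exact pow_le_pow_right₀ (by norm_num) (by omega)
      have hnpos : 0 < n := by positivity
      have hn2 : n / 2 = 2 ^ d := by rw [hn]; ring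
      have hS : Rate (d + 1) (fun δ => if 3 / 2 ≤ δ ∧ δ / n < Real.exp (-30) then
          (1 / 100) * Real.exp (-(α * ps n δ)) else 1) := by
        refine rate_of_split ih (fun x => qf_nonneg (by norm_num) x) ?_ ?_
        · intro x
          split_ifs <;> positivity
        · intro δ m p a b hδ0 hδn hSD
          have hle1 : ∑ i, p i * (qf (1 / 100) α (2 ^ d) (a i) * qf (1 / 100) α (2 ^ d) (b i)) ≤ 1 := by
            calc _ ≤ ∑ i, p i := by
                  apply Finset.sum_le_sum
                  intro i _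
                  have h1 := qf_le_one (c := 1 / 100) (α := α) (n := 2 ^ d) (by norm_num) hα0.le
                    (by positivity) (a i)
                  have h2 := qf_le_one (c := 1 / 100) (α := α) (n := 2 ^ d) (by norm_num) hα0.le
                    (by positivity) (b i)
                  have h3 := qf_nonneg (c := 1 / 100) (α := α) (n := 2 ^ d) (by norm_num) (a i)
                  have h4 := qf_nonneg (c := 1 / 100) (α := α) (n := 2 ^ d) (by norm_num) (b i)
                  have hp := hSD.p_nonneg i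
                  have h5 : qf (1 / 100) α (2 ^ d) (a i) * qf (1 / 100) α (2 ^ d) (b i) ≤ 1 :=
                    mul_le_one₀ h1 h4 h2
                  nlinarith
              _ = 1 := hSD.p_sum
          by_cases hc : 3 / 2 ≤ δ ∧ δ / n < Real.exp (-30)
          · simp only [hc, and_self, if_true]
            have := stepF_all hSD (hn1a.trans hnn1) hc.1 hc.2 hα0 hα1
            rw [← hn, hn2] at this
            exact this
          · rw [if_neg hc]
            exact hle1
      have hR := rate_kill (hS.min (rateA (d + 1)))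
      refine hR.mono ?_
      intro δ hδ0
      rcases eq_or_lt_of_le hδ0 with h0 | hpos
      · rw [← h0]
        simp [qf]
      · by_cases h32 : δ < 3 / 2
        · simp only [hpos, h32, and_self, if_true]
          exact qf_nonneg (by norm_num) _
        · have hk : ¬ (0 < δ ∧ δ < 3 / 2) := fun h => h32 h.2
          push Not at h32
          have hq1 : qf (1 / 100) α n δ = (1 / 100) * Real.exp (-(α * ps n δ)) := by
            unfold qf; rw [if_neg (by linarith), if_neg (by linarith)]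
          simp only [hk, if_false]
          rw [hq1]
          by_cases hx : δ / n < Real.exp (-30)
          · refine (min_le_left _ _).trans ?_
            rw [if_pos ⟨h32, hx⟩]
          · push Not at hx
            refine (min_le_right _ _).trans ?_
            have hδbig : 20 * Real.log 100 ≤ δ := by
              rw [le_div_iff₀ hnpos] at hx
              have h1 : Real.exp (-30) * (20 * Real.log 100 * Real.exp 30) ≤
                  Real.exp (-30) * n := by
                have := hn1b.trans hnn1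
                gcongr
              have h2 : Real.exp (-30) * (20 * Real.log 100 * Real.exp 30) =
                  20 * Real.log 100 := by
                rw [show Real.exp (-30) * (20 * Real.log 100 * Real.exp 30) =
                  20 * Real.log 100 * (Real.exp (-30) * Real.exp 30) by ring, ← Real.exp_add]
                norm_num
              linarith
            have hlog : Real.log (1 + n / δ) ≤ 31 := by
              have h1 : n / δ ≤ Real.exp 30 := by
                rw [div_le_iff₀ hpos]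
                rw [le_div_iff₀ hnpos] at hx
                have h2 : Real.exp 30 * (Real.exp (-30) * n) ≤ Real.exp 30 * δ := by gcongr
                have h3 : Real.exp 30 * (Real.exp (-30) * n) = n := by
                  rw [← mul_assoc, ← Real.exp_add]; norm_num
                linarith
              have h2 : 1 + n / δ ≤ Real.exp 31 := by
                have h3 : Real.exp 31 = Real.exp 1 * Real.exp 30 := by
                  rw [← Real.exp_add]; norm_num
                have h4 : (2 : ℝ) ≤ Real.exp 1 := by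
                  have := Real.exp_one_gt_d9; linarith
                have h5 : (1 : ℝ) ≤ Real.exp 30 := Real.one_le_exp (by norm_num)
                rw [h3]; nlinarith
              calc Real.log (1 + n / δ) ≤ Real.log (Real.exp 31) :=
                    Real.log_le_log (by positivity) h2
                _ = 31 := Real.log_exp 31
            have hps : α * ps n δ ≤ δ / 20 := by
              unfold ps
              have h0 : 0 ≤ Real.log (1 + n / δ) := Real.log_nonneg (by
                have : 0 ≤ n / δ := by positivity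
                linarith)
              have h1 : α * Real.log (1 + n / δ) ≤ 1 / 20 := by nlinarith
              calc α * (δ * Real.log (1 + n / δ)) = δ * (α * Real.log (1 + n / δ)) := by ring
                _ ≤ δ * (1 / 20) := by gcongr
                _ = δ / 20 := by ring
            have h3 := exp_neg_twentieth hδbig
            have h4 : Real.exp (-(δ / 10)) = Real.exp (-(δ / 20)) * Real.exp (-(δ / 20)) := by
              rw [← Real.exp_add]; congr 1; ring
            rw [h4]
            have h5 : Real.exp (-(δ / 20)) ≤ Real.exp (-(α * ps n δ)) :=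
              Real.exp_le_exp.mpr (by linarith)
            exact mul_le_mul h3 h5 (Real.exp_pos _).le (by norm_num)
  refine ⟨α, d1, hα0, fun d hd => (claim d hd).mono ?_⟩
  intro δ _
  unfold qf
  split_ifs
  · exact le_rfl
  · exact le_rfl
  · have : 0 < Real.exp (-(α * ps (2 ^ d) δ)) := Real.exp_pos _
    nlinarith

end Vale.Agent.P162T
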