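import Vale.Agent.P162T.RateG

/-!
# P162 [RF1] Elementary properties of `ps`, and part (a) of the step.
-/

open Equiv Finset

namespace Vale.Agent.P162T

/-- `ψ` without the factor `α` -/
noncomputable def ps (n t : ℝ) : ℝ := t * Real.log (1 + n / t)

/-- [RF1] -/
theorem ps_mono {n t t' : ℝ} (hn : 0 ≤ n) (ht : 0 < t) (h : t ≤ t') : ps n t ≤ ps n t' := by
  have ht' : 0 < t' := lt_of_lt_of_le ht h
  unfold ps
  have h0 : (-1 : ℝ) ≤ n / t := by
    have : 0 ≤ n / t := by positivity
    linarith
  have h1 : (1 + n / t) ^ (t / t') ≤ 1 + (t / t') * (n / t) :=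
    rpow_one_add_le_one_add_mul_self h0 (by positivity) ((div_le_one ht').2 h)
  have h2 : (t / t') * (n / t) = n / t' := by field_simp
  rw [h2] at h1
  have hpos : 0 < 1 + n / t := by positivity
  have h3 : Real.log ((1 + n / t) ^ (t / t')) ≤ Real.log (1 + n / t') :=
    Real.log_le_log (Real.rpow_pos_of_pos hpos _) h1
  rw [Real.log_rpow hpos] at h3
  have h4 : t' * (t / t' * Real.log (1 + n / t)) ≤ t' * Real.log (1 + n / t') :=
    mul_le_mul_of_nonneg_left h3 ht'.le
  have h5 : t' * (t / t' * Real.log (1 + n / t)) = t * Real.log (1 + n / t) := by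
    field_simp
  linarith

/-- [RF1] `psi_two` -/
theorem ps_two {N a b : ℝ} (hN : 0 ≤ N) (ha : 0 < a) (hb : 0 < b) :
    ps (2 * N) (a + b) - (a - b) ^ 2 / (a + b) ≤ ps N a + ps N b := by
  unfold ps
  set m : ℝ := (a + b) / 2 with hm
  have hmpos : 0 < m := by positivity
  have e1 : (1 + 2 * N / (a + b)) = (N + m) / m := by
    rw [hm]; field_simp; ring
  have e2 : (1 + N / a) = (N + a) / a := by field_simp; ring
  have e3 : (1 + N / b) = (N + b) / b := by field_simp; ring
  have pNm : 0 < N + m := by positivity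
  have pNa : 0 < N + a := by positivity
  have pNb : 0 < N + b := by positivity
  rw [e1, e2, e3, Real.log_div pNm.ne' hmpos.ne', Real.log_div pNa.ne' ha.ne',
    Real.log_div pNb.ne' hb.ne']
  have l1 : Real.log a - Real.log m ≤ a / m - 1 := by
    rw [← Real.log_div ha.ne' hmpos.ne']
    exact Real.log_le_sub_one_of_pos (by positivity)
  have l2 : Real.log b - Real.log m ≤ b / m - 1 := by
    rw [← Real.log_div hb.ne' hmpos.ne']
    exact Real.log_le_sub_one_of_pos (by positivity)
  have l3 : 1 - (N + m) / (N + a) ≤ Real.log (N + a) - Real.log (N + m) := by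
    have := Real.log_le_sub_one_of_pos (show 0 < (N + m) / (N + a) by positivity)
    rw [Real.log_div pNm.ne' pNa.ne'] at this
    linarith
  have l4 : 1 - (N + m) / (N + b) ≤ Real.log (N + b) - Real.log (N + m) := by
    have := Real.log_le_sub_one_of_pos (show 0 < (N + m) / (N + b) by positivity)
    rw [Real.log_div pNm.ne' pNb.ne'] at this
    linarith
  have m1 := mul_le_mul_of_nonneg_left l1 ha.le
  have m2 := mul_le_mul_of_nonneg_left l2 hb.le
  have m3 := mul_le_mul_of_nonneg_left l3 ha.le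
  have m4 := mul_le_mul_of_nonneg_left l4 hb.le
  have k1 : a * (a / m - 1) + b * (b / m - 1) = (a - b) ^ 2 / (a + b) := by
    rw [hm]; field_simp; ring
  have k2 : 0 ≤ a * (1 - (N + m) / (N + a)) + b * (1 - (N + m) / (N + b)) := by
    have : a * (1 - (N + m) / (N + a)) + b * (1 - (N + m) / (N + b)) =
        N * (a - b) ^ 2 / (2 * ((N + a) * (N + b))) := by
      rw [hm]; field_simp; ring
    rw [this]; positivity
  have k3 : a + b = 2 * m := by rw [hm]; ring
  have k4 : (a + b) * (Real.log (N + m) - Real.log m) =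
    a * (Real.log (N + m) - Real.log m) + b * (Real.log (N + m) - Real.log m) := by ring
  rw [k4]
  nlinarith [m1, m2, m3, m4, k1, k2]

/-- [RF1] -/
theorem ps_sub {n t δ : ℝ} (hn : 0 ≤ n) (ht : 0 < t) (hδ : 0 < δ) :
    ps n δ - max (δ - t) 0 * Real.log (1 + n / δ) ≤ ps n t := by
  rcases le_total δ t with h | h
  · rw [max_eq_right (by linarith)]
    have := ps_mono hn hδ h
    linarith
  · rw [max_eq_left (by linarith)]
    unfold ps
    have h1 : Real.log (1 + n / δ) ≤ Real.log (1 + n / t) := by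
      apply Real.log_le_log (by positivity)
      have : n / δ ≤ n / t := div_le_div_of_nonneg_left hn ht h
      linarith
    have h2 := mul_le_mul_of_nonneg_left h1 ht.le
    nlinarith [h2]

/-- [RF1] `psi_one` -/
theorem ps_one {N a δ : ℝ} (hN : 0 < N) (ha : 0 < a) (hδ : 0 < δ) :
    ps (2 * N) δ - δ * Real.log 2 - max (δ - a) 0 * Real.log (1 + 2 * N / δ) ≤ ps N a := by
  have h1 := ps_sub hN.le ha hδ
  have h2 : Real.log (1 + N / δ) ≤ Real.log (1 + 2 * N / δ) := by
    apply Real.log_le_log (by positivity)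
    have : N / δ ≤ 2 * N / δ := by
      apply div_le_div_of_nonneg_right _ hδ.le
      linarith
    linarith
  have h3 := mul_le_mul_of_nonneg_left h2 (le_max_right (δ - a) 0)
  have h4 : Real.log (1 + 2 * N / δ) ≤ Real.log 2 + Real.log (1 + N / δ) := by
    rw [← Real.log_mul (by norm_num) (by positivity)]
    apply Real.log_le_log (by positivity)
    have : 2 * N / δ = 2 * (N / δ) := by ring
    rw [this]; linarith
  have h5 : ps (2 * N) δ - δ * Real.log 2 ≤ ps N δ := by
    unfold ps
    nlinarith [mul_le_mul_of_nonneg_left h4 hδ.le]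
  linarith

/-- [RF2] part (a) -/
theorem stepF_a {n δ : ℝ} {m : ℕ} {p a b : Fin m → ℝ} (h : SplitData n δ p a b)
    (hn : 0 < n) (hδ : 3 / 2 ≤ δ) (hx : δ / n < Real.exp (-30)) {α : ℝ} (hα : 0 < α)
    (hα1 : α ≤ 1 / 50000) :
    ∑ i ∈ Finset.univ.filter (fun i => a i = 0 ∧ b i = 0), p i ≤
      (2 / 100) * (1 / 100) * Real.exp (-(α * ps n δ)) := by
  have hδ0 : 0 < δ := by linarith
  set x : ℝ := δ / n with hxdef
  have hx0 : 0 < x := by positivity
  have he30 : Real.exp (-30) ≤ 1 / 100 := by
    have h1 : (100 : ℝ) ≤ Real.exp 30 := by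
      have := Real.add_one_le_exp (30 : ℝ)
      have h2 : (31 : ℝ) ^ 2 ≤ Real.exp 30 * Real.exp 30 := by nlinarith
      have h3 : Real.exp 30 = Real.exp 15 * Real.exp 15 := by rw [← Real.exp_add]; norm_num
      have h4 := Real.add_one_le_exp (15 : ℝ)
      rw [h3]; nlinarith
    rw [Real.exp_neg, inv_eq_one_div]
    exact one_div_le_one_div_of_le (by norm_num) h1
  have hx100 : x ≤ 1 / 100 := by linarith
  have hxn : 4 * δ ≤ n := by
    have : δ = x * n := by rw [hxdef]; field_simp
    rw [this]; nlinarith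
  refine (h.p00_le hn hδ0 hxn).trans ?_
  rw [← hxdef]
  have hlx : Real.log x < -30 := by
    have := Real.log_lt_log hx0 hx
    rwa [Real.log_exp] at this
  have hps : ps n δ ≤ δ * (Real.log 2 - Real.log x) := by
    unfold ps
    apply mul_le_mul_of_nonneg_left _ hδ0.le
    rw [← Real.log_div (by norm_num) hx0.ne']
    apply Real.log_le_log (by positivity)
    have : n / δ = 1 / x := by rw [hxdef]; field_simp
    rw [this]
    have h1 : 1 ≤ 1 / x := by
      rw [le_div_iff₀ hx0]; linarith
    have h2 : 2 / x = 1 / x + 1 / x := by ring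
    rw [h2]; linarith
  have hr : (4 * x) ^ (δ / 4) = Real.exp (Real.log (4 * x) * (δ / 4)) :=
    Real.rpow_def_of_pos (by positivity) _
  rw [hr, ← Real.exp_add]
  have hlog4 : Real.log (4 * x) = 2 * Real.log 2 + Real.log x := by
    rw [Real.log_mul (by norm_num) hx0.ne']
    have : (4 : ℝ) = 2 ^ 2 := by norm_num
    rw [this, Real.log_pow]; push_cast; ring
  have hl2 := Real.log_two_lt_d9
  have hl2' := Real.log_two_gt_d9
  have hsq : Real.sqrt x ≤ 1 / 10 := by
    rw [show (1 : ℝ) / 10 = Real.sqrt ((1 / 10) ^ 2) from (Real.sqrt_sq (by norm_num)).symm]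
    apply Real.sqrt_le_sqrt
    norm_num
    linarith
  -- the exponent
  have key : Real.sqrt x + Real.log (4 * x) * (δ / 4) ≤ -10 + -(α * ps n δ) := by
    have h1 : α * ps n δ ≤ α * (δ * (Real.log 2 - Real.log x)) :=
      mul_le_mul_of_nonneg_left hps hα.le
    have h2 : α * (δ * (Real.log 2 - Real.log x)) ≤
        1 / 50000 * (δ * (Real.log 2 - Real.log x)) := by
      apply mul_le_mul_of_nonneg_right hα1
      apply mul_nonneg hδ0.le
      linarith
    rw [hlog4]
    have h3 : (2 * Real.log 2 + Real.log x) * (δ / 4) +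
        1 / 50000 * (δ * (Real.log 2 - Real.log x)) ≤ -(7 * δ) := by
      have : (2 * Real.log 2 + Real.log x) * (δ / 4) +
        1 / 50000 * (δ * (Real.log 2 - Real.log x)) =
        δ * ((1 / 2 + 1 / 50000) * Real.log 2 + (1 / 4 - 1 / 50000) * Real.log x) := by ring
      rw [this, show -(7 * δ) = δ * (-7) by ring]
      apply mul_le_mul_of_nonneg_left _ hδ0.le
      nlinarith
    nlinarith
  refine (Real.exp_le_exp.2 key).trans ?_
  rw [Real.exp_add]
  apply mul_le_mul_of_nonneg_right _ (Real.exp_pos _).le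
  have h10 : (5000 : ℝ) ≤ Real.exp 10 := by
    have h1 : Real.exp 10 = Real.exp 1 ^ 10 := by rw [← Real.exp_nat_mul]; norm_num
    rw [h1]
    have h2 : (2.7 : ℝ) ≤ Real.exp 1 := by
      have := Real.exp_one_gt_d9; linarith
    calc (5000 : ℝ) ≤ 2.7 ^ 10 := by norm_num
      _ ≤ _ := pow_le_pow_left₀ (by norm_num) h2 10
  rw [Real.exp_neg]
  have : (Real.exp 10)⁻¹ ≤ (5000 : ℝ)⁻¹ := inv_anti₀ (by norm_num) h10
  refine this.trans ?_
  norm_num

end Vale.Agent.P162T
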