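import Vale.Agent.P162T.RateF1

/-!
# P162 [RF3] The key estimate of part (b) of the step of the improved rate

`key_b`: for an event `S` with `P(S) ≤ 0.41` if `δ ≤ 1000` and `P(S) ≤ 1.5 e^{-δ/128}` always,
`2^{αδ} E[e^{αℓY⁺}; S] ≤ 0.45`, `ℓ = log(1+n/δ)`.
-/

open Equiv Finset

namespace Vale.Agent.P162T

/-- the choice of `k` in `pb_le`, `pa_le` -/
theorem exists_k {n δ : ℝ} (hn : 10 ^ 10 ≤ n) (hδ : 3 / 2 ≤ δ) (hδ2 : δ ≤ 1000) :
    ∃ k : ℕ, 2 * ((k : ℝ) + 1) ≤ n + 1 ∧ δ < (k + 1 : ℝ) * (n - k) / n ∧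
      1 - δ ^ 2 / (δ ^ 2 + δ + (8 * δ + 9 * (k : ℝ) ^ 2) / n) ≤ 41 / 100 := by
  refine ⟨⌈δ⌉₊, ?_, ?_, ?_⟩
  · have h1 : (⌈δ⌉₊ : ℝ) < δ + 1 := Nat.ceil_lt_add_one (by linarith)
    linarith
  · have h1 : (⌈δ⌉₊ : ℝ) < δ + 1 := Nat.ceil_lt_add_one (by linarith)
    have h2 : δ ≤ (⌈δ⌉₊ : ℝ) := Nat.le_ceil δ
    have hn0 : (0 : ℝ) < n := by linarith
    rw [lt_div_iff₀ hn0]
    nlinarith
  · have h1 : (⌈δ⌉₊ : ℝ) < δ + 1 := Nat.ceil_lt_add_one (by linarith)
    have h2 : δ ≤ (⌈δ⌉₊ : ℝ) := Nat.le_ceil δ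
    have hn0 : (0 : ℝ) < n := by linarith
    set k : ℝ := (⌈δ⌉₊ : ℝ) with hk
    have hsmall : (8 * δ + 9 * k ^ 2) / n ≤ 1 / 1000 := by
      rw [div_le_iff₀ hn0]
      have : k ^ 2 ≤ 1001 ^ 2 := by
        have : k ≤ 1001 := by linarith
        nlinarith
      nlinarith
    have hpos : 0 ≤ (8 * δ + 9 * k ^ 2) / n := by positivity
    have hD : 0 < δ ^ 2 + δ + (8 * δ + 9 * k ^ 2) / n := by positivity
    rw [sub_le_iff_le_add, ← sub_le_iff_le_add', le_div_iff₀ hD]
    nlinarith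

theorem exp_four {ℓ : ℝ} : Real.exp (ℓ / 4) ^ 4 = Real.exp ℓ := by
  rw [← Real.exp_nat_mul]
  congr 1
  push_cast
  ring

/-- bounds for `ℓ = log(1+n/δ)` -/
theorem ell_bounds {n δ : ℝ} (hn : 0 < n) (hδ : 0 < δ) (hx : δ / n < Real.exp (-30))
    {α : ℝ} (hα : 0 < α) (hα1 : α ≤ 1 / 50000) :
    0 ≤ Real.log (1 + n / δ) ∧
    2 * Real.sqrt (δ / n) * (Real.exp (2 * (2 * (α * Real.log (1 + n / δ)))) - 1) ≤ 1 ∧
    2 * (δ / n) * Real.exp (2 * (2 * (α * Real.log (1 + n / δ)))) ≤ 1 ∧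
    (α * Real.log (1 + n / δ)) ^ 2 * (2 * δ / n) ≤ 1 / 10000 := by
  have hy : 0 < n / δ := by positivity
  set y : ℝ := n / δ with hydef
  have hxy : δ / n = y⁻¹ := by rw [hydef, inv_div]
  have hy30 : Real.exp 30 < y := by
    rw [hxy, Real.exp_neg] at hx
    exact (inv_lt_inv₀ hy (Real.exp_pos _)).1 hx
  set ℓ : ℝ := Real.log (1 + y) with hℓ
  have hexp : Real.exp ℓ = 1 + y := Real.exp_log (by linarith)
  have hℓ30 : 30 ≤ ℓ := by
    rw [hℓ, Real.le_log_iff_exp_le (by linarith)]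
    linarith
  set z : ℝ := Real.exp (ℓ / 4) with hz
  have hz4 : z ^ 4 = 1 + y := by rw [hz, exp_four, hexp]
  have hz8 : 8 ≤ z := by
    have := Real.add_one_le_exp (ℓ / 4)
    rw [hz]
    linarith
  have hs : Real.exp (2 * (2 * (α * ℓ))) ≤ z := by
    rw [hz]
    apply Real.exp_le_exp.2
    nlinarith
  have hyz : y = z ^ 4 - 1 := by linarith
  have hz2 : 64 ≤ z ^ 2 := by nlinarith
  have hyz2 : 4 * z ^ 2 ≤ y := by
    rw [hyz]
    nlinarith
  have hyz1 : 2 * z ≤ y := by nlinarith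
  refine ⟨by linarith, ?_, ?_, ?_⟩
  · have h1 : Real.sqrt (δ / n) ≤ (2 * z)⁻¹ := by
      rw [hxy]
      apply Real.sqrt_le_iff.2
      constructor
      · positivity
      · rw [inv_pow]
        apply (inv_le_inv₀ hy (by positivity)).2
        nlinarith
    have h2 : 0 ≤ Real.sqrt (δ / n) := Real.sqrt_nonneg _
    calc 2 * Real.sqrt (δ / n) * (Real.exp (2 * (2 * (α * ℓ))) - 1)
        ≤ 2 * Real.sqrt (δ / n) * z := by
          apply mul_le_mul_of_nonneg_left _ (by positivity)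
          linarith
      _ ≤ 2 * (2 * z)⁻¹ * z := by
          apply mul_le_mul_of_nonneg_right _ (by positivity)
          linarith
      _ = 1 := by
          have : z ≠ 0 := by positivity
          field_simp
  · rw [hxy]
    calc 2 * y⁻¹ * Real.exp (2 * (2 * (α * ℓ))) ≤ 2 * y⁻¹ * z :=
          mul_le_mul_of_nonneg_left hs (by positivity)
      _ = (2 * z) * y⁻¹ := by ring
      _ ≤ y * y⁻¹ := mul_le_mul_of_nonneg_right hyz1 (by positivity)
      _ = 1 := mul_inv_cancel₀ hy.ne'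
  · have h1 : ℓ ≤ 4 * z := by
      have := Real.add_one_le_exp (ℓ / 4)
      rw [hz]
      linarith
    have h2 : α * ℓ ≤ 1 / 50000 * (4 * z) :=
      mul_le_mul hα1 h1 (by linarith) (by norm_num)
    have h3 : 0 ≤ α * ℓ := by
      apply mul_nonneg hα.le
      linarith
    have h4 : (α * ℓ) ^ 2 ≤ (1 / 50000 * (4 * z)) ^ 2 := pow_le_pow_left₀ h3 h2 2
    have h5 : 2 * δ / n = 2 * y⁻¹ := by rw [← hxy]; ring
    rw [h5]
    calc (α * ℓ) ^ 2 * (2 * y⁻¹) ≤ (1 / 50000 * (4 * z)) ^ 2 * (2 * y⁻¹) :=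
          mul_le_mul_of_nonneg_right h4 (by positivity)
      _ = (32 / 50000 ^ 2) * (z ^ 2 * y⁻¹) := by ring
      _ ≤ (32 / 50000 ^ 2) * (y * y⁻¹) := by
          apply mul_le_mul_of_nonneg_left _ (by norm_num)
          apply mul_le_mul_of_nonneg_right _ (by positivity)
          linarith
      _ = 32 / 50000 ^ 2 := by rw [mul_inv_cancel₀ hy.ne', mul_one]
      _ ≤ 1 / 10000 := by norm_num

/-- [RF3] key estimate -/
theorem key_b {n δ : ℝ} {m : ℕ} {p a b : Fin m → ℝ} (h : SplitData n δ p a b)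
    (hn : 0 < n) (hδ : 3 / 2 ≤ δ) (hx : δ / n < Real.exp (-30)) {α : ℝ} (hα : 0 < α)
    (hα1 : α ≤ 1 / 50000) (S : Finset (Fin m))
    (hS1 : δ ≤ 1000 → ∑ i ∈ S, p i ≤ 41 / 100)
    (hS2 : ∑ i ∈ S, p i ≤ 3 / 2 * Real.exp (-(δ / 128))) :
    Real.exp (α * (δ * Real.log 2)) *
      ∑ i ∈ S, p i * Real.exp (α * (max (δ - a i - b i) 0 * Real.log (1 + n / δ)))
      ≤ 45 / 100 := by
  have hδ0 : 0 < δ := by linarith
  obtain ⟨hℓ0, hs1, hs2, hsm⟩ := ell_bounds hn hδ0 hx hα hα1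
  set ℓ : ℝ := Real.log (1 + n / δ) with hℓ
  have hlog2 : Real.log 2 ≤ 1 := by
    have := Real.log_two_lt_d9
    linarith
  have hlog20 : 0 ≤ Real.log 2 := Real.log_nonneg (by norm_num)
  set t : Fin m → ℝ := fun i => α * (max (δ - a i - b i) 0 * ℓ) with ht
  have ht0 : ∀ i, 0 ≤ t i := fun i =>
    mul_nonneg hα.le (mul_nonneg (le_max_right _ _) hℓ0)
  -- the exponential moment
  have hE : ∑ i, p i * Real.exp (t i) ^ 2 ≤ 4 := by
    have h1 := h.expY_le hn hδ0 (s := 2 * (α * ℓ)) (by positivity) hs1 hs2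
    refine le_trans (le_of_eq ?_) h1
    refine Finset.sum_congr rfl fun i _ => ?_
    rw [← Real.exp_nat_mul]
    congr 2
    simp only [ht]
    push_cast
    ring
  have hES : ∑ i ∈ S, p i * Real.exp (t i) ^ 2 ≤ 4 :=
    (Finset.sum_le_sum_of_subset_of_nonneg (Finset.subset_univ S)
      fun i _ _ => mul_nonneg (h.p_nonneg i) (sq_nonneg _)).trans hE
  rcases le_or_gt δ 1000 with hd | hd
  · -- small case
    have hP := hS1 hd
    have hY : ∑ i ∈ S, p i * (t i) ^ 2 ≤ 1 / 10000 := by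
      have h1 : ∑ i ∈ S, p i * (t i) ^ 2 ≤ ∑ i, p i * (t i) ^ 2 :=
        Finset.sum_le_sum_of_subset_of_nonneg (Finset.subset_univ S)
          fun i _ _ => mul_nonneg (h.p_nonneg i) (sq_nonneg _)
      have h2 : ∑ i, p i * (t i) ^ 2 ≤ (α * ℓ) ^ 2 * ∑ i, p i * (δ - a i - b i) ^ 2 := by
        rw [Finset.mul_sum]
        refine Finset.sum_le_sum fun i _ => ?_
        have h3 : (max (δ - a i - b i) 0) ^ 2 ≤ (δ - a i - b i) ^ 2 := by
          rcases le_total (δ - a i - b i) 0 with h0 | h0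
          · rw [max_eq_right h0]; nlinarith [sq_nonneg (δ - a i - b i)]
          · rw [max_eq_left h0]
        calc p i * (t i) ^ 2 = p i * ((α * ℓ) ^ 2 * (max (δ - a i - b i) 0) ^ 2) := by
              simp only [ht]; ring
          _ ≤ p i * ((α * ℓ) ^ 2 * (δ - a i - b i) ^ 2) :=
              mul_le_mul_of_nonneg_left (mul_le_mul_of_nonneg_left h3 (sq_nonneg _))
                (h.p_nonneg i)
          _ = _ := by ring
      have h3 := mul_le_mul_of_nonneg_left h.ysq (sq_nonneg (α * ℓ))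
      linarith
    have hpt : ∀ i ∈ S, p i * Real.exp (t i) ≤
        p i + ((1 / 200) * (p i * Real.exp (t i) ^ 2) + 50 * (p i * (t i) ^ 2)) := by
      intro i _
      have h1 : Real.exp (t i) ≤ 1 + t i * Real.exp (t i) := by
        have h2 := Real.add_one_le_exp (-(t i))
        have h3 : Real.exp (-(t i)) * Real.exp (t i) = 1 := by
          rw [← Real.exp_add]; simp
        have h4 := mul_le_mul_of_nonneg_right h2 (Real.exp_pos (t i)).le
        rw [h3] at h4
        linarith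
      have h2 : t i * Real.exp (t i) ≤ (1 / 200) * Real.exp (t i) ^ 2 + 50 * (t i) ^ 2 := by
        nlinarith [sq_nonneg ((1 / 10) * Real.exp (t i) - 10 * t i)]
      have h3 : Real.exp (t i) ≤ 1 + ((1 / 200) * Real.exp (t i) ^ 2 + 50 * (t i) ^ 2) := by
        linarith
      calc p i * Real.exp (t i)
          ≤ p i * (1 + ((1 / 200) * Real.exp (t i) ^ 2 + 50 * (t i) ^ 2)) :=
            mul_le_mul_of_nonneg_left h3 (h.p_nonneg i)
        _ = _ := by ring
    have hsum : ∑ i ∈ S, p i * Real.exp (t i) ≤ 44 / 100 := by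
      refine (Finset.sum_le_sum hpt).trans ?_
      rw [Finset.sum_add_distrib, Finset.sum_add_distrib, ← Finset.mul_sum, ← Finset.mul_sum]
      linarith
    have hexp : Real.exp (α * (δ * Real.log 2)) ≤ 1.0205 := by
      have h1 : α * (δ * Real.log 2) ≤ 0.02 := by
        calc α * (δ * Real.log 2) ≤ 1 / 50000 * (1000 * 1) := by
              apply mul_le_mul hα1 _ (by positivity) (by norm_num)
              exact mul_le_mul hd hlog2 hlog20 (by norm_num)
          _ = 0.02 := by norm_num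
      have h2 : Real.exp (α * (δ * Real.log 2)) ≤ Real.exp 0.02 := Real.exp_le_exp.2 h1
      have h3 : Real.exp (0.02 : ℝ) ≤ 1.0205 := by
        have h4 := Real.add_one_le_exp (-0.02 : ℝ)
        have h5 : Real.exp (-0.02 : ℝ) * Real.exp (0.02 : ℝ) = 1 := by
          rw [← Real.exp_add]; norm_num
        have h6 := Real.exp_pos (0.02 : ℝ)
        nlinarith
      linarith
    refine (mul_le_mul hexp hsum ?_ (by norm_num)).trans (by norm_num)
    exact Finset.sum_nonneg fun i _ => mul_nonneg (h.p_nonneg i) (Real.exp_pos _).le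
  · -- large case
    set L : ℝ := Real.exp (-(δ / 256)) with hL
    have hL0 : 0 < L := Real.exp_pos _
    have hL2 : Real.exp (-(δ / 128)) = L * L := by
      rw [hL, ← Real.exp_add]
      congr 1
      ring
    have hpt : ∀ i ∈ S, p i * Real.exp (t i) ≤
        (L / 2) * (p i * Real.exp (t i) ^ 2) + (1 / (2 * L)) * p i := by
      intro i _
      have h1 : Real.exp (t i) ≤ (L / 2) * Real.exp (t i) ^ 2 + 1 / (2 * L) := by
        have h2 : 0 ≤ (L * Real.exp (t i) - 1) ^ 2 / (2 * L) := by positivity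
        have h3 : (L * Real.exp (t i) - 1) ^ 2 / (2 * L)
            = (L / 2) * Real.exp (t i) ^ 2 - Real.exp (t i) + 1 / (2 * L) := by
          field_simp
          ring
        linarith
      calc p i * Real.exp (t i) ≤ p i * ((L / 2) * Real.exp (t i) ^ 2 + 1 / (2 * L)) :=
            mul_le_mul_of_nonneg_left h1 (h.p_nonneg i)
        _ = _ := by ring
    have hsum : ∑ i ∈ S, p i * Real.exp (t i) ≤ 11 / 4 * L := by
      refine (Finset.sum_le_sum hpt).trans ?_
      rw [Finset.sum_add_distrib, ← Finset.mul_sum, ← Finset.mul_sum]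
      have h1 : (L / 2) * ∑ i ∈ S, p i * Real.exp (t i) ^ 2 ≤ (L / 2) * 4 :=
        mul_le_mul_of_nonneg_left hES (by positivity)
      have h2 : (1 / (2 * L)) * ∑ i ∈ S, p i ≤ (1 / (2 * L)) * (3 / 2 * (L * L)) := by
        rw [hL2] at hS2
        exact mul_le_mul_of_nonneg_left hS2 (by positivity)
      have h3 : (1 / (2 * L)) * (3 / 2 * (L * L)) = 3 / 4 * L := by
        field_simp
        norm_num
      linarith
    have hexp : Real.exp (α * (δ * Real.log 2)) * L ≤ 1 / 8 := by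
      rw [hL, ← Real.exp_add]
      have h1 : α * (δ * Real.log 2) ≤ δ / 50000 := by
        calc α * (δ * Real.log 2) ≤ 1 / 50000 * (δ * 1) := by
              apply mul_le_mul hα1 _ (by positivity) (by norm_num)
              exact mul_le_mul_of_nonneg_left hlog2 hδ0.le
          _ = δ / 50000 := by ring
      have h2 : α * (δ * Real.log 2) + -(δ / 256) ≤ -3 := by linarith
      have h3 : Real.exp (α * (δ * Real.log 2) + -(δ / 256)) ≤ Real.exp (-3) :=
        Real.exp_le_exp.2 h2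
      have h4 : Real.exp (-3 : ℝ) ≤ 1 / 8 := by
        rw [Real.exp_neg, inv_eq_one_div]
        apply one_div_le_one_div_of_le (by norm_num)
        have h5 : Real.exp (3 : ℝ) = Real.exp 1 ^ 3 := by
          rw [← Real.exp_nat_mul]
          norm_num
        have h6 : (2 : ℝ) ≤ Real.exp 1 := by
          have := Real.add_one_le_exp (1 : ℝ)
          linarith
        rw [h5]
        calc (8 : ℝ) = 2 ^ 3 := by norm_num
          _ ≤ Real.exp 1 ^ 3 := pow_le_pow_left₀ (by norm_num) h6 3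
      linarith
    calc _ ≤ Real.exp (α * (δ * Real.log 2)) * (11 / 4 * L) :=
          mul_le_mul_of_nonneg_left hsum (Real.exp_pos _).le
      _ = 11 / 4 * (Real.exp (α * (δ * Real.log 2)) * L) := by ring
      _ ≤ 11 / 4 * (1 / 8) := by linarith
      _ ≤ 45 / 100 := by norm_num

theorem exp_ps_le {n δ a Y α : ℝ} (hn : 0 < n) (hδ : 0 < δ) (ha : 0 < a) (hα : 0 < α)
    (hY : δ - a = Y) :
    Real.exp (-(α * ps (n / 2) a)) ≤ Real.exp (-(α * ps n δ)) *
      (Real.exp (α * (δ * Real.log 2)) *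
        Real.exp (α * (max Y 0 * Real.log (1 + n / δ)))) := by
  have h1 := ps_one (N := n / 2) (by linarith) ha hδ
  rw [show 2 * (n / 2) = n by ring, hY] at h1
  rw [← Real.exp_add, ← Real.exp_add]
  apply Real.exp_le_exp.2
  have h2 := mul_le_mul_of_nonneg_left h1 hα.le
  linarith

/-- [RF3] part (b), one of the two symmetric cases -/
theorem stepF_b {n δ : ℝ} {m : ℕ} {p a b : Fin m → ℝ} (h : SplitData n δ p a b)
    (hn : 10 ^ 10 ≤ n) (hδ : 3 / 2 ≤ δ) (hx : δ / n < Real.exp (-30)) {α : ℝ} (hα : 0 < α)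
    (hα1 : α ≤ 1 / 50000) :
    ∑ i ∈ Finset.univ.filter (fun i => b i = 0 ∧ a i ≠ 0), p i *
      ((1 / 100) * Real.exp (-(α * ps (n / 2) (a i)))) ≤
      (45 / 100) * ((1 / 100) * Real.exp (-(α * ps n δ))) := by
  have hn0 : 0 < n := by linarith
  have hδ0 : 0 < δ := by linarith
  have hδn : δ ≤ n := by
    have h1 : Real.exp (-30 : ℝ) ≤ 1 := Real.exp_le_one_iff.2 (by norm_num)
    have h2 := (div_lt_iff₀ hn0).1 (lt_of_lt_of_le hx h1)
    linarith
  have hkey := key_b h hn0 hδ hx hα hα1 (Finset.univ.filter (fun i => b i = 0))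
    (fun hd => by
      obtain ⟨k, h1, h2, h3⟩ := exists_k hn hδ hd
      exact (h.pb_le hn0 hδ0 k h1 h2).trans h3)
    (h.pb_le_exp hn0 hδ0 hδn)
  have hE : 0 < Real.exp (-(α * ps n δ)) := Real.exp_pos _
  have h1 : ∀ i ∈ Finset.univ.filter (fun i => b i = 0 ∧ a i ≠ 0), p i *
      ((1 / 100) * Real.exp (-(α * ps (n / 2) (a i)))) ≤
      ((1 / 100) * Real.exp (-(α * ps n δ))) * (Real.exp (α * (δ * Real.log 2)) *
        (p i * Real.exp (α * (max (δ - a i - b i) 0 * Real.log (1 + n / δ))))) := by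
    intro i hi
    obtain ⟨hb, ha⟩ := (Finset.mem_filter.1 hi).2
    have ha0 : 0 < a i := lt_of_le_of_ne (h.a_nonneg i) (Ne.symm ha)
    have h2 := exp_ps_le (Y := δ - a i - b i) hn0 hδ0 ha0 hα (by rw [hb]; ring)
    calc p i * ((1 / 100) * Real.exp (-(α * ps (n / 2) (a i))))
        ≤ p i * ((1 / 100) * (Real.exp (-(α * ps n δ)) *
          (Real.exp (α * (δ * Real.log 2)) *
            Real.exp (α * (max (δ - a i - b i) 0 * Real.log (1 + n / δ)))))) :=
          mul_le_mul_of_nonneg_left (mul_le_mul_of_nonneg_left h2 (by norm_num)) (h.p_nonneg i)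
      _ = _ := by ring
  refine (Finset.sum_le_sum h1).trans ?_
  rw [← Finset.mul_sum, ← Finset.mul_sum]
  have h3 : ∑ i ∈ Finset.univ.filter (fun i => b i = 0 ∧ a i ≠ 0),
      (p i * Real.exp (α * (max (δ - a i - b i) 0 * Real.log (1 + n / δ)))) ≤
      ∑ i ∈ Finset.univ.filter (fun i => b i = 0),
      (p i * Real.exp (α * (max (δ - a i - b i) 0 * Real.log (1 + n / δ)))) := by
    refine Finset.sum_le_sum_of_subset_of_nonneg ?_
      fun i _ _ => mul_nonneg (h.p_nonneg i) (Real.exp_pos _).le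
    intro i hi
    exact Finset.mem_filter.2 ⟨Finset.mem_univ i, (Finset.mem_filter.1 hi).2.1⟩
  have h4 := mul_le_mul_of_nonneg_left h3 (Real.exp_pos (α * (δ * Real.log 2))).le
  have h5 := mul_le_mul_of_nonneg_left (h4.trans hkey)
    (by positivity : 0 ≤ (1 / 100 : ℝ) * Real.exp (-(α * ps n δ)))
  linarith

/-- [RF3] part (b), the other case -/
theorem stepF_b' {n δ : ℝ} {m : ℕ} {p a b : Fin m → ℝ} (h : SplitData n δ p a b)
    (hn : 10 ^ 10 ≤ n) (hδ : 3 / 2 ≤ δ) (hx : δ / n < Real.exp (-30)) {α : ℝ} (hα : 0 < α)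
    (hα1 : α ≤ 1 / 50000) :
    ∑ i ∈ Finset.univ.filter (fun i => a i = 0 ∧ b i ≠ 0), p i *
      ((1 / 100) * Real.exp (-(α * ps (n / 2) (b i)))) ≤
      (45 / 100) * ((1 / 100) * Real.exp (-(α * ps n δ))) := by
  have hn0 : 0 < n := by linarith
  have hδ0 : 0 < δ := by linarith
  have hδn : δ ≤ n := by
    have h1 : Real.exp (-30 : ℝ) ≤ 1 := Real.exp_le_one_iff.2 (by norm_num)
    have h2 := (div_lt_iff₀ hn0).1 (lt_of_lt_of_le hx h1)
    linarith
  have hkey := key_b h hn0 hδ hx hα hα1 (Finset.univ.filter (fun i => a i = 0))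
    (fun hd => by
      obtain ⟨k, h1, h2, h3⟩ := exists_k hn hδ hd
      exact (h.pa_le hn0 hδ0 k h1 h2).trans h3)
    (h.pa_le_exp hn0 hδ0 hδn)
  have hE : 0 < Real.exp (-(α * ps n δ)) := Real.exp_pos _
  have h1 : ∀ i ∈ Finset.univ.filter (fun i => a i = 0 ∧ b i ≠ 0), p i *
      ((1 / 100) * Real.exp (-(α * ps (n / 2) (b i)))) ≤
      ((1 / 100) * Real.exp (-(α * ps n δ))) * (Real.exp (α * (δ * Real.log 2)) *
        (p i * Real.exp (α * (max (δ - a i - b i) 0 * Real.log (1 + n / δ))))) := by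
    intro i hi
    obtain ⟨ha, hb⟩ := (Finset.mem_filter.1 hi).2
    have hb0 : 0 < b i := lt_of_le_of_ne (h.b_nonneg i) (Ne.symm hb)
    have h2 := exp_ps_le (Y := δ - a i - b i) hn0 hδ0 hb0 hα (by rw [ha]; ring)
    calc p i * ((1 / 100) * Real.exp (-(α * ps (n / 2) (b i))))
        ≤ p i * ((1 / 100) * (Real.exp (-(α * ps n δ)) *
          (Real.exp (α * (δ * Real.log 2)) *
            Real.exp (α * (max (δ - a i - b i) 0 * Real.log (1 + n / δ)))))) :=
          mul_le_mul_of_nonneg_left (mul_le_mul_of_nonneg_left h2 (by norm_num)) (h.p_nonneg i)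
      _ = _ := by ring
  refine (Finset.sum_le_sum h1).trans ?_
  rw [← Finset.mul_sum, ← Finset.mul_sum]
  have h3 : ∑ i ∈ Finset.univ.filter (fun i => a i = 0 ∧ b i ≠ 0),
      (p i * Real.exp (α * (max (δ - a i - b i) 0 * Real.log (1 + n / δ)))) ≤
      ∑ i ∈ Finset.univ.filter (fun i => a i = 0),
      (p i * Real.exp (α * (max (δ - a i - b i) 0 * Real.log (1 + n / δ)))) := by
    refine Finset.sum_le_sum_of_subset_of_nonneg ?_
      fun i _ _ => mul_nonneg (h.p_nonneg i) (Real.exp_pos _).le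
    intro i hi
    exact Finset.mem_filter.2 ⟨Finset.mem_univ i, (Finset.mem_filter.1 hi).2.1⟩
  have h4 := mul_le_mul_of_nonneg_left h3 (Real.exp_pos (α * (δ * Real.log 2))).le
  have h5 := mul_le_mul_of_nonneg_left (h4.trans hkey)
    (by positivity : 0 ≤ (1 / 100 : ℝ) * Real.exp (-(α * ps n δ)))
  linarith

end Vale.Agent.P162T
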