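import Vale.Agent.P162T.SplitCons
import Vale.Agent.P162T.RateA

/-!
# P162 [RG] The rate on `δ ≥ 3/2` tends to 0 as `d → ∞`

`qs r δ = 1` for `δ ≤ 0`, `0` for `0 < δ < 3/2`, `r` for `δ ≥ 3/2`.
By `rateA` + `rate_kill`: `Rate d (qs (exp (-3/20)))`, `exp(-0.15) ≤ 0.87`.
Step: for every `η > 0` there is `d_η` such that for `d ≥ d_η` and `0 ≤ r ≤ 0.87`: `Rate d (qs r)` implies
`Rate (d+1) (qs (η + 0.987 r))`.  Indeed let `δ ≥ 3/2`, `n = 2^{d+1}`.
 * `δ ≥ D₀ := 10 log(1/η)`: `rateA`.  (So use `rate_of_split` only for `δ ≤ D₀`; combine the two rates: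
   if `Rate d q₁` and `Rate d q₂` then `Rate d (min q₁ q₂)`.)
 * `3/2 ≤ δ ≤ D₀`: `∑ p q(a) q(b) ≤ P(a=b=0) + r P(exactly one is 0) + r² P(none)`, (terms with
   `0 < a < 3/2` or `0 < b < 3/2` vanish).  `P(a=b=0) ≤ η` for `n` large by `p00_le`
   (`(4δ/n)^{δ/4} e ≤ e (4D₀/n)^{3/8}` for `4 D₀ ≤ n`), and `P₁ = P(exactly one zero) ≤ P(a=0)+P(b=0) ≤ 0.9` for `n`
   large by `pa_le`, `pb_le` with `k = ⌈D₀⌉₊` (`2(1 - δ²/(δ²+δ+o(1))) → 2/(1+δ) ≤ 0.8`), and
   `r P₁ + r²(1-P₁) ≤ r(0.9 + 0.1·0.87) = 0.987 r`.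
Iterate: start from `r = 0.87` at `d_η`; after `J` steps `r ≤ 0.987^J + η/0.013`.  Take `η = 0.0065 ε`.
(`Rate` is monotone in `q`.)
-/

open Equiv Finset

namespace Vale.Agent.P162T

/-- model rate function -/
noncomputable def qs (r : ℝ) (δ : ℝ) : ℝ := if δ ≤ 0 then 1 else if δ < 3 / 2 then 0 else r

/-- [RG] -/
theorem Rate.mono {d : ℕ} {q q' : ℝ → ℝ} (h : Rate d q) (hle : ∀ δ, 0 ≤ δ → q δ ≤ q' δ) :
    Rate d q' := by
  intro V _ _ _ ρ v δ hv hv0
  have hδ : 0 ≤ δ := Dop_eig_nonneg ρ hv0 hv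
  exact (h V ρ v δ hv hv0).trans (mul_le_mul_of_nonneg_right (hle δ hδ) (sq_nonneg _))

/-- [RG] -/
theorem Rate.min {d : ℕ} {q q' : ℝ → ℝ} (h : Rate d q) (h' : Rate d q') :
    Rate d (fun δ => Min.min (q δ) (q' δ)) := by
  intro V _ _ _ ρ v δ hv hv0
  have h1 := h V ρ v δ hv hv0
  have h2 := h' V ρ v δ hv hv0
  change _ ≤ Min.min (q δ) (q' δ) * ‖v‖ ^ 2
  rcases min_choice (q δ) (q' δ) with e | e
  · rw [e]; exact h1
  · rw [e]; exact h2

theorem qs_mono {r r' : ℝ} (h : r ≤ r') (δ : ℝ) : qs r δ ≤ qs r' δ := by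
  unfold qs
  split_ifs
  · exact le_rfl
  · exact le_rfl
  · exact h

theorem qs_nonneg {r : ℝ} (h : 0 ≤ r) (δ : ℝ) : 0 ≤ qs r δ := by
  unfold qs
  split_ifs
  · norm_num
  · exact le_rfl
  · exact h

theorem qs_le_one {r : ℝ} (h : r ≤ 1) (δ : ℝ) : qs r δ ≤ 1 := by
  unfold qs
  split_ifs
  · exact le_rfl
  · norm_num
  · exact h

theorem qs_le_of_pos {r : ℝ} (h : 0 ≤ r) {δ : ℝ} (hδ : 0 < δ) : qs r δ ≤ r := by
  unfold qs
  split_ifs with h1 h2
  · exact absurd hδ (not_lt.2 h1)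
  · exact h
  · exact le_rfl

theorem exp_neg_le_087 {δ : ℝ} (hδ : 3 / 2 ≤ δ) : Real.exp (-(δ / 10)) ≤ 87 / 100 := by
  have h1 : Real.exp (-(δ / 10)) ≤ Real.exp (-(3 / 20)) := Real.exp_le_exp.2 (by linarith)
  refine h1.trans ?_
  have h2 := Real.quadratic_le_exp_of_nonneg (show (0 : ℝ) ≤ 3 / 20 by norm_num)
  rw [Real.exp_neg, inv_le_comm₀ (Real.exp_pos _) (by norm_num)]
  refine le_trans ?_ h2
  norm_num

theorem rate_base (d : ℕ) : Rate d (qs (87 / 100)) := by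
  refine (rate_kill (rateA d)).mono ?_
  intro δ hδ
  unfold qs
  by_cases h0 : δ ≤ 0
  · have : ¬ (0 < δ ∧ δ < 3 / 2) := fun h => absurd h.1 (not_lt.2 h0)
    rw [if_neg this, if_pos h0]
    have : δ = 0 := le_antisymm h0 hδ
    subst this
    simp
  · rw [if_neg h0]
    push Not at h0
    by_cases h1 : δ < 3 / 2
    · rw [if_pos ⟨h0, h1⟩, if_pos h1]
    · rw [if_neg (fun h => h1 h.2), if_neg h1]
      push Not at h1
      exact exp_neg_le_087 h1

/-- the finite probability estimate of one step -/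
theorem stepG_sum {n δ r η : ℝ} {m : ℕ} {p a b : Fin m → ℝ} (h : SplitData n δ p a b)
    (hr : 0 ≤ r) (hr1 : r ≤ 87 / 100)
    (h00 : ∑ i ∈ Finset.univ.filter (fun i => a i = 0 ∧ b i = 0), p i ≤ η)
    (ha : ∑ i ∈ Finset.univ.filter (fun i => a i = 0), p i ≤ 45 / 100)
    (hb : ∑ i ∈ Finset.univ.filter (fun i => b i = 0), p i ≤ 45 / 100) :
    ∑ i, p i * (qs r (a i) * qs r (b i)) ≤ η + 987 / 1000 * r := by
  have hterm : ∀ i, p i * (qs r (a i) * qs r (b i)) ≤
      (if a i = 0 ∧ b i = 0 then p i else 0) + r * (1 - r) * (if a i = 0 then p i else 0)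
        + r * (1 - r) * (if b i = 0 then p i else 0) + r ^ 2 * p i := by
    intro i
    have hp := h.p_nonneg i
    have hq1 : ∀ x, qs r x ≤ 1 := fun x => qs_le_one (by linarith) x
    have hq0 : ∀ x, 0 ≤ qs r x := fun x => qs_nonneg hr x
    have hrr : 0 ≤ r * (1 - r) := by nlinarith
    by_cases ha0 : a i = 0
    · by_cases hb0 : b i = 0
      · rw [if_pos ⟨ha0, hb0⟩, if_pos ha0, if_pos hb0]
        have h1 : qs r (a i) * qs r (b i) ≤ 1 := by
          nlinarith [hq1 (a i), hq1 (b i), hq0 (a i), hq0 (b i)]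
        nlinarith [mul_le_mul_of_nonneg_left h1 hp, mul_nonneg hrr hp,
          mul_nonneg (sq_nonneg r) hp]
      · rw [if_neg (fun h => hb0 h.2), if_pos ha0, if_neg hb0]
        have hbp : 0 < b i := lt_of_le_of_ne (h.b_nonneg i) (Ne.symm hb0)
        have h1 : qs r (a i) * qs r (b i) ≤ 1 * r :=
          mul_le_mul (hq1 _) (qs_le_of_pos hr hbp) (hq0 _) (by norm_num)
        nlinarith [mul_le_mul_of_nonneg_left h1 hp]
    · have hap : 0 < a i := lt_of_le_of_ne (h.a_nonneg i) (Ne.symm ha0)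
      by_cases hb0 : b i = 0
      · rw [if_neg (fun h => ha0 h.1), if_neg ha0, if_pos hb0]
        have h1 : qs r (a i) * qs r (b i) ≤ r * 1 :=
          mul_le_mul (qs_le_of_pos hr hap) (hq1 _) (hq0 _) hr
        nlinarith [mul_le_mul_of_nonneg_left h1 hp]
      · rw [if_neg (fun h => ha0 h.1), if_neg ha0, if_neg hb0]
        have hbp : 0 < b i := lt_of_le_of_ne (h.b_nonneg i) (Ne.symm hb0)
        have h1 : qs r (a i) * qs r (b i) ≤ r * r :=
          mul_le_mul (qs_le_of_pos hr hap) (qs_le_of_pos hr hbp) (hq0 _) hr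
        nlinarith [mul_le_mul_of_nonneg_left h1 hp]
  refine (Finset.sum_le_sum fun i _ => hterm i).trans ?_
  rw [Finset.sum_add_distrib, Finset.sum_add_distrib, Finset.sum_add_distrib,
    ← Finset.mul_sum, ← Finset.mul_sum, ← Finset.mul_sum, h.p_sum,
    ← Finset.sum_filter, ← Finset.sum_filter, ← Finset.sum_filter]
  have hrr : 0 ≤ r * (1 - r) := by nlinarith
  have h1 := mul_le_mul_of_nonneg_left ha hrr
  have h2 := mul_le_mul_of_nonneg_left hb hrr
  nlinarith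

theorem pz_le {δ : ℝ} (hδ : 3 / 2 ≤ δ) {e : ℝ} (he0 : 0 ≤ e) (he : e ≤ 3 / 10) :
    1 - δ ^ 2 / (δ ^ 2 + δ + e) ≤ 45 / 100 := by
  have hpos : 0 < δ ^ 2 + δ + e := by positivity
  rw [sub_le_iff_le_add, ← sub_le_iff_le_add', le_div_iff₀ hpos]
  nlinarith

/-- the step -/
theorem stepG (η : ℝ) (hη : 0 < η) : ∃ d0 : ℕ, ∀ d, d0 ≤ d → ∀ r : ℝ, 0 ≤ r → r ≤ 87 / 100 →
    Rate d (qs r) → Rate (d + 1) (qs (η + 987 / 1000 * r)) := by
  set D0 : ℝ := 10 * |Real.log η| + 2 with hD0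
  have hD0pos : 2 ≤ D0 := by have := abs_nonneg (Real.log η); linarith
  set K : ℕ := ⌈D0⌉₊ with hK
  have hKD : D0 ≤ K := Nat.le_ceil _
  -- the conditions on n
  have hnt : Filter.Tendsto (fun d : ℕ => (2 : ℝ) ^ (d + 1)) Filter.atTop Filter.atTop :=
    (tendsto_pow_atTop_atTop_of_one_lt (by norm_num)).comp (Filter.tendsto_add_atTop_nat 1)
  have c1 : ∀ᶠ d : ℕ in Filter.atTop, 4 * D0 ≤ (2 : ℝ) ^ (d + 1) := hnt.eventually_ge_atTop _
  have c2 : ∀ᶠ d : ℕ in Filter.atTop, (K + 1 : ℝ) * (K + 2) + 1 ≤ (2 : ℝ) ^ (d + 1) :=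
    hnt.eventually_ge_atTop _
  have c3 : ∀ᶠ d : ℕ in Filter.atTop, (10 / 3) * (8 * D0 + 9 * (K : ℝ) ^ 2) ≤ (2 : ℝ) ^ (d + 1) :=
    hnt.eventually_ge_atTop _
  have c4 : ∀ᶠ d : ℕ in Filter.atTop,
      Real.exp 1 * (4 * D0 / (2 : ℝ) ^ (d + 1)) ^ (3 / 8 : ℝ) ≤ η := by
    have t1 : Filter.Tendsto (fun d : ℕ => 4 * D0 / (2 : ℝ) ^ (d + 1)) Filter.atTop (nhds 0) :=
      Filter.Tendsto.const_div_atTop hnt _
    have t2 : Filter.Tendsto (fun d : ℕ => Real.exp 1 * (4 * D0 / (2 : ℝ) ^ (d + 1)) ^ (3 / 8 : ℝ))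
        Filter.atTop (nhds (Real.exp 1 * (0 : ℝ) ^ (3 / 8 : ℝ))) :=
      (t1.rpow_const (Or.inr (by norm_num))).const_mul _
    rw [Real.zero_rpow (by norm_num), mul_zero] at t2
    exact (t2.eventually_lt_const hη).mono fun d hd => hd.le
  obtain ⟨d0, hd0⟩ := Filter.eventually_atTop.1 (c1.and (c2.and (c3.and c4)))
  refine ⟨d0, fun d hd r hr hr1 hR => ?_⟩
  obtain ⟨e1, e2, e3, e4⟩ := hd0 d hd
  set n : ℝ := (2 : ℝ) ^ (d + 1) with hn
  have hnpos : 0 < n := by positivity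
  have hη' : 0 ≤ η + 987 / 1000 * r := by positivity
  have main : Rate (d + 1) (fun δ => if 3 / 2 ≤ δ ∧ δ ≤ D0 then η + 987 / 1000 * r else 1) := by
    refine rate_of_split hR (qs_nonneg hr) ?_ ?_
    · intro x
      split_ifs
      · exact hη'
      · norm_num
    · intro δ m p a b hδ0 hδn hS
      rw [← hn] at hδn hS
      split_ifs with hc
      · obtain ⟨hδ, hδD⟩ := hc
        have hδp : 0 < δ := by linarith
        have hkk : δ < (K + 1 : ℝ) * (n - K) / n := by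
          rw [lt_div_iff₀ hnpos]
          nlinarith
        have hk2 : 2 * ((K : ℝ) + 1) ≤ n + 1 := by nlinarith
        have he : (8 * δ + 9 * (K : ℝ) ^ 2) / n ≤ 3 / 10 := by
          rw [div_le_iff₀ hnpos]; nlinarith
        have he0 : 0 ≤ (8 * δ + 9 * (K : ℝ) ^ 2) / n := by positivity
        refine stepG_sum hS hr hr1 ?_ ((hS.pa_le hnpos hδp K hk2 hkk).trans (pz_le hδ he0 he))
          ((hS.pb_le hnpos hδp K hk2 hkk).trans (pz_le hδ he0 he))
        refine (hS.p00_le hnpos hδp (by linarith)).trans ?_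
        refine le_trans ?_ e4
        have hx1 : δ / n ≤ 1 := by rw [div_le_one hnpos]; linarith
        have hx0 : 0 ≤ δ / n := by positivity
        have s1 : Real.exp (Real.sqrt (δ / n)) ≤ Real.exp 1 := by
          apply Real.exp_le_exp.2
          exact Real.sqrt_le_one.2 hx1
        have y1 : 4 * (δ / n) ≤ 1 := by
          rw [← mul_div_assoc, div_le_one hnpos]; linarith
        have s2 : (4 * (δ / n)) ^ (δ / 4) ≤ (4 * (δ / n)) ^ (3 / 8 : ℝ) :=
          Real.rpow_le_rpow_of_exponent_ge (by positivity) y1 (by linarith)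
        have s3 : (4 * (δ / n)) ^ (3 / 8 : ℝ) ≤ (4 * D0 / n) ^ (3 / 8 : ℝ) := by
          apply Real.rpow_le_rpow (by positivity) _ (by norm_num)
          rw [← mul_div_assoc]
          gcongr
        exact mul_le_mul s1 (s2.trans s3) (by positivity) (Real.exp_pos _).le
      · have : ∀ i ∈ (Finset.univ : Finset (Fin m)), p i * (qs r (a i) * qs r (b i)) ≤ p i := by
          intro i _
          have hp := hS.p_nonneg i
          have h1 : qs r (a i) * qs r (b i) ≤ 1 := by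
            have := mul_le_mul (qs_le_one (show r ≤ 1 by linarith) (a i))
              (qs_le_one (show r ≤ 1 by linarith) (b i)) (qs_nonneg hr _) (by norm_num : (0:ℝ) ≤ 1)
            simpa using this
          nlinarith [mul_le_mul_of_nonneg_left h1 hp]
        refine (Finset.sum_le_sum this).trans ?_
        rw [hS.p_sum]
  have hAK := rate_kill (rateA (d + 1))
  refine (main.min hAK).mono ?_
  intro δ hδ
  unfold qs
  by_cases h0 : δ ≤ 0
  · rw [if_pos h0]
    have h1 : ¬ (3 / 2 ≤ δ ∧ δ ≤ D0) := fun h => by linarith [h.1]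
    refine (min_le_left _ _).trans ?_
    rw [if_neg h1]
  · rw [if_neg h0]
    push Not at h0
    by_cases h1 : δ < 3 / 2
    · rw [if_pos h1]
      refine (min_le_right _ _).trans ?_
      rw [if_pos ⟨h0, h1⟩]
    · rw [if_neg h1]
      push Not at h1
      by_cases h2 : δ ≤ D0
      · refine (min_le_left _ _).trans ?_
        rw [if_pos ⟨h1, h2⟩]
      · refine (min_le_right _ _).trans ?_
        rw [if_neg (fun h => by linarith [h.2])]
        push Not at h2
        have h3 : Real.exp (-(δ / 10)) ≤ Real.exp (-|Real.log η|) :=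
          Real.exp_le_exp.2 (by rw [hD0] at h2; linarith)
        have h4 : Real.exp (-|Real.log η|) ≤ η := by
          calc Real.exp (-|Real.log η|) ≤ Real.exp (Real.log η) :=
                Real.exp_le_exp.2 (neg_abs_le _)
            _ = η := Real.exp_log hη
        have h5 : 0 ≤ 987 / 1000 * r := by positivity
        linarith

/-- [RG] -/
theorem rateG (ε : ℝ) (hε : 0 < ε) : ∃ d1 : ℕ, ∀ d, d1 ≤ d → Rate d (qs ε) := by
  obtain ⟨d0, hd0⟩ := stepG (13 / 2000 * ε) (by positivity)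
  have claim : ∀ j : ℕ, Rate (d0 + j) (qs (ε / 2 + 87 / 100 * (987 / 1000) ^ j)) := by
    intro j
    induction j with
    | zero =>
      refine (rate_base (d0 + 0)).mono fun δ _ => qs_mono ?_ δ
      simp only [pow_zero, mul_one]
      linarith
    | succ j ih =>
      set rj : ℝ := ε / 2 + 87 / 100 * (987 / 1000) ^ j with hrj
      have hrj0 : 0 ≤ rj := by positivity
      have hmin : Rate (d0 + j) (qs (Min.min (87 / 100) rj)) := by
        rcases le_total (87 / 100) rj with h | h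
        · rw [min_eq_left h]; exact rate_base _
        · rw [min_eq_right h]; exact ih
      have h1 := hd0 (d0 + j) (Nat.le_add_right _ _) (Min.min (87 / 100) rj)
        (le_min (by norm_num) hrj0) (min_le_left _ _) hmin
      have e1 : d0 + (j + 1) = d0 + j + 1 := by ring
      rw [e1]
      refine h1.mono fun δ _ => qs_mono ?_ δ
      have h2 : Min.min (87 / 100) rj ≤ rj := min_le_right _ _
      rw [pow_succ]
      rw [hrj] at h2 ⊢
      nlinarith
  obtain ⟨J, hJ⟩ := exists_pow_lt_of_lt_one (show 0 < ε / 2 by positivity)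
    (show (987 / 1000 : ℝ) < 1 by norm_num)
  refine ⟨d0 + J, fun d hd => ?_⟩
  obtain ⟨i, rfl⟩ := Nat.exists_eq_add_of_le hd
  have h1 := claim (J + i)
  rw [← add_assoc] at h1
  refine h1.mono fun δ _ => qs_mono ?_ δ
  have h2 : ((987 / 1000 : ℝ)) ^ (J + i) ≤ (987 / 1000) ^ J :=
    pow_le_pow_of_le_one (by norm_num) (by norm_num) (Nat.le_add_right _ _)
  have h3 : 0 ≤ (987 / 1000 : ℝ) ^ (J + i) := by positivity
  nlinarith

end Vale.Agent.P162T
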