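import Vale.Agent.P162T.GroupFun

/-!
# P162 [YNG] An 8-fold Young inequality

For `b ≥ 0` on a finite group `G`: `|G| · b^{*8}(1) ≤ (∑_g b(g)^{8/7} |G|^{1/7})^7`.
Proof: `b^{*8}(1) = ∑_P ∏ b(g_i)`, `P = {(g_1..g_8) : g_1 ⋯ g_8 = 1}`, AM-GM for each term, and
`∑_P ∏_{l≠i} c(g_l) = (∑_g c(g))^7`, `c = b^{8/7}`, for every `i`.
-/

open Equiv Finset

set_option linter.unusedSectionVars false

namespace Vale.Agent.P162T

variable {G : Type} [Group G] [Fintype G] [DecidableEq G]

/-- iterated convolution of `n` functions -/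
noncomputable def multi : (n : ℕ) → (Fin n → G → ℝ) → G → ℝ
  | 0, _ => dirac
  | n + 1, f => conv (f 0) (multi n (fun i => f i.succ))

theorem multi_const (b : G → ℝ) (n : ℕ) : multi n (fun _ => b) = cpow b n := by
  induction n with
  | zero => rfl
  | succ n ih =>
    show conv b (multi n (fun _ => b)) = conv b (cpow b n)
    rw [ih]

theorem multi_eq (n : ℕ) (f : Fin n → G → ℝ) (g : G) :
    multi n f g = ∑ h : Fin n → G, (∏ i, f i (h i)) * dirac ((List.ofFn h).prod⁻¹ * g) := by
  induction n generalizing g with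
  | zero => simp [multi]
  | succ n ih =>
    rw [← Fintype.sum_equiv (Fin.consEquiv (fun _ : Fin (n + 1) => G))
      (fun p => (∏ i, f i ((Fin.cons p.1 p.2 : Fin (n + 1) → G) i)) *
        dirac ((List.ofFn (Fin.cons p.1 p.2 : Fin (n + 1) → G)).prod⁻¹ * g)) _ (fun p => rfl)]
    rw [Fintype.sum_prod_type]
    show conv (f 0) (multi n (fun i => f i.succ)) g = _
    unfold conv
    apply Finset.sum_congr rfl
    intro x _
    rw [ih, Finset.mul_sum]
    apply Finset.sum_congr rfl
    intro h _
    rw [Fin.prod_univ_succ]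
    simp only [Fin.cons_zero, Fin.cons_succ, List.ofFn_succ, List.prod_cons, mul_inv_rev, mul_assoc]

theorem mass_multi (n : ℕ) (f : Fin n → G → ℝ) : mass (multi n f) = ∏ i, mass (f i) := by
  induction n with
  | zero =>
    show mass (dirac : G → ℝ) = _
    rw [mass_dirac]
    simp
  | succ n ih =>
    show mass (conv (f 0) (multi n (fun i => f i.succ))) = _
    rw [mass_conv, ih, Fin.prod_univ_succ]

theorem multi_one (n : ℕ) (f : Fin n → G → ℝ) (i : Fin n) (hi : f i = fun _ => 1) (g : G) :
    multi n f g = ∏ l ∈ Finset.univ.erase i, mass (f l) := by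
  induction n generalizing g with
  | zero => exact i.elim0
  | succ n ih =>
    show conv (f 0) (multi n (fun i => f i.succ)) g = _
    rcases Fin.eq_zero_or_eq_succ i with h0 | ⟨j, hj⟩
    · subst h0
      have h1 : conv (f 0) (multi n (fun i => f i.succ)) g = mass (multi n (fun i => f i.succ)) := by
        rw [hi]
        unfold conv mass
        simp only [one_mul]
        exact Fintype.sum_equiv ((Equiv.inv G).trans (Equiv.mulRight g)) _ _ (fun x => rfl)
      rw [h1, mass_multi]
      have h2 : (Finset.univ.erase (0 : Fin (n + 1))) = Finset.univ.image Fin.succ := by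
        ext x
        simp only [Finset.mem_erase, Finset.mem_univ, and_true, Finset.mem_image, true_and]
        constructor
        · intro hx
          exact ⟨x.pred hx, Fin.succ_pred x hx⟩
        · rintro ⟨y, rfl⟩
          exact Fin.succ_ne_zero y
      rw [h2, Finset.prod_image (fun a _ b _ h => Fin.succ_injective n h)]
    · subst hj
      have h1 : ∀ g, multi n (fun i => f i.succ) g = ∏ l ∈ Finset.univ.erase j, mass (f l.succ) :=
        ih (fun i => f i.succ) j hi
      unfold conv
      simp only [h1]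
      rw [← Finset.sum_mul]
      have h2 : (Finset.univ.erase (Fin.succ j)) =
          insert (0 : Fin (n + 1)) ((Finset.univ.erase j).image Fin.succ) := by
        ext x
        simp only [Finset.mem_erase, Finset.mem_univ, and_true, Finset.mem_insert,
          Finset.mem_image]
        constructor
        · intro hx
          rcases Fin.eq_zero_or_eq_succ x with h | ⟨y, hy⟩
          · exact Or.inl h
          · right
            refine ⟨y, ?_, hy.symm⟩
            intro hyj
            apply hx
            rw [hy, hyj]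
        · rintro (h | ⟨y, hy, rfl⟩)
          · rw [h]; exact (Fin.succ_ne_zero j).symm
          · intro h
            exact hy (Fin.succ_injective n h)
      have h3 : (0 : Fin (n + 1)) ∉ (Finset.univ.erase j).image Fin.succ := by
        simp only [Finset.mem_image, not_exists, not_and]
        intro x _ h
        exact Fin.succ_ne_zero x h
      rw [h2, Finset.prod_insert h3, Finset.prod_image (fun a _ b _ h => Fin.succ_injective n h)]
      rfl

/-- AM-GM for one term -/
theorem amgm8 (y : Fin 8 → ℝ) (hy : ∀ i, 0 ≤ y i) :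
    ∏ i, y i ≤ ∑ i, (1 / 8 : ℝ) * ∏ l ∈ Finset.univ.erase i, y l ^ ((1 : ℝ) + 1 / 7) := by
  have h := Real.geom_mean_le_arith_mean_weighted Finset.univ (fun _ : Fin 8 => (1 / 8 : ℝ))
    (fun i => ∏ l ∈ Finset.univ.erase i, y l ^ ((1 : ℝ) + 1 / 7)) (fun i _ => by norm_num)
    (by simp) (fun i _ => Finset.prod_nonneg (fun l _ => Real.rpow_nonneg (hy l) _))
  refine le_trans (le_of_eq ?_) h
  have h1 : ∀ i : Fin 8, (∏ l ∈ Finset.univ.erase i, y l ^ ((1 : ℝ) + 1 / 7)) ^ (1 / 8 : ℝ) =
      ∏ l ∈ Finset.univ.erase i, y l ^ (1 / 7 : ℝ) := by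
    intro i
    rw [← Real.finsetProd_rpow _ _ (fun l _ => Real.rpow_nonneg (hy l) _)]
    apply Finset.prod_congr rfl
    intro l _
    rw [← Real.rpow_mul (hy l)]
    norm_num
  simp only [h1]
  rw [Finset.prod_comm' (t' := Finset.univ) (s' := fun l => Finset.univ.erase l)]
  · apply Finset.prod_congr rfl
    intro l _
    rw [Finset.prod_const, Finset.card_erase_of_mem (Finset.mem_univ l), Finset.card_univ,
      Fintype.card_fin, ← Real.rpow_natCast, ← Real.rpow_mul (hy l)]
    norm_num
  · intro x y
    simp only [Finset.mem_univ, Finset.mem_erase, and_true, true_and]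
    exact ne_comm

/-- [YNG] -/
theorem young8 {b : G → ℝ} (hb : ∀ g, 0 ≤ b g) :
    (Fintype.card G : ℝ) * cpow b 8 1 ≤
      (∑ g, b g ^ ((1 : ℝ) + 1 / 7) * (Fintype.card G : ℝ) ^ ((1 : ℝ) / 7)) ^ 7 := by
  set c : G → ℝ := fun g => b g ^ ((1 : ℝ) + 1 / 7) with hc
  have h1 : cpow b 8 1 ≤ mass c ^ 7 := by
    rw [← multi_const, multi_eq]
    have h2 : ∀ i : Fin 8, multi 8 (Function.update (fun _ => c) i (fun _ => 1)) 1 =
        mass c ^ 7 := by
      intro i
      rw [multi_one 8 _ i (Function.update_self i _ _)]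
      rw [Finset.prod_congr rfl (g := fun _ => mass c)]
      · rw [Finset.prod_const, Finset.card_erase_of_mem (Finset.mem_univ i), Finset.card_univ,
          Fintype.card_fin]
      · intro l hl
        rw [Function.update_of_ne (Finset.ne_of_mem_erase hl)]
    have h3 : mass c ^ 7 = ∑ i : Fin 8, (1 / 8 : ℝ) *
        multi 8 (Function.update (fun _ => c) i (fun _ => 1)) 1 := by
      simp only [h2]
      rw [Finset.sum_const, Finset.card_univ, Fintype.card_fin, nsmul_eq_mul]
      push_cast
      ring
    rw [h3]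
    simp only [multi_eq, Finset.mul_sum]
    rw [Finset.sum_comm]
    apply Finset.sum_le_sum
    intro h _
    have hd : (0 : ℝ) ≤ dirac ((List.ofFn h).prod⁻¹ * (1 : G)) := by
      unfold dirac
      split_ifs <;> norm_num
    have h4 := amgm8 (fun i => b (h i)) (fun i => hb _)
    have h5 : ∀ i : Fin 8, ∏ l, (Function.update (fun _ => c) i (fun _ => 1) : Fin 8 → G → ℝ) l (h l) =
        ∏ l ∈ Finset.univ.erase i, b (h l) ^ ((1 : ℝ) + 1 / 7) := by
      intro i
      rw [← Finset.mul_prod_erase Finset.univ _ (Finset.mem_univ i), Function.update_self, one_mul]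
      apply Finset.prod_congr rfl
      intro l hl
      rw [Function.update_of_ne (Finset.ne_of_mem_erase hl)]
    simp only [h5]
    calc (∏ i, b (h i)) * dirac ((List.ofFn h).prod⁻¹ * (1 : G))
        ≤ (∑ i, (1 / 8 : ℝ) * ∏ l ∈ Finset.univ.erase i, b (h l) ^ ((1 : ℝ) + 1 / 7)) *
          dirac ((List.ofFn h).prod⁻¹ * (1 : G)) := mul_le_mul_of_nonneg_right h4 hd
      _ = _ := by
          rw [Finset.sum_mul]
          apply Finset.sum_congr rfl
          intro i _
          ring
  have h6 : (∑ g, b g ^ ((1 : ℝ) + 1 / 7) * (Fintype.card G : ℝ) ^ ((1 : ℝ) / 7)) ^ 7 =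
      (Fintype.card G : ℝ) * mass c ^ 7 := by
    rw [← Finset.sum_mul, mul_pow, ← Real.rpow_natCast ((Fintype.card G : ℝ) ^ ((1 : ℝ) / 7)) 7,
      ← Real.rpow_mul (Nat.cast_nonneg _)]
    have : ((1 : ℝ) / 7 * ((7 : ℕ) : ℝ)) = 1 := by norm_num
    rw [this, Real.rpow_one, mul_comm]
    rfl
  rw [h6]
  exact mul_le_mul_of_nonneg_left h1 (Nat.cast_nonneg _)

end Vale.Agent.P162T
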