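import Vale.Agent.P162T.Dom
import Vale.Agent.P162T.Mass
import Vale.Agent.P162T.Young
import Vale.Agent.P162T.Compare

/-!
# P162 [RET] The return probability bound

`X := n! B^8(1) ≤ (∑ b^{8/7} (n!)^{1/7})^7 ≤ (mass (psi i0 (1/7) d))^7 ≤ 2^{175 n 0.93^{i0}}`  (`young8` with
`G = Perm (Cube d)`, `|G| = n!`; `psi_dom` with `s = 1/7`; `mass_psi_le`).
So for `i0 = 2^{a0} ≤ d`: `pfix (A^8) Y (n)_k ≤ 2^{8 i0 k} · n! B^8(1) ≤ 2^{8 i0 k + 175 n 0.93^{i0}}`; and if `i0 > d`: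
`pfix ≤ 1` and `(n)_k ≤ n^k ≤ 2^{i0 k}`.  So in all cases `pfix (A^8) Y (n)_k ≤ 2^{8 i0 k + 175 n 0.93^{i0}}`.
Choose `a0` minimal with `0.93^{2^{a0}} ≤ k/n` (exists).  If `a0 = 0`: exponent `≤ 8k + 175k`.  Otherwise
`0.93^{2^{a0-1}} > k/n` gives `i0 = 2^{a0} ≤ 2 log(n/k)/log(1/0.93) ≤ 28 log(n/k)`: exponent `≤ 224 k log(n/k) + 175 k`.
Hence `≤ exp(C k (1 + log(n/k)))`, `C = 224`.
-/

open Equiv Finset

namespace Vale.Agent.P162T

theorem pfix_AA_le_one (d : ℕ) (Y : Finset (Cube d)) : pfix (cpow (AA d) 8) Y ≤ 1 := by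
  have h0 : ∀ g, 0 ≤ cpow (AA d) 8 g :=
    cpow_nonneg (fun g => conv_nonneg (fun g => tlaw_nonneg_bld d _) (tlaw_nonneg_bld d) g) 8
  have h1 : mass (cpow (AA d) 8) = 1 := by
    rw [mass_cpow, AA, mass_conv, mass_adj, mass_tlaw_bld]
    norm_num
  calc pfix (cpow (AA d) 8) Y ≤ ∑ g, cpow (AA d) 8 g := by
        unfold pfix
        exact Finset.sum_le_sum_of_subset_of_nonneg (Finset.filter_subset _ _) (fun i _ _ => h0 i)
    _ = 1 := h1

/-- [RET] -/
theorem return_aux (a0 d : ℕ) (Y : Finset (Cube d)) (hY : Y.Nonempty) :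
    pfix (cpow (AA d) 8) Y * ((2 ^ d).descFactorial Y.card : ℝ) ≤
      (2 : ℝ) ^ (8 * (2 : ℝ) ^ a0 * Y.card + 175 * (2 : ℝ) ^ d * (93 / 100 : ℝ) ^ (2 ^ a0)) := by
  have hk : Y.card ≤ 2 ^ d := by
    rw [← card_cube d]
    exact Finset.card_le_univ Y
  rcases Nat.lt_or_ge d (2 ^ a0) with hd | hd
  · have h1 := pfix_AA_le_one d Y
    have h2 : ((2 ^ d).descFactorial Y.card : ℝ) ≤ (2 : ℝ) ^ (d * Y.card) := by
      have h3 : (2 ^ d).descFactorial Y.card ≤ (2 ^ d) ^ Y.card := Nat.descFactorial_le_pow _ _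
      rw [← pow_mul] at h3
      exact_mod_cast h3
    have h4 : (2 : ℝ) ^ (d * Y.card) = (2 : ℝ) ^ ((d : ℝ) * Y.card) := by
      rw [← Real.rpow_natCast]; push_cast; rfl
    have h5 : (0 : ℝ) ≤ ((2 ^ d).descFactorial Y.card : ℝ) := Nat.cast_nonneg _
    calc pfix (cpow (AA d) 8) Y * ((2 ^ d).descFactorial Y.card : ℝ)
        ≤ 1 * ((2 ^ d).descFactorial Y.card : ℝ) := by gcongr
      _ ≤ (2 : ℝ) ^ ((d : ℝ) * Y.card) := by rw [one_mul, ← h4]; exact h2
      _ ≤ _ := by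
          apply Real.rpow_le_rpow_of_exponent_le (by norm_num)
          have h6 : (d : ℝ) ≤ 2 ^ a0 := by exact_mod_cast hd.le
          have h7 : (0 : ℝ) ≤ Y.card := Nat.cast_nonneg _
          have h8 : (0 : ℝ) ≤ 175 * (2 : ℝ) ^ d * (93 / 100 : ℝ) ^ (2 ^ a0) := by positivity
          have h9 : (d : ℝ) * Y.card ≤ 2 ^ a0 * Y.card := by gcongr
          have h10 : (0 : ℝ) ≤ 2 ^ a0 * Y.card := by positivity
          linarith
  · have h1 := pfix_AA_le hd Y
    have hfac : (((2 ^ d - Y.card).factorial : ℝ)) * ((2 ^ d).descFactorial Y.card : ℝ) =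
        ((2 ^ d).factorial : ℝ) := by
      exact_mod_cast Nat.factorial_mul_descFactorial hk
    set b := psi (2 ^ a0) (fun _ => 0) d with hb
    have hyoung := young8 (b := b) (psi_nonneg _ _ _)
    have hcard : (Fintype.card (Perm (Cube d)) : ℝ) = ((2 ^ d).factorial : ℝ) := by
      rw [Fintype.card_perm, card_cube]
    have hcard' : ((Fintype.card (Cube d)).factorial : ℝ) = ((2 ^ d).factorial : ℝ) := by
      rw [card_cube]
    have hdom : ∑ g, b g ^ ((1 : ℝ) + 1 / 7) * (Fintype.card (Perm (Cube d)) : ℝ) ^ ((1 : ℝ) / 7) ≤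
        mass (psi (2 ^ a0) (fun _ => 1 / 7) d) := by
      unfold mass
      apply Finset.sum_le_sum
      intro g _
      have := psi_dom (2 ^ a0) (s := 1 / 7) (by norm_num) d g
      rw [hcard'] at this
      rw [hcard]
      exact this
    have hmass := mass_psi_le a0 d
    have hdom0 : 0 ≤ ∑ g, b g ^ ((1 : ℝ) + 1 / 7) *
        (Fintype.card (Perm (Cube d)) : ℝ) ^ ((1 : ℝ) / 7) := by
      apply Finset.sum_nonneg
      intro g _
      have := psi_nonneg (2 ^ a0) (fun _ => 0) d g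
      rw [← hb] at this
      positivity
    have h2 : ((2 ^ d).factorial : ℝ) * cpow b 8 1 ≤
        (2 : ℝ) ^ (175 * (2 : ℝ) ^ d * (93 / 100 : ℝ) ^ (2 ^ a0)) := by
      rw [← hcard]
      refine hyoung.trans ?_
      calc _ ≤ ((2 : ℝ) ^ (25 * (2 : ℝ) ^ d * (93 / 100 : ℝ) ^ (2 ^ a0))) ^ 7 :=
            pow_le_pow_left₀ hdom0 (hdom.trans hmass) 7
        _ = _ := by
            rw [← Real.rpow_mul_natCast (by norm_num)]
            congr 1
            push_cast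
            ring
    have h3 : (2 : ℝ) ^ (8 * 2 ^ a0 * Y.card) = (2 : ℝ) ^ (8 * (2 : ℝ) ^ a0 * Y.card) := by
      rw [← Real.rpow_natCast]; push_cast; rfl
    calc pfix (cpow (AA d) 8) Y * ((2 ^ d).descFactorial Y.card : ℝ)
        ≤ ((2 : ℝ) ^ (8 * 2 ^ a0 * Y.card) *
          (((2 ^ d - Y.card).factorial : ℝ) * cpow b 8 1)) *
          ((2 ^ d).descFactorial Y.card : ℝ) := by gcongr
      _ = (2 : ℝ) ^ (8 * 2 ^ a0 * Y.card) * (((2 ^ d).factorial : ℝ) * cpow b 8 1) := by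
          rw [← hfac]; ring
      _ ≤ (2 : ℝ) ^ (8 * 2 ^ a0 * Y.card) *
          (2 : ℝ) ^ (175 * (2 : ℝ) ^ d * (93 / 100 : ℝ) ^ (2 ^ a0)) := by gcongr
      _ = _ := by rw [h3, ← Real.rpow_add (by norm_num)]

/-- [RET] -/
theorem return_prob : ∃ C : ℝ, 0 < C ∧ ∀ (d : ℕ) (Y : Finset (Cube d)), Y.Nonempty →
    pfix (cpow (AA d) 8) Y * ((2 ^ d).descFactorial Y.card : ℝ) ≤
      Real.exp (C * Y.card * (1 + Real.log (2 ^ d / Y.card))) := by
  refine ⟨229, by norm_num, ?_⟩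
  intro d Y hY
  classical
  have hk1 : 1 ≤ Y.card := Finset.card_pos.mpr hY
  have hk0 : (0 : ℝ) < Y.card := by exact_mod_cast hk1
  have hkn : (Y.card : ℝ) ≤ 2 ^ d := by
    have : Y.card ≤ 2 ^ d := by
      rw [← card_cube d]
      exact Finset.card_le_univ Y
    exact_mod_cast this
  have hn0 : (0 : ℝ) < 2 ^ d := by positivity
  set k : ℝ := (Y.card : ℝ) with hkdef
  set n : ℝ := 2 ^ d with hn
  have hlog0 : 0 ≤ Real.log (n / k) := Real.log_nonneg (by rw [le_div_iff₀ hk0]; linarith)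
  have hex : ∃ a : ℕ, (93 / 100 : ℝ) ^ (2 ^ a) ≤ k / n := by
    obtain ⟨m, hm⟩ := exists_pow_lt_of_lt_one (show 0 < k / n by positivity)
      (show (93 / 100 : ℝ) < 1 by norm_num)
    refine ⟨m, le_trans ?_ hm.le⟩
    exact pow_le_pow_of_le_one (by norm_num) (by norm_num) (Nat.lt_two_pow_self).le
  set a0 := Nat.find hex with ha0
  have hspec : (93 / 100 : ℝ) ^ (2 ^ a0) ≤ k / n := Nat.find_spec hex
  have hmain := return_aux a0 d Y hY
  rw [← hkdef, ← hn] at hmain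
  have hexp : 8 * (2 : ℝ) ^ a0 * k + 175 * n * (93 / 100 : ℝ) ^ (2 ^ a0) ≤
      229 * k * (1 + Real.log (n / k)) := by
    have h1 : 175 * n * (93 / 100 : ℝ) ^ (2 ^ a0) ≤ 175 * k := by
      calc 175 * n * (93 / 100 : ℝ) ^ (2 ^ a0) ≤ 175 * n * (k / n) := by gcongr
        _ = 175 * k := by field_simp
    rcases Nat.eq_zero_or_pos a0 with h0 | hpos
    · rw [h0] at h1 ⊢
      have h2 : 0 ≤ k * Real.log (n / k) := by positivity
      simp only [pow_zero] at h1 ⊢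
      nlinarith
    · have hmin := Nat.find_min hex (m := a0 - 1) (by omega)
      push Not at hmin
      set i1 : ℕ := 2 ^ (a0 - 1) with hi1
      have h2a : (2 : ℝ) ^ a0 = 2 * i1 := by
        rw [hi1]
        push_cast
        rw [← pow_succ']
        congr 1
        omega
      have hlog := Real.log_lt_log (by positivity) hmin
      rw [Real.log_pow] at hlog
      have h93 : Real.log (93 / 100) ≤ -(7 / 100) := by
        have := Real.log_le_sub_one_of_pos (show (0 : ℝ) < 93 / 100 by norm_num)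
        linarith
      have hkn' : Real.log (k / n) = -Real.log (n / k) := by
        rw [← Real.log_inv, inv_div]
      rw [hkn'] at hlog
      have hi0 : (0 : ℝ) ≤ i1 := Nat.cast_nonneg _
      have h3 : (i1 : ℝ) * (7 / 100) ≤ Real.log (n / k) := by
        have : (i1 : ℝ) * Real.log (93 / 100) ≤ i1 * (-(7 / 100)) := by gcongr
        linarith
      rw [h2a]
      have h4 : (i1 : ℝ) * k ≤ 100 / 7 * Real.log (n / k) * k := by
        have : (i1 : ℝ) ≤ 100 / 7 * Real.log (n / k) := by linarith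
        gcongr
      have h5 : 0 ≤ k * Real.log (n / k) := by positivity
      nlinarith
  refine hmain.trans ?_
  rw [Real.rpow_def_of_pos (by norm_num)]
  apply Real.exp_le_exp.mpr
  have hl2 : Real.log 2 ≤ 1 := by
    have := Real.log_two_lt_d9; linarith
  have hpos : 0 ≤ 8 * (2 : ℝ) ^ a0 * k + 175 * n * (93 / 100 : ℝ) ^ (2 ^ a0) := by positivity
  calc Real.log 2 * (8 * (2 : ℝ) ^ a0 * k + 175 * n * (93 / 100 : ℝ) ^ (2 ^ a0))
      ≤ 1 * (8 * (2 : ℝ) ^ a0 * k + 175 * n * (93 / 100 : ℝ) ^ (2 ^ a0)) := by gcongr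
    _ ≤ _ := by rw [one_mul]; exact hexp

end Vale.Agent.P162T
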