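import Vale.Agent.P162T.Degree
import Vale.Agent.P162T.LevelL

/-!
# P162 [VAR] Precise second moment of `Z`

`n = card X`, `S_p := ∑_q (1 - t_pq)`, `𝒮 := ∑_{|T|=3} altOn T`, `altOn T` = projection on the
sign-isotypic part for the permutations supported in `T`: `(1/6)(1 + c + c² - t_ab - t_bc - t_ac)`.

* `sum_star_sq`: `∑_p S_p² = (n+2) 𝓛 + 18 𝒮`.  Proof: `S_p² = ∑_{q,r ≠ p} (1-t_pq)(1-t_pr)`;
  `q = r`: `(1-t)² = 2(1-t)`, total `4𝓛`;  `q ≠ r`: group by the triple `{p,q,r} = {a,b,c}`: six ordered terms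
  `1 - t_pq - t_pr + t_pq t_pr` with sum `6 - 4(t_ab+t_bc+t_ac) + 3(c + c²) = [3 - (t_ab+t_bc+t_ac)] + 18 altOn`;
  each pair is in `n-2` triples: total `(n-2)𝓛 + 18𝒮`.
* `Sop_le`: for `v ∈ Vdeg k`: `⟨𝒮 v,v⟩ ≤ (k²/2) n ‖v‖²`.  Proof: `central_on_deg` with `C = -𝒮`: for `w`
  fixed by `Sym(Yᶜ)`, `altOn T w = 0` unless `|T ∩ Y| ≥ 2` (otherwise a transposition inside `T \ Y` fixes `w`),
  and the number of such triples is `≤ C(k,2) n ≤ k² n/2`; `altOn T ≤ 1` is a projection.
* `second_moment_Z` from `norm_Zop_sq_le` (file LevelL), on `X ⊕ X`, `n = 2N`: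
  `‖Zv‖² ≤ (1/n²)((n+2) n δ + 18 (k²/2) n + 4 n δ)‖v‖² = (δ + (6δ + 9k²)/n)‖v‖²`.
-/

open Equiv Finset

set_option linter.unusedSectionVars false
set_option linter.unusedSimpArgs false

namespace Vale.Agent.P162T

section gen

variable {X : Type} [Fintype X] [DecidableEq X] {V : Type} [NormedAddCommGroup V]
  [InnerProductSpace ℝ V]

/-- `S_p = ∑_q (1 - t_pq)` -/
noncomputable def star (ρ : ORep (Perm X) V) (p : X) : V →ₗ[ℝ] V :=
  ∑ q : X, (1 - ρ.toHom (swap p q))

/-- sign projection of the permutations supported in `T` -/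
noncomputable def altOn (ρ : ORep (Perm X) V) (T : Finset X) : V →ₗ[ℝ] V :=
  (1 / ((Finset.univ.filter (fun g : Perm X => ∀ x, x ∉ T → g x = x)).card : ℝ)) •
    ∑ g ∈ Finset.univ.filter (fun g : Perm X => ∀ x, x ∉ T → g x = x),
      ((Perm.sign g : ℤ) : ℝ) • ρ.toHom g

/-- `𝒮` -/
noncomputable def Sop (ρ : ORep (Perm X) V) : V →ₗ[ℝ] V :=
  ∑ T ∈ Finset.univ.filter (fun T : Finset X => T.card = 3), altOn ρ T

theorem card_supW (T : Finset X) : (supW T).card = T.card.factorial := by
  have h1 := Fintype.card_congr (Perm.subtypeEquivSubtypePerm (fun x : X => x ∈ T))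
  rw [Fintype.card_perm, Fintype.card_coe, Fintype.card_subtype] at h1
  rw [h1]
  rfl

theorem supW_three {a b c : X} (hab : a ≠ b) (hbc : b ≠ c) (hac : a ≠ c) :
    supW {a, b, c} = {1, swap a b, swap b c, swap a c, swap a b * swap b c,
      swap b c * swap a b} := by
  have hc3 : ({a, b, c} : Finset X).card = 3 := by
    rw [Finset.card_eq_three]; exact ⟨a, b, c, hab, hac, hbc, rfl⟩
  symm
  apply Finset.eq_of_subset_of_card_le
  · intro g hg
    rw [mem_supW]
    intro x hx
    simp only [Finset.mem_insert, Finset.mem_singleton, not_or] at hx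
    obtain ⟨h1, h2, h3⟩ := hx
    simp only [Finset.mem_insert, Finset.mem_singleton] at hg
    rcases hg with rfl | rfl | rfl | rfl | rfl | rfl
    · rfl
    · exact swap_apply_of_ne_of_ne h1 h2
    · exact swap_apply_of_ne_of_ne h2 h3
    · exact swap_apply_of_ne_of_ne h1 h3
    · rw [Perm.mul_apply, swap_apply_of_ne_of_ne h2 h3, swap_apply_of_ne_of_ne h1 h2]
    · rw [Perm.mul_apply, swap_apply_of_ne_of_ne h1 h2, swap_apply_of_ne_of_ne h2 h3]
  · rw [card_supW, hc3]
    have e1 : swap b c a = a := swap_apply_of_ne_of_ne hab hac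
    have e2 : swap a c b = b := swap_apply_of_ne_of_ne hab.symm hbc
    have e3 : swap a b c = c := swap_apply_of_ne_of_ne hac.symm hbc.symm
    have key : ∀ g h : Perm X, (g a ≠ h a ∨ g b ≠ h b) → g ≠ h := by
      rintro g h (h1 | h1) rfl <;> exact h1 rfl
    have n1 : (1 : Perm X) ∉ ({swap a b, swap b c, swap a c, swap a b * swap b c,
      swap b c * swap a b} : Finset (Perm X)) := by
      simp only [Finset.mem_insert, Finset.mem_singleton, not_or]
      refine ⟨key _ _ ?_, key _ _ ?_, key _ _ ?_, key _ _ ?_, key _ _ ?_⟩ <;>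
        simp [e1, e2, e3, hab, hbc, hac, Perm.mul_apply]
    have n2 : (swap a b : Perm X) ∉ ({swap b c, swap a c, swap a b * swap b c,
      swap b c * swap a b} : Finset (Perm X)) := by
      simp only [Finset.mem_insert, Finset.mem_singleton, not_or]
      refine ⟨key _ _ ?_, key _ _ ?_, key _ _ ?_, key _ _ ?_⟩ <;>
        simp [e1, e2, e3, hab, hbc, hac, hab.symm, Perm.mul_apply]
    have n3 : (swap b c : Perm X) ∉ ({swap a c, swap a b * swap b c,
      swap b c * swap a b} : Finset (Perm X)) := by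
      simp only [Finset.mem_insert, Finset.mem_singleton, not_or]
      refine ⟨key _ _ ?_, key _ _ ?_, key _ _ ?_⟩ <;>
        simp [e1, e2, e3, hab, hbc, hac, Perm.mul_apply]
    have n4 : (swap a c : Perm X) ∉ ({swap a b * swap b c,
      swap b c * swap a b} : Finset (Perm X)) := by
      simp only [Finset.mem_insert, Finset.mem_singleton, not_or]
      refine ⟨key _ _ ?_, key _ _ ?_⟩ <;>
        simp [e1, e2, e3, hab, hbc, hac, hbc.symm, hab.symm, Perm.mul_apply]
    have n5 : (swap a b * swap b c : Perm X) ∉ ({swap b c * swap a b} : Finset (Perm X)) := by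
      simp only [Finset.mem_singleton]
      refine key _ _ ?_
      simp [e1, e2, e3, hab, hbc, hac, hbc.symm, Perm.mul_apply]
    rw [Finset.card_insert_of_notMem n1, Finset.card_insert_of_notMem n2,
      Finset.card_insert_of_notMem n3, Finset.card_insert_of_notMem n4,
      Finset.card_insert_of_notMem n5, Finset.card_singleton]
    decide

theorem altOn_three (ρ : ORep (Perm X) V) {a b c : X} (hab : a ≠ b) (hbc : b ≠ c)
    (hac : a ≠ c) :
    altOn ρ {a, b, c} = (1 / 6 : ℝ) • (1 - ρ.toHom (swap a b) - ρ.toHom (swap b c)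
      - ρ.toHom (swap a c) + ρ.toHom (swap a b) * ρ.toHom (swap b c)
      + ρ.toHom (swap b c) * ρ.toHom (swap a b)) := by
  have hc3 : ({a, b, c} : Finset X).card = 3 := by
    rw [Finset.card_eq_three]; exact ⟨a, b, c, hab, hac, hbc, rfl⟩
  have h1 : altOn ρ {a, b, c} = (1 / ((supW ({a, b, c} : Finset X)).card : ℝ)) •
    ∑ g ∈ supW ({a, b, c} : Finset X), ((Perm.sign g : ℤ) : ℝ) • ρ.toHom g := rfl
  rw [h1, card_supW, hc3, supW_three hab hbc hac]
  have e1 : swap b c a = a := swap_apply_of_ne_of_ne hab hac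
  have e2 : swap a c b = b := swap_apply_of_ne_of_ne hab.symm hbc
  have e3 : swap a b c = c := swap_apply_of_ne_of_ne hac.symm hbc.symm
  have key : ∀ g h : Perm X, (g a ≠ h a ∨ g b ≠ h b) → g ≠ h := by
    rintro g h (h1 | h1) rfl <;> exact h1 rfl
  have n1 : (1 : Perm X) ∉ ({swap a b, swap b c, swap a c, swap a b * swap b c,
    swap b c * swap a b} : Finset (Perm X)) := by
    simp only [Finset.mem_insert, Finset.mem_singleton, not_or]
    refine ⟨key _ _ ?_, key _ _ ?_, key _ _ ?_, key _ _ ?_, key _ _ ?_⟩ <;>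
      simp [e1, e2, e3, hab, hbc, hac, Perm.mul_apply]
  have n2 : (swap a b : Perm X) ∉ ({swap b c, swap a c, swap a b * swap b c,
    swap b c * swap a b} : Finset (Perm X)) := by
    simp only [Finset.mem_insert, Finset.mem_singleton, not_or]
    refine ⟨key _ _ ?_, key _ _ ?_, key _ _ ?_, key _ _ ?_⟩ <;>
      simp [e1, e2, e3, hab, hbc, hac, hab.symm, Perm.mul_apply]
  have n3 : (swap b c : Perm X) ∉ ({swap a c, swap a b * swap b c,
    swap b c * swap a b} : Finset (Perm X)) := by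
    simp only [Finset.mem_insert, Finset.mem_singleton, not_or]
    refine ⟨key _ _ ?_, key _ _ ?_, key _ _ ?_⟩ <;>
      simp [e1, e2, e3, hab, hbc, hac, Perm.mul_apply]
  have n4 : (swap a c : Perm X) ∉ ({swap a b * swap b c,
    swap b c * swap a b} : Finset (Perm X)) := by
    simp only [Finset.mem_insert, Finset.mem_singleton, not_or]
    refine ⟨key _ _ ?_, key _ _ ?_⟩ <;>
      simp [e1, e2, e3, hab, hbc, hac, hbc.symm, hab.symm, Perm.mul_apply]
  have n5 : (swap a b * swap b c : Perm X) ∉ ({swap b c * swap a b} : Finset (Perm X)) := by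
    simp only [Finset.mem_singleton]
    refine key _ _ ?_
    simp [e1, e2, e3, hab, hbc, hac, hbc.symm, Perm.mul_apply]
  rw [Finset.sum_insert n1, Finset.sum_insert n2, Finset.sum_insert n3, Finset.sum_insert n4,
    Finset.sum_insert n5, Finset.sum_singleton]
  simp only [Perm.sign_one, Perm.sign_swap hab, Perm.sign_swap hbc, Perm.sign_swap hac,
    Perm.sign_mul, map_mul, map_one]
  have hf : ((Nat.factorial 3 : ℕ) : ℝ) = 6 := by norm_num [Nat.factorial]
  rw [hf]
  congr 1
  norm_num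
  abel


section T3

variable {M : Type*} [AddCommGroup M] [Module ℝ M]

/-- sum over ordered triples of distinct points -/
def T3 (f : X → X → X → M) : M :=
  ∑ p : X, ∑ q : X, ∑ r : X, if (p ≠ q ∧ q ≠ r ∧ p ≠ r) then f p q r else 0

theorem T3_congr {f g : X → X → X → M}
    (h : ∀ p q r, p ≠ q → q ≠ r → p ≠ r → f p q r = g p q r) : T3 f = T3 g := by
  unfold T3
  refine Finset.sum_congr rfl fun p _ => Finset.sum_congr rfl fun q _ =>
    Finset.sum_congr rfl fun r _ => ?_
  split_ifs with h1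
  · exact h p q r h1.1 h1.2.1 h1.2.2
  · rfl

theorem T3_swap12 (f : X → X → X → M) : T3 f = T3 (fun p q r => f q p r) := by
  unfold T3
  rw [Finset.sum_comm]
  refine Finset.sum_congr rfl fun p _ => Finset.sum_congr rfl fun q _ =>
    Finset.sum_congr rfl fun r _ => ?_
  by_cases h1 : q ≠ p ∧ p ≠ r ∧ q ≠ r
  · rw [if_pos h1, if_pos ⟨h1.1.symm, h1.2.2, h1.2.1⟩]
  · rw [if_neg h1, if_neg]
    rintro ⟨h2, h3, h4⟩
    exact h1 ⟨h2.symm, h4, h3⟩

theorem T3_swap23 (f : X → X → X → M) : T3 f = T3 (fun p q r => f p r q) := by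
  unfold T3
  refine Finset.sum_congr rfl fun p _ => ?_
  rw [Finset.sum_comm]
  refine Finset.sum_congr rfl fun q _ => Finset.sum_congr rfl fun r _ => ?_
  by_cases h1 : p ≠ r ∧ r ≠ q ∧ p ≠ q
  · rw [if_pos h1, if_pos ⟨h1.2.2, h1.2.1.symm, h1.1⟩]
  · rw [if_neg h1, if_neg]
    rintro ⟨h2, h3, h4⟩
    exact h1 ⟨h4, h3.symm, h2⟩

theorem T3_add (f g : X → X → X → M) : T3 (fun p q r => f p q r + g p q r) = T3 f + T3 g := by
  unfold T3
  simp_rw [← Finset.sum_add_distrib]
  refine Finset.sum_congr rfl fun p _ => Finset.sum_congr rfl fun q _ =>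
    Finset.sum_congr rfl fun r _ => ?_
  split_ifs <;> simp

theorem T3_sub (f g : X → X → X → M) : T3 (fun p q r => f p q r - g p q r) = T3 f - T3 g := by
  unfold T3
  simp_rw [← Finset.sum_sub_distrib]
  refine Finset.sum_congr rfl fun p _ => Finset.sum_congr rfl fun q _ =>
    Finset.sum_congr rfl fun r _ => ?_
  split_ifs <;> simp

theorem T3_smul (c : ℝ) (f : X → X → X → M) : T3 (fun p q r => c • f p q r) = c • T3 f := by
  unfold T3
  simp_rw [Finset.smul_sum]
  refine Finset.sum_congr rfl fun p _ => Finset.sum_congr rfl fun q _ =>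
    Finset.sum_congr rfl fun r _ => ?_
  split_ifs <;> simp

/-- a function of two points only -/
theorem T3_two (f : X → X → M) (hf : ∀ p, f p p = 0) :
    T3 (fun p q _ => f p q) = ((Fintype.card X : ℝ) - 2) • ∑ p : X, ∑ q : X, f p q := by
  unfold T3
  rw [Finset.smul_sum]
  refine Finset.sum_congr rfl fun p _ => ?_
  rw [Finset.smul_sum]
  refine Finset.sum_congr rfl fun q _ => ?_
  by_cases hpq : p = q
  · subst hpq; simp [hf]
  · have h1 : ∀ r : X, (if p ≠ q ∧ q ≠ r ∧ p ≠ r then f p q else 0) =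
        f p q - (if r = q then f p q else 0) - (if r = p then f p q else 0) := by
      intro r
      by_cases h2 : r = q
      · subst h2; simp [Ne.symm hpq]
      · by_cases h3 : r = p
        · subst h3; simp [hpq]
        · rw [if_pos ⟨hpq, fun h => h2 h.symm, fun h => h3 h.symm⟩, if_neg h2, if_neg h3]
          simp
    simp_rw [h1]
    rw [Finset.sum_sub_distrib, Finset.sum_sub_distrib, Finset.sum_const, Finset.sum_ite_eq',
      Finset.sum_ite_eq', if_pos (Finset.mem_univ _), if_pos (Finset.mem_univ _),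
      Finset.card_univ, ← Nat.cast_smul_eq_nsmul ℝ]
    module

theorem card_triples {T : Finset X} (hT : T.card = 3) :
    (Finset.univ.filter (fun x : X × X × X => (x.1 ≠ x.2.1 ∧ x.2.1 ≠ x.2.2 ∧ x.1 ≠ x.2.2) ∧
      ({x.1, x.2.1, x.2.2} : Finset X) = T)).card = 6 := by
  obtain ⟨a, b, c, hab, hac, hbc, rfl⟩ := Finset.card_eq_three.mp hT
  have h1 : Finset.univ.filter (fun x : X × X × X =>
      (x.1 ≠ x.2.1 ∧ x.2.1 ≠ x.2.2 ∧ x.1 ≠ x.2.2) ∧
      ({x.1, x.2.1, x.2.2} : Finset X) = {a, b, c}) =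
      {(a, b, c), (a, c, b), (b, a, c), (b, c, a), (c, a, b), (c, b, a)} := by
    ext ⟨p, q, r⟩
    simp only [Finset.mem_filter, Finset.mem_univ, true_and, Finset.mem_insert,
      Finset.mem_singleton, Prod.mk.injEq]
    constructor
    · rintro ⟨⟨h1, h2, h3⟩, h4⟩
      have hp : p ∈ ({a, b, c} : Finset X) := by rw [← h4]; simp
      have hq : q ∈ ({a, b, c} : Finset X) := by rw [← h4]; simp
      have hr : r ∈ ({a, b, c} : Finset X) := by rw [← h4]; simp
      simp only [Finset.mem_insert, Finset.mem_singleton] at hp hq hr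
      rcases hp with rfl | rfl | rfl <;> rcases hq with rfl | rfl | rfl <;>
        rcases hr with rfl | rfl | rfl <;> simp_all
    · have hne : b ≠ a ∧ c ≠ a ∧ c ≠ b := ⟨hab.symm, hac.symm, hbc.symm⟩
      rintro (⟨rfl, rfl, rfl⟩ | ⟨rfl, rfl, rfl⟩ | ⟨rfl, rfl, rfl⟩ | ⟨rfl, rfl, rfl⟩ |
        ⟨rfl, rfl, rfl⟩ | ⟨rfl, rfl, rfl⟩) <;> refine ⟨by tauto, ?_⟩ <;> ext z <;>
        simp only [Finset.mem_insert, Finset.mem_singleton] <;> tauto
  rw [h1, Finset.card_insert_of_notMem, Finset.card_insert_of_notMem,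
    Finset.card_insert_of_notMem, Finset.card_insert_of_notMem, Finset.card_insert_of_notMem,
    Finset.card_singleton] <;>
  simp only [Finset.mem_insert, Finset.mem_singleton, Prod.mk.injEq, not_or, not_and] <;>
  tauto

theorem T3_set (F : Finset X → M) :
    T3 (fun p q r => F {p, q, r}) =
      (6 : ℝ) • ∑ T ∈ Finset.univ.filter (fun T : Finset X => T.card = 3), F T := by
  have h1 : T3 (fun p q r => F {p, q, r}) =
      ∑ x ∈ Finset.univ.filter (fun x : X × X × X => (x.1 ≠ x.2.1 ∧ x.2.1 ≠ x.2.2 ∧ x.1 ≠ x.2.2)),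
        F {x.1, x.2.1, x.2.2} := by
    unfold T3
    rw [Finset.sum_filter, Fintype.sum_prod_type]
    refine Finset.sum_congr rfl fun p _ => ?_
    rw [Fintype.sum_prod_type]
  rw [h1, ← Finset.sum_fiberwise_of_maps_to (g := fun x : X × X × X =>
    ({x.1, x.2.1, x.2.2} : Finset X)) (t := Finset.univ.filter (fun T : Finset X => T.card = 3)),
    Finset.smul_sum]
  · refine Finset.sum_congr rfl fun T hT => ?_
    have hT' : T.card = 3 := by simpa using hT
    rw [Finset.filter_filter]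
    have h2 : ∀ x ∈ Finset.univ.filter (fun x : X × X × X =>
        (x.1 ≠ x.2.1 ∧ x.2.1 ≠ x.2.2 ∧ x.1 ≠ x.2.2) ∧
        ({x.1, x.2.1, x.2.2} : Finset X) = T), F {x.1, x.2.1, x.2.2} = F T := by
      intro x hx
      rw [(Finset.mem_filter.mp hx).2.2]
    rw [Finset.sum_congr rfl h2, Finset.sum_const, card_triples hT', ← Nat.cast_smul_eq_nsmul ℝ]
    norm_num
  · intro x hx
    simp only [Finset.mem_filter, Finset.mem_univ, true_and] at hx ⊢
    rw [Finset.card_eq_three]
    exact ⟨x.1, x.2.1, x.2.2, hx.1, hx.2.2, hx.2.1, rfl⟩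

end T3

/-- [VAR1] -/
theorem sum_star_sq (ρ : ORep (Perm X) V) :
    ∑ p : X, star ρ p * star ρ p = ((Fintype.card X : ℝ) + 2) • lap ρ + (18 : ℝ) • Sop ρ := by
  -- the distinct sums
  set t : X → X → (V →ₗ[ℝ] V) := fun p q => ρ.toHom (swap p q) with ht
  have htt : ∀ p q, t p q * t p q = 1 := by
    intro p q
    show ρ.toHom (swap p q) * ρ.toHom (swap p q) = 1
    rw [← map_mul, swap_mul_self, map_one]
  have hts : ∀ p q, t p q = t q p := fun p q => by
    show ρ.toHom (swap p q) = ρ.toHom (swap q p)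
    rw [swap_comm]
  have htp : ∀ p, t p p = 1 := fun p => by
    show ρ.toHom (swap p p) = 1
    rw [swap_self]
    exact map_one ρ.toHom
  set b : V →ₗ[ℝ] V := T3 (fun p q _ : X => (1 - t p q)) with hb
  set c : V →ₗ[ℝ] V := T3 (fun p q r : X => (t p q * t p r - 1)) with hc
  have hb1 : T3 (fun p _ r : X => (1 - t p r)) = b := by
    rw [hb, T3_swap23]
  have hb2 : T3 (fun _ q r : X => (1 - t q r)) = b := by
    rw [← hb1, T3_swap12]
  have hc1 : T3 (fun p q r : X => (t p q * t q r - 1)) = c := by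
    rw [hc, T3_swap12]
    exact T3_congr (fun p q r _ _ _ => by rw [hts q p])
  have hc2 : T3 (fun p q r : X => (t q r * t p q - 1)) = c := by
    rw [T3_swap12, T3_swap23, hc]
    exact T3_congr (fun p q r _ _ _ => by rw [hts r p])
  have hlap : lap ρ = (1 / 2 : ℝ) • ∑ p : X, ∑ q : X, (1 - t p q) := rfl
  have hbl : b = (2 * ((Fintype.card X : ℝ) - 2)) • lap ρ := by
    rw [hb, T3_two (fun p q => 1 - t p q) (fun p => by rw [htp, sub_self]), hlap, smul_smul]
    congr 1
    ring
  -- the alternating part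
  have hS : (18 : ℝ) • Sop ρ = (1 / 2 : ℝ) • (3 • b + 2 • c) := by
    have h1 : (6 : ℝ) • Sop ρ = T3 (fun p q r : X => altOn ρ {p, q, r}) := by
      rw [T3_set]; rfl
    have h2 : T3 (fun p q r : X => altOn ρ {p, q, r}) =
        T3 (fun p q r : X => (1 / 6 : ℝ) • ((1 - t p q) + (1 - t q r) + (1 - t p r) +
          (t p q * t q r - 1) + (t q r * t p q - 1))) := by
      apply T3_congr
      intro p q r h1 h2 h3
      rw [altOn_three ρ h1 h2 h3]
      congr 1
      show _ = (1 - ρ.toHom (swap p q)) + (1 - ρ.toHom (swap q r)) + (1 - ρ.toHom (swap p r)) +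
          (ρ.toHom (swap p q) * ρ.toHom (swap q r) - 1) +
          (ρ.toHom (swap q r) * ρ.toHom (swap p q) - 1)
      abel
    have h3 : (18 : ℝ) • Sop ρ = (3 : ℝ) • ((6 : ℝ) • Sop ρ) := by
      rw [smul_smul]; norm_num
    rw [h3, h1, h2, T3_smul, T3_add, T3_add, T3_add, T3_add, hb1, hb2, hc1, hc2, ← hb]
    module
  -- the squares
  have hQ : ∑ p : X, star ρ p * star ρ p = (4 : ℝ) • lap ρ + (2 • b + c) := by
    have h1 : T3 (fun p q r : X => (1 - t p q) * (1 - t p r)) = 2 • b + c := by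
      have h2 : T3 (fun p q r : X => (1 - t p q) * (1 - t p r)) =
          T3 (fun p q r : X => (1 - t p q) + (1 - t p r) + (t p q * t p r - 1)) := by
        apply T3_congr
        intro p q r _ _ _
        noncomm_ring
      rw [h2, T3_add, T3_add, hb1, ← hb, ← hc]
      abel
    rw [← h1]
    have h3 : ∀ p, star ρ p * star ρ p = (2 : ℝ) • ∑ q : X, (1 - t p q) +
        ∑ q : X, ∑ r : X, if (p ≠ q ∧ q ≠ r ∧ p ≠ r) then (1 - t p q) * (1 - t p r) else 0 := by
      intro p
      have h4 : star ρ p * star ρ p = ∑ q : X, ∑ r : X, (1 - t p q) * (1 - t p r) := by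
        show (∑ q : X, (1 - t p q)) * (∑ q : X, (1 - t p q)) = _
        rw [Finset.sum_mul_sum]
      rw [h4, Finset.smul_sum, ← Finset.sum_add_distrib]
      refine Finset.sum_congr rfl fun q _ => ?_
      have h5 : (2 : ℝ) • (1 - t p q) = ∑ r : X, if r = q then (1 - t p q) * (1 - t p r) else 0 := by
        rw [Finset.sum_ite_eq', if_pos (Finset.mem_univ _)]
        have : (1 - t p q) * (1 - t p q) = 1 - t p q - t p q + t p q * t p q := by noncomm_ring
        rw [this, htt]
        module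
      rw [h5, ← Finset.sum_add_distrib]
      refine Finset.sum_congr rfl fun r _ => ?_
      by_cases h6 : r = q
      · rw [if_pos h6, if_neg (by intro h7; exact h7.2.1 h6.symm), add_zero]
      · by_cases h7 : p = q
        · rw [← h7, htp]; simp
        · by_cases h8 : p = r
          · rw [← h8, htp]; simp
          · rw [if_neg h6, if_pos ⟨h7, fun h => h6 h.symm, h8⟩, zero_add]
    simp_rw [h3]
    rw [Finset.sum_add_distrib, ← Finset.smul_sum]
    congr 1
    rw [hlap, smul_smul]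
    norm_num
  rw [hQ, hS, hbl]
  module


theorem altOn_eq (ρ : ORep (Perm X) V) (T : Finset X) :
    altOn ρ T = (1 / ((supW T).card : ℝ)) •
      ∑ g ∈ supW T, ((Perm.sign g : ℤ) : ℝ) • ρ.toHom g := rfl

theorem altOn_apply (ρ : ORep (Perm X) V) (T : Finset X) (v : V) :
    altOn ρ T v = (1 / ((supW T).card : ℝ)) •
      ∑ g ∈ supW T, ((Perm.sign g : ℤ) : ℝ) • ρ.toHom g v := by
  rw [altOn_eq, LinearMap.smul_apply, LinearMap.sum_apply]
  rfl

theorem abs_sign_real (g : Perm X) : |((Perm.sign g : ℤ) : ℝ)| = 1 := by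
  rcases Int.units_eq_one_or (Perm.sign g) with h | h <;> rw [h] <;> simp

theorem norm_altOn_le (ρ : ORep (Perm X) V) (T : Finset X) (v : V) : ‖altOn ρ T v‖ ≤ ‖v‖ := by
  rw [altOn_apply, norm_smul]
  have hc : (0 : ℝ) < (supW T).card := by
    exact_mod_cast Finset.card_pos.mpr ⟨1, one_mem_supW T⟩
  have h1 : ‖∑ g ∈ supW T, ((Perm.sign g : ℤ) : ℝ) • ρ.toHom g v‖ ≤ (supW T).card * ‖v‖ := by
    refine (norm_sum_le _ _).trans ?_
    have h2 : ∀ g ∈ supW T, ‖((Perm.sign g : ℤ) : ℝ) • ρ.toHom g v‖ = ‖v‖ := by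
      intro g _
      rw [norm_smul, Real.norm_eq_abs, abs_sign_real, one_mul, ρ.norm_map]
    rw [Finset.sum_congr rfl h2, Finset.sum_const, nsmul_eq_mul]
  rw [Real.norm_eq_abs, abs_of_pos (by positivity)]
  calc 1 / ((supW T).card : ℝ) * ‖∑ g ∈ supW T, ((Perm.sign g : ℤ) : ℝ) • ρ.toHom g v‖
      ≤ 1 / ((supW T).card : ℝ) * ((supW T).card * ‖v‖) :=
        mul_le_mul_of_nonneg_left h1 (by positivity)
    _ = ‖v‖ := by field_simp

theorem inner_altOn_le (ρ : ORep (Perm X) V) (T : Finset X) (v : V) :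
    inner ℝ (altOn ρ T v) v ≤ ‖v‖ ^ 2 := by
  have h1 := real_inner_le_norm (altOn ρ T v) v
  have h2 := norm_altOn_le ρ T v
  nlinarith [norm_nonneg v]

/-- `altOn T` kills vectors fixed by a transposition supported in `T` -/
theorem altOn_eq_zero (ρ : ORep (Perm X) V) {T : Finset X} {a b : X} (ha : a ∈ T) (hb : b ∈ T)
    (hab : a ≠ b) {w : V} (hw : ρ.toHom (swap a b) w = w) : altOn ρ T w = 0 := by
  have hs : swap a b ∈ supW T := by
    rw [mem_supW]
    intro x hx
    apply swap_apply_of_ne_of_ne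
    · rintro rfl; exact hx ha
    · rintro rfl; exact hx hb
  have h1 : altOn ρ T w = - altOn ρ T w := by
    rw [altOn_apply, ← smul_neg, ← Finset.sum_neg_distrib]
    congr 1
    refine Finset.sum_equiv (Equiv.mulRight (swap a b)) ?_ ?_
    · intro g
      constructor
      · intro hg; exact mul_mem_supW hg hs
      · intro hg
        have := mul_mem_supW hg hs
        simpa [mul_assoc] using this
    · intro g _
      simp only [Equiv.coe_mulRight, Perm.sign_mul, Perm.sign_swap hab, ρ.map_mul_apply, hw]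
      simp
  have h2 : (2 : ℝ) • altOn ρ T w = 0 := by
    rw [two_smul]
    nth_rewrite 1 [h1]
    simp
  simpa using h2

theorem altOn_symm (ρ : ORep (Perm X) V) (T : Finset X) : (altOn ρ T).IsSymmetric := by
  intro v w
  rw [altOn_apply, altOn_apply, inner_smul_left, inner_smul_right, sum_inner, inner_sum]
  simp only [conj_trivial]
  congr 1
  refine Finset.sum_equiv (Equiv.inv (Perm X)) ?_ ?_
  · intro g
    constructor
    · intro hg; exact inv_mem_supW hg
    · intro hg
      have := inv_mem_supW hg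
      simpa using this
  · intro g _
    simp only [Equiv.inv_apply, inner_smul_left, inner_smul_right, ρ.inner_map_left,
      Perm.sign_inv, conj_trivial]

theorem altOn_conj (ρ : ORep (Perm X) V) (T : Finset X) (g : Perm X) :
    ρ.toHom g * altOn ρ T = altOn ρ (T.image g) * ρ.toHom g := by
  have hmem : ∀ h : Perm X, h ∈ supW T ↔ (MulAut.conj g).toEquiv h ∈ supW (T.image g) := by
    intro h
    simp only [MulEquiv.toEquiv_eq_coe, MulEquiv.coe_toEquiv, MulAut.conj_apply]
    rw [mem_supW, mem_supW]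
    constructor
    · intro hh x hx
      have h1 : g⁻¹ x ∉ T := by
        intro h2
        exact hx (Finset.mem_image.mpr ⟨g⁻¹ x, h2, by simp⟩)
      rw [Perm.mul_apply, Perm.mul_apply, hh _ h1]
      simp
    · intro hh x hx
      have h1 : g x ∉ T.image g := by
        intro h2
        obtain ⟨y, hy, hyx⟩ := Finset.mem_image.mp h2
        rw [g.injective hyx] at hy
        exact hx hy
      have h2 := hh (g x) h1
      simpa [Perm.mul_apply] using h2
  have hcard : (supW T).card = (supW (T.image g)).card := by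
    rw [card_supW, card_supW, Finset.card_image_of_injective _ g.injective]
  rw [altOn_eq, altOn_eq, mul_smul_comm, smul_mul_assoc, Finset.mul_sum, Finset.sum_mul, hcard]
  congr 1
  refine Finset.sum_equiv (MulAut.conj g).toEquiv hmem fun h _ => ?_
  simp only [MulEquiv.toEquiv_eq_coe, MulEquiv.coe_toEquiv, MulAut.conj_apply, map_mul,
    Perm.sign_mul, Perm.sign_inv]
  rw [smul_mul_assoc, mul_smul_comm]
  have h3 : ρ.toHom g * ρ.toHom h * ρ.toHom g⁻¹ * ρ.toHom g = ρ.toHom g * ρ.toHom h := by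
    rw [mul_assoc (ρ.toHom g * ρ.toHom h), ← map_mul ρ.toHom g⁻¹ g, inv_mul_cancel, map_one,
      mul_one]
  rw [h3]
  congr 1
  rcases Int.units_eq_one_or (Perm.sign g) with h' | h' <;> rw [h'] <;> simp

theorem Sop_commute (ρ : ORep (Perm X) V) (g : Perm X) : Commute (ρ.toHom g) (Sop ρ) := by
  show ρ.toHom g * Sop ρ = Sop ρ * ρ.toHom g
  unfold Sop
  rw [Finset.mul_sum, Finset.sum_mul]
  simp_rw [altOn_conj]
  refine Finset.sum_equiv (Equiv.finsetCongr g) ?_ ?_
  · intro T
    simp only [Finset.mem_filter, Finset.mem_univ, true_and, Equiv.finsetCongr_apply,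
      Finset.card_map]
  · intro T _
    congr 2
    ext x
    simp only [Finset.mem_image, Equiv.finsetCongr_apply, Finset.mem_map_equiv]
    constructor
    · rintro ⟨a, ha, rfl⟩
      simpa using ha
    · intro h
      exact ⟨g.symm x, h, by simp⟩

theorem Sop_symm (ρ : ORep (Perm X) V) : (Sop ρ).IsSymmetric := by
  intro v w
  unfold Sop
  rw [LinearMap.sum_apply, LinearMap.sum_apply, sum_inner, inner_sum]
  exact Finset.sum_congr rfl fun T _ => altOn_symm ρ T v w

theorem card_bad_le (Y : Finset X) (k : ℕ) (hY : Y.card = k) :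
    ((Finset.univ.filter (fun T : Finset X => T.card = 3 ∧ 2 ≤ (T ∩ Y).card)).card : ℝ) ≤
      (k : ℝ) ^ 2 / 2 * Fintype.card X := by
  have h1 : Finset.univ.filter (fun T : Finset X => T.card = 3 ∧ 2 ≤ (T ∩ Y).card) ⊆
      ((Y.powersetCard 2) ×ˢ (Finset.univ : Finset X)).image (fun z => insert z.2 z.1) := by
    intro T hT
    simp only [Finset.mem_filter, Finset.mem_univ, true_and] at hT
    obtain ⟨P, hP, hP2⟩ := Finset.exists_subset_card_eq hT.2
    have hPT : P ⊆ T := hP.trans Finset.inter_subset_left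
    have hPY : P ⊆ Y := hP.trans Finset.inter_subset_right
    have h2 : (T \ P).card = 1 := by
      rw [Finset.card_sdiff_of_subset hPT, hT.1, hP2]
    obtain ⟨z, hz⟩ := Finset.card_eq_one.mp h2
    rw [Finset.mem_image]
    refine ⟨(P, z), ?_, ?_⟩
    · rw [Finset.mem_product]
      exact ⟨Finset.mem_powersetCard.mpr ⟨hPY, hP2⟩, Finset.mem_univ _⟩
    · show insert z P = T
      have : T = (T \ P) ∪ P := (Finset.sdiff_union_of_subset hPT).symm
      rw [this, hz]
      rfl
  have h2 := (Finset.card_le_card h1).trans Finset.card_image_le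
  rw [Finset.card_product, Finset.card_powersetCard, Finset.card_univ, hY] at h2
  have h3 : ((Nat.choose k 2 : ℕ) : ℝ) ≤ (k : ℝ) ^ 2 / 2 := by
    rw [Nat.cast_choose_two]
    nlinarith [(Nat.cast_nonneg k : (0 : ℝ) ≤ k)]
  have h4 : ((Finset.univ.filter
      (fun T : Finset X => T.card = 3 ∧ 2 ≤ (T ∩ Y).card)).card : ℝ) ≤
      (Nat.choose k 2 : ℕ) * (Fintype.card X : ℝ) := by
    exact_mod_cast h2
  refine h4.trans ?_
  exact mul_le_mul_of_nonneg_right h3 (Nat.cast_nonneg _)

/-- [VAR2] -/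
theorem Sop_le [FiniteDimensional ℝ V] (ρ : ORep (Perm X) V) (k : ℕ) {v : V}
    (hv : v ∈ Vdeg ρ k) :
    inner ℝ (Sop ρ v) v ≤ (k : ℝ) ^ 2 / 2 * Fintype.card X * ‖v‖ ^ 2 := by
  have hsym : (-Sop ρ).IsSymmetric := by
    intro a b
    rw [LinearMap.neg_apply, LinearMap.neg_apply, inner_neg_left, inner_neg_right, Sop_symm ρ a b]
  have h := central_on_deg ρ k (-Sop ρ) hsym (fun g => (Sop_commute ρ g).neg_right)
    (-((k : ℝ) ^ 2 / 2 * Fintype.card X)) ?_ hv
  · rw [LinearMap.neg_apply, inner_neg_left] at h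
    linarith
  intro Y hY w hw
  rw [LinearMap.neg_apply, inner_neg_left, neg_mul, neg_le_neg_iff]
  unfold Sop
  rw [LinearMap.sum_apply, sum_inner]
  have hfix : ∀ a b : X, a ∉ Y → b ∉ Y → ρ.toHom (swap a b) w = w := by
    intro a b ha hb
    have h1 := avgOn_fixed ρ Yᶜ w (swap a b) (fun x hx => by
      have hxY : x ∈ Y := by simpa using hx
      apply swap_apply_of_ne_of_ne
      · rintro rfl; exact ha hxY
      · rintro rfl; exact hb hxY)
    rwa [hw] at h1
  have hzero : ∀ T ∈ Finset.univ.filter (fun T : Finset X => T.card = 3),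
      inner ℝ (altOn ρ T w) w ≤ if 2 ≤ (T ∩ Y).card then ‖w‖ ^ 2 else 0 := by
    intro T hT
    have hT3 : T.card = 3 := by simpa using hT
    by_cases h2 : 2 ≤ (T ∩ Y).card
    · rw [if_pos h2]; exact inner_altOn_le ρ T w
    · rw [if_neg h2]
      have h3 : 1 < (T \ Y).card := by
        have := Finset.card_sdiff_add_card_inter T Y
        omega
      obtain ⟨a, ha, b, hb, hab⟩ := Finset.one_lt_card.mp h3
      rw [Finset.mem_sdiff] at ha hb
      rw [altOn_eq_zero ρ ha.1 hb.1 hab (hfix a b ha.2 hb.2), inner_zero_left]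
  refine (Finset.sum_le_sum hzero).trans ?_
  rw [← Finset.sum_filter, Finset.filter_filter, Finset.sum_const, nsmul_eq_mul]
  exact mul_le_mul_of_nonneg_right (card_bad_le Y k hY) (by positivity)

theorem star_symm (ρ : ORep (Perm X) V) (p : X) (v w : V) :
    inner ℝ (star ρ p v) w = inner ℝ v (star ρ p w) := by
  unfold star
  simp only [LinearMap.sum_apply, LinearMap.sub_apply, sum_inner, inner_sum, inner_sub_left,
    inner_sub_right, ρ.inner_map_left, swap_inv, Module.End.one_apply]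

end gen

variable {X : Type} [Fintype X] [DecidableEq X] {V : Type} [NormedAddCommGroup V]
  [InnerProductSpace ℝ V]

/-- [VAR2] -/
theorem second_moment_Z [Nonempty X] [FiniteDimensional ℝ V] (ρ : ORep (Perm (X ⊕ X)) V)
    (k : ℕ) {v : V} {δ : ℝ} (hv : EH ρ v = v) (hw : Dop ρ v = δ • v) (hk : v ∈ Vdeg ρ k) :
    ‖Zop ρ v‖ ^ 2 ≤ (δ + (6 * δ + 9 * k ^ 2) / (2 * Fintype.card X)) * ‖v‖ ^ 2 := by
  have hn : (0 : ℝ) < 2 * Fintype.card X := by
    have := Fintype.card_pos (α := X)
    positivity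
  have hcard : (Fintype.card (X ⊕ X) : ℝ) = 2 * Fintype.card X := by
    rw [Fintype.card_sum]; push_cast; ring
  refine (norm_Zop_sq_le ρ hv hw).trans ?_
  have h1 : ∀ p : X ⊕ X, ‖∑ q : X ⊕ X, (v - ρ.toHom (swap p q) v)‖ ^ 2 =
      inner ℝ ((star ρ p * star ρ p) v) v := by
    intro p
    have h2 : ∑ q : X ⊕ X, (v - ρ.toHom (swap p q) v) = star ρ p v := by
      unfold star
      rw [LinearMap.sum_apply]
      rfl
    rw [h2, Module.End.mul_apply, star_symm, real_inner_self_eq_norm_sq]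
  have h3 : ∑ p : X ⊕ X, ‖∑ q : X ⊕ X, (v - ρ.toHom (swap p q) v)‖ ^ 2 =
      ((2 * Fintype.card X : ℝ) + 2) * ((2 * Fintype.card X : ℝ) * δ) * ‖v‖ ^ 2 +
        18 * inner ℝ (Sop ρ v) v := by
    simp_rw [h1]
    rw [← sum_inner, ← LinearMap.sum_apply, sum_star_sq, hcard, LinearMap.add_apply,
      LinearMap.smul_apply, LinearMap.smul_apply, Dop_eig_lap ρ hw, hcard, smul_smul,
      inner_add_left, inner_smul_left, inner_smul_left, real_inner_self_eq_norm_sq]
    simp only [conj_trivial]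
  have h4 := Sop_le ρ k hk
  rw [hcard] at h4
  rw [h3]
  have h5 : 1 / (2 * Fintype.card X : ℝ) ^ 2 *
      (((2 * Fintype.card X : ℝ) + 2) * ((2 * Fintype.card X : ℝ) * δ) * ‖v‖ ^ 2 +
        18 * inner ℝ (Sop ρ v) v + 4 * (2 * Fintype.card X) * δ * ‖v‖ ^ 2) ≤
      1 / (2 * Fintype.card X : ℝ) ^ 2 *
      (((2 * Fintype.card X : ℝ) + 2) * ((2 * Fintype.card X : ℝ) * δ) * ‖v‖ ^ 2 +
        18 * ((k : ℝ) ^ 2 / 2 * (2 * Fintype.card X) * ‖v‖ ^ 2) +
          4 * (2 * Fintype.card X) * δ * ‖v‖ ^ 2) := by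
    apply mul_le_mul_of_nonneg_left _ (by positivity)
    linarith
  refine h5.trans (le_of_eq ?_)
  field_simp
  ring

end Vale.Agent.P162T
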