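import Vale.Agent.P162T.Kill
import Vale.Agent.P162T.Var
import Vale.Agent.P162T.MomentY
import Vale.Agent.P162T.MomentZ

/-!
# P162 [SPL] The scalar data of one step

`SplitData n δ p a b`: everything we know about the joint law of `(a,b)` under the spectral measure
`p i = ‖vec i‖²/‖v‖²` of a vector `v` fixed by `E_H` with `D v = δ v` (`n` = number of cards `= 2N`).
`Y = δ - a - b`, `Z = a - b`.

Proof of `splitData_of`: `mgf`, `mgf_neg` = `mgfY`; `zmom` = `momentZ`; means: `E Y = ⟨Yv,v⟩/‖v‖² = 0` because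
`Yv = lev 2 (Yv)` is orthogonal to `v = lev 0 v`; same for `Z` (level 1); second moments:
`b = ½(δ - Y - Z)` and `(δ - Y - Z)v` has orthogonal parts `δ v` (level 0), `Yv` (level 2), `Zv` (level 1):
`E b² = ¼ (δ² + E Y² + E Z²) ≤ ¼ (δ² + 2δ/n + δ + (6δ+9k²)/n)` by `norm_Yop_sq_le`, `second_moment_Z`
(with `v ∈ Vdeg k` by `mem_Vdeg_of_lt`).  Same for `a = ½(δ - Y + Z)`.
`rate_of_split`: `rate_succ_of` + `top_step` + `splitData_of`, divide by `‖v‖²`.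
-/

open Equiv Finset

set_option linter.unusedSectionVars false

namespace Vale.Agent.P162T

structure SplitData (n δ : ℝ) {m : ℕ} (p a b : Fin m → ℝ) : Prop where
  p_nonneg : ∀ i, 0 ≤ p i
  p_sum : ∑ i, p i = 1
  a_nonneg : ∀ i, 0 ≤ a i
  b_nonneg : ∀ i, 0 ≤ b i
  mgf : ∀ s : ℝ, 0 ≤ s → 2 * Real.sqrt (δ / n) * (Real.exp (2 * s) - 1) ≤ 1 →
    ∑ i, p i * Real.exp (s * (δ - a i - b i)) ≤
      Real.exp (2 * (δ / n) * (Real.exp (2 * s) - 1 - 2 * s))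
  mgf_neg : ∀ s : ℝ, 0 ≤ s → 2 * Real.sqrt (δ / n) * (Real.exp (2 * s) - 1) ≤ 1 →
    ∑ i, p i * Real.exp (-(s * (δ - a i - b i))) ≤
      Real.exp (2 * (δ / n) * (Real.exp (2 * s) - 1 - 2 * s))
  zmom : ∀ j : ℕ, ∑ i, p i * (a i - b i) ^ (2 * j) ≤ (32 * δ) ^ j * (j.factorial : ℝ)
  mean_a : ∑ i, p i * a i = δ / 2
  mean_b : ∑ i, p i * b i = δ / 2
  ysq : ∑ i, p i * (δ - a i - b i) ^ 2 ≤ 2 * δ / n
  sq_a : ∀ k : ℕ, 2 * ((k : ℝ) + 1) ≤ n + 1 → δ < (k + 1 : ℝ) * (n - k) / n →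
    ∑ i, p i * a i ^ 2 ≤ (1 / 4) * (δ ^ 2 + δ + (8 * δ + 9 * k ^ 2) / n)
  sq_b : ∀ k : ℕ, 2 * ((k : ℝ) + 1) ≤ n + 1 → δ < (k + 1 : ℝ) * (n - k) / n →
    ∑ i, p i * b i ^ 2 ≤ (1 / 4) * (δ ^ 2 + δ + (8 * δ + 9 * k ^ 2) / n)

section SPL

theorem JD.inner_map_map {V : Type} [NormedAddCommGroup V] [InnerProductSpace ℝ V]
    {A B : V →ₗ[ℝ] V} {v : V} (J : JD A B v) {C C' : V →ₗ[ℝ] V} {c c' : Fin J.m → ℝ}
    (hC : ∀ i, C (J.vec i) = c i • J.vec i) (hC' : ∀ i, C' (J.vec i) = c' i • J.vec i) :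
    inner ℝ (C v) (C' v) = ∑ i, ‖J.vec i‖ ^ 2 * (c i * c' i) := by
  have h1 : C v = ∑ i, c i • J.vec i := by
    conv_lhs => rw [← J.sum]
    rw [map_sum]
    exact Finset.sum_congr rfl fun i _ => hC i
  have h2 : C' v = ∑ i, c' i • J.vec i := by
    conv_lhs => rw [← J.sum]
    rw [map_sum]
    exact Finset.sum_congr rfl fun i _ => hC' i
  rw [h1, h2, sum_inner]
  refine Finset.sum_congr rfl fun i _ => ?_
  rw [inner_sum, Finset.sum_eq_single i]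
  · rw [real_inner_smul_left, real_inner_smul_right, real_inner_self_eq_norm_sq]
    ring
  · intro j _ hj
    rw [real_inner_smul_left, real_inner_smul_right, J.orth i j hj.symm]
    ring
  · intro hi
    exact absurd (mem_univ i) hi

/-- different levels are orthogonal -/
theorem inner_lev_ne {X : Type} [Fintype X] [DecidableEq X] {V : Type} [NormedAddCommGroup V]
    [InnerProductSpace ℝ V] (ρ : ORep (Perm (X ⊕ X)) V) {m m' : ℕ} (h : m ≠ m') {x y : V}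
    (hx : lev ρ m x = x) (hy : lev ρ m' y = y) : inner ℝ x y = 0 := by
  rw [← hx, lev_symm ρ m x y, ← hy]
  have h1 := congrArg (fun T : V →ₗ[ℝ] V => T y) (lev_mul_lev ρ m m')
  rw [if_neg h] at h1
  simp only [Module.End.mul_apply] at h1
  rw [h1]
  simp

/-- [SPL] -/
theorem splitData_of {X : Type} [Fintype X] [DecidableEq X] [Nonempty X] {V : Type}
    [NormedAddCommGroup V] [InnerProductSpace ℝ V] [FiniteDimensional ℝ V]
    (ρ : ORep (Perm (X ⊕ X)) V) {v : V} {δ : ℝ} (hδ : 0 ≤ δ) (hv0 : v ≠ 0) (hv : EH ρ v = v)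
    (hw : Dop ρ v = δ • v) (J : JD (DL ρ) (DR ρ) v) :
    SplitData (2 * Fintype.card X) δ (fun i => ‖J.vec i‖ ^ 2 / ‖v‖ ^ 2) J.a J.b := by
  have hN : (0 : ℝ) < Fintype.card X := by exact_mod_cast Fintype.card_pos
  have hvp : 0 < ‖v‖ ^ 2 := by have := norm_pos_iff.mpr hv0; positivity
  have hdiv : ∀ f : Fin J.m → ℝ, ∑ i, ‖J.vec i‖ ^ 2 / ‖v‖ ^ 2 * f i =
      (∑ i, ‖J.vec i‖ ^ 2 * f i) / ‖v‖ ^ 2 := by
    intro f
    rw [Finset.sum_div]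
    exact Finset.sum_congr rfl fun i _ => by ring
  have hle : ∀ (f : Fin J.m → ℝ) (c : ℝ), ∑ i, ‖J.vec i‖ ^ 2 * f i ≤ c * ‖v‖ ^ 2 →
      ∑ i, ‖J.vec i‖ ^ 2 / ‖v‖ ^ 2 * f i ≤ c := by
    intro f c h
    rw [hdiv, div_le_iff₀ hvp]
    exact h
  have hY : ∀ i, Yop ρ (J.vec i) = (δ - J.a i - J.b i) • J.vec i := JD.Yop_vec ρ hw J
  have hZ : ∀ i, Zop ρ (J.vec i) = (J.a i - J.b i) • J.vec i := JD.Zop_vec ρ J
  have h0 : lev ρ 0 v = v := lev_zero_of_EH ρ hv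
  have h2 := Yop_lev_two ρ hv
  have h1 := Zop_lev_one ρ hv
  have hone : ∀ i, (1 : V →ₗ[ℝ] V) (J.vec i) = (1 : ℝ) • J.vec i := by
    intro i; simp
  have eY : ∑ i, ‖J.vec i‖ ^ 2 * (δ - J.a i - J.b i) = 0 := by
    have e := J.inner_map_map hY hone
    rw [Module.End.one_apply, inner_lev_ne ρ (by norm_num) h2 h0] at e
    rw [e]
    exact Finset.sum_congr rfl fun i _ => by ring
  have eZ : ∑ i, ‖J.vec i‖ ^ 2 * (J.a i - J.b i) = 0 := by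
    have e := J.inner_map_map hZ hone
    rw [Module.End.one_apply, inner_lev_ne ρ (by norm_num) h1 h0] at e
    rw [e]
    exact Finset.sum_congr rfl fun i _ => by ring
  have eYZ : ∑ i, ‖J.vec i‖ ^ 2 * ((δ - J.a i - J.b i) * (J.a i - J.b i)) = 0 := by
    rw [← J.inner_map_map hY hZ]
    exact inner_lev_ne ρ (by norm_num) h2 h1
  have eYY : ∑ i, ‖J.vec i‖ ^ 2 * (δ - J.a i - J.b i) ^ 2 = ‖Yop ρ v‖ ^ 2 := by
    have e := J.inner_map_map hY hY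
    rw [real_inner_self_eq_norm_sq] at e
    rw [e]
    exact Finset.sum_congr rfl fun i _ => by ring
  have eZZ : ∑ i, ‖J.vec i‖ ^ 2 * (J.a i - J.b i) ^ 2 = ‖Zop ρ v‖ ^ 2 := by
    have e := J.inner_map_map hZ hZ
    rw [real_inner_self_eq_norm_sq] at e
    rw [e]
    exact Finset.sum_congr rfl fun i _ => by ring
  have eS := J.norm_sq
  have bY := norm_Yop_sq_le ρ hδ hv hw
  have hsum2 : ∀ k : ℕ, 2 * ((k : ℝ) + 1) ≤ 2 * (Fintype.card X : ℝ) + 1 →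
      δ < (k + 1 : ℝ) * (2 * (Fintype.card X : ℝ) - k) / (2 * (Fintype.card X : ℝ)) →
      ‖Yop ρ v‖ ^ 2 + ‖Zop ρ v‖ ^ 2 ≤
        (δ + (8 * δ + 9 * k ^ 2) / (2 * (Fintype.card X : ℝ))) * ‖v‖ ^ 2 := by
    intro k hk hk'
    have hcard : (Fintype.card (X ⊕ X) : ℝ) = 2 * (Fintype.card X : ℝ) := by
      rw [Fintype.card_sum]; push_cast; ring
    have hkN : 2 * (k + 1) ≤ Fintype.card (X ⊕ X) + 1 := by
      rw [Fintype.card_sum]
      have : ((2 * (k + 1) : ℕ) : ℝ) ≤ ((Fintype.card X + Fintype.card X + 1 : ℕ) : ℝ) := by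
        push_cast; linarith
      exact_mod_cast this
    have hmem : v ∈ Vdeg ρ k := by
      refine mem_Vdeg_of_lt ρ k hkN hw ?_
      rw [hcard]; exact hk'
    have bZ := second_moment_Z ρ k hv hw hmem
    have e1 : (δ + (8 * δ + 9 * k ^ 2) / (2 * (Fintype.card X : ℝ))) * ‖v‖ ^ 2 =
        δ / Fintype.card X * ‖v‖ ^ 2 +
          (δ + (6 * δ + 9 * k ^ 2) / (2 * Fintype.card X)) * ‖v‖ ^ 2 := by
      field_simp
      ring
    rw [e1]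
    exact add_le_add bY bZ
  refine ⟨fun i => by positivity, ?_, fun i => JD.a_nonneg ρ J i, fun i => JD.b_nonneg ρ J i,
    ?_, ?_, ?_, ?_, ?_, ?_, ?_, ?_⟩
  · have := hdiv (fun _ => 1)
    simp only [mul_one] at this
    rw [this, eS, div_self hvp.ne']
  · intro s hs hs1
    refine hle _ _ ?_
    have := mgfY ρ hδ hv hw J hs hs1 (ε := 1) (Or.inl rfl)
    simpa using this
  · intro s hs hs1
    refine hle _ _ ?_
    have := mgfY ρ hδ hv hw J hs hs1 (ε := -1) (Or.inr rfl)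
    refine le_trans (le_of_eq ?_) this
    refine Finset.sum_congr rfl fun i _ => ?_
    congr 2
    ring
  · intro j
    exact hle _ _ (momentZ ρ hδ hv hw J j)
  · rw [hdiv, div_eq_iff hvp.ne']
    have e1 : ∑ i, ‖J.vec i‖ ^ 2 * J.a i = (1 / 2) * (δ * ∑ i, ‖J.vec i‖ ^ 2
        - ∑ i, ‖J.vec i‖ ^ 2 * (δ - J.a i - J.b i) + ∑ i, ‖J.vec i‖ ^ 2 * (J.a i - J.b i)) := by
      rw [Finset.mul_sum, ← Finset.sum_sub_distrib, ← Finset.sum_add_distrib, Finset.mul_sum]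
      exact Finset.sum_congr rfl fun i _ => by ring
    rw [e1, eY, eZ, eS]; ring
  · rw [hdiv, div_eq_iff hvp.ne']
    have e1 : ∑ i, ‖J.vec i‖ ^ 2 * J.b i = (1 / 2) * (δ * ∑ i, ‖J.vec i‖ ^ 2
        - ∑ i, ‖J.vec i‖ ^ 2 * (δ - J.a i - J.b i) - ∑ i, ‖J.vec i‖ ^ 2 * (J.a i - J.b i)) := by
      rw [Finset.mul_sum, ← Finset.sum_sub_distrib, ← Finset.sum_sub_distrib, Finset.mul_sum]
      exact Finset.sum_congr rfl fun i _ => by ring
    rw [e1, eY, eZ, eS]; ring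
  · refine hle _ _ ?_
    rw [eYY]
    refine bY.trans (le_of_eq ?_)
    field_simp
  · intro k hk hk'
    refine hle _ _ ?_
    have e1 : ∑ i, ‖J.vec i‖ ^ 2 * J.a i ^ 2 = (1 / 4) * (δ ^ 2 * ∑ i, ‖J.vec i‖ ^ 2
        + ∑ i, ‖J.vec i‖ ^ 2 * (δ - J.a i - J.b i) ^ 2
        + ∑ i, ‖J.vec i‖ ^ 2 * (J.a i - J.b i) ^ 2
        - 2 * δ * ∑ i, ‖J.vec i‖ ^ 2 * (δ - J.a i - J.b i)
        + 2 * δ * ∑ i, ‖J.vec i‖ ^ 2 * (J.a i - J.b i)
        - 2 * ∑ i, ‖J.vec i‖ ^ 2 * ((δ - J.a i - J.b i) * (J.a i - J.b i))) := by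
      simp only [Finset.mul_sum, ← Finset.sum_sub_distrib, ← Finset.sum_add_distrib]
      exact Finset.sum_congr rfl fun i _ => by ring
    rw [e1, eY, eZ, eYZ, eYY, eZZ, eS]
    have := hsum2 k hk hk'
    nlinarith
  · intro k hk hk'
    refine hle _ _ ?_
    have e1 : ∑ i, ‖J.vec i‖ ^ 2 * J.b i ^ 2 = (1 / 4) * (δ ^ 2 * ∑ i, ‖J.vec i‖ ^ 2
        + ∑ i, ‖J.vec i‖ ^ 2 * (δ - J.a i - J.b i) ^ 2
        + ∑ i, ‖J.vec i‖ ^ 2 * (J.a i - J.b i) ^ 2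
        - 2 * δ * ∑ i, ‖J.vec i‖ ^ 2 * (δ - J.a i - J.b i)
        - 2 * δ * ∑ i, ‖J.vec i‖ ^ 2 * (J.a i - J.b i)
        + 2 * ∑ i, ‖J.vec i‖ ^ 2 * ((δ - J.a i - J.b i) * (J.a i - J.b i))) := by
      simp only [Finset.mul_sum, ← Finset.sum_sub_distrib, ← Finset.sum_add_distrib]
      exact Finset.sum_congr rfl fun i _ => by ring
    rw [e1, eY, eZ, eYZ, eYY, eZZ, eS]
    have := hsum2 k hk hk'
    nlinarith

/-- [SPL] -/
theorem rate_of_split {d : ℕ} {q q' : ℝ → ℝ} (hq : Rate d q) (hq0 : ∀ x, 0 ≤ q x)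
    (hq'0 : ∀ x, 0 ≤ q' x)
    (h : ∀ (δ : ℝ) (m : ℕ) (p a b : Fin m → ℝ), 0 ≤ δ → δ < 2 ^ (d + 1) →
      SplitData (2 ^ (d + 1)) δ p a b → ∑ i, p i * (q (a i) * q (b i)) ≤ q' δ) :
    Rate (d + 1) q' := by
  have hne : Nonempty (Cube d) := by
    rw [← Fintype.card_pos_iff, card_cube]
    positivity
  refine rate_succ_of hq'0 ?_
  intro V _ _ _ ρ v δ hw hv0 hv
  have hδ : 0 ≤ δ := Dop_eig_nonneg ρ hv0 hw
  have hδ' : δ < 2 ^ (d + 1) := by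
    have := Dop_eig_lt ρ hv0 hw
    rw [Fintype.card_sum, card_cube] at this
    push_cast at this
    rw [pow_succ]; linarith
  obtain ⟨J⟩ := JD_exists (DL_symm ρ) (DR_symm ρ) (DL_commute_DR ρ) v
  have hS := splitData_of ρ hδ hv0 hv hw J
  have hcard : (2 * (Fintype.card (Cube d) : ℝ)) = 2 ^ (d + 1) := by
    rw [card_cube]; push_cast; ring
  rw [hcard] at hS
  have h1 := h δ J.m _ _ _ hδ hδ' hS
  have h2 := top_step hq hq0 ρ hv J
  have hvp : 0 < ‖v‖ ^ 2 := by have := norm_pos_iff.mpr hv0; positivity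
  refine h2.trans ?_
  have h3 : ∑ i, ‖J.vec i‖ ^ 2 * (q (J.a i) * q (J.b i)) =
      (∑ i, ‖J.vec i‖ ^ 2 / ‖v‖ ^ 2 * (q (J.a i) * q (J.b i))) * ‖v‖ ^ 2 := by
    rw [Finset.sum_mul]
    refine Finset.sum_congr rfl fun i _ => ?_
    field_simp
  rw [h3]
  exact mul_le_mul_of_nonneg_right h1 hvp.le

end SPL

end Vale.Agent.P162T
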