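import Vale.Agent.P162T.Split

/-!
# P162 [SC] Consequences of `SplitData` (pure finite probability)

`x = δ/n`, `Y = δ - a - b`, `Z = a - b`.
* `p00_le`: on `a = b = 0`: `Y = δ`; Markov with `mgf` and `e^{2s} = 1 + 1/(2√x)`:
  `P ≤ exp(-sδ + 2x(e^{2s}-1)) ≤ exp(√x) (4x)^{δ/4}`, because `s = ½ log(1+1/(2√x)) ≥ ¼ log(1/(4x))`.
* `pb_le`: Cauchy-Schwarz `(δ/2)² = (E[b; b≠0])² ≤ E b² (1 - P(b=0))`.
* `pb_le_exp`: on `b = 0`: `Y + Z = δ`; `P ≤ e^{-uδ} E e^{uY} e^{uZ} ≤ e^{-uδ} √(E e^{2uY}) √(E e^{2uZ})`, `u = 1/64`,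
  `E e^{2uY} ≤ exp(2x(e^{1/16} - 1 - 1/16))`, `E e^{2uZ} ≤ 2 E cosh(2uZ) = 2 ∑_j (2u)^{2j} E Z^{2j}/(2j)! ≤ 2 e^{64 u² δ}`
  since `j!/(2j)! ≤ 1/(2^j j!)`.
* `gauss_le`: `E e^{θZ²/δ} = ∑_j θ^j E Z^{2j}/(δ^j j!) ≤ ∑_j (32θ)^j`.
* `expY_le`: `E e^{s Y⁺} ≤ 1 + E e^{sY} ≤ 4` when `2√x(e^{2s}-1) ≤ 1` and `2x e^{2s} ≤ 1`.
-/

open Equiv Finset

namespace Vale.Agent.P162T

variable {n δ : ℝ} {m : ℕ} {p a b : Fin m → ℝ}

/-- exchange of `a` and `b` -/
theorem SplitData.swap (h : SplitData n δ p a b) : SplitData n δ p b a where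
  p_nonneg := h.p_nonneg
  p_sum := h.p_sum
  a_nonneg := h.b_nonneg
  b_nonneg := h.a_nonneg
  mgf s hs hs' := by
    have := h.mgf s hs hs'
    have he : ∀ i, δ - b i - a i = δ - a i - b i := fun i => by ring
    simpa only [he] using this
  mgf_neg s hs hs' := by
    have := h.mgf_neg s hs hs'
    have he : ∀ i, δ - b i - a i = δ - a i - b i := fun i => by ring
    simpa only [he] using this
  zmom j := by
    have := h.zmom j
    have he : ∀ i, (b i - a i) ^ (2 * j) = (a i - b i) ^ (2 * j) := fun i => by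
      rw [pow_mul, pow_mul]; congr 1; ring
    simpa only [he] using this
  mean_a := h.mean_b
  mean_b := h.mean_a
  ysq := by
    have := h.ysq
    have he : ∀ i, δ - b i - a i = δ - a i - b i := fun i => by ring
    simpa only [he] using this
  sq_a := h.sq_b
  sq_b := h.sq_a

/-- [SC] -/
theorem SplitData.p00_le (h : SplitData n δ p a b) (hn : 0 < n) (hδ : 0 < δ) (_hx : 4 * δ ≤ n) :
    ∑ i ∈ Finset.univ.filter (fun i => a i = 0 ∧ b i = 0), p i ≤
      Real.exp (Real.sqrt (δ / n)) * (4 * (δ / n)) ^ (δ / 4) := by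
  have hxp : 0 < δ / n := div_pos hδ hn
  have hsq : 0 < Real.sqrt (δ / n) := Real.sqrt_pos.mpr hxp
  have hss : Real.sqrt (δ / n) * Real.sqrt (δ / n) = δ / n := Real.mul_self_sqrt hxp.le
  set r := Real.sqrt (δ / n) with hr
  have hA : 0 < 1 + 1 / (2 * r) := by positivity
  set s : ℝ := Real.log (1 + 1 / (2 * r)) / 2 with hs
  have hs0 : 0 ≤ s := by
    rw [hs]
    have : 0 ≤ Real.log (1 + 1 / (2 * r)) := by
      apply Real.log_nonneg
      have : 0 < 1 / (2 * r) := by positivity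
      linarith
    linarith
  have he2s : Real.exp (2 * s) = 1 + 1 / (2 * r) := by
    rw [hs, mul_div_cancel₀ _ (two_ne_zero), Real.exp_log hA]
  have hcond : 2 * r * (Real.exp (2 * s) - 1) ≤ 1 := by
    rw [he2s]
    have : 2 * r * (1 + 1 / (2 * r) - 1) = 1 := by
      field_simp
      ring
    exact this.le
  have hm := h.mgf s hs0 hcond
  -- Markov
  have h1 : Real.exp (s * δ) * ∑ i ∈ Finset.univ.filter (fun i => a i = 0 ∧ b i = 0), p i ≤
      ∑ i, p i * Real.exp (s * (δ - a i - b i)) := by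
    rw [Finset.mul_sum]
    calc ∑ i ∈ Finset.univ.filter (fun i => a i = 0 ∧ b i = 0), Real.exp (s * δ) * p i
        = ∑ i ∈ Finset.univ.filter (fun i => a i = 0 ∧ b i = 0),
            p i * Real.exp (s * (δ - a i - b i)) := by
          apply Finset.sum_congr rfl
          intro i hi
          rw [Finset.mem_filter] at hi
          rw [hi.2.1, hi.2.2]
          rw [mul_comm]
          congr 2
          ring
      _ ≤ ∑ i, p i * Real.exp (s * (δ - a i - b i)) := by
          apply Finset.sum_le_sum_of_subset_of_nonneg (Finset.filter_subset _ _)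
          intro i _ _
          exact mul_nonneg (h.p_nonneg i) (Real.exp_pos _).le
  have h2 : 2 * (δ / n) * (Real.exp (2 * s) - 1 - 2 * s) ≤ r := by
    rw [he2s]
    have h3 : 2 * (δ / n) * (1 + 1 / (2 * r) - 1 - 2 * s) =
        2 * (δ / n) * (1 / (2 * r)) - 4 * (δ / n) * s := by ring
    have h4 : 2 * (δ / n) * (1 / (2 * r)) = r := by
      rw [← hss]; field_simp
    rw [h3, h4]
    have : 0 ≤ 4 * (δ / n) * s := by positivity
    linarith
  have h5 : Real.exp (-(s * δ)) ≤ (4 * (δ / n)) ^ (δ / 4) := by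
    have h4x : 0 < 4 * (δ / n) := by positivity
    rw [Real.rpow_def_of_pos h4x]
    apply Real.exp_le_exp.mpr
    have h6 : -(Real.log (4 * (δ / n))) / 2 ≤ Real.log (1 + 1 / (2 * r)) := by
      have h7 : Real.log (4 * (δ / n)) = 2 * Real.log (2 * r) := by
        have : 4 * (δ / n) = (2 * r) * (2 * r) := by rw [← hss]; ring
        rw [this, Real.log_mul (by positivity) (by positivity)]
        ring
      rw [h7]
      have h8 : -(2 * Real.log (2 * r)) / 2 = Real.log (1 / (2 * r)) := by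
        rw [one_div, Real.log_inv]; ring
      rw [h8]
      apply Real.log_le_log (by positivity)
      linarith
    have h9 : s = Real.log (1 + 1 / (2 * r)) / 2 := hs
    nlinarith
  have h10 : ∑ i ∈ Finset.univ.filter (fun i => a i = 0 ∧ b i = 0), p i ≤
      Real.exp (-(s * δ)) * Real.exp r := by
    have h11 : Real.exp (s * δ) * ∑ i ∈ Finset.univ.filter (fun i => a i = 0 ∧ b i = 0), p i ≤
        Real.exp r := h1.trans (hm.trans (Real.exp_le_exp.mpr h2))
    have h12 : 0 < Real.exp (s * δ) := Real.exp_pos _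
    rw [Real.exp_neg, inv_mul_eq_div, le_div_iff₀ h12, mul_comm]
    exact h11
  calc ∑ i ∈ Finset.univ.filter (fun i => a i = 0 ∧ b i = 0), p i
      ≤ Real.exp (-(s * δ)) * Real.exp r := h10
    _ ≤ (4 * (δ / n)) ^ (δ / 4) * Real.exp r :=
        mul_le_mul_of_nonneg_right h5 (Real.exp_pos _).le
    _ = Real.exp r * (4 * (δ / n)) ^ (δ / 4) := mul_comm _ _

/-- [SC] -/
theorem SplitData.pb_le (h : SplitData n δ p a b) (hn : 0 < n) (hδ : 0 < δ) (k : ℕ)
    (hk : 2 * ((k : ℝ) + 1) ≤ n + 1) (hk' : δ < (k + 1 : ℝ) * (n - k) / n) :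
    ∑ i ∈ Finset.univ.filter (fun i => b i = 0), p i ≤
      1 - δ ^ 2 / (δ ^ 2 + δ + (8 * δ + 9 * k ^ 2) / n) := by
  have hsb := h.sq_b k hk hk'
  set P0 := ∑ i ∈ Finset.univ.filter (fun i => b i = 0), p i with hP0
  set P1 := ∑ i ∈ Finset.univ.filter (fun i => ¬ b i = 0), p i with hP1
  have hsum : P0 + P1 = 1 := by
    rw [hP0, hP1, Finset.sum_filter_add_sum_filter_not]
    exact h.p_sum
  have hP1n : 0 ≤ P1 := Finset.sum_nonneg (fun i _ => h.p_nonneg i)
  -- Cauchy-Schwarz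
  have hcs : (δ / 2) ^ 2 ≤ (∑ i, p i * b i ^ 2) * P1 := by
    have h1 : δ / 2 = ∑ i ∈ Finset.univ.filter (fun i => ¬ b i = 0), p i * b i := by
      rw [← h.mean_b, ← Finset.sum_filter_add_sum_filter_not Finset.univ (fun i => b i = 0)]
      have : ∑ x ∈ Finset.univ.filter (fun i => b i = 0), p x * b x = 0 := by
        apply Finset.sum_eq_zero
        intro i hi
        rw [Finset.mem_filter] at hi
        rw [hi.2, mul_zero]
      rw [this, zero_add]
    have h2 : (∑ i ∈ Finset.univ.filter (fun i => ¬ b i = 0), p i * b i) ^ 2 ≤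
        (∑ i ∈ Finset.univ.filter (fun i => ¬ b i = 0), p i * b i ^ 2) *
        (∑ i ∈ Finset.univ.filter (fun i => ¬ b i = 0), p i) := by
      apply Finset.sum_sq_le_sum_mul_sum_of_sq_le_mul
      · intro i _
        exact mul_nonneg (h.p_nonneg i) (sq_nonneg _)
      · intro i _
        exact h.p_nonneg i
      · intro i _
        apply le_of_eq
        ring
    rw [h1]
    refine h2.trans ?_
    apply mul_le_mul_of_nonneg_right _ hP1n
    apply Finset.sum_le_sum_of_subset_of_nonneg (Finset.filter_subset _ _)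
    intro i _ _
    exact mul_nonneg (h.p_nonneg i) (sq_nonneg _)
  have hB : 0 < δ ^ 2 + δ + (8 * δ + 9 * (k : ℝ) ^ 2) / n := by positivity
  have h3 : (δ / 2) ^ 2 ≤ (1 / 4) * (δ ^ 2 + δ + (8 * δ + 9 * (k : ℝ) ^ 2) / n) * P1 :=
    hcs.trans (mul_le_mul_of_nonneg_right hsb hP1n)
  have h4 : δ ^ 2 / (δ ^ 2 + δ + (8 * δ + 9 * (k : ℝ) ^ 2) / n) ≤ P1 := by
    rw [div_le_iff₀ hB]
    nlinarith
  linarith

/-- [SC] -/
theorem SplitData.pa_le (h : SplitData n δ p a b) (hn : 0 < n) (hδ : 0 < δ) (k : ℕ)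
    (hk : 2 * ((k : ℝ) + 1) ≤ n + 1) (hk' : δ < (k + 1 : ℝ) * (n - k) / n) :
    ∑ i ∈ Finset.univ.filter (fun i => a i = 0), p i ≤
      1 - δ ^ 2 / (δ ^ 2 + δ + (8 * δ + 9 * k ^ 2) / n) :=
  h.swap.pb_le hn hδ k hk hk'

/-- `j! 2^j j! ≤ (2j)!` -/
theorem fact_aux (j : ℕ) : (2 : ℝ) ^ j * (j.factorial : ℝ) * (j.factorial : ℝ) ≤
    ((2 * j).factorial : ℝ) := by
  have h2 : 2 ^ j * j.factorial * j.factorial ≤ (2 * j).factorial := by
    induction j with
    | zero => simp
    | succ j ih =>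
      have e1 : (2 * (j + 1)).factorial = (2 * j + 2) * ((2 * j + 1) * (2 * j).factorial) := by
        rw [show 2 * (j + 1) = (2 * j + 1) + 1 by ring, Nat.factorial_succ, Nat.factorial_succ]
      rw [e1, Nat.factorial_succ, pow_succ]
      calc 2 ^ j * 2 * ((j + 1) * j.factorial) * ((j + 1) * j.factorial)
          = (2 * (j + 1) * (j + 1)) * (2 ^ j * j.factorial * j.factorial) := by ring
        _ ≤ (2 * (j + 1) * (j + 1)) * (2 * j).factorial := Nat.mul_le_mul_left _ ih
        _ ≤ (2 * (j + 1) * (2 * j + 1)) * (2 * j).factorial := by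
            apply Nat.mul_le_mul_right
            apply Nat.mul_le_mul_left
            omega
        _ = (2 * j + 2) * ((2 * j + 1) * (2 * j).factorial) := by ring
  exact_mod_cast h2

/-- exponential moment of `Z` -/
theorem SplitData.expZ_le (h : SplitData n δ p a b) (hδ : 0 < δ) (t : ℝ) :
    ∑ i, p i * Real.exp (t * (a i - b i)) ≤ 2 * Real.exp (16 * t ^ 2 * δ) := by
  have h1 : ∑ i, p i * Real.exp (t * (a i - b i)) ≤
      2 * ∑ i, p i * Real.cosh (t * (a i - b i)) := by
    rw [Finset.mul_sum]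
    apply Finset.sum_le_sum
    intro i _
    rw [Real.cosh_eq]
    have hp := h.p_nonneg i
    have he : 0 ≤ Real.exp (-(t * (a i - b i))) := (Real.exp_pos _).le
    nlinarith [mul_nonneg hp he]
  have h2 : HasSum (fun j : ℕ => ∑ i, p i * ((t * (a i - b i)) ^ (2 * j) / ((2 * j).factorial : ℝ)))
      (∑ i, p i * Real.cosh (t * (a i - b i))) := by
    apply hasSum_sum
    intro i _
    exact (Real.hasSum_cosh _).mul_left _
  have h3 : HasSum (fun j : ℕ => (16 * t ^ 2 * δ) ^ j / (j.factorial : ℝ))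
      (Real.exp (16 * t ^ 2 * δ)) := by
    rw [Real.exp_eq_exp_ℝ]
    exact NormedSpace.expSeries_div_hasSum_exp _
  have h4 : ∑ i, p i * Real.cosh (t * (a i - b i)) ≤ Real.exp (16 * t ^ 2 * δ) := by
    apply hasSum_le _ h2 h3
    intro j
    have e1 : ∑ i, p i * ((t * (a i - b i)) ^ (2 * j) / ((2 * j).factorial : ℝ)) =
        t ^ (2 * j) / ((2 * j).factorial : ℝ) * ∑ i, p i * (a i - b i) ^ (2 * j) := by
      rw [Finset.mul_sum]
      apply Finset.sum_congr rfl
      intro i _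
      rw [mul_pow]; ring
    rw [e1]
    have hf : (0 : ℝ) < ((2 * j).factorial : ℝ) := by positivity
    have hj : (0 : ℝ) < (j.factorial : ℝ) := by positivity
    have ht : 0 ≤ t ^ (2 * j) := by rw [pow_mul]; positivity
    calc t ^ (2 * j) / ((2 * j).factorial : ℝ) * ∑ i, p i * (a i - b i) ^ (2 * j)
        ≤ t ^ (2 * j) / ((2 * j).factorial : ℝ) * ((32 * δ) ^ j * (j.factorial : ℝ)) :=
          mul_le_mul_of_nonneg_left (h.zmom j) (by positivity)
      _ ≤ (16 * t ^ 2 * δ) ^ j / (j.factorial : ℝ) := by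
          have e2 : (16 * t ^ 2 * δ) ^ j * 2 ^ j = t ^ (2 * j) * (32 * δ) ^ j := by
            rw [← mul_pow, pow_mul, ← mul_pow]
            congr 1
            ring
          rw [div_mul_eq_mul_div, div_le_div_iff₀ hf hj]
          have e3 : t ^ (2 * j) * ((32 * δ) ^ j * (j.factorial : ℝ)) * (j.factorial : ℝ) =
              (16 * t ^ 2 * δ) ^ j * (2 ^ j * (j.factorial : ℝ) * (j.factorial : ℝ)) := by
            calc t ^ (2 * j) * ((32 * δ) ^ j * (j.factorial : ℝ)) * (j.factorial : ℝ)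
                = (t ^ (2 * j) * (32 * δ) ^ j) * ((j.factorial : ℝ) * (j.factorial : ℝ)) := by ring
              _ = ((16 * t ^ 2 * δ) ^ j * 2 ^ j) * ((j.factorial : ℝ) * (j.factorial : ℝ)) := by
                  rw [e2]
              _ = _ := by ring
          rw [e3]
          apply mul_le_mul_of_nonneg_left (fact_aux j)
          positivity
  linarith

/-- [SC] -/
theorem SplitData.pb_le_exp (h : SplitData n δ p a b) (hn : 0 < n) (hδ : 0 < δ) (hx : δ ≤ n) :
    ∑ i ∈ Finset.univ.filter (fun i => b i = 0), p i ≤ 3 / 2 * Real.exp (-(δ / 128)) := by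
  have hx1 : δ / n ≤ 1 := by rw [div_le_one hn]; exact hx
  have hx0 : 0 ≤ δ / n := by positivity
  have hr1 : Real.sqrt (δ / n) ≤ 1 := by
    exact Real.sqrt_le_one.mpr hx1
  have he : Real.exp (1 / 16) - 1 - 1 / 16 ≤ 1 / 400 := by
    have := Real.exp_bound' (x := 1 / 16) (by norm_num) (by norm_num) (n := 3) (by norm_num)
    norm_num [Finset.sum_range_succ, Nat.factorial] at this
    linarith
  have he' : Real.exp (2 * (1 / 32)) = Real.exp (1 / 16) := by norm_num
  have hm : ∑ i, p i * Real.exp (1 / 32 * (δ - a i - b i)) ≤ Real.exp (1 / 200) := by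
    refine (h.mgf (1 / 32) (by norm_num) ?_).trans ?_
    · rw [he']
      have h0 : 0 ≤ Real.sqrt (δ / n) := Real.sqrt_nonneg _
      have h1 : Real.exp (1 / 16) - 1 ≤ 1 / 2 := by linarith
      nlinarith
    · apply Real.exp_le_exp.mpr
      rw [he']
      have h1 : 0 ≤ Real.exp (1 / 16) - 1 - 2 * (1 / 32) := by
        have := Real.add_one_le_exp ((1 : ℝ) / 16)
        linarith
      nlinarith
  have hz := h.expZ_le hδ (1 / 32)
  -- Markov and Cauchy-Schwarz
  have h1 : Real.exp (δ / 64) * ∑ i ∈ Finset.univ.filter (fun i => b i = 0), p i ≤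
      ∑ i, p i * (Real.exp (1 / 64 * (δ - a i - b i)) * Real.exp (1 / 64 * (a i - b i))) := by
    rw [Finset.mul_sum]
    calc ∑ i ∈ Finset.univ.filter (fun i => b i = 0), Real.exp (δ / 64) * p i
        = ∑ i ∈ Finset.univ.filter (fun i => b i = 0),
            p i * (Real.exp (1 / 64 * (δ - a i - b i)) * Real.exp (1 / 64 * (a i - b i))) := by
          apply Finset.sum_congr rfl
          intro i hi
          rw [Finset.mem_filter] at hi
          rw [hi.2, mul_comm, ← Real.exp_add]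
          congr 2
          ring
      _ ≤ _ := by
          apply Finset.sum_le_sum_of_subset_of_nonneg (Finset.filter_subset _ _)
          intro i _ _
          exact mul_nonneg (h.p_nonneg i) (by positivity)
  have h2 : (∑ i, p i * (Real.exp (1 / 64 * (δ - a i - b i)) * Real.exp (1 / 64 * (a i - b i)))) ^ 2
      ≤ (∑ i, p i * Real.exp (1 / 32 * (δ - a i - b i))) *
        (∑ i, p i * Real.exp (1 / 32 * (a i - b i))) := by
    apply Finset.sum_sq_le_sum_mul_sum_of_sq_le_mul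
    · intro i _
      exact mul_nonneg (h.p_nonneg i) (by positivity)
    · intro i _
      exact mul_nonneg (h.p_nonneg i) (by positivity)
    · intro i _
      apply le_of_eq
      have e1 : Real.exp (1 / 64 * (δ - a i - b i)) ^ 2 = Real.exp (1 / 32 * (δ - a i - b i)) := by
        rw [← Real.exp_nat_mul]; congr 1; push_cast; ring
      have e2 : Real.exp (1 / 64 * (a i - b i)) ^ 2 = Real.exp (1 / 32 * (a i - b i)) := by
        rw [← Real.exp_nat_mul]; congr 1; push_cast; ring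
      rw [mul_pow, mul_pow, e1, e2]
      ring
  set P0 := ∑ i ∈ Finset.univ.filter (fun i => b i = 0), p i with hP0
  have hP0n : 0 ≤ P0 := Finset.sum_nonneg (fun i _ => h.p_nonneg i)
  have h3 : (Real.exp (δ / 64) * P0) ^ 2 ≤ Real.exp (1 / 200) * (2 * Real.exp (δ / 64)) := by
    calc (Real.exp (δ / 64) * P0) ^ 2
        ≤ (∑ i, p i * (Real.exp (1 / 64 * (δ - a i - b i)) *
            Real.exp (1 / 64 * (a i - b i)))) ^ 2 := by
          apply pow_le_pow_left₀ (by positivity) h1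
      _ ≤ _ := h2
      _ ≤ Real.exp (1 / 200) * (2 * Real.exp (16 * (1 / 32) ^ 2 * δ)) := by
          apply mul_le_mul hm hz _ (Real.exp_pos _).le
          apply Finset.sum_nonneg
          intro i _
          exact mul_nonneg (h.p_nonneg i) (by positivity)
      _ = _ := by
          congr 3
          ring
  have h4 : P0 ^ 2 ≤ (3 / 2 * Real.exp (-(δ / 128))) ^ 2 := by
    have e1 : (Real.exp (δ / 64) * P0) ^ 2 = Real.exp (δ / 64) * (Real.exp (δ / 64) * P0 ^ 2) := by
      ring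
    have e2 : Real.exp (1 / 200) * (2 * Real.exp (δ / 64)) =
        Real.exp (δ / 64) * (2 * Real.exp (1 / 200)) := by ring
    rw [e1, e2] at h3
    have h5 : Real.exp (δ / 64) * P0 ^ 2 ≤ 2 * Real.exp (1 / 200) :=
      le_of_mul_le_mul_left h3 (Real.exp_pos _)
    have e3 : (3 / 2 * Real.exp (-(δ / 128))) ^ 2 = 9 / 4 * (Real.exp (δ / 64))⁻¹ := by
      rw [mul_pow, ← Real.exp_nat_mul, ← Real.exp_neg]
      congr 1
      · norm_num
      · congr 1; push_cast; ring
    rw [e3, ← div_eq_mul_inv, le_div_iff₀ (Real.exp_pos _), mul_comm]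
    have h6 : Real.exp (1 / 200) ≤ 9 / 8 := by
      have := Real.exp_bound' (x := 1 / 200) (by norm_num) (by norm_num) (n := 2) (by norm_num)
      norm_num [Finset.sum_range_succ, Nat.factorial] at this
      linarith
    linarith
  exact (pow_le_pow_iff_left₀ hP0n (by positivity) two_ne_zero).mp h4

/-- [SC] -/
theorem SplitData.pa_le_exp (h : SplitData n δ p a b) (hn : 0 < n) (hδ : 0 < δ) (hx : δ ≤ n) :
    ∑ i ∈ Finset.univ.filter (fun i => a i = 0), p i ≤ 3 / 2 * Real.exp (-(δ / 128)) :=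
  h.swap.pb_le_exp hn hδ hx

/-- [SC] -/
theorem SplitData.gauss_le (h : SplitData n δ p a b) (hδ : 0 < δ) {θ : ℝ} (hθ : 0 ≤ θ)
    (hθ1 : θ < 1 / 32) :
    ∑ i, p i * Real.exp (θ * (a i - b i) ^ 2 / δ) ≤ 1 / (1 - 32 * θ) := by
  have h2 : HasSum (fun j : ℕ => ∑ i, p i * ((θ * (a i - b i) ^ 2 / δ) ^ j / (j.factorial : ℝ)))
      (∑ i, p i * Real.exp (θ * (a i - b i) ^ 2 / δ)) := by
    apply hasSum_sum
    intro i _
    apply HasSum.mul_left
    rw [Real.exp_eq_exp_ℝ]
    exact NormedSpace.expSeries_div_hasSum_exp _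
  have h3 : HasSum (fun j : ℕ => (32 * θ) ^ j) (1 - 32 * θ)⁻¹ :=
    hasSum_geometric_of_lt_one (by positivity) (by linarith)
  rw [one_div]
  apply hasSum_le _ h2 h3
  intro j
  have hj : (0 : ℝ) < (j.factorial : ℝ) := by positivity
  have e1 : ∑ i, p i * ((θ * (a i - b i) ^ 2 / δ) ^ j / (j.factorial : ℝ)) =
      (θ / δ) ^ j / (j.factorial : ℝ) * ∑ i, p i * (a i - b i) ^ (2 * j) := by
    rw [Finset.mul_sum]
    apply Finset.sum_congr rfl
    intro i _
    have : θ * (a i - b i) ^ 2 / δ = (θ / δ) * (a i - b i) ^ 2 := by ring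
    rw [this, mul_pow, ← pow_mul]
    ring
  rw [e1]
  calc (θ / δ) ^ j / (j.factorial : ℝ) * ∑ i, p i * (a i - b i) ^ (2 * j)
      ≤ (θ / δ) ^ j / (j.factorial : ℝ) * ((32 * δ) ^ j * (j.factorial : ℝ)) :=
        mul_le_mul_of_nonneg_left (h.zmom j) (by positivity)
    _ = ((θ / δ) * (32 * δ)) ^ j := by
        rw [mul_pow (θ / δ) (32 * δ)]; field_simp
    _ = (32 * θ) ^ j := by
        congr 1; field_simp

/-- [SC] -/
theorem SplitData.expY_le (h : SplitData n δ p a b) (hn : 0 < n) (hδ : 0 < δ) {s : ℝ}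
    (hs : 0 ≤ s) (hs1 : 2 * Real.sqrt (δ / n) * (Real.exp (2 * s) - 1) ≤ 1)
    (hs2 : 2 * (δ / n) * Real.exp (2 * s) ≤ 1) :
    ∑ i, p i * Real.exp (s * max (δ - a i - b i) 0) ≤ 4 := by
  have hx0 : 0 < δ / n := by positivity
  have hm := h.mgf s hs hs1
  have h1 : ∑ i, p i * Real.exp (s * max (δ - a i - b i) 0) ≤
      ∑ i, (p i + p i * Real.exp (s * (δ - a i - b i))) := by
    apply Finset.sum_le_sum
    intro i _
    have hp := h.p_nonneg i
    rcases le_total 0 (δ - a i - b i) with hc | hc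
    · rw [max_eq_left hc]; linarith
    · rw [max_eq_right hc, mul_zero, Real.exp_zero, mul_one]
      have := mul_nonneg hp (Real.exp_pos (s * (δ - a i - b i))).le
      linarith
  rw [Finset.sum_add_distrib, h.p_sum] at h1
  have h2 : 2 * (δ / n) * (Real.exp (2 * s) - 1 - 2 * s) ≤ 1 := by
    have : 0 ≤ 2 * (δ / n) * (1 + 2 * s) := by positivity
    nlinarith
  have h3 : Real.exp (2 * (δ / n) * (Real.exp (2 * s) - 1 - 2 * s)) ≤ Real.exp 1 :=
    Real.exp_le_exp.mpr h2
  have h4 := Real.exp_one_lt_d9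
  linarith

end Vale.Agent.P162T
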