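import Vale.Agent.P162T.RateF

/-!
# P162 [SUM] The final sum (pure real analysis)

Given weights `w_i ≥ 0` (already multiplied by `n!`) and eigenvalues `δ_i`.  `β_k = k(n-k+1)/n`.
Every `i` with `δ_i ≠ 0` has `δ_i ≥ 1`; if `δ_i < 3/2`, `qf = 0` and the term vanishes (`K ≥ 1`).
* `δ_i ≥ 3n/16`: term `≤ e^{-K δ_i/10} w_i ≤ e^{-3Kn/160} w_i`, total `≤ e^{-3Kn/160 + Cn} ≤ 1/8` for `K ≥ K₀`.
* `3/2 ≤ δ_i < 3n/16`: let `k_i ≥ 1` be least with `δ_i < β_{k_i+1}`.  Since `β_{k+1} ≥ 3n/16` for `n/4 ≥ k ≥ n/4 - 1`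
  (`(k+1)(n-k)/n ≥ (n/4)(3/4)`), `k_i ≤ n/4`, and `δ_i ≥ k_i/2` (if `k_i ≥ 2`: `δ_i ≥ β_{k_i} = k_i(n-k_i+1)/n ≥ k_i/2`; if
  `k_i = 1`: `δ_i ≥ 3/2`).  So `qf 1 α n δ_i = exp(-α ps n δ_i) ≤ exp(-α (k/2) log(1+2n/k))` (`ps_mono`) and
  `log(1+2n/k) ≥ 0.8 (1+log(n/k))` for `n/k ≥ 4`.  The `i` with `k_i = k` satisfy `δ_i < β_{k+1}`, so
  `∑_{k_i=k} w_i ≤ C(n,k) exp(C k (1+log(n/k))) ≤ exp((C+1) k (1+log(n/k)))` (`C(n,k) ≤ n^k/k! ≤ (en/k)^k`).
  Total `≤ ∑_{k≥1} exp((C+1 - 0.4 α K) k (1+log(n/k))) ≤ ∑_{k≥1} e^{-4k} ≤ 1/8` when `0.4 α K ≥ C + 5`.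
-/

open Equiv Finset

namespace Vale.Agent.P162T

theorem choose_le_exp {n k : ℕ} (hk : 1 ≤ k) (hn : 0 < n) :
    (n.choose k : ℝ) ≤ Real.exp (k * (1 + Real.log ((n : ℝ) / k))) := by
  have hk0 : (0 : ℝ) < k := by exact_mod_cast hk
  have hn0 : (0 : ℝ) < n := by exact_mod_cast hn
  have h1 : (n.choose k : ℝ) ≤ (n : ℝ) ^ k / (k.factorial : ℝ) := Nat.choose_le_pow_div k n
  have h2 : (k : ℝ) ^ k / (k.factorial : ℝ) ≤ Real.exp k := Real.pow_div_factorial_le_exp _ hk0.le k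
  have h3 : Real.exp (k * (1 + Real.log ((n : ℝ) / k))) = Real.exp k * ((n : ℝ) / k) ^ k := by
    rw [mul_add, Real.exp_add, mul_one, Real.exp_nat_mul, Real.exp_log (by positivity)]
  rw [h3]
  refine h1.trans ?_
  have h4 : (n : ℝ) ^ k / (k.factorial : ℝ) = ((k : ℝ) ^ k / (k.factorial : ℝ)) * ((n : ℝ) / k) ^ k := by
    rw [div_pow]
    have : (k : ℝ) ^ k ≠ 0 := by positivity
    have h5 : (k.factorial : ℝ) ≠ 0 := by positivity
    field_simp
  rw [h4]
  gcongr

/-- pointwise bound of one term -/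
theorem sum_pt {n K : ℕ} {α δ : ℝ} (hα : 0 < α) (hn : 4 ≤ n) (hK : 1 ≤ K) (hδ : 1 ≤ δ) :
    (Min.min (qf 1 α n δ) (Real.exp (-(δ / 10)))) ^ K ≤
      Real.exp (-(3 * K * n / 160)) + ∑ k ∈ Finset.Icc 1 (n / 4),
        if δ < (k + 1 : ℝ) * ((n : ℝ) - k) / n then Real.exp (-(α * K * ps n (k / 2))) else 0 := by
  classical
  have hn0 : (0 : ℝ) < n := by exact_mod_cast (by omega : 0 < n)
  have hsum0 : ∀ k ∈ Finset.Icc 1 (n / 4), 0 ≤
        if δ < (k + 1 : ℝ) * ((n : ℝ) - k) / n then Real.exp (-(α * K * ps n (k / 2))) else 0 := by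
    intro k _
    split_ifs <;> positivity
  have hsum1 := Finset.sum_nonneg hsum0
  have hq0 : 0 ≤ Min.min (qf 1 α n δ) (Real.exp (-(δ / 10))) :=
    le_min (qf_nonneg (by norm_num) _) (Real.exp_pos _).le
  by_cases h32 : δ < 3 / 2
  · have hq : qf 1 α n δ = 0 := by unfold qf; rw [if_neg (by linarith), if_pos h32]
    rw [hq, min_eq_left (Real.exp_pos _).le, zero_pow (by omega)]
    have := Real.exp_pos (-(3 * K * n / 160 : ℝ))
    linarith
  push Not at h32
  rcases le_or_gt (3 * n / 16 : ℝ) δ with hbig | hsmall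
  · have h1 : (Min.min (qf 1 α n δ) (Real.exp (-(δ / 10)))) ^ K ≤ Real.exp (-(3 * K * n / 160)) := by
      calc _ ≤ (Real.exp (-(δ / 10))) ^ K := pow_le_pow_left₀ hq0 (min_le_right _ _) K
        _ = Real.exp (-(K * δ / 10)) := by rw [← Real.exp_nat_mul]; congr 1; ring
        _ ≤ _ := by
          apply Real.exp_le_exp.mpr
          have hK0 : (0 : ℝ) ≤ K := Nat.cast_nonneg _
          have : (K : ℝ) * (3 * n / 16) ≤ K * δ := mul_le_mul_of_nonneg_left hbig hK0
          linarith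
    linarith
  -- small range: find the least k
  have hM : δ < (((n / 4 : ℕ) : ℝ) + 1) * ((n : ℝ) - ((n / 4 : ℕ) : ℝ)) / n := by
    rw [lt_div_iff₀ hn0]
    have h1 : (n : ℝ) / 4 ≤ ((n / 4 : ℕ) : ℝ) + 1 := by
      have : n ≤ 4 * (n / 4) + 4 := by omega
      have h2 : (n : ℝ) ≤ 4 * ((n / 4 : ℕ) : ℝ) + 4 := by exact_mod_cast this
      linarith
    have h3 : ((n / 4 : ℕ) : ℝ) ≤ n / 4 := by
      have : 4 * (n / 4) ≤ n := by omega
      have h2 : 4 * ((n / 4 : ℕ) : ℝ) ≤ (n : ℝ) := by exact_mod_cast this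
      linarith
    nlinarith
  have hex : ∃ k : ℕ, 1 ≤ k ∧ δ < ((k : ℝ) + 1) * ((n : ℝ) - k) / n := ⟨n / 4, by omega, hM⟩
  set k := Nat.find hex with hk
  obtain ⟨hk1, hkδ⟩ := Nat.find_spec hex
  rw [← hk] at hk1 hkδ
  have hkM : k ≤ n / 4 := Nat.find_min' hex ⟨by omega, hM⟩
  have hk0 : (0 : ℝ) < k := by exact_mod_cast hk1
  have hkn : (4 : ℝ) * k ≤ n := by
    have : 4 * k ≤ n := by omega
    exact_mod_cast this
  have hkhalf : (k : ℝ) / 2 ≤ δ := by
    rcases Nat.lt_or_ge 1 k with h2 | h2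
    · have hm := Nat.find_min hex (m := k - 1) (by omega)
      have h3 : ¬ δ < (((k - 1 : ℕ) : ℝ) + 1) * ((n : ℝ) - ((k - 1 : ℕ) : ℝ)) / n :=
        fun h => hm ⟨by omega, h⟩
      push Not at h3
      rw [Nat.cast_sub hk1] at h3
      push_cast at h3
      rw [div_le_iff₀ hn0] at h3
      have h4 : (k : ℝ) / 2 * n ≤ δ * n := by nlinarith
      exact le_of_mul_le_mul_right h4 hn0
    · have : (k : ℝ) = 1 := by exact_mod_cast (by omega : k = 1)
      rw [this]; linarith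
  have h1 : (Min.min (qf 1 α n δ) (Real.exp (-(δ / 10)))) ^ K ≤
      Real.exp (-(α * K * ps n (k / 2))) := by
    have hq : qf 1 α n δ = Real.exp (-(α * ps n δ)) := by
      unfold qf; rw [if_neg (by linarith), if_neg (by linarith), one_mul]
    calc _ ≤ (qf 1 α n δ) ^ K := pow_le_pow_left₀ hq0 (min_le_left _ _) K
      _ = Real.exp (-(α * K * ps n δ)) := by rw [hq, ← Real.exp_nat_mul]; congr 1; ring
      _ ≤ _ := by
        apply Real.exp_le_exp.mpr
        have h5 := ps_mono (n := n) hn0.le (t := (k : ℝ) / 2) (t' := δ) (by positivity) hkhalf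
        have h6 : 0 ≤ α * K := by positivity
        have := mul_le_mul_of_nonneg_left h5 h6
        linarith
  have h2 := Finset.single_le_sum hsum0 (Finset.mem_Icc.mpr ⟨hk1, hkM⟩)
  rw [if_pos hkδ] at h2
  have h3 := Real.exp_pos (-(3 * K * n / 160 : ℝ))
  linarith

/-- the exponent of one level -/
theorem sum_level {n k K : ℕ} {α C : ℝ} (hα : 0 < α) (hk : 1 ≤ k) (hkn : 4 * k ≤ n)
    (hK : 4 * (C + 5) ≤ α * K) :
    Real.exp (-(α * K * ps n (k / 2))) *
      ((n.choose k : ℝ) * Real.exp (C * k * (1 + Real.log ((n : ℝ) / k)))) ≤ (1 / 16) ^ k := by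
  have hk0 : (0 : ℝ) < k := by exact_mod_cast hk
  have hk1 : (1 : ℝ) ≤ k := by exact_mod_cast hk
  have hn0 : (0 : ℝ) < n := by exact_mod_cast (by omega : 0 < n)
  have hkn' : (4 : ℝ) * k ≤ n := by exact_mod_cast hkn
  set u : ℝ := Real.log ((n : ℝ) / k) with hu
  have hu0 : 0 ≤ u := Real.log_nonneg (by rw [le_div_iff₀ hk0]; linarith)
  have hps : (k : ℝ) / 4 * (1 + u) ≤ ps n (k / 2) := by
    unfold ps
    have h1 : (n : ℝ) / (k / 2) = 2 * (n / k) := by field_simp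
    rw [h1]
    have h2 : Real.log 2 + u ≤ Real.log (1 + 2 * (n / k)) := by
      rw [hu, ← Real.log_mul (by norm_num) (by positivity)]
      apply Real.log_le_log (by positivity)
      linarith
    have h3 : (1 : ℝ) / 2 ≤ Real.log 2 := by
      have := Real.log_two_gt_d9; linarith
    have h4 : (1 + u) / 2 ≤ Real.log (1 + 2 * (n / k)) := by linarith
    calc (k : ℝ) / 4 * (1 + u) = k / 2 * ((1 + u) / 2) := by ring
      _ ≤ k / 2 * Real.log (1 + 2 * (n / k)) := by gcongr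
  have hch := choose_le_exp (n := n) hk (by omega)
  rw [← hu] at hch
  have hαK : 0 ≤ α * K := by positivity
  have h5 : 4 * (C + 5) * ((k : ℝ) / 4 * (1 + u)) ≤ α * K * ps n (k / 2) := by
    have h6 : 0 ≤ (k : ℝ) / 4 * (1 + u) := by positivity
    calc 4 * (C + 5) * ((k : ℝ) / 4 * (1 + u)) ≤ α * K * ((k : ℝ) / 4 * (1 + u)) := by gcongr
      _ ≤ _ := by gcongr
  calc _ ≤ Real.exp (-(4 * (C + 5) * ((k : ℝ) / 4 * (1 + u)))) *
      (Real.exp (k * (1 + u)) * Real.exp (C * k * (1 + u))) := by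
        gcongr
    _ = Real.exp (-(4 * k * (1 + u))) := by
        rw [← Real.exp_add, ← Real.exp_add]; congr 1; ring
    _ ≤ Real.exp (-(4 * k)) := by
        apply Real.exp_le_exp.mpr
        have : 0 ≤ k * u := by positivity
        nlinarith
    _ = (Real.exp (-4)) ^ k := by rw [← Real.exp_nat_mul]; congr 1; ring
    _ ≤ (1 / 16) ^ k := by
        apply pow_le_pow_left₀ (Real.exp_pos _).le
        rw [Real.exp_neg, one_div]
        apply inv_anti₀ (by norm_num)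
        have h7 : Real.exp 4 = (Real.exp 1) ^ 4 := by rw [← Real.exp_nat_mul]; norm_num
        rw [h7]
        have h8 : (2 : ℝ) ≤ Real.exp 1 := by
          have := Real.exp_one_gt_d9; linarith
        calc (16 : ℝ) = 2 ^ 4 := by norm_num
          _ ≤ _ := pow_le_pow_left₀ (by norm_num) h8 4

theorem geom16 (M : ℕ) : ∑ k ∈ Finset.Icc 1 M, ((1 : ℝ) / 16) ^ k ≤ 1 / 15 - (1 / 15) * (1 / 16) ^ M := by
  induction M with
  | zero => simp
  | succ M ih =>
    rw [Finset.sum_Icc_succ_top (by omega)]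
    have : ((1 : ℝ) / 16) ^ (M + 1) = (1 / 16) ^ M * (1 / 16) := pow_succ _ _
    rw [this]
    linarith

/-- [SUM] -/
theorem sum_estimate (C α : ℝ) (hC : 0 < C) (hα : 0 < α) : ∃ K0 n0 : ℕ, ∀ n K : ℕ,
    n0 ≤ n → K0 ≤ K → ∀ (m : ℕ) (δ w : Fin m → ℝ), (∀ i, 0 ≤ w i) →
    (∀ i, δ i = 0 ∨ 1 ≤ δ i) →
    (∀ k : ℕ, 1 ≤ k → 2 * (k + 1) ≤ n + 1 →
      ∑ i ∈ Finset.univ.filter (fun i => δ i < (k + 1 : ℝ) * ((n : ℝ) - k) / n), w i ≤
        (n.choose k : ℝ) * Real.exp (C * k * (1 + Real.log ((n : ℝ) / k)))) →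
    ∑ i, w i ≤ Real.exp (C * n) →
    ∑ i ∈ Finset.univ.filter (fun i => δ i ≠ 0),
      (Min.min (qf 1 α n (δ i)) (Real.exp (-(δ i / 10)))) ^ K * w i ≤ 1 / 4 := by
  obtain ⟨K1, hK1⟩ := exists_nat_ge (4 * (C + 5) / α)
  obtain ⟨K2, hK2⟩ := exists_nat_ge (160 * (C + 3) / 3)
  refine ⟨max (max K1 K2) 1, 4, ?_⟩
  intro n K hn hK m δ w hw hδ hk hsum
  have hK1' : 4 * (C + 5) ≤ α * K := by
    have h1 : (K1 : ℝ) ≤ K := by exact_mod_cast (le_max_left _ _).trans ((le_max_left _ _).trans hK)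
    have h2 := hK1.trans h1
    rw [div_le_iff₀ hα] at h2
    linarith
  have hK2' : 160 * (C + 3) / 3 ≤ (K : ℝ) := by
    have h1 : (K2 : ℝ) ≤ K := by
      exact_mod_cast (le_max_right _ _).trans ((le_max_left _ _).trans hK)
    exact hK2.trans h1
  have hKone : 1 ≤ K := (le_max_right _ _).trans hK
  have hn0 : (0 : ℝ) < n := by exact_mod_cast (by omega : 0 < n)
  have hn1 : (1 : ℝ) ≤ n := by exact_mod_cast (by omega : 1 ≤ n)
  -- bound the sum
  have h1 : ∑ i ∈ Finset.univ.filter (fun i => δ i ≠ 0),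
      (Min.min (qf 1 α n (δ i)) (Real.exp (-(δ i / 10)))) ^ K * w i ≤
      ∑ i, (Real.exp (-(3 * K * n / 160)) * w i + ∑ k ∈ Finset.Icc 1 (n / 4),
        if δ i < (k + 1 : ℝ) * ((n : ℝ) - k) / n then
          Real.exp (-(α * K * ps n (k / 2))) * w i else 0) := by
    calc _ ≤ ∑ i ∈ Finset.univ.filter (fun i => δ i ≠ 0),
        (Real.exp (-(3 * K * n / 160)) * w i + ∑ k ∈ Finset.Icc 1 (n / 4),
        if δ i < (k + 1 : ℝ) * ((n : ℝ) - k) / n then
          Real.exp (-(α * K * ps n (k / 2))) * w i else 0) := by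
          apply Finset.sum_le_sum
          intro i hi
          rw [Finset.mem_filter] at hi
          have h2 : 1 ≤ δ i := (hδ i).resolve_left hi.2
          have h3 := mul_le_mul_of_nonneg_right (sum_pt (K := K) hα hn hKone h2) (hw i)
          refine h3.trans (le_of_eq ?_)
          rw [add_mul, Finset.sum_mul]
          congr 1
          apply Finset.sum_congr rfl
          intro k _
          rw [ite_mul, zero_mul]
      _ ≤ _ := by
          apply Finset.sum_le_sum_of_subset_of_nonneg (Finset.filter_subset _ _)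
          intro i _ _
          have h4 : 0 ≤ ∑ k ∈ Finset.Icc 1 (n / 4),
              if δ i < (k + 1 : ℝ) * ((n : ℝ) - k) / n then
              Real.exp (-(α * K * ps n (k / 2))) * w i else 0 := by
            apply Finset.sum_nonneg
            intro k _
            have := hw i
            split_ifs <;> positivity
          have := hw i
          positivity
  refine h1.trans ?_
  rw [Finset.sum_add_distrib, ← Finset.mul_sum, Finset.sum_comm]
  have hA : Real.exp (-(3 * K * n / 160)) * ∑ i, w i ≤ 1 / 8 := by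
    calc _ ≤ Real.exp (-(3 * K * n / 160)) * Real.exp (C * n) := by gcongr
      _ = Real.exp (-(3 * K * n / 160) + C * n) := by rw [← Real.exp_add]
      _ ≤ Real.exp (-3) := by
          apply Real.exp_le_exp.mpr
          have : (C + 3) * n ≤ 3 * K * n / 160 := by
            have h5 : (C + 3) ≤ 3 * K / 160 := by linarith
            calc (C + 3) * n ≤ 3 * K / 160 * n := by gcongr
              _ = _ := by ring
          nlinarith
      _ ≤ 1 / 8 := by
          rw [Real.exp_neg, one_div]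
          apply inv_anti₀ (by norm_num)
          have h7 : Real.exp 3 = (Real.exp 1) ^ 3 := by rw [← Real.exp_nat_mul]; norm_num
          rw [h7]
          have h8 : (2 : ℝ) ≤ Real.exp 1 := by
            have := Real.exp_one_gt_d9; linarith
          calc (8 : ℝ) = 2 ^ 3 := by norm_num
            _ ≤ _ := pow_le_pow_left₀ (by norm_num) h8 3
  have hB : ∑ k ∈ Finset.Icc 1 (n / 4), ∑ i,
      (if δ i < (k + 1 : ℝ) * ((n : ℝ) - k) / n then
          Real.exp (-(α * K * ps n (k / 2))) * w i else 0) ≤ 1 / 15 := by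
    calc _ ≤ ∑ k ∈ Finset.Icc 1 (n / 4), ((1 : ℝ) / 16) ^ k := by
          apply Finset.sum_le_sum
          intro k hkm
          rw [Finset.mem_Icc] at hkm
          rw [← Finset.sum_filter, ← Finset.mul_sum]
          have h6 := hk k hkm.1 (by omega)
          calc _ ≤ Real.exp (-(α * K * ps n (k / 2))) *
              ((n.choose k : ℝ) * Real.exp (C * k * (1 + Real.log ((n : ℝ) / k)))) := by gcongr
            _ ≤ _ := sum_level hα hkm.1 (by omega) hK1'
      _ ≤ 1 / 15 - (1 / 15) * (1 / 16) ^ (n / 4) := geom16 _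
      _ ≤ 1 / 15 := by
          have : (0 : ℝ) ≤ (1 / 15) * (1 / 16) ^ (n / 4) := by positivity
          linarith
  linarith

end Vale.Agent.P162T
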