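import Vale.Agent.P162T.Chi
import Vale.Agent.P162T.SumEst
import Vale.Agent.P162T.Return

/-!
# P162 [UPP] Upper bound: a bounded number of passes mixes

`C` from `return_prob`, `α, d1` from `rateF`, `K0, n0` from `sum_estimate`.  Let `K` be large.
* `d ≥ d1` and `2^d ≥ n0`: `chi_le` with `q = min (qf 1 α (2^d)) (exp(-δ/10))` (`Rate.min`, `rateA`), a `CDec` from `exists_cdec`,
  weights `n! · w_i` : hypotheses of `sum_estimate` from `CDec.sum_w_le` + `return_prob`, `CDec.sum_w` + `return_prob` with `Y = univ`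
  (`pfix a univ = a 1`, `(n)_n = n!`, `log(n/n) = 0`).  So `n! χ ≤ 1/4` and `tv_le`: `TV ≤ ½ · ½`.
* the finitely many smaller `d`: `chi_le_simple` : `n! e^{-K/10} ≤ 1/4` for `K` large.
(the bound holds for every large `K`; take `K` = max of the two requirements.)
-/

open Equiv Finset

namespace Vale.Agent.P162T

theorem adj_AA (d : ℕ) : adj (AA d) = AA d := by
  unfold AA
  rw [adj_conv, adj_adj]

theorem pfix_univ {X : Type} [Fintype X] [DecidableEq X] (a : Perm X → ℝ) :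
    pfix a Finset.univ = a 1 := by
  unfold pfix
  have h : (Finset.univ.filter (fun g : Perm X => ∀ y ∈ (Finset.univ : Finset X), g y = y)) =
      {1} := by
    ext g
    simp only [Finset.mem_filter, Finset.mem_univ, true_and, forall_const, Finset.mem_singleton]
    constructor
    · intro h
      ext x
      simpa using h x
    · rintro rfl
      simp
  rw [h, Finset.sum_singleton]

/-- the estimate for large `d` -/
theorem chi_large {C α : ℝ} (hC : 0 < C)
    (hret : ∀ (d : ℕ) (Y : Finset (Cube d)), Y.Nonempty →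
      pfix (cpow (AA d) 8) Y * ((2 ^ d).descFactorial Y.card : ℝ) ≤
        Real.exp (C * Y.card * (1 + Real.log (2 ^ d / Y.card))))
    {d K : ℕ} (hrate : Rate d (qf 1 α (2 ^ d)))
    (hsum : ∀ (m : ℕ) (δ w : Fin m → ℝ), (∀ i, 0 ≤ w i) →
      (∀ i, δ i = 0 ∨ 1 ≤ δ i) →
      (∀ k : ℕ, 1 ≤ k → 2 * (k + 1) ≤ 2 ^ d + 1 →
        ∑ i ∈ Finset.univ.filter (fun i => δ i < (k + 1 : ℝ) * (((2 ^ d : ℕ) : ℝ) - k) /
          ((2 ^ d : ℕ) : ℝ)), w i ≤
          ((2 ^ d).choose k : ℝ) *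
            Real.exp (C * k * (1 + Real.log (((2 ^ d : ℕ) : ℝ) / k)))) →
      ∑ i, w i ≤ Real.exp (C * ((2 ^ d : ℕ) : ℝ)) →
      ∑ i ∈ Finset.univ.filter (fun i => δ i ≠ 0),
        (Min.min (qf 1 α ((2 ^ d : ℕ) : ℝ) (δ i)) (Real.exp (-(δ i / 10)))) ^ K * w i ≤ 1 / 4) :
    ((Fintype.card (Cube d)).factorial : ℝ) *
      ∑ g, (cpow (tlaw d) (K + 8) g - 1 / ((Fintype.card (Cube d)).factorial : ℝ)) ^ 2 ≤
        1 / 4 := by
  obtain ⟨c⟩ := exists_cdec (Cube d)
  have hq := hrate.min (rateA d)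
  have hq0 : ∀ x, 0 ≤ (fun δ => Min.min (qf 1 α (2 ^ d) δ) (Real.exp (-(δ / 10)))) x :=
    fun x => le_min (qf_nonneg (by norm_num) _) (Real.exp_pos _).le
  have h1 := chi_le d K _ hq hq0 c
  set F : ℝ := ((Fintype.card (Cube d)).factorial : ℝ) with hF
  have hF0 : 0 < F := by rw [hF]; positivity
  have hcast : ((2 ^ d : ℕ) : ℝ) = 2 ^ d := by push_cast; rfl
  have hcc : (Fintype.card (Cube d) : ℝ) = 2 ^ d := by rw [card_cube]; push_cast; rfl
  have h2 := hsum c.m c.δ (fun i => F * c.w (AA d) i)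
    (fun i => mul_nonneg hF0.le (c.w_nonneg (adj_AA d) i)) (fun i => c.zero_or i) ?_ ?_
  · calc F * ∑ g, (cpow (tlaw d) (K + 8) g - 1 / F) ^ 2
        ≤ F * ∑ i ∈ Finset.univ.filter (fun i => c.δ i ≠ 0),
          (Min.min (qf 1 α (2 ^ d) (c.δ i)) (Real.exp (-(c.δ i / 10)))) ^ K * c.w (AA d) i := by
          gcongr
      _ = ∑ i ∈ Finset.univ.filter (fun i => c.δ i ≠ 0),
          (Min.min (qf 1 α (2 ^ d) (c.δ i)) (Real.exp (-(c.δ i / 10)))) ^ K *
            (F * c.w (AA d) i) := by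
          rw [Finset.mul_sum]
          exact Finset.sum_congr rfl (fun i _ => by ring)
      _ ≤ 1 / 4 := by
          rw [hcast] at h2
          exact h2
  · intro k hk1 hk2
    have h3 := c.sum_w_le (adj_AA d) k (by rw [card_cube]; exact hk2)
      (Real.exp (C * k * (1 + Real.log (2 ^ d / k)))) (by
        intro Y hY
        have hYne : Y.Nonempty := Finset.card_pos.mp (by omega)
        have h4 := hret d Y hYne
        rw [hY] at h4
        rw [card_cube]
        exact h4)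
    rw [← hF, hcc, card_cube] at h3
    rw [hcast, ← Finset.mul_sum]
    exact h3
  · rw [← Finset.mul_sum, c.sum_w]
    have h4 := hret d Finset.univ Finset.univ_nonempty
    rw [pfix_univ, Finset.card_univ, card_cube, Nat.descFactorial_self] at h4
    rw [hF, card_cube]
    have h5 : Real.log ((2 : ℝ) ^ d / ((2 ^ d : ℕ) : ℝ)) = 0 := by
      rw [hcast, div_self (by positivity), Real.log_one]
    rw [h5] at h4
    calc (((2 ^ d).factorial : ℕ) : ℝ) * cpow (AA d) 8 1
        = cpow (AA d) 8 1 * (((2 ^ d).factorial : ℕ) : ℝ) := by ring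
      _ ≤ _ := h4
      _ = _ := by ring_nf

theorem tv_of_chi (d K : ℕ) (h : ((Fintype.card (Cube d)).factorial : ℝ) *
      ∑ g, (cpow (tlaw d) K g - 1 / ((Fintype.card (Cube d)).factorial : ℝ)) ^ 2 ≤ 1 / 4) :
    tvUnif (cpow (tlaw d) K) ≤ 1 / 4 := by
  have h1 := tv_le (cpow (tlaw d) K)
  have hc : (Fintype.card (Perm (Cube d)) : ℝ) = ((Fintype.card (Cube d)).factorial : ℝ) := by
    rw [Fintype.card_perm]
  rw [hc] at h1
  refine h1.trans ?_
  have h2 : Real.sqrt (((Fintype.card (Cube d)).factorial : ℝ) *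
      ∑ g, (cpow (tlaw d) K g - 1 / ((Fintype.card (Cube d)).factorial : ℝ)) ^ 2) ≤ 1 / 2 := by
    rw [show (1 / 2 : ℝ) = Real.sqrt (1 / 4) by
      rw [show (1 / 4 : ℝ) = (1 / 2) ^ 2 by norm_num, Real.sqrt_sq (by norm_num)]]
    exact Real.sqrt_le_sqrt h
  linarith

/-- [UPP] -/
theorem upper : ∃ K : ℕ, ∀ d : ℕ, tvUnif (cpow (tlaw d) K) ≤ 1 / 4 := by
  obtain ⟨C, hC, hret⟩ := return_prob
  obtain ⟨α, d1, hα, hrate⟩ := rateF
  obtain ⟨K0, n0, hsum⟩ := sum_estimate C α hC hα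
  set D : ℕ := max d1 n0 with hD
  obtain ⟨K3, hK3⟩ := exists_nat_ge (10 * Real.log (4 * (((2 ^ D).factorial : ℕ) : ℝ)))
  refine ⟨max K0 K3 + 8, ?_⟩
  intro d
  apply tv_of_chi
  rcases Nat.lt_or_ge d D with hd | hd
  · have h1 := chi_le_simple d (max K0 K3 + 8)
    have hF0 : (0 : ℝ) < ((Fintype.card (Cube d)).factorial : ℝ) := by positivity
    have hFD : ((Fintype.card (Cube d)).factorial : ℝ) ≤ (((2 ^ D).factorial : ℕ) : ℝ) := by
      rw [card_cube]
      have : (2 ^ d).factorial ≤ (2 ^ D).factorial :=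
        Nat.factorial_le (Nat.pow_le_pow_right (by norm_num) hd.le)
      exact_mod_cast this
    have hG0 : (0 : ℝ) < (((2 ^ D).factorial : ℕ) : ℝ) := by positivity
    calc _ ≤ (((2 ^ D).factorial : ℕ) : ℝ) * Real.exp (-(((max K0 K3 + 8 : ℕ) : ℝ) / 10)) := by
          apply mul_le_mul hFD h1 (Finset.sum_nonneg (fun g _ => sq_nonneg _)) hG0.le
      _ ≤ (((2 ^ D).factorial : ℕ) : ℝ) *
          Real.exp (-Real.log (4 * (((2 ^ D).factorial : ℕ) : ℝ))) := by
          gcongr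
          have h2 : (K3 : ℝ) ≤ ((max K0 K3 + 8 : ℕ) : ℝ) := by
            exact_mod_cast (le_max_right _ _).trans (Nat.le_add_right _ _)
          linarith
      _ = 1 / 4 := by
          rw [Real.exp_neg, Real.exp_log (by positivity)]
          field_simp
  · have hd1 : d1 ≤ d := (le_max_left _ _).trans hd
    have hn0 : n0 ≤ 2 ^ d := ((le_max_right _ _).trans hd).trans (Nat.lt_two_pow_self).le
    exact chi_large hC hret (hrate d hd1) (hsum (2 ^ d) (max K0 K3) hn0 (le_max_left _ _))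

end Vale.Agent.P162T
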