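import Vale.Agent.P162T.Chi
import Vale.Agent.P162T.SumEst
import Vale.Agent.P162T.Return

/-!
# P162 [UPP] Upper bound: a bounded number of passes mixes
-/

open Equiv Finset

set_option linter.unusedSectionVars false

namespace Vale.Agent.P162T

theorem adj_AA (d : ℕ) : adj (AA d) = AA d := by
  unfold AA
  rw [adj_conv, adj_adj]

/-- large dimensions -/
theorem upper_large : ∃ K0 D : ℕ, ∀ K d : ℕ, K0 ≤ K → D ≤ d →
    tvUnif (cpow (tlaw d) (K + 8)) ≤ 1 / 4 := by
  obtain ⟨C, hC, hret⟩ := return_prob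
  obtain ⟨α, d1, hα, hrate⟩ := rateF
  obtain ⟨K0, n0, hsum⟩ := sum_estimate C α hC hα
  refine ⟨K0, max d1 n0, fun K d hK hd => ?_⟩
  have hd1 : d1 ≤ d := (le_max_left _ _).trans hd
  have hn0 : n0 ≤ 2 ^ d := ((le_max_right _ _).trans hd).trans Nat.lt_two_pow_self.le
  obtain ⟨c⟩ := exists_cdec (Cube d)
  have hcard : Fintype.card (Cube d) = 2 ^ d := card_cube d
  have hcardR : ((Fintype.card (Cube d) : ℕ) : ℝ) = 2 ^ d := by rw [hcard]; push_cast; ring
  have : Nonempty (Cube d) := by
    rw [← Fintype.card_pos_iff, hcard]; positivity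
  have hF : (0 : ℝ) < ((Fintype.card (Cube d)).factorial : ℝ) := by exact_mod_cast Nat.factorial_pos _
  have hchi := chi_le d K (fun δ => Min.min (qf 1 α (2 ^ d) δ) (Real.exp (-(δ / 10))))
    ((hrate d hd1).min (rateA d))
    (fun x => le_min (qf_nonneg zero_le_one x) (Real.exp_pos _).le) c
  have hs := hsum (2 ^ d) K hn0 hK c.m c.δ
    (fun i => ((Fintype.card (Cube d)).factorial : ℝ) * c.w (AA d) i)
    (fun i => mul_nonneg hF.le (c.w_nonneg (adj_AA d) i)) c.zero_or ?_ ?_
  · have e1 : ((Fintype.card (Cube d)).factorial : ℝ) *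
        ∑ g, (cpow (tlaw d) (K + 8) g - 1 / ((Fintype.card (Cube d)).factorial : ℝ)) ^ 2 ≤ 1 / 4 := by
      refine (mul_le_mul_of_nonneg_left hchi hF.le).trans ?_
      refine le_trans (le_of_eq ?_) hs
      rw [Finset.mul_sum]
      refine Finset.sum_congr rfl fun i _ => ?_
      push_cast
      ring
    have h2 := tv_le (cpow (tlaw d) (K + 8))
    rw [Fintype.card_perm] at h2
    refine h2.trans ?_
    have h3 : Real.sqrt (((Fintype.card (Cube d)).factorial : ℝ) *
        ∑ g, (cpow (tlaw d) (K + 8) g - 1 / ((Fintype.card (Cube d)).factorial : ℝ)) ^ 2) ≤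
        Real.sqrt ((1 / 2) ^ 2) := Real.sqrt_le_sqrt (by rw [show ((1 : ℝ) / 2) ^ 2 = 1 / 4 by norm_num]; exact e1)
    rw [Real.sqrt_sq (by norm_num)] at h3
    linarith
  · intro k hk1 hk
    have hk' : 2 * (k + 1) ≤ Fintype.card (Cube d) + 1 := by rw [hcard]; exact hk
    have hM : ∀ Y : Finset (Cube d), Y.card = k →
      (∑ g ∈ Finset.univ.filter (fun g : Perm (Cube d) => ∀ y ∈ Y, g y = y), cpow (AA d) 8 g) *
        ((Fintype.card (Cube d)).descFactorial k : ℝ) ≤
        Real.exp (C * k * (1 + Real.log (((2 ^ d : ℕ) : ℝ) / k))) := by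
      intro Y hY
      have hYne : Y.Nonempty := by
        rw [← Finset.card_pos, hY]; omega
      have h1 := hret d Y hYne
      rw [hY] at h1
      rw [hcard]
      push_cast
      exact h1
    have h2 := c.sum_w_le (adj_AA d) k hk' _ hM
    rw [hcard] at h2
    rw [Finset.mul_sum] at h2
    rw [hcard]
    exact h2
  · rw [← Finset.mul_sum, c.sum_w]
    have hY : (Finset.univ : Finset (Cube d)).Nonempty := Finset.univ_nonempty
    have h1 := hret d Finset.univ hY
    have h2 : pfix (cpow (AA d) 8) (Finset.univ : Finset (Cube d)) = cpow (AA d) 8 1 := by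
      unfold pfix
      have : Finset.univ.filter (fun g : Perm (Cube d) => ∀ y ∈ (Finset.univ : Finset (Cube d)), g y = y) =
          {1} := by
        ext g
        simp only [Finset.mem_filter, Finset.mem_univ, true_and, Finset.mem_singleton, forall_true_left]
        constructor
        · intro h; ext y; rw [h y]; rfl
        · intro h y; rw [h]; rfl
      rw [this, Finset.sum_singleton]
    rw [h2, Finset.card_univ, hcardR, hcard, Nat.descFactorial_self] at h1
    rw [hcard]
    rw [div_self (by positivity), Real.log_one, add_zero, mul_one] at h1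
    rw [mul_comm]
    push_cast
    exact h1

theorem upper' : ∃ K : ℕ, ∀ d : ℕ, tvUnif (cpow (tlaw d) K) ≤ 1 / 4 := by
  obtain ⟨K0, D, hlarge⟩ := upper_large
  obtain ⟨K1, hK1⟩ := exists_nat_ge (10 * (4 * ((2 ^ D).factorial : ℝ)))
  refine ⟨max K0 K1 + 8, fun d => ?_⟩
  rcases le_or_gt D d with h | h
  · exact hlarge _ d (le_max_left _ _) h
  · have hcard : Fintype.card (Cube d) = 2 ^ d := card_cube d
    have hF : (0 : ℝ) < ((Fintype.card (Cube d)).factorial : ℝ) := by
      exact_mod_cast Nat.factorial_pos _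
    have h1 := chi_le_simple d (max K0 K1 + 8)
    have h2 := tv_le (cpow (tlaw d) (max K0 K1 + 8))
    rw [Fintype.card_perm] at h2
    refine h2.trans ?_
    have hFD : ((Fintype.card (Cube d)).factorial : ℝ) ≤ ((2 ^ D).factorial : ℝ) := by
      rw [hcard]
      exact_mod_cast Nat.factorial_le (Nat.pow_le_pow_right (by norm_num) h.le)
    have hx : 4 * ((Fintype.card (Cube d)).factorial : ℝ) ≤
        Real.exp (((max K0 K1 + 8 : ℕ) : ℝ) / 10) := by
      have h3 : (K1 : ℝ) ≤ ((max K0 K1 + 8 : ℕ) : ℝ) := by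
        exact_mod_cast (le_max_right K0 K1).trans (Nat.le_add_right _ _)
      have h4 := Real.add_one_le_exp (((max K0 K1 + 8 : ℕ) : ℝ) / 10)
      linarith
    have e1 : ((Fintype.card (Cube d)).factorial : ℝ) *
        ∑ g, (cpow (tlaw d) (max K0 K1 + 8) g -
          1 / ((Fintype.card (Cube d)).factorial : ℝ)) ^ 2 ≤ 1 / 4 := by
      refine (mul_le_mul_of_nonneg_left h1 hF.le).trans ?_
      rw [Real.exp_neg]
      have hpos := Real.exp_pos (((max K0 K1 + 8 : ℕ) : ℝ) / 10)
      rw [← div_eq_mul_inv, div_le_iff₀ hpos]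
      linarith
    have h3 : Real.sqrt (((Fintype.card (Cube d)).factorial : ℝ) *
        ∑ g, (cpow (tlaw d) (max K0 K1 + 8) g -
          1 / ((Fintype.card (Cube d)).factorial : ℝ)) ^ 2) ≤
        Real.sqrt ((1 / 2) ^ 2) :=
      Real.sqrt_le_sqrt (by rw [show ((1 : ℝ) / 2) ^ 2 = 1 / 4 by norm_num]; exact e1)
    rw [Real.sqrt_sq (by norm_num)] at h3
    linarith

end Vale.Agent.P162T
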